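import Vale.Agent.P196.AlgAlt

/-! Job B: two algebraic lemmas on groups generated by abstract 3-cycles.
See notes/P196.md, part B.  (`D3`, `D4`, `alt_inj` are in `AlgAlt.lean`.) -/

namespace Vale.Agent.P196

/-- the relations of the DL lemma -/
structure DLH {W X : Type*} [Group W] (n : ℕ) [MulAction W (X × ZMod n)]
    (t : X × ZMod n → X × ZMod n → X × ZMod n → W) : Prop where
  rot : ∀ p q r : X × ZMod n, D3 p.1 q.1 r.1 → t p q r = t q r p
  inv : ∀ p q r : X × ZMod n, D3 p.1 q.1 r.1 → t p r q = (t p q r)⁻¹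
  sq : ∀ p q r : X × ZMod n, D3 p.1 q.1 r.1 → t p q r * t p q r = t p r q
  act1 : ∀ (p q r : X × ZMod n) (m : ZMod n), D3 p.1 q.1 r.1 →
    t p q r • ((p.1, p.2 + m) : X × ZMod n) = ((q.1, q.2 + m) : X × ZMod n)
  act0 : ∀ p q r w : X × ZMod n, D3 p.1 q.1 r.1 → w.1 ≠ p.1 → w.1 ≠ q.1 → w.1 ≠ r.1 →
    t p q r • w = w
  conj : ∀ p q r p' q' r' : X × ZMod n, D3 p.1 q.1 r.1 → D3 p'.1 q'.1 r'.1 →
    t p q r * t p' q' r' * (t p q r)⁻¹ = t (t p q r • p') (t p q r • q') (t p q r • r')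
  pr : ∀ o p q r : X × ZMod n, D4 o.1 p.1 q.1 r.1 → t o q r * t o p q = t o p r
  gen : Subgroup.closure {e | ∃ p q r : X × ZMod n, D3 p.1 q.1 r.1 ∧ e = t p q r} = ⊤

variable {W X : Type*} [Group W] {n : ℕ} [MulAction W (X × ZMod n)]
  {t : X × ZMod n → X × ZMod n → X × ZMod n → W}

/-- the group of 3-cycles at height zero -/
def HH (t : X × ZMod n → X × ZMod n → X × ZMod n → W) : Subgroup W :=
  Subgroup.closure {e | ∃ x y z, D3 x y z ∧ e = t (x, 0) (y, 0) (z, 0)}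

/-- `g` shifts the fibre over `z` by `k z` -/
def Sh (g : W) (k : X → ZMod n) : Prop :=
  ∀ p : X × ZMod n, g • p = ((p.1, p.2 + k p.1) : X × ZMod n)

lemma Sh.mul {g g' : W} {k k' : X → ZMod n} (h : Sh g k) (h' : Sh g' k') :
    Sh (g * g') (k + k') := fun p => by
  rw [mul_smul, h', h]; simp [add_assoc, add_comm (k' _)]

lemma Sh.inv {g : W} {k : X → ZMod n} (h : Sh g k) : Sh g⁻¹ (-k) := fun p => by
  rw [inv_smul_eq_iff, h]; simp

lemma Sh.one : Sh (1 : W) (0 : X → ZMod n) := fun p => by simp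

lemma Sh.zpow {g : W} {k : X → ZMod n} (h : Sh g k) (j : ℤ) : Sh (g ^ j) (j • k) := by
  induction j using Int.induction_on with
  | zero => simpa using Sh.one
  | succ j ih => rw [zpow_add_one, add_smul, one_smul]; exact ih.mul h
  | pred j ih => rw [zpow_sub_one, sub_smul, one_smul, sub_eq_add_neg (_ • k)]; exact ih.mul h.inv

lemma third [Infinite X] (x y : X) : ∃ z, z ≠ x ∧ z ≠ y := by
  classical
  obtain ⟨z, hz⟩ := Infinite.exists_notMem_finset ({x, y} : Finset X)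
  exact ⟨z, by simpa using hz⟩

open Classical in
/-- the fibre shifts -/
noncomputable def uu [Infinite X] (t : X × ZMod n → X × ZMod n → X × ZMod n → W) (x y : X) : W :=
  if x = y then 1 else t (x, 1) (y, 0) ((third x y).choose, 0) *
    (t (x, 0) (y, 0) ((third x y).choose, 0))⁻¹

/-- the central defects -/
def S1 [Infinite X] (t : X × ZMod n → X × ZMod n → X × ZMod n → W) : Set W :=
  Set.range (fun f : Fin 4 → X => uu t (f 0) (f 1) * uu t (f 2) (f 3) * (uu t (f 0) (f 1))⁻¹ *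
    (uu t (f 2) (f 3))⁻¹) ∪
  Set.range (fun f : Fin 4 → X => uu t (f 0) (f 1) * uu t (f 1) (f 2) * (uu t (f 0) (f 2))⁻¹)

/-- shifts together with the central defects -/
def A0 [Infinite X] (t : X × ZMod n → X × ZMod n → X × ZMod n → W) : Subgroup W :=
  Subgroup.closure (S1 t ∪ {e | ∃ x y, e = uu t x y})

namespace DLH

variable (h : DLH n t)
include h

lemma ind {P : W → Prop} (one : P 1)
    (step : ∀ p q r w, D3 p.1 q.1 r.1 → P w → P (t p q r * w)) (w : W) : P w := by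
  have hw : w ∈ Subgroup.closure {e | ∃ p q r : X × ZMod n, D3 p.1 q.1 r.1 ∧ e = t p q r} := by
    rw [h.gen]; trivial
  induction hw using Subgroup.closure_induction_left with
  | one => exact one
  | mul_left x hx y _ hy => obtain ⟨p, q, r, d, rfl⟩ := hx; exact step p q r y d hy
  | inv_mul_cancel x hx y _ hy =>
    obtain ⟨p, q, r, d, rfl⟩ := hx
    rw [← h.inv _ _ _ d]; exact step p r q y d.swap hy

lemma a1 {p q r : X × ZMod n} (d : D3 p.1 q.1 r.1) {w : X × ZMod n} (hw : w.1 = p.1) :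
    t p q r • w = ((q.1, q.2 + (w.2 - p.2)) : X × ZMod n) := by
  rw [← h.act1 p q r _ d, ← hw]; simp

lemma a2 {p q r : X × ZMod n} (d : D3 p.1 q.1 r.1) {w : X × ZMod n} (hw : w.1 = q.1) :
    t p q r • w = ((r.1, r.2 + (w.2 - q.2)) : X × ZMod n) := by
  rw [h.rot _ _ _ d, h.a1 d.rot hw]

lemma a3 {p q r : X × ZMod n} (d : D3 p.1 q.1 r.1) {w : X × ZMod n} (hw : w.1 = r.1) :
    t p q r • w = ((p.1, p.2 + (w.2 - r.2)) : X × ZMod n) := by
  rw [h.rot _ _ _ d, h.a2 d.rot hw]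

lemma equi (w : W) : ∀ (p : X × ZMod n) (k : ZMod n),
    w • ((p.1, p.2 + k) : X × ZMod n) = (((w • p).1, (w • p).2 + k) : X × ZMod n) := by
  induction w using h.ind with
  | one => simp
  | step p q r w d ih =>
    intro v k
    rw [mul_smul, mul_smul, ih]
    generalize w • v = v
    by_cases h1 : v.1 = p.1
    · rw [h.a1 d h1, h.a1 d (w := (v.1, v.2 + k)) h1]; simp only [Prod.mk.injEq, true_and]; ring
    by_cases h2 : v.1 = q.1
    · rw [h.a2 d h2, h.a2 d (w := (v.1, v.2 + k)) h2]; simp only [Prod.mk.injEq, true_and]; ring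
    by_cases h3 : v.1 = r.1
    · rw [h.a3 d h3, h.a3 d (w := (v.1, v.2 + k)) h3]; simp only [Prod.mk.injEq, true_and]; ring
    rw [h.act0 _ _ _ v d h1 h2 h3, h.act0 _ _ _ (v.1, v.2 + k) d h1 h2 h3]

lemma fst_ne (w : W) {p q : X × ZMod n} (hne : p.1 ≠ q.1) : (w • p).1 ≠ (w • q).1 := fun e => by
  have h1 := h.equi w p ((w • q).2 - (w • p).2)
  rw [e, add_sub_cancel] at h1
  have h2 : ((p.1, p.2 + ((w • q).2 - (w • p).2)) : X × ZMod n) = q := smul_left_cancel w h1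
  exact hne (by rw [← h2])

lemma d3 (w : W) {p q r : X × ZMod n} (d : D3 p.1 q.1 r.1) :
    D3 (w • p).1 (w • q).1 (w • r).1 := ⟨h.fst_ne w d.1, h.fst_ne w d.2.1, h.fst_ne w d.2.2⟩

lemma conj' (w : W) : ∀ p q r : X × ZMod n, D3 p.1 q.1 r.1 →
    w * t p q r * w⁻¹ = t (w • p) (w • q) (w • r) := by
  induction w using h.ind with
  | one => simp
  | step p q r w d ih =>
    intro p' q' r' d'
    rw [mul_smul, mul_smul, mul_smul, ← h.conj _ _ _ _ _ _ d (h.d3 w d'), ← ih _ _ _ d']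
    group

lemma central {c : W} (hc : Sh c (0 : X → ZMod n)) (w : W) : c * w = w * c := by
  induction w using h.ind with
  | one => simp
  | step p q r w d ih =>
    have := h.conj' c p q r d
    rw [hc, hc, hc] at this
    simp only [Pi.zero_apply, add_zero] at this
    rw [← mul_assoc, mul_inv_eq_iff_eq_mul.1 this, mul_assoc, ih, mul_assoc]

lemma H_ht {g : W} (hg : g ∈ HH t) : ∀ p : X × ZMod n, (g • p).2 = p.2 := by
  induction hg using Subgroup.closure_induction with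
  | mem x hx =>
    obtain ⟨x, y, z, d, rfl⟩ := hx
    intro p
    have d' : D3 ((x, 0) : X × ZMod n).1 ((y, 0) : X × ZMod n).1 ((z, 0) : X × ZMod n).1 := d
    by_cases h1 : p.1 = x
    · rw [h.a1 d' h1]; simp
    by_cases h2 : p.1 = y
    · rw [h.a2 d' h2]; simp
    by_cases h3 : p.1 = z
    · rw [h.a3 d' h3]; simp
    rw [h.act0 _ _ _ p d' h1 h2 h3]
  | one => simp
  | mul x y _ _ hx hy => intro p; rw [mul_smul, hx, hy]
  | inv x _ hx => intro p; rw [← hx (x⁻¹ • p), smul_inv_smul]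

lemma H_act {g : W} (hg : g ∈ HH t) (x : X) (m : ZMod n) :
    g • ((x, m) : X × ZMod n) = (((g • ((x, 0) : X × ZMod n)).1, m) : X × ZMod n) := by
  have := h.equi g (x, 0) m
  rw [h.H_ht hg] at this
  simpa using this

lemma H_alt {g : W} (hg : g ∈ HH t) (hf : ∀ x, g • ((x, 0) : X × ZMod n) = (x, 0)) : g = 1 :=
  alt_inj (fun x => ((x, 0) : X × ZMod n)) (fun _ _ e => congrArg Prod.fst e)
    (fun x y z => t (x, 0) (y, 0) (z, 0)) (fun _ _ _ d => h.rot _ _ _ d)
    (fun _ _ _ d => h.inv _ _ _ d) (fun _ _ _ d => h.sq _ _ _ d)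
    (fun a b c d => by simpa using h.act1 (a, 0) (b, 0) (c, 0) 0 d)
    (fun a b c e d => h.act0 (a, 0) (b, 0) (c, 0) (e, 0) d)
    (fun _ _ _ _ _ _ _ _ _ d d' e1 e2 e3 => by rw [h.conj _ _ _ _ _ _ d d', e1, e2, e3])
    (fun _ _ _ _ d => h.pr _ _ _ _ d) g hg hf

lemma key {o p q r : X × ZMod n} (d : D4 o.1 p.1 q.1 r.1) : t o p q = t o p r * t p q r := by
  have d1 : D3 o.1 p.1 q.1 := ⟨d.1, d.2.1, d.2.2.2.1⟩
  have d2 : D3 o.1 p.1 r.1 := ⟨d.1, d.2.2.1, d.2.2.2.2.1⟩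
  rw [← h.pr p q o r ⟨d.2.2.2.1, d.1.symm, d.2.2.2.2.1, d.2.1.symm, d.2.2.2.2.2, d.2.2.1⟩,
    ← h.rot _ _ _ d1, h.inv _ _ _ d2.rot, ← h.rot _ _ _ d2, mul_inv_cancel_left]

variable [Infinite X]

lemma u_eq {x y z : X} (d : D3 x y z) :
    uu t x y = t (x, 1) (y, 0) (z, 0) * (t (x, 0) (y, 0) (z, 0))⁻¹ := by
  rw [uu, if_neg d.1]
  obtain ⟨h1, h2⟩ := (third x y).choose_spec
  generalize (third x y).choose = w at *
  by_cases e : z = w
  · rw [e]
  have d4 : D4 x y z w := ⟨d.1, d.2.1, h1.symm, d.2.2, h2.symm, e⟩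
  rw [h.key (o := (x, 1)) (p := (y, 0)) (q := (z, 0)) (r := (w, 0)) d4,
    h.key (o := (x, 0)) (p := (y, 0)) (q := (z, 0)) (r := (w, 0)) d4]
  group

open Classical in
lemma u_sh (x y : X) : Sh (uu t x y) (Pi.single x (1 : ZMod n) - Pi.single y 1 : X → ZMod n) := by
  by_cases e : x = y
  · subst e; rw [uu, if_pos rfl, sub_self]; exact Sh.one
  obtain ⟨z, h1, h2⟩ := third x y
  have d : D3 x y z := ⟨e, h1.symm, h2.symm⟩
  have d0 : D3 ((x, 0) : X × ZMod n).1 ((z, 0) : X × ZMod n).1 ((y, 0) : X × ZMod n).1 := d.swap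
  have d1 : D3 ((x, 1) : X × ZMod n).1 ((y, 0) : X × ZMod n).1 ((z, 0) : X × ZMod n).1 := d
  rw [h.u_eq d, ← h.inv (x, 0) (y, 0) (z, 0) d]
  rintro ⟨v, m⟩
  rw [mul_smul]
  by_cases e1 : v = x
  · rw [h.a1 d0 (w := (v, m)) e1, h.a3 d1 (by rfl)]; simp [e1, e, add_comm]
  by_cases e2 : v = z
  · rw [h.a2 d0 (w := (v, m)) e2, h.a2 d1 (by rfl)]; simp [e2, h1, h2]
  by_cases e3 : v = y
  · rw [h.a3 d0 (w := (v, m)) e3, h.a1 d1 (by rfl)]; simp [e3, Ne.symm e, sub_eq_add_neg]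
  rw [h.act0 _ _ _ (v, m) d0 e1 e2 e3, h.act0 _ _ _ (v, m) d1 e1 e3 e2]; simp [e1, e3]

lemma u_conj {g : W} (hg : g ∈ HH t) (x y : X) : g * uu t x y * g⁻¹ =
    uu t (g • ((x, 0) : X × ZMod n)).1 (g • ((y, 0) : X × ZMod n)).1 := by
  by_cases e : x = y
  · subst e; simp [uu]
  obtain ⟨z, h1, h2⟩ := third x y
  have d : D3 x y z := ⟨e, h1.symm, h2.symm⟩
  have e1 := h.conj' g (x, 1) (y, 0) (z, 0) d
  have e2 := h.conj' g (x, 0) (y, 0) (z, 0) d
  rw [h.H_act hg x, h.H_act hg y, h.H_act hg z] at e1 e2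
  rw [h.u_eq d, h.u_eq (h.d3 g (p := (x, 0)) (q := (y, 0)) (r := (z, 0)) d), ← e1, ← e2]
  group

lemma S1_sh {c : W} (hc : c ∈ S1 t) : Sh c (0 : X → ZMod n) := by
  rcases hc with ⟨f, rfl⟩ | ⟨f, rfl⟩
  · have := (((h.u_sh (f 0) (f 1)).mul (h.u_sh (f 2) (f 3))).mul (h.u_sh (f 0) (f 1)).inv).mul
      (h.u_sh (f 2) (f 3)).inv
    rwa [show ∀ a b : X → ZMod n, a + b + -a + -b = 0 from fun a b => by ring] at this
  · have := ((h.u_sh (f 0) (f 1)).mul (h.u_sh (f 1) (f 2))).mul (h.u_sh (f 0) (f 2)).inv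
    rwa [show ∀ a b c : X → ZMod n, a - b + (b - c) + -(a - c) = 0 from fun a b c => by ring] at this

lemma C0_sh {c : W} (hc : c ∈ Subgroup.closure (S1 t)) : Sh c (0 : X → ZMod n) := by
  induction hc using Subgroup.closure_induction with
  | mem x hx => exact h.S1_sh hx
  | one => exact Sh.one
  | mul x y _ _ hx hy => simpa using hx.mul hy
  | inv x _ hx => simpa using hx.inv

lemma move (E : Finset X) (hE : 4 ≤ E.card) (f : Fin 4 → X) :
    ∃ g ∈ HH t, ∀ i, (g • ((f i, 0) : X × ZMod n)).1 ∈ E := by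
  classical
  induction hk : (Finset.univ.filter fun i => f i ∉ E).card using Nat.strong_induction_on
    generalizing f with
  | _ k ih =>
    by_cases h0 : ∀ i, f i ∈ E
    · exact ⟨1, one_mem _, by simpa using h0⟩
    push Not at h0
    obtain ⟨i, hi⟩ := h0
    obtain ⟨y, hy, hy'⟩ : ∃ y ∈ E, y ∉ (Finset.univ.erase i).image f :=
      Finset.exists_mem_notMem_of_card_lt_card
        (Finset.card_image_le.trans_lt (by simp; omega))
    have hy2 : ∀ j, f j ≠ y := fun j e => by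
      by_cases hj : j = i
      · exact hi (hj ▸ e ▸ hy)
      · exact hy' (Finset.mem_image.2 ⟨j, by simp [hj], e⟩)
    obtain ⟨z, hz⟩ := Infinite.exists_notMem_finset (insert y (Finset.univ.image f))
    simp only [Finset.mem_insert, Finset.mem_image, Finset.mem_univ, true_and, not_or,
      not_exists] at hz
    have d : D3 (f i) y z := ⟨hy2 i, hz.2 i, Ne.symm hz.1⟩
    have hτ : t (f i, 0) (y, 0) (z, 0) ∈ HH t := Subgroup.subset_closure ⟨_, _, _, d, rfl⟩
    have hf : ∀ j, t (f i, 0) (y, 0) (z, 0) • ((f j, 0) : X × ZMod n) =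
        ((if f j = f i then y else f j, 0) : X × ZMod n) := fun j => by
      split_ifs with e
      · rw [h.a1 (p := (f i, 0)) (q := (y, 0)) (r := (z, 0)) d e]; simp
      · exact h.act0 (f i, 0) (y, 0) (z, 0) (f j, 0) d e (hy2 j) (hz.2 j)
    obtain ⟨g, hg, hg'⟩ := ih _ (by
      rw [← hk]
      refine Finset.card_lt_card ⟨fun j hj => ?_, fun hs => ?_⟩
      · simp only [Finset.mem_filter, Finset.mem_univ, true_and] at hj ⊢
        split_ifs at hj with e
        exacts [absurd hy hj, hj]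
      · have := hs (Finset.mem_filter.2 ⟨Finset.mem_univ i, hi⟩)
        simp [hy] at this) (fun j => if f j = f i then y else f j) rfl
    exact ⟨g * _, mul_mem hg hτ, fun j => by rw [mul_smul, hf]; exact hg' j⟩

lemma S1_fin : (S1 t).Finite := by
  obtain ⟨E, hE⟩ := Infinite.exists_subset_card_eq X 4
  have hf : {f : Fin 4 → X | ∀ i, f i ∈ (E : Set X)}.Finite :=
    Set.Finite.pi' fun _ => E.finite_toSet
  refine Set.Finite.union ((hf.image fun f => uu t (f 0) (f 1) * uu t (f 2) (f 3) *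
    (uu t (f 0) (f 1))⁻¹ * (uu t (f 2) (f 3))⁻¹).subset ?_) ((hf.image fun f =>
      uu t (f 0) (f 1) * uu t (f 1) (f 2) * (uu t (f 0) (f 2))⁻¹).subset ?_)
  · rintro c ⟨f, hc⟩
    obtain ⟨g, hg, hg'⟩ := h.move E hE.ge f
    refine ⟨fun i => (g • ((f i, 0) : X × ZMod n)).1, hg', ?_⟩
    have := h.central (h.S1_sh (Or.inl ⟨f, hc⟩)) g
    simp only [← h.u_conj hg]
    rw [← mul_inv_eq_iff_eq_mul.2 this.symm, ← hc]
    group
  · rintro c ⟨f, hc⟩
    obtain ⟨g, hg, hg'⟩ := h.move E hE.ge f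
    refine ⟨fun i => (g • ((f i, 0) : X × ZMod n)).1, hg', ?_⟩
    have := h.central (h.S1_sh (Or.inr ⟨f, hc⟩)) g
    simp only [← h.u_conj hg]
    rw [← mul_inv_eq_iff_eq_mul.2 this.symm, ← hc]
    group

lemma A0_sh {a : W} (ha : a ∈ A0 t) : ∃ k : X → ZMod n, Sh a k := by
  induction ha using Subgroup.closure_induction with
  | mem x hx =>
    rcases hx with hx | ⟨x, y, rfl⟩
    exacts [⟨_, h.S1_sh hx⟩, ⟨_, h.u_sh x y⟩]
  | one => exact ⟨_, Sh.one⟩
  | mul x y _ _ hx hy => exact ⟨_, hx.choose_spec.mul hy.choose_spec⟩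
  | inv x _ hx => exact ⟨_, hx.choose_spec.inv⟩

omit h [MulAction W (X × ZMod n)] in
lemma u_mem (x y : X) : uu t x y ∈ A0 t := Subgroup.subset_closure (Or.inr ⟨x, y, rfl⟩)

omit h [MulAction W (X × ZMod n)] in
lemma u_tr {B : Subgroup W} (hB : Subgroup.closure (S1 t) ≤ B) {x y z : X}
    (h1 : uu t x y ∈ B) (h2 : uu t y z ∈ B) : uu t x z ∈ B := by
  have := hB (Subgroup.subset_closure (Or.inr ⟨![x, y, z, z], rfl⟩))
  have := B.mul_mem (B.inv_mem this) (B.mul_mem h1 h2)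
  simpa [mul_assoc] using this

omit h [MulAction W (X × ZMod n)] in
lemma u_sy {B : Subgroup W} (hB : Subgroup.closure (S1 t) ≤ B) {x y : X}
    (h1 : uu t x y ∈ B) : uu t y x ∈ B := by
  have := hB (Subgroup.subset_closure (Or.inr ⟨![x, y, x, x], rfl⟩))
  have := B.mul_mem (B.inv_mem h1) this
  simpa [mul_assoc, show uu t x x = 1 from if_pos rfl] using this

lemma A0_norm : (A0 t).Normal ∧ A0 t ⊔ HH t = ⊤ := by
  classical
  have h1 : A0 t ⊔ HH t = ⊤ := by
    rw [eq_top_iff, ← h.gen, Subgroup.closure_le]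
    rintro _ ⟨⟨x, i⟩, ⟨y, j⟩, ⟨z, k⟩, d, rfl⟩
    obtain ⟨w, hw⟩ := Infinite.exists_notMem_finset ({x, y, z} : Finset X)
    simp only [Finset.mem_insert, Finset.mem_singleton, not_or] at hw
    obtain ⟨i, rfl⟩ := ZMod.intCast_surjective i
    obtain ⟨j, rfl⟩ := ZMod.intCast_surjective j
    obtain ⟨k, rfl⟩ := ZMod.intCast_surjective k
    have hs := (((h.u_sh x w).zpow i).mul ((h.u_sh y w).zpow j)).mul ((h.u_sh z w).zpow k)
    have hm : uu t x w ^ i * uu t y w ^ j * uu t z w ^ k ∈ A0 t :=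
      mul_mem (mul_mem (zpow_mem (u_mem _ _) _) (zpow_mem (u_mem _ _) _)) (zpow_mem (u_mem _ _) _)
    have e := h.conj' (uu t x w ^ i * uu t y w ^ j * uu t z w ^ k) (x, 0) (y, 0) (z, 0) d
    rw [hs, hs, hs] at e
    obtain ⟨d1, d2, d3⟩ : x ≠ y ∧ x ≠ z ∧ y ≠ z := d
    simp only [Pi.add_apply, Pi.smul_apply, Pi.sub_apply, Pi.single_eq_same,
      Pi.single_eq_of_ne d1, Pi.single_eq_of_ne d2, Pi.single_eq_of_ne d3,
      Pi.single_eq_of_ne' d1, Pi.single_eq_of_ne' d2, Pi.single_eq_of_ne' d3,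
      Pi.single_eq_of_ne' hw.1, Pi.single_eq_of_ne' hw.2.1, Pi.single_eq_of_ne' hw.2.2,
      sub_zero, smul_zero, add_zero, zero_add, zsmul_one] at e
    rw [← e]
    exact mul_mem (mul_mem (Subgroup.mem_sup_left hm) (Subgroup.mem_sup_right
      (Subgroup.subset_closure ⟨x, y, z, ⟨d1, d2, d3⟩, rfl⟩))) (inv_mem (Subgroup.mem_sup_left hm))
  refine ⟨Subgroup.normalizer_eq_top_iff.1 (top_le_iff.1 (h1 ▸ sup_le Subgroup.le_normalizer
    (le_norm fun g hg a ha => conj_mem_closure ?_ ha))), h1⟩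
  rintro c (hc | ⟨x, y, rfl⟩)
  · rw [← h.central (h.S1_sh hc), mul_inv_cancel_right]
    exact Subgroup.subset_closure (Or.inl hc)
  · rw [h.u_conj hg]; exact u_mem _ _

lemma dec (w : W) : ∃ a ∈ A0 t, ∃ g ∈ HH t, a * g = w := by
  have := h.A0_norm.1
  exact Subgroup.mem_sup_of_normal_left.1 (h.A0_norm.2 ▸ Subgroup.mem_top w)

lemma A0_ker (hn : n = 0 ∨ n = 1) {a : W} (ha : a ∈ A0 t) (h0 : Sh a (0 : X → ZMod n)) :
    a ∈ Subgroup.closure (S1 t) := by
  classical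
  rcases hn with rfl | rfl
  swap
  · refine (Subgroup.closure_le _).2 ?_ ha
    rintro c (hc | ⟨x, y, rfl⟩)
    · exact Subgroup.subset_closure hc
    · rw [uu, Subsingleton.elim (1 : ZMod 1) 0]
      simp
  obtain ⟨x0⟩ : Nonempty X := inferInstance
  let A : Finset X → Subgroup W := fun s =>
    Subgroup.closure (S1 t ∪ {e | ∃ x ∈ s, e = uu t x x0})
  have hC : ∀ s, Subgroup.closure (S1 t) ≤ A s := fun s =>
    Subgroup.closure_mono Set.subset_union_left
  have hu : ∀ {s x}, x ∈ s → uu t x x0 ∈ A s := fun hx =>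
    Subgroup.subset_closure (Or.inr ⟨_, hx, rfl⟩)
  have mono : ∀ s s', s ⊆ s' → A s ≤ A s' := fun s s' hs => Subgroup.closure_mono
    (Set.union_subset_union_right _ fun e ⟨x, hx, e'⟩ => ⟨x, hs hx, e'⟩)
  obtain ⟨s, hs⟩ : ∃ s, a ∈ A s := by
    clear h0
    induction ha using Subgroup.closure_induction with
    | mem x hx =>
      rcases hx with hx | ⟨x, y, rfl⟩
      · exact ⟨∅, hC _ (Subgroup.subset_closure hx)⟩
      · exact ⟨{x, y}, u_tr (hC _) (hu (by simp)) (u_sy (hC _) (hu (by simp)))⟩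
    | one => exact ⟨∅, one_mem _⟩
    | mul x y _ _ hx hy =>
      obtain ⟨s, hs⟩ := hx
      obtain ⟨s', hs'⟩ := hy
      exact ⟨s ∪ s', mul_mem (mono _ _ Finset.subset_union_left hs)
        (mono _ _ Finset.subset_union_right hs')⟩
    | inv x _ hx => exact hx.imp fun s hs => inv_mem hs
  clear ha
  induction s using Finset.induction_on generalizing a with
  | empty => simpa [A] using hs
  | insert x s hx ih =>
    have hnorm : uu t x x0 ∈ Subgroup.normalizer (A s : Set W) := by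
      have hcm : ∀ y, uu t x x0 * uu t y x0 * (uu t x x0)⁻¹ * (uu t y x0)⁻¹ ∈ S1 t := fun y =>
        Or.inl ⟨![x, x0, y, x0], rfl⟩
      refine Subgroup.mem_normalizer_iff.2 fun g => ⟨conj_mem_closure ?_, fun hg => ?_⟩
      · rintro c (hc | ⟨y, hy, rfl⟩)
        · rw [← h.central (h.S1_sh hc), mul_inv_cancel_right]
          exact hC _ (Subgroup.subset_closure hc)
        · simpa using mul_mem (hC s (Subgroup.subset_closure (hcm y))) (hu hy)
      · have := conj_mem_closure (c := (uu t x x0)⁻¹) (B := A s) ?_ hg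
        · simpa [mul_assoc] using this
        rintro c (hc | ⟨y, hy, rfl⟩)
        · rw [← h.central (h.S1_sh hc), mul_inv_cancel_right]
          exact hC _ (Subgroup.subset_closure hc)
        · have e := h.central (h.S1_sh (hcm y)) (uu t x x0)⁻¹
          have := mul_mem (inv_mem (hC s (Subgroup.subset_closure (hcm y)))) (hu hy)
          have e2 : (uu t x x0)⁻¹ * uu t y x0 * (uu t x x0)⁻¹⁻¹ =
              (uu t x x0 * uu t y x0 * (uu t x x0)⁻¹ * (uu t y x0)⁻¹)⁻¹ * uu t y x0 := by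
            rw [eq_inv_mul_iff_mul_eq, ← mul_assoc, ← mul_assoc, e]
            group
          rwa [e2]
    have hle : A (insert x s) ≤ A s ⊔ Subgroup.zpowers (uu t x x0) := by
      rw [Subgroup.closure_le]
      rintro c (hc | ⟨y, hy, rfl⟩)
      · exact Subgroup.mem_sup_left (hC _ (Subgroup.subset_closure hc))
      · rcases Finset.mem_insert.1 hy with rfl | hy
        exacts [Subgroup.mem_sup_right (Subgroup.mem_zpowers _), Subgroup.mem_sup_left (hu hy)]
    obtain ⟨k, hk⟩ := mem_sup_zpowers hnorm (hle hs)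
    by_cases e : x = x0
    · rw [e, show uu t x0 x0 = 1 from if_pos rfl] at hk
      exact ih h0 (by simpa using hk)
    have hst : A s ≤ MulAction.stabilizer W ((x, 0) : X × ZMod 0) := by
      rw [Subgroup.closure_le]
      rintro c (hc | ⟨y, hy, rfl⟩)
      · simpa using h.S1_sh hc (x, 0)
      · have hne : x ≠ y := fun e => hx (e ▸ hy)
        simpa [hne, e] using h.u_sh y x0 (x, 0)
    have h1 := (((h.u_sh x x0).zpow k).inv.mul h0) (x, 0)
    rw [hst hk] at h1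
    have h2 : k = 0 := by
      have := congrArg Prod.snd h1
      simp only [Pi.add_apply, Pi.neg_apply, Pi.smul_apply, Pi.sub_apply, Pi.single_eq_same,
        Pi.single_eq_of_ne e, sub_zero, Pi.zero_apply, add_zero, zero_add, zsmul_one] at this
      exact neg_eq_zero.1 this.symm
    subst h2
    exact ih h0 (by simpa using hk)

omit [Infinite X] in
lemma colour {s : X → Bool} (b : Bool → Fin 2 → X) (hb : ∀ c i, s (b c i) = c)
    (hb' : ∀ c, b c 0 ≠ b c 1) {HF : Subgroup W}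
    (hF : ∀ x y z, D3 x y z → s x = s y → s y = s z → t (x, 0) (y, 0) (z, 0) ∈ HF) :
    ∃ R : Set W, R.Finite ∧ ∀ g ∈ HH t, (∀ x, s (g • ((x, 0) : X × ZMod n)).1 = s x) →
      ∃ r ∈ R, r ∈ HH t ∧ r⁻¹ * g ∈ HF := by
  classical
  let E : Set X := Set.range fun p : Bool × Fin 2 => b p.1 p.2
  have hE : E.Finite := Set.finite_range _
  refine ⟨{g | g ∈ HH t ∧ ∀ x ∉ E, g • ((x, 0) : X × ZMod n) = (x, 0)}, ?_, fun g hg hs => ?_⟩
  · refine Set.Finite.of_finite_image (f := fun g (p : Bool × Fin 2) =>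
      (g • ((b p.1 p.2, 0) : X × ZMod n)).1) ((Set.Finite.pi' fun _ => hE).subset ?_) ?_
    · rintro _ ⟨g, ⟨hg, hg'⟩, rfl⟩ p
      by_contra hn
      have := hg' _ hn
      rw [← h.H_act hg (b p.1 p.2) 0] at this
      exact hn ⟨p, (congrArg Prod.fst (smul_left_cancel g this)).symm⟩
    · rintro g ⟨hg, hg'⟩ g' ⟨hk, hk'⟩ e
      refine (inv_mul_eq_one.1 (h.H_alt (mul_mem (inv_mem hk) hg) fun x => ?_)).symm
      rw [mul_smul, inv_smul_eq_iff]
      by_cases hx : x ∈ E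
      · obtain ⟨p, rfl⟩ := hx
        rw [h.H_act hg, h.H_act hk]
        exact congrArg (fun v => ((v, 0) : X × ZMod n)) (congrFun e p)
      · rw [hg' x hx, hk' x hx]
  have hfin : ∃ T : Finset X, ∀ x ∉ E, x ∉ T → g • ((x, 0) : X × ZMod n) = (x, 0) := by
    clear hs
    induction hg using Subgroup.closure_induction with
    | mem x hx =>
      obtain ⟨x, y, z, d, rfl⟩ := hx
      refine ⟨{x, y, z}, fun v _ hv => ?_⟩
      simp only [Finset.mem_insert, Finset.mem_singleton, not_or] at hv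
      exact h.act0 (x, 0) (y, 0) (z, 0) (v, 0) d hv.1 hv.2.1 hv.2.2
    | one => exact ⟨∅, by simp⟩
    | mul x y _ _ hx hy =>
      obtain ⟨T, hT⟩ := hx
      obtain ⟨T', hT'⟩ := hy
      refine ⟨T ∪ T', fun v hv hv' => ?_⟩
      rw [Finset.notMem_union] at hv'
      rw [mul_smul, hT' v hv hv'.2, hT v hv hv'.1]
    | inv x _ hx => exact hx.imp fun T hT v hv hv' => by rw [inv_smul_eq_iff, hT v hv hv']
  obtain ⟨T, hT⟩ := hfin
  induction T using Finset.induction_on generalizing g with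
  | empty => exact ⟨g, ⟨hg, fun x hx => hT x hx (by simp)⟩, hg, by simp⟩
  | insert x T hx ih =>
    by_cases h0 : x ∈ E ∨ g • ((x, 0) : X × ZMod n) = (x, 0)
    · refine ih g hg hs fun v hv hv' => ?_
      by_cases e : v = x
      · exact e ▸ h0.resolve_left (e ▸ hv)
      · exact hT v hv (by simp [e, hv'])
    push Not at h0
    set y := (g⁻¹ • ((x, 0) : X × ZMod n)).1 with hy
    have hgy : g • ((y, 0) : X × ZMod n) = (x, 0) := by
      rw [hy, ← h.H_act (inv_mem hg), smul_inv_smul]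
    have hxy : x ≠ y := fun e => h0.2 (by rw [← e] at hgy; exact hgy)
    have hsy : s x = s y := by rw [← hs y, hgy]
    obtain ⟨i, hi⟩ : ∃ i, b (s x) i ≠ y := by
      by_contra hn
      push Not at hn
      exact hb' _ ((hn 0).trans (hn 1).symm)
    have hz : b (s x) i ∈ E := ⟨(s x, i), rfl⟩
    have hsz : s (b (s x) i) = s x := hb _ _
    generalize b (s x) i = z at hi hz hsz
    have d : D3 x y z := ⟨hxy, fun e => h0.1 (e ▸ hz), hi.symm⟩
    have d' : D3 ((x, 0) : X × ZMod n).1 ((y, 0) : X × ZMod n).1 ((z, 0) : X × ZMod n).1 := d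
    obtain ⟨r, hr, hr1, hr2⟩ := ih (g * t (x, 0) (y, 0) (z, 0))
      (mul_mem hg (Subgroup.subset_closure ⟨_, _, _, d, rfl⟩)) (fun v => by
        rw [mul_smul]
        by_cases h1 : v = x
        · rw [h.a1 d' (w := (v, 0)) h1]; simp [hs, h1, hsy]
        by_cases h2 : v = y
        · rw [h.a2 d' (w := (v, 0)) h2]; simp [hs, h2, hsz, hsy]
        by_cases h3 : v = z
        · rw [h.a3 d' (w := (v, 0)) h3]; simp [hs, h3, hsz]
        rw [h.act0 _ _ _ (v, 0) d' h1 h2 h3, hs]) (fun v hv hv' => by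
        rw [mul_smul]
        by_cases h1 : v = x
        · rw [h.a1 d' (w := (v, 0)) h1]; simp [hgy, h1]
        have h4 := hT v hv (by simp [h1, hv'])
        have h2 : v ≠ y := fun e => h1 (congrArg Prod.fst (h4.symm.trans (e ▸ hgy)))
        have h3 : v ≠ z := fun e => hv (e ▸ hz)
        rw [h.act0 _ _ _ (v, 0) d' h1 h2 h3, h4])
    refine ⟨r, hr, hr1, ?_⟩
    simpa [mul_assoc] using mul_mem hr2 (inv_mem (hF x y z d hsy (hsy ▸ hsz.symm)))

end DLH

/-- DL lemma.  `W` is generated by lifted 3-cycles of the cover `X × ZMod n` (`n = 0` or `1`).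
`F` is either a two-colouring of `X` with infinite colour classes or the height.
Every subgroup between the group of `F`-preserving 3-cycles and the stabiliser of `F` is finitely
generated over the former. -/
theorem dl_lemma {W X B : Type*} [Group W] [Infinite X] (n : ℕ) (hn : n = 0 ∨ n = 1)
    [MulAction W (X × ZMod n)] (t : X × ZMod n → X × ZMod n → X × ZMod n → W)
    (shift : ∀ (p q r : X × ZMod n) (m : ZMod n), D3 p.1 q.1 r.1 →
      t (p.1, p.2 + m) (q.1, q.2 + m) (r.1, r.2 + m) = t p q r)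
    (rot : ∀ p q r : X × ZMod n, D3 p.1 q.1 r.1 → t p q r = t q r p)
    (inv : ∀ p q r : X × ZMod n, D3 p.1 q.1 r.1 → t p r q = (t p q r)⁻¹)
    (sq : ∀ p q r : X × ZMod n, D3 p.1 q.1 r.1 → t p q r * t p q r = t p r q)
    (act1 : ∀ (p q r : X × ZMod n) (m : ZMod n), D3 p.1 q.1 r.1 → 
      t p q r • ((p.1, p.2 + m) : X × ZMod n) = ((q.1, q.2 + m) : X × ZMod n))
    (act0 : ∀ p q r w : X × ZMod n, D3 p.1 q.1 r.1 → w.1 ≠ p.1 → w.1 ≠ q.1 → w.1 ≠ r.1 →
      t p q r • w = w)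
    (conj : ∀ p q r p' q' r' : X × ZMod n, D3 p.1 q.1 r.1 → D3 p'.1 q'.1 r'.1 →
      t p q r * t p' q' r' * (t p q r)⁻¹ = t (t p q r • p') (t p q r • q') (t p q r • r'))
    (pr : ∀ o p q r : X × ZMod n, D4 o.1 p.1 q.1 r.1 → t o q r * t o p q = t o p r)
    (gen : Subgroup.closure {e | ∃ p q r : X × ZMod n, D3 p.1 q.1 r.1 ∧ e = t p q r} = ⊤)
    (F : X × ZMod n → B)
    (hF : (∃ s : X → Bool, (∀ b, {x | s x = b}.Infinite) ∧
      ∀ p q : X × ZMod n, F p = F q ↔ s p.1 = s q.1) ∨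
      ∀ p q : X × ZMod n, F p = F q ↔ p.2 = q.2)
    (K : Subgroup W)
    (hK1 : ∀ p q r : X × ZMod n, D3 p.1 q.1 r.1 → F p = F q → F q = F r → t p q r ∈ K)
    (hK2 : ∀ w ∈ K, ∀ p : X × ZMod n, F (w • p) = F p) :
    ∃ S : Finset W, (S : Set W) ⊆ K ∧ K ≤ Subgroup.closure ((S : Set W) ∪
      {e | ∃ p q r : X × ZMod n, D3 p.1 q.1 r.1 ∧ F p = F q ∧ F q = F r ∧ e = t p q r}) := by
  have h : DLH n t := ⟨rot, inv, sq, act1, act0, conj, pr, gen⟩
  set G := {e | ∃ p q r : X × ZMod n, D3 p.1 q.1 r.1 ∧ F p = F q ∧ F q = F r ∧ e = t p q r}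
  set HF := Subgroup.closure G
  have hG : ∀ p q r : X × ZMod n, D3 p.1 q.1 r.1 → F p = F q → F q = F r → t p q r ∈ HF :=
    fun p q r d e1 e2 => Subgroup.subset_closure ⟨p, q, r, d, e1, e2, rfl⟩
  have N1 : Noeth HF (HF ⊔ Subgroup.closure (S1 t)) :=
    Noeth.central HF h.S1_fin fun c hc => h.central (h.S1_sh hc)
  suffices hN : Noeth HF K by
    obtain ⟨S, hS, hK⟩ := hN K le_rfl
    refine ⟨S, hS, hK.trans ((Subgroup.closure_le _).2 ?_)⟩
    rintro x (hx | hx)
    · exact Subgroup.subset_closure (Or.inl hx)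
    · exact Subgroup.closure_mono Set.subset_union_right hx.2
  rcases hF with ⟨s, hs, hF⟩ | hF
  swap
  · refine N1.mono fun w hw => ?_
    obtain ⟨a, ha, g, hg, rfl⟩ := h.dec w
    refine mul_mem (Subgroup.mem_sup_right (h.A0_ker hn ha fun p => ?_)) (Subgroup.mem_sup_left
      ((Subgroup.closure_le _).2 ?_ hg))
    · obtain ⟨k, hk⟩ := h.A0_sh ha
      have e := (hF _ _).1 (hK2 _ hw (g⁻¹ • p))
      rw [mul_smul, smul_inv_smul, h.H_ht (inv_mem hg), hk] at e
      rw [hk]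
      exact Prod.ext rfl (by simpa using e)
    · rintro _ ⟨x, y, z, d, rfl⟩
      exact hG _ _ _ d ((hF _ _).2 rfl) ((hF _ _).2 rfl)
  have hb : ∀ c, ∃ b : Fin 2 → X, (∀ i, s (b i) = c) ∧ b 0 ≠ b 1 := fun c => by
    obtain ⟨x, hx, y, hy, hne⟩ := (hs c).nontrivial
    exact ⟨![x, y], fun i => by fin_cases i <;> assumption, hne⟩
  choose b hb hb' using hb
  obtain ⟨R, hR, hR'⟩ := h.colour b hb hb' (HF := HF)
    fun x y z d e1 e2 => hG _ _ _ d ((hF _ _).2 e1) ((hF _ _).2 e2)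
  set D1 := HF ⊔ Subgroup.closure (S1 t)
  have hu : ∀ x y, s x = s y → uu t x y ∈ D1 := fun x y e => by
    classical
    by_cases exy : x = y
    · rw [uu, if_pos exy]; exact one_mem _
    obtain ⟨z, hz, hz'⟩ := (hs (s y)).exists_notMem_finset {x, y}
    simp only [Finset.mem_insert, Finset.mem_singleton, not_or] at hz'
    have d : D3 x y z := ⟨exy, Ne.symm hz'.1, Ne.symm hz'.2⟩
    rw [h.u_eq d]
    exact Subgroup.mem_sup_left (mul_mem (hG _ _ _ d ((hF _ _).2 e) ((hF _ _).2 hz.symm))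
      (inv_mem (hG _ _ _ d ((hF _ _).2 e) ((hF _ _).2 hz.symm))))
  have hn1 : A0 t ≤ Subgroup.normalizer (D1 : Set W) := by
    refine le_norm fun a ha g hg => ?_
    obtain ⟨k, hk⟩ := h.A0_sh ha
    refine (show D1 ≤ D1.comap (MulAut.conj a).toMonoidHom from sup_le
      (fun g hg => Subgroup.mem_sup_left (conj_mem_closure ?_ hg)) fun c hc => ?_) hg
    · rintro _ ⟨p, q, r, d, e1, e2, rfl⟩
      rw [h.conj' a p q r d, hk, hk, hk]
      exact hG _ _ _ d ((hF _ _).2 ((hF p q).1 e1)) ((hF _ _).2 ((hF q r).1 e2))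
    · change a * c * a⁻¹ ∈ D1
      rw [← h.central (h.C0_sh hc), mul_inv_cancel_right]
      exact Subgroup.mem_sup_right hc
  set D2 := D1 ⊔ Subgroup.zpowers (uu t (b true 0) (b false 0))
  have hC : Subgroup.closure (S1 t) ≤ D2 := le_sup_right.trans le_sup_left
  have hA : A0 t ≤ D2 := by
    have h1 : ∀ x y, s x = true → s y = false → uu t x y ∈ D2 := fun x y hx hy =>
      DLH.u_tr hC (Subgroup.mem_sup_left (hu x (b true 0) (by rw [hx, hb])))
        (DLH.u_tr hC (Subgroup.mem_sup_right (Subgroup.mem_zpowers _))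
          (Subgroup.mem_sup_left (hu (b false 0) y (by rw [hy, hb]))))
    rw [A0, Subgroup.closure_le]
    rintro c (hc | ⟨x, y, rfl⟩)
    · exact hC (Subgroup.subset_closure hc)
    · cases hx : s x <;> cases hy : s y
      · exact Subgroup.mem_sup_left (hu x y (by rw [hx, hy]))
      · exact DLH.u_sy hC (h1 y x hy hx)
      · exact h1 x y hx hy
      · exact Subgroup.mem_sup_left (hu x y (by rw [hx, hy]))
  refine (N1.trans (Noeth.cyc (hn1 (DLH.u_mem (b true 0) (b false 0))))).trans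
    (Noeth.cosets hR fun w hw => ?_)
  obtain ⟨a, ha, g, hg, rfl⟩ := h.dec w
  obtain ⟨k, hk⟩ := h.A0_sh ha
  obtain ⟨r, hr, -, hr'⟩ := hR' g hg fun x => by
    have e := (hF _ _).1 (hK2 _ hw (x, 0))
    rwa [mul_smul, hk] at e
  refine ⟨r, hr, ?_⟩
  have := mul_mem (hA (h.A0_norm.1.conj_mem' a ha r))
    (Subgroup.mem_sup_left (Subgroup.mem_sup_left hr') : r⁻¹ * g ∈ D2)
  simpa [mul_assoc] using this

end Vale.Agent.P196
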