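import Mathlib

/-! Job B, first half: the ALT lemma and relative finite generation. -/

namespace Vale.Agent.P196

/-- three pairwise distinct elements -/
def D3 {A : Type*} (a b c : A) : Prop := a ≠ b ∧ a ≠ c ∧ b ≠ c

/-- four pairwise distinct elements -/
def D4 {A : Type*} (n a c d : A) : Prop := n ≠ a ∧ n ≠ c ∧ n ≠ d ∧ a ≠ c ∧ a ≠ d ∧ c ≠ d

lemma D3.rot {A : Type*} {a b c : A} (h : D3 a b c) : D3 b c a := ⟨h.2.2, h.1.symm, h.2.1.symm⟩

lemma D3.swap {A : Type*} {a b c : A} (h : D3 a b c) : D3 a c b := ⟨h.2.1, h.1, h.2.2.symm⟩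

/-- ALT lemma: these relations present the finitary alternating group. -/
theorem alt_inj {E Y A : Type*} [Group E] [MulAction E Y] (ι : A → Y)
    (hι : Function.Injective ι) (t : A → A → A → E)
    (rot : ∀ a b c, D3 a b c → t a b c = t b c a)
    (inv : ∀ a b c, D3 a b c → t a c b = (t a b c)⁻¹)
    (sq : ∀ a b c, D3 a b c → t a b c * t a b c = t a c b)
    (act1 : ∀ a b c, D3 a b c → t a b c • ι a = ι b)
    (act0 : ∀ a b c d, D3 a b c → d ≠ a → d ≠ b → d ≠ c → t a b c • ι d = ι d)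
    (conj : ∀ a b c a' b' c' a'' b'' c'', D3 a b c → D3 a' b' c' → t a b c • ι a' = ι a'' →
      t a b c • ι b' = ι b'' → t a b c • ι c' = ι c'' →
      t a b c * t a' b' c' * (t a b c)⁻¹ = t a'' b'' c'')
    (pr : ∀ n a c d, D4 n a c d → t n c d * t n a c = t n a d)
    (g : E) (hg : g ∈ Subgroup.closure {e | ∃ a b c, D3 a b c ∧ e = t a b c})
    (hfix : ∀ a, g • ι a = ι a) : g = 1 := by
  classical
  let H : Finset A → Subgroup E := fun s =>
    Subgroup.closure {e | ∃ a ∈ s, ∃ b ∈ s, ∃ c ∈ s, D3 a b c ∧ e = t a b c}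
  have mono : ∀ s s', s ⊆ s' → H s ≤ H s' := fun s s' h => Subgroup.closure_mono
    fun e ⟨a, ha, b, hb, c, hc, h1⟩ => ⟨a, h ha, b, h hb, c, h hc, h1⟩
  have hmem : ∀ {s a b c}, a ∈ s → b ∈ s → c ∈ s → D3 a b c → t a b c ∈ H s :=
    fun ha hb hc h => Subgroup.subset_closure ⟨_, ha, _, hb, _, hc, h, rfl⟩
  obtain ⟨s, hs⟩ : ∃ s, g ∈ H s := by
    clear hfix
    induction hg using Subgroup.closure_induction with
    | mem x hx =>
      obtain ⟨a, b, c, h, rfl⟩ := hx
      exact ⟨{a, b, c}, hmem (by simp) (by simp) (by simp) h⟩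
    | one => exact ⟨∅, one_mem _⟩
    | mul x y _ _ hx hy =>
      obtain ⟨s, hs⟩ := hx
      obtain ⟨s', hs'⟩ := hy
      exact ⟨s ∪ s', mul_mem (mono _ _ Finset.subset_union_left hs)
        (mono _ _ Finset.subset_union_right hs')⟩
    | inv x _ hx => exact hx.imp fun s hs => inv_mem hs
  clear hg
  have himg : ∀ {s : Finset A} {p q r a}, p ∈ s → q ∈ s → r ∈ s → D3 p q r → a ∈ s →
      ∃ a' ∈ s, t p q r • ι a = ι a' := by
    intro s p q r a hp hq hr h ha
    by_cases h1 : a = p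
    · exact ⟨q, hq, h1 ▸ act1 _ _ _ (h1 ▸ h)⟩
    by_cases h2 : a = q
    · exact ⟨r, hr, by rw [rot _ _ _ h, h2]; exact act1 _ _ _ h.rot⟩
    by_cases h3 : a = r
    · exact ⟨p, hp, by rw [rot _ _ _ h, rot _ _ _ h.rot, h3]; exact act1 _ _ _ h.rot.rot⟩
    exact ⟨a, ha, act0 _ _ _ _ h h1 h2 h3⟩
  induction s using Finset.induction_on generalizing g with
  | empty => simpa [H] using hs
  | insert n s hn ih =>
    have hne : ∀ {a}, a ∈ s → n ≠ a := fun ha h => hn (h ▸ ha)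
    have hfixn : ∀ h ∈ H s, h • ι n = ι n := by
      intro h hh
      refine (show H s ≤ MulAction.stabilizer E (ι n) from (Subgroup.closure_le _).2 ?_) hh
      rintro _ ⟨a, ha, b, hb, c, hc, h1, rfl⟩
      exact act0 _ _ _ _ h1 (hne ha) (hne hb) (hne hc)
    have hchg : ∀ {a b b'}, a ∈ s → b ∈ s → b' ∈ s → a ≠ b → a ≠ b' →
        ∃ h ∈ H s, t n a b = t n a b' * h := by
      intro a b b' ha hb hb' h1 h2
      by_cases h3 : b = b'
      · exact ⟨1, one_mem _, by rw [h3, mul_one]⟩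
      refine ⟨t a b b', hmem ha hb hb' ⟨h1, h2, h3⟩, ?_⟩
      have d1 : D3 n a b := ⟨hne ha, hne hb, h1⟩
      have d2 : D3 n a b' := ⟨hne ha, hne hb', h2⟩
      rw [← pr a b n b' ⟨h1, (hne ha).symm, h2, (hne hb).symm, h3, hne hb'⟩, ← rot _ _ _ d1,
        inv _ _ _ d2.rot, ← rot _ _ _ d2, mul_inv_cancel_left]
    let P : E → Prop := fun g => g ∈ H s ∨ ∃ a ∈ s, ∃ b ∈ s, a ≠ b ∧ ∃ h ∈ H s, g = t n a b * h
    have stepB : ∀ c ∈ s, ∀ d ∈ s, c ≠ d → ∀ y, P y → P (t n c d * y) := by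
      intro c hc d hd hcd y hy
      have d1 : D3 n c d := ⟨hne hc, hne hd, hcd⟩
      rcases hy with hy | ⟨a, ha, b, hb, hab, h, hh, rfl⟩
      · exact Or.inr ⟨c, hc, d, hd, hcd, y, hy, rfl⟩
      by_cases h1 : a = d
      · subst h1
        obtain ⟨h', hh', e⟩ := hchg ha hb hc hab hcd.symm
        refine Or.inl ?_
        rw [e, inv _ _ _ d1, mul_assoc, mul_inv_cancel_left]
        exact mul_mem hh' hh
      by_cases h2 : a = c
      · subst h2
        obtain ⟨h', hh', e⟩ := hchg ha hb hd hab hcd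
        refine Or.inr ⟨d, hd, a, ha, hcd.symm, h' * h, mul_mem hh' hh, ?_⟩
        rw [e, ← sq _ _ _ d1]; simp only [mul_assoc]
      · obtain ⟨h', hh', e⟩ := hchg ha hb hc hab h2
        refine Or.inr ⟨a, ha, d, hd, h1, h' * h, mul_mem hh' hh, ?_⟩
        rw [e, ← pr n a c d ⟨hne ha, hne hc, hne hd, h2, h1, hcd⟩]; simp only [mul_assoc]
    have step : ∀ p ∈ insert n s, ∀ q ∈ insert n s, ∀ r ∈ insert n s, D3 p q r →
        ∀ y, P y → P (t p q r * y) := by
      intro p hp q hq r hr h y hy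
      rw [Finset.mem_insert] at hp hq hr
      rcases hp with rfl | hp
      · exact stepB q (hq.resolve_left h.1.symm) r (hr.resolve_left h.2.1.symm) h.2.2 y hy
      rcases hq with rfl | hq
      · rw [rot _ _ _ h]
        exact stepB r (hr.resolve_left h.2.2.symm) p hp h.2.1.symm y hy
      rcases hr with rfl | hr
      · rw [rot _ _ _ h, rot _ _ _ h.rot]
        exact stepB p hp q hq h.1 y hy
      rcases hy with hy | ⟨a, ha, b, hb, hab, k, hk, rfl⟩
      · exact Or.inl (mul_mem (hmem hp hq hr h) hy)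
      obtain ⟨a', ha', e1⟩ := himg hp hq hr h ha
      obtain ⟨b', hb', e2⟩ := himg hp hq hr h hb
      refine Or.inr ⟨a', ha', b', hb', fun e => hab (hι (smul_left_cancel (t p q r) ?_)),
        t p q r * k, mul_mem (hmem hp hq hr h) hk, ?_⟩
      · rw [e1, e2, e]
      · rw [← conj p q r n a b n a' b' h ⟨hne ha, hne hb, hab⟩ (hfixn _ (hmem hp hq hr h)) e1 e2]
        group
    have hP : P g := by
      clear hfix
      induction hs using Subgroup.closure_induction_left with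
      | one => exact Or.inl (one_mem _)
      | mul_left x hx y _ hy =>
        obtain ⟨p, hp, q, hq, r, hr, h, rfl⟩ := hx
        exact step p hp q hq r hr h y hy
      | inv_mul_cancel x hx y _ hy =>
        obtain ⟨p, hp, q, hq, r, hr, h, rfl⟩ := hx
        rw [← inv _ _ _ h]
        exact step p hp r hr q hq h.swap y hy
    rcases hP with hP | ⟨a, ha, b, hb, hab, h, hh, rfl⟩
    · exact ih g hfix hP
    · have := hfix n
      rw [mul_smul, hfixn h hh, act1 _ _ _ ⟨hne ha, hne hb, hab⟩] at this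
      exact absurd (hι this).symm (hne ha)

variable {W : Type*} [Group W]

/-- every subgroup of `B` is finitely generated over its intersection with `A` -/
def Noeth (A B : Subgroup W) : Prop :=
  ∀ K ≤ B, ∃ S : Finset W, (S : Set W) ⊆ K ∧ K ≤ Subgroup.closure ((S : Set W) ∪ ↑(K ⊓ A))

lemma Noeth.of_le {A B : Subgroup W} (h : B ≤ A) : Noeth A B := fun K hK =>
  ⟨∅, by simp, fun _ hx => Subgroup.subset_closure (Or.inr ⟨hx, h (hK hx)⟩)⟩

lemma Noeth.trans {A B C : Subgroup W} (h1 : Noeth A B) (h2 : Noeth B C) : Noeth A C := by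
  classical
  intro K hK
  obtain ⟨S, hS, hK1⟩ := h2 K hK
  obtain ⟨S', hS', hK2⟩ := h1 (K ⊓ B) inf_le_right
  refine ⟨S ∪ S', ?_, hK1.trans ((Subgroup.closure_le _).2 ?_)⟩
  · rw [Finset.coe_union]
    exact Set.union_subset hS fun x hx => (hS' hx).1
  · rintro x (hx | hx)
    · exact Subgroup.subset_closure (Or.inl (by simp [Finset.mem_coe.1 hx]))
    · refine Subgroup.closure_mono ?_ (hK2 hx)
      rintro y (hy | hy)
      · exact Or.inl (by simp [Finset.mem_coe.1 hy])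
      · exact Or.inr ⟨hy.1.1, hy.2⟩

lemma Noeth.mono {A B C : Subgroup W} (h : Noeth A B) (hC : C ≤ B) : Noeth A C :=
  h.trans (Noeth.of_le hC)

lemma Noeth.cosets {A B : Subgroup W} {R : Set W} (hR : R.Finite)
    (h : ∀ b ∈ B, ∃ r ∈ R, r⁻¹ * b ∈ A) : Noeth A B := by
  classical
  intro K hK
  let f : W → W := fun r => if h : ∃ k ∈ K, r⁻¹ * k ∈ A then h.choose else 1
  refine ⟨hR.toFinset.image f, ?_, fun x hx => ?_⟩
  · intro y hy
    obtain ⟨r, -, rfl⟩ := Finset.mem_image.1 (Finset.mem_coe.1 hy)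
    simp only [f]
    split_ifs with h1
    exacts [h1.choose_spec.1, one_mem _]
  · obtain ⟨r, hr, h1⟩ := h x (hK hx)
    have h2 : ∃ k ∈ K, r⁻¹ * k ∈ A := ⟨x, hx, h1⟩
    have h3 : f r = h2.choose := dif_pos h2
    rw [← mul_inv_cancel_left (f r) x]
    refine mul_mem (Subgroup.subset_closure (Or.inl ?_)) (Subgroup.subset_closure (Or.inr ⟨?_, ?_⟩))
    · exact Finset.mem_coe.2 (Finset.mem_image_of_mem f (hR.mem_toFinset.2 hr))
    · rw [h3]; exact K.mul_mem (K.inv_mem h2.choose_spec.1) hx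
    · have := mul_mem (inv_mem h2.choose_spec.2) h1
      rw [h3]; simpa [mul_assoc] using this

/-- graph of the exponent modulo `A` -/
def expG (A : Subgroup W) {c : W} (hc : c ∈ Subgroup.normalizer (A : Set W)) :
    Subgroup (W × Multiplicative ℤ) where
  carrier := {p | (c ^ p.2.toAdd)⁻¹ * p.1 ∈ A}
  one_mem' := by simp
  mul_mem' {p q} hp hq := by
    have h1 := (Subgroup.mem_normalizer_iff''.1 (zpow_mem hc q.2.toAdd) _).1 hp
    have := mul_mem h1 hq
    simp only [Set.mem_ofPred_eq, Prod.snd_mul, toAdd_mul, zpow_add, Prod.fst_mul]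
    simpa [mul_assoc] using this
  inv_mem' {p} hp := by
    have h1 := (Subgroup.mem_normalizer_iff.1 (zpow_mem hc p.2.toAdd) _).1 (inv_mem hp)
    simpa [mul_assoc] using h1

lemma mem_sup_zpowers {A : Subgroup W} {c : W} (hc : c ∈ Subgroup.normalizer (A : Set W))
    {b : W} (hb : b ∈ A ⊔ Subgroup.zpowers c) : ∃ k : ℤ, (c ^ k)⁻¹ * b ∈ A := by
  have : A ⊔ Subgroup.zpowers c ≤ (expG A hc).map (MonoidHom.fst _ _) := by
    refine sup_le (fun a ha => ⟨(a, 1), by simpa [expG] using ha, rfl⟩) ?_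
    rw [Subgroup.zpowers_le]
    exact ⟨(c, Multiplicative.ofAdd 1), by simp [expG], rfl⟩
  obtain ⟨p, hp, rfl⟩ := this hb
  exact ⟨_, hp⟩

lemma Noeth.cyc {A : Subgroup W} {c : W} (hc : c ∈ Subgroup.normalizer (A : Set W)) :
    Noeth A (A ⊔ Subgroup.zpowers c) := by
  intro K hK
  let Z : AddSubgroup ℤ :=
    { carrier := {k | ∃ w ∈ K, (w, Multiplicative.ofAdd k) ∈ expG A hc}
      zero_mem' := ⟨1, one_mem _, one_mem _⟩
      add_mem' := fun ⟨w, hw, h⟩ ⟨w', hw', h'⟩ => ⟨w * w', mul_mem hw hw', mul_mem h h'⟩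
      neg_mem' := fun ⟨w, hw, h⟩ => ⟨w⁻¹, inv_mem hw, inv_mem h⟩ }
  obtain ⟨d, hd⟩ := Int.subgroup_cyclic Z
  obtain ⟨w, hw, h0⟩ : d ∈ Z := hd ▸ AddSubgroup.subset_closure rfl
  refine ⟨{w}, by simpa using hw, fun x hx => ?_⟩
  obtain ⟨k, hk⟩ := mem_sup_zpowers hc (hK hx)
  have hkZ : k ∈ Z := ⟨x, hx, hk⟩
  rw [hd, AddSubgroup.mem_closure_singleton] at hkZ
  obtain ⟨j, rfl⟩ := hkZ
  have h1 : (x, Multiplicative.ofAdd (j • d)) ∈ expG A hc := hk
  have h2 := mul_mem (inv_mem (zpow_mem h0 j)) h1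
  rw [← mul_inv_cancel_left (w ^ j) x]
  refine Subgroup.mul_mem _ (Subgroup.zpow_mem _
    (Subgroup.subset_closure (Set.mem_union_left _ (by simp))) _)
    (Subgroup.subset_closure (Or.inr ⟨K.mul_mem (K.inv_mem (K.zpow_mem hw j)) hx, ?_⟩))
  simpa [expG, mul_comm] using h2

lemma norm_of_central {A : Subgroup W} {c : W} (hc : ∀ w, c * w = w * c) :
    c ∈ Subgroup.normalizer (A : Set W) :=
  Subgroup.mem_normalizer_iff.2 fun w => by rw [hc, mul_inv_cancel_right]

lemma Noeth.central (A : Subgroup W) {S : Set W} (hS : S.Finite)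
    (hc : ∀ c ∈ S, ∀ w, c * w = w * c) : Noeth A (A ⊔ Subgroup.closure S) := by
  induction S, hS using Set.Finite.induction_on with
  | empty => exact Noeth.of_le (by simp)
  | insert _ _ ih =>
    refine ((ih fun c h => hc c (Or.inr h)).trans
      (Noeth.cyc (norm_of_central (hc _ (Or.inl rfl))))).mono (sup_le ?_ ?_)
    · exact le_sup_left.trans le_sup_left
    · rw [Subgroup.closure_le]
      rintro x (rfl | hx)
      · exact Subgroup.mem_sup_right (Subgroup.mem_zpowers _)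
      · exact Subgroup.mem_sup_left (Subgroup.mem_sup_right (Subgroup.subset_closure hx))

lemma conj_mem_closure {S : Set W} {B : Subgroup W} {c : W} (h : ∀ g ∈ S, c * g * c⁻¹ ∈ B)
    {g : W} (hg : g ∈ Subgroup.closure S) : c * g * c⁻¹ ∈ B :=
  (show Subgroup.closure S ≤ B.comap (MulAut.conj c).toMonoidHom from
    (Subgroup.closure_le _).2 h) hg

lemma le_norm {D A : Subgroup W} (h : ∀ c ∈ D, ∀ g ∈ A, c * g * c⁻¹ ∈ A) :
    D ≤ Subgroup.normalizer (A : Set W) := fun c hc =>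
  Subgroup.mem_normalizer_iff.2 fun g => ⟨h c hc g, fun hg => by
    simpa [mul_assoc] using h c⁻¹ (inv_mem hc) _ hg⟩

end Vale.Agent.P196
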