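import Vale.Agent.P196.AmenA

/-! Job A: amenability library.  See notes/P196.md, part A. -/

open Finset

namespace Vale.Agent.P196

open AmA

/-- locally finite groups are amenable -/
theorem amen_of_locFin {G : Type*} [Group G]
    (h : ∀ s : Finset G, (Subgroup.closure (s : Set G) : Set G).Finite) : Amenable G := by
  intro K hK ε hε
  lift K to Finset G using hK
  have hne : (Subgroup.closure (K : Set G) : Set G).Nonempty := ⟨1, one_mem _⟩
  refine ⟨_, h K, hne, fun g hg => ?_⟩
  have hg' := Subgroup.subset_closure hg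
  have : (fun x => g * x) '' (Subgroup.closure (K : Set G) : Set G) = Subgroup.closure (K : Set G) :=
    Set.ext fun y => ⟨by rintro ⟨x, hx, rfl⟩; exact mul_mem hg' hx,
      fun hy => ⟨g⁻¹ * y, mul_mem (inv_mem hg') hy, by simp⟩⟩
  have h0 : (0 : ℝ) < (Subgroup.closure (K : Set G) : Set G).ncard := by
    exact_mod_cast (Set.ncard_pos (h K)).2 hne
  rw [this, symmDiff_self, Set.bot_eq_empty, Set.ncard_empty, Nat.cast_zero]
  positivity

/-- amenability passes along injective homomorphisms (to subgroups, isomorphic groups) -/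
theorem amen_of_injective {G H : Type*} [Group G] [Group H] (f : H →* G)
    (hf : Function.Injective f) (hG : Amenable G) : Amenable H := by
  classical
  let : MulAction H G := MulAction.compHom G f
  refine ext0 (Y := G) (Y0 := Set.univ) (fun K ε hε => ?_) fun y _ g => amen_of_locFin fun s => ?_
  · obtain ⟨u, h1, h2, h3, h4⟩ := rei_of_amen hG (K.image f) ε hε
    exact ⟨u, h1, h2, h3, fun g hg => h4 _ (Finset.mem_image_of_mem f hg)⟩
  · refine Set.Subsingleton.finite fun a _ b _ => Subtype.ext (hf ?_)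
    exact mul_right_cancel ((show f a * (g • y) = g • y from a.2).trans
      (show f b * (g • y) = g • y from b.2).symm)

namespace AmA

lemma ext1 {G Y : Type*} [Group G] [MulAction G Y] {Y0 : Set Y} (h : Rei G Y0)
    (hs : ∀ y ∈ Y0, Amenable (MulAction.stabilizer G y)) : Amenable G :=
  ext0 h fun y hy g => amen_of_injective (MulAction.stabilizerEquivStabilizerOfOrbitRel
    (show MulAction.orbitRel G Y (g • y) y from MulAction.mem_orbit y g)).toMonoidHom
    (MulEquiv.injective _) (hs y hy)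

lemma fin_orbit {G Y : Type*} [Group G] [MulAction G Y] (y : Y)
    (h : (MulAction.orbit G y).Finite) (hs : Amenable (MulAction.stabilizer G y)) : Amenable G := by
  classical
  refine ext0 (Y0 := MulAction.orbit G y) (fun K ε hε => ?_) ?_
  · obtain ⟨a1, a2, a3, a4⟩ := rei_scale (G := G) (D := h.toFinset)
      ⟨y, h.mem_toFinset.2 (MulAction.mem_orbit_self y)⟩
    refine ⟨_, a1, a2, by simpa using a3, fun g _ => ?_⟩
    have : (ind h.toFinset).mapDomain (g • ·) = ind h.toFinset := Finsupp.ext fun z => by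
      rw [act_apply, ind_apply, ind_apply]
      have : g⁻¹ • z ∈ MulAction.orbit G y ↔ z ∈ MulAction.orbit G y :=
        ⟨fun hz => by simpa using MulAction.mem_orbit_of_mem_orbit g hz,
          MulAction.mem_orbit_of_mem_orbit _⟩
      simp only [h.mem_toFinset, this]
    rw [a4, this]
    simpa [nm] using hε.le
  · rintro _ ⟨a, rfl⟩ g
    exact amen_of_injective (MulAction.stabilizerEquivStabilizerOfOrbitRel
      (show MulAction.orbitRel G Y (g • a • y) y from ⟨g * a, mul_smul _ _ _⟩)).toMonoidHom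
      (MulEquiv.injective _) hs

open Classical in
lemma sum_box {X S : Type*} [Zero S] (B : Finset X) (T : Finset S) (u : X → S → ℝ) :
    ∑ η ∈ B.finsupp (fun _ => T), ∏ x ∈ B, u x (η x) = ∏ x ∈ B, ∑ σ ∈ T, u x σ := by
  rw [Finset.prod_sum, Finset.finsupp, Finset.sum_map]
  refine Finset.sum_congr rfl fun p _ => ?_
  rw [← Finset.prod_attach]
  exact Finset.prod_congr rfl fun x _ => congrArg _ (Finsupp.indicator_of_mem x.2 p)

lemma prod_ge {X : Type*} (B : Finset X) {F a : X → ℝ} (h0 : ∀ x, 0 ≤ a x)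
    (h1 : ∀ x, 1 - a x ≤ F x) (h2 : ∑ x ∈ B, a x ≤ 1) : 1 - ∑ x ∈ B, a x ≤ ∏ x ∈ B, F x := by
  classical
  induction B using Finset.induction_on with
  | empty => simp
  | insert b s hb ih =>
    rw [Finset.sum_insert hb] at h2 ⊢
    have h3 : 0 ≤ ∑ x ∈ s, a x := Finset.sum_nonneg fun x _ => h0 x
    have := mul_le_mul (h1 b) (ih (by linarith [h0 b])) (by linarith [h0 b])
      (by linarith [h0 b, h1 b])
    rw [Finset.prod_insert hb]
    nlinarith [mul_nonneg (h0 b) h3]

/-- the site vector -/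
noncomputable def sv (M : ℕ) (θ : ℝ) (σ : ℤ × ℤ) : ℝ :=
  if σ = 0 then Real.cos θ else if σ.1 = 1 ∧ σ.2 ∈ Ico (0 : ℤ) M then Real.sin θ / √M else 0

noncomputable def bx (M : ℕ) : Finset (ℤ × ℤ) := insert 0 ((Ico (0 : ℤ) M).image fun m => (1, m))

lemma sv_mem {M : ℕ} {θ : ℝ} {σ : ℤ × ℤ} (h : sv M θ σ ≠ 0) : σ ∈ bx M := by
  unfold sv at h
  split_ifs at h with h1 h2
  · simp [bx, h1]
  · exact mem_insert_of_mem (mem_image.2 ⟨σ.2, h2.2, Prod.ext h2.1.symm rfl⟩)
  · exact absurd rfl h

lemma sv_sum (M : ℕ) (θ θ' : ℝ) (c : ℤ) : ∑ σ ∈ bx M, sv M θ σ * sv M θ' (σ + (0, c))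
    = Real.cos θ * sv M θ' (0, c) + Real.sin θ * Real.sin θ' / M
      * ((Ico (0 : ℤ) M).filter fun m => m + c ∈ Ico (0 : ℤ) M).card := by
  rw [bx, sum_insert (by simp), sum_image (by intro a _ b _ h; simpa using h), Finset.card_filter,
    Nat.cast_sum, Finset.mul_sum]
  congr 1
  · simp [sv]
  refine Finset.sum_congr rfl fun m hm => ?_
  have e : ∀ t : ℤ, ((1, t) : ℤ × ℤ) ≠ 0 := fun t h => by simpa using congrArg Prod.fst h
  simp only [sv, Prod.mk_add_mk, add_zero, e, if_false, hm, true_and, if_true]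
  split_ifs
  · rw [div_mul_div_comm, Real.mul_self_sqrt (Nat.cast_nonneg M)]; simp
  · simp

lemma sv_cos {M : ℕ} (hM : 0 < M) (θ θ' : ℝ) :
    ∑ σ ∈ bx M, sv M θ σ * sv M θ' (σ + (0, 0)) = Real.cos (θ' - θ) := by
  have : (M : ℝ) ≠ 0 := by positivity
  rw [sv_sum, Finset.filter_true_of_mem (by simp), Real.cos_sub]
  simp [sv]
  field_simp

lemma sv_shift {M : ℕ} (hM : 0 < M) (c : ℤ) :
    1 - |(c : ℝ)| / M ≤ ∑ σ ∈ bx M, sv M (Real.pi / 2) σ * sv M (Real.pi / 2) (σ + (0, c)) := by
  have h0 : (0 : ℝ) < M := by positivity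
  have : (M : ℤ) - |c| ≤ ((Ico (0 : ℤ) M).filter fun m => m + c ∈ Ico (0 : ℤ) M).card := by
    refine le_trans ?_ (Nat.cast_le.2 (Finset.card_le_card
      (s := Ico (max 0 (-c)) (min M (M - c))) fun m hm => ?_))
    · rw [Int.card_Ico]
      rcases abs_cases c with h | h <;> omega
    · simp only [mem_filter, mem_Ico] at hm ⊢
      omega
  have : (M : ℝ) - |(c : ℝ)| ≤ ((Ico (0 : ℤ) M).filter fun m => m + c ∈ Ico (0 : ℤ) M).card := by
    exact_mod_cast this
  rw [sv_sum, Real.cos_pi_div_two, Real.sin_pi_div_two, zero_mul, zero_add, one_mul, one_div,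
    ← div_eq_inv_mul, le_div_iff₀ h0, sub_mul, div_mul_cancel₀ _ h0.ne', one_mul]
  exact this

noncomputable def hm (i : ℕ) : ℝ := ∑ j ∈ range i, 1 / ((j : ℝ) + 1)

lemma hm_step {i j : ℕ} (h : i ≤ j) : hm i ≤ hm j ∧ hm j - hm i ≤ ((j : ℝ) - i) / (i + 1) := by
  induction j, h using Nat.le_induction with
  | base => simp
  | succ j h ih =>
    have h1 : (1 : ℝ) / (j + 1) ≤ 1 / (i + 1) :=
      one_div_le_one_div_of_le (by positivity) (by exact_mod_cast Nat.succ_le_succ h)
    have h2 : (0 : ℝ) ≤ 1 / (j + 1) := by positivity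
    rw [show hm (j + 1) = hm j + _ from sum_range_succ _ _, Nat.cast_succ, add_sub_right_comm (j : ℝ), add_div]
    constructor <;> linarith [ih.1, ih.2]

lemma hm_lip {i j D : ℕ} (h1 : j ≤ i + D) (h2 : i ≤ j + D) :
    |hm j - hm i| ≤ D * (D + 1) / ((i : ℝ) + 1) := by
  have a1 : (j : ℝ) ≤ i + D := by exact_mod_cast h1
  have a2 : (i : ℝ) ≤ j + D := by exact_mod_cast h2
  have a3 : (0 : ℝ) ≤ D := Nat.cast_nonneg D
  have a4 : (0 : ℝ) ≤ j := Nat.cast_nonneg j
  rcases le_total i j with h | h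
  · rw [abs_of_nonneg (sub_nonneg.2 (hm_step h).1)]
    exact (hm_step h).2.trans (div_le_div_of_nonneg_right (by nlinarith) (by positivity))
  · rw [abs_sub_comm, abs_of_nonneg (sub_nonneg.2 (hm_step h).1)]
    refine (hm_step h).2.trans ((div_le_div_of_nonneg_right (by linarith : _ ≤ (D : ℝ))
      (by positivity)).trans ?_)
    rw [div_le_div_iff₀ (by positivity) (by positivity), mul_assoc]
    exact mul_le_mul_of_nonneg_left (by nlinarith) a3

end AmA

/-- Extensive amenability step: a recurrent action and a finitely supported integer cocycle with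
amenable kernel. -/
theorem amen_EA {G X : Type*} [Group G] [MulAction G X] (c : G → X → ℤ)
    (hc : ∀ g h x, c (g * h) x = c g (h • x) + c h x)
    (hfin : ∀ g, {x | c g x ≠ 0}.Finite)
    (hrec : ∀ (K : Finset G) (ε : ℝ), 0 < ε → ∃ φ : X → ℝ, (Function.support φ).Finite ∧
      (∀ x, 0 ≤ φ x ∧ φ x ≤ 1) ∧ (∀ g ∈ K, ∀ x, c g x ≠ 0 → φ x = 1 ∧ φ (g • x) = 1) ∧
      ∀ g ∈ K, ∑ᶠ x, (φ (g • x) - φ x) ^ 2 < ε)
    (H : Subgroup G) (hH : ∀ g, (∀ x, c g x = 0) → g ∈ H) (amH : Amenable H) : Amenable G := by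
  classical
  let cc : G → X →₀ ℤ × ℤ := fun g => Finsupp.onFinset (hfin g).toFinset (fun x => (0, c g x))
    fun x hx => (hfin g).mem_toFinset.2 fun h => hx (by rw [h]; rfl)
  have c1 : ∀ x, c 1 x = 0 := fun x => by simpa using hc 1 1 x
  let : MulAction G (X →₀ ℤ × ℤ) :=
    { smul := fun g η => (η + cc g).mapDomain (g • ·)
      one_smul := fun η => Finsupp.ext fun x => (act_apply _ _ _).trans (by simp [cc, c1])
      mul_smul := fun g h η => Finsupp.ext fun x => (act_apply _ _ _).trans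
        (Eq.trans (by
          rw [Finsupp.add_apply, Finsupp.add_apply]
          refine Eq.trans ?_ (congrArg (· + _) (act_apply h (η + cc h) (g⁻¹ • x)).symm)
          ext <;> simp [cc, hc, mul_smul, add_assoc, add_comm (c g _)]) (act_apply _ _ _).symm) }
  have ap : ∀ (g : G) (η : X →₀ ℤ × ℤ) x, (g • η) (g • x) = η x + (0, c g x) := fun g η x =>
    (act_apply _ _ _).trans (by simp [cc])
  refine ext1 (Y0 := {η : X →₀ ℤ × ℤ | ∀ x, (η x).1 = 0 → η x = 0}) (fun K ε hε => ?_) fun η hη => ?_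
  · obtain ⟨δ, hδ, hδ1, hδ2⟩ : ∃ δ : ℝ, 0 < δ ∧ δ ≤ 1 / 3 ∧ 3 * δ ≤ ε ^ 2 / 8 :=
      ⟨min (1 / 3) (ε ^ 2 / 24), by positivity, min_le_left _ _,
        by linarith [min_le_right (1 / 3) (ε ^ 2 / 24)]⟩
    obtain ⟨φ, f1, -, f3, f4⟩ := hrec (K.image (·⁻¹)) δ hδ
    obtain ⟨M, hM⟩ := exists_nat_gt ((∑ g ∈ K, ∑ x ∈ (hfin g⁻¹).toFinset, |(c g⁻¹ x : ℝ)|) / δ)
    have hM0 : (0 : ℝ) < M := lt_of_le_of_lt (by positivity) hM
    have hM1 : 0 < M := by exact_mod_cast hM0
    let ξ : (X →₀ ℤ × ℤ) → ℝ := fun η => ∏ᶠ x, sv M (Real.pi / 2 * φ x) (η x)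
    have z : ∀ x, φ x = 0 → sv M (Real.pi / 2 * φ x) 0 = 1 := fun x h => by simp [sv, h]
    have x1 : ∀ B : Finset X, Function.support φ ⊆ B → ∀ η : X →₀ ℤ × ℤ, η.support ⊆ B →
        ξ η = ∏ x ∈ B, sv M (Real.pi / 2 * φ x) (η x) := fun B hB η h =>
      finprod_eq_prod_of_mulSupport_subset _ fun x hx => by
        by_contra hn
        rw [Function.mem_mulSupport, Finsupp.notMem_support_iff.1 fun h' => hn (h h')] at hx
        exact hx (z x (by_contra fun h' => hn (hB h')))
    have x2 : ∀ B : Finset X, Function.support φ ⊆ B → ∀ η, ξ η ≠ 0 →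
        η ∈ B.finsupp fun _ => bx M := fun B hB η h => by
      rw [x1 (B ∪ η.support) (hB.trans (by simp)) η subset_union_right, prod_ne_zero_iff] at h
      refine Finset.mem_finsupp_iff.2 ⟨fun x hx => hB fun h0 => h x (by simp [hx]) ?_,
        fun x hx => sv_mem (h x (by simp [hx]))⟩
      simp [sv, h0, Finsupp.mem_support_iff.1 hx]
    let f : (X →₀ ℤ × ℤ) →₀ ℝ := Finsupp.onFinset (f1.toFinset.finsupp fun _ => bx M)
      (fun η => ξ η ^ 2) fun η h => x2 _ (by simp) η fun h0 => h (by simp [h0])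
    have nf : nm f = 1 := by
      rw [nm_eq (f := f) Finsupp.support_onFinset_subset, Finset.sum_congr rfl
        (g := fun η => ∏ x ∈ f1.toFinset, sv M (Real.pi / 2 * φ x) (η x)
          * sv M (Real.pi / 2 * φ x) (η x + (0, 0))), sum_box (u := fun x σ =>
          sv M (Real.pi / 2 * φ x) σ * sv M (Real.pi / 2 * φ x) (σ + (0, 0)))]
      · simp only [sv_cos hM1]; simp
      · intro η hη
        rw [Finset.prod_mul_distrib]
        simp only [Prod.mk_zero_zero, add_zero]
        rw [← x1 _ (by simp) η (Finset.mem_finsupp_iff.1 hη).1, ← sq]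
        exact abs_of_nonneg (sq_nonneg _)
    refine ⟨f, fun η => sq_nonneg _, nf, fun η hη x hx => ?_, fun g hg => ?_⟩
    · have := Finset.mem_finsupp_iff.1 (Finsupp.support_onFinset_subset hη)
      by_contra hn
      have := this.2 x (this.1 (Finsupp.mem_support_iff.2 hn))
      simp only [bx, mem_insert, hn, false_or, mem_image] at this
      obtain ⟨m, -, hm⟩ := this
      simp [← hm] at hx
    have hk : g⁻¹ ∈ K.image (·⁻¹) := mem_image_of_mem _ hg
    generalize hkg : g⁻¹ = k at hk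
    let B := f1.toFinset ∪ f1.toFinset.image (g • ·)
    have b1 : Function.support φ ⊆ B := fun x hx => by simp [B, show φ x ≠ 0 from hx]
    have b2 : ∀ x, x ∉ B → φ x = 0 ∧ φ (k • x) = 0 ∧ c k x = 0 := fun x hx => by
      have h0 : φ x = 0 := by_contra fun h => hx (b1 h)
      refine ⟨h0, by_contra fun h => hx (mem_union_right _ (mem_image.2 ⟨k • x, by simpa using h,
        by simp [← hkg]⟩)), by_contra fun h => ?_⟩
      simp [(f3 k hk x h).1] at h0
    have I : 1 - 3 * δ ≤ ∑ η ∈ B.finsupp fun _ => bx M, ξ η * ξ (k • η) := by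
      rw [Finset.sum_congr rfl (g := fun η => ∏ x ∈ B, sv M (Real.pi / 2 * φ x) (η x)
          * sv M (Real.pi / 2 * φ (k • x)) (η x + (0, c k x))), sum_box (u := fun x σ =>
          sv M (Real.pi / 2 * φ x) σ * sv M (Real.pi / 2 * φ (k • x)) (σ + (0, c k x)))]
      · have s1 : ∑ x ∈ B, (2 * (φ (k • x) - φ x) ^ 2 + |(c k x : ℝ)| / M) ≤ 3 * δ := by
          have t1 := f4 k hk
          rw [finsum_eq_sum_of_support_subset (s := B) _ fun x hx => by_contra fun hn =>
            hx (by simp [b2 x hn])] at t1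
          have t2 : ∑ x ∈ B, |(c k x : ℝ)| ≤ M * δ := by
            rw [← Finset.sum_subset (s₁ := (hfin k).toFinset) (fun x hx => by_contra fun hn =>
              (hfin k).mem_toFinset.1 hx (b2 x hn).2.2) fun x _ hx => by simpa using hx, ← hkg]
            exact (Finset.single_le_sum (f := fun g : G => ∑ x ∈ (hfin g⁻¹).toFinset,
              |(c g⁻¹ x : ℝ)|) (fun _ _ => by positivity) hg).trans ((div_lt_iff₀ hδ).1 hM).le
          rw [Finset.sum_add_distrib, ← Finset.mul_sum, ← Finset.sum_div]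
          linarith [(div_le_iff₀' hM0).2 t2]
        refine le_trans (by linarith) (prod_ge B (fun x => by positivity) (fun x => ?_)
          (s1.trans (by linarith)))
        by_cases h : c k x = 0
        · rw [h, sv_cos hM1]
          have := Real.one_sub_sq_div_two_le_cos (x := Real.pi / 2 * φ (k • x) - Real.pi / 2 * φ x)
          have h4 : (Real.pi / 2) ^ 2 ≤ 2 ^ 2 :=
            pow_le_pow_left₀ (by positivity) (by linarith [Real.pi_le_four]) 2
          rw [← mul_sub, mul_pow] at this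
          simp only [Int.cast_zero, abs_zero, zero_div, add_zero, ← mul_sub]
          nlinarith [mul_le_mul_of_nonneg_right h4 (sq_nonneg (φ (k • x) - φ x))]
        · rw [(f3 k hk x h).1, (f3 k hk x h).2, mul_one]
          simpa using sv_shift hM1 (c k x)
      · intro η hη
        have hs := (Finset.mem_finsupp_iff.1 hη).1
        rw [Finset.prod_mul_distrib, ← x1 _ b1 η hs]
        congr 1
        refine (finprod_comp_equiv (MulAction.toPerm k)).symm.trans ?_
        simp only [MulAction.toPerm_apply, ap]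
        refine finprod_eq_prod_of_mulSupport_subset _ fun x hx => by_contra fun hn => hx ?_
        beta_reduce
        rw [Finsupp.notMem_support_iff.1 fun h' => hn (hs h'), (b2 x hn).2.2]
        exact z _ (b2 x hn).2.1
    let s := f.support ∪ (f.mapDomain (g • ·)).support ∪ B.finsupp fun _ => bx M
    have n1 := nm_eq (f := f) (s := s) (subset_union_left.trans subset_union_left)
    have n2 := nm_eq (f := f.mapDomain (g • ·)) (s := s) (subset_union_right.trans subset_union_left)
    rw [nm_map (MulAction.injective g), nf] at n2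
    rw [nf] at n1
    rw [Finset.sum_subset (s₂ := s) (f := fun η => ξ η * ξ (k • η)) subset_union_right fun η _ h => by
      rw [by_contra fun h0 => h (x2 _ b1 η h0), zero_mul]] at I
    rw [nm_eq (s := s) (Finsupp.support_sub.trans (by
      rw [union_comm]; exact subset_union_left))]
    have e : ∀ η, f η = ξ η ^ 2 := fun _ => rfl
    simp only [Finsupp.sub_apply, act_apply, hkg, e, abs_sq] at n1 n2 ⊢
    have pt : ∀ η, |ξ (k • η) ^ 2 - ξ η ^ 2| ≤ (2 / ε + ε / 4) * (ξ (k • η) ^ 2 + ξ η ^ 2)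
        - 4 / ε * (ξ η * ξ (k • η)) := fun η => by
      generalize ξ η = p, ξ (k • η) = q
      rw [show (2 / ε + ε / 4) * (q ^ 2 + p ^ 2) - 4 / ε * (p * q)
        = (16 * (q - p) ^ 2 + ε ^ 2 * (2 * q ^ 2 + 2 * p ^ 2)) / (8 * ε) by field_simp; ring,
        le_div_iff₀ (by positivity), ← abs_of_pos (by positivity : 0 < 8 * ε), ← abs_mul, abs_le]
      constructor <;> nlinarith [sq_nonneg (4 * (q - p) - ε * (q + p)),
        sq_nonneg (4 * (q - p) + ε * (q + p)), sq_nonneg (ε * (q - p))]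
    refine (Finset.sum_le_sum fun η _ => pt η).trans ?_
    rw [Finset.sum_sub_distrib, ← Finset.mul_sum, ← Finset.mul_sum, Finset.sum_add_distrib, ← n1,
      ← n2]
    have := mul_le_mul_of_nonneg_left (by linarith : 1 - ε ^ 2 / 8 ≤ _ ) (by positivity : 0 ≤ 4 / ε)
      |>.trans (mul_le_mul_of_nonneg_left I (by positivity))
    rw [show 4 / ε * (1 - ε ^ 2 / 8) = (2 / ε + ε / 4) * (1 + 1) - ε by field_simp; ring] at this
    linarith
  · have st : ∀ (g : MulAction.stabilizer G η) x, η (g.1 • x) = η x + (0, c g x) := fun g x => by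
      rw [← ap, g.2]
    have su : ∀ (g : MulAction.stabilizer G η) x, η (g.1 • x) = 0 ↔ η x = 0 := fun g x => by
      have := congrArg Prod.fst (st g x)
      simp only [Prod.fst_add, add_zero] at this
      exact ⟨fun h => hη x (by rw [← this, h]; rfl), fun h => hη _ (by rw [this, h]; rfl)⟩
    refine fin_orbit (Y := η.support → X) Subtype.val
      ((Set.Finite.pi' fun _ => η.support.finite_toSet).subset ?_) ?_
    · rintro _ ⟨g, rfl⟩ x
      exact Finsupp.mem_support_iff.2 fun h => Finsupp.mem_support_iff.1 x.2 ((su g x).1 h)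
    · refine amen_of_injective (((MulAction.stabilizer G η).subtype.comp (Subgroup.subtype _)).codRestrict
        H fun g => hH _ fun x => ?_) (fun a b h => Subtype.ext (Subtype.ext (Subtype.ext_iff.1 h :))) amH
      have h1 := congrArg Prod.snd (st g.1 x)
      by_cases hx : η x = 0
      · rw [(su g.1 x).2 hx, hx] at h1
        simpa using h1.symm
      · rw [show g.1.1 • x = x from congrFun g.2 ⟨x, Finsupp.mem_support_iff.2 hx⟩] at h1
        simpa using h1

/-- The form used later: recurrence from a height function with linear growth of the set of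
points whose height changes. -/
theorem amen_step {G X : Type*} [Group G] [MulAction G X] (c : G → X → ℤ)
    (hc : ∀ g h x, c (g * h) x = c g (h • x) + c h x)
    (hfin : ∀ g, {x | c g x ≠ 0}.Finite) (ht : X → ℕ)
    (hcnt : ∀ K : Finset G, ∃ (Λ : Set X) (C D : ℕ),
      (∀ g ∈ K, ∀ x, c g x ≠ 0 → x ∈ Λ) ∧ (∀ g ∈ K, ∀ x, g • x ∈ Λ ↔ x ∈ Λ) ∧
      (∀ n, {x | x ∈ Λ ∧ ht x ≤ n}.Finite) ∧
      (∀ g ∈ K, ∀ x ∈ Λ, ht (g • x) ≤ ht x + D ∧ ht x ≤ ht (g • x) + D) ∧
      (∀ g ∈ K, ∀ i, {x | x ∈ Λ ∧ ht x = i ∧ ht (g • x) ≠ i}.ncard ≤ C * (i + 1)))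
    (H : Subgroup G) (hH : ∀ g, (∀ x, c g x = 0) → g ∈ H) (amH : Amenable H) : Amenable G := by
  classical
  refine amen_EA c hc hfin (fun K ε hε => ?_) H hH amH
  obtain ⟨Λ, C, D, h1, h2, h3, h4, h5⟩ := hcnt K
  obtain ⟨a, ha⟩ : ∃ a : ℕ, ∀ g ∈ K, ∀ x, c g x ≠ 0 → ht x ≤ a ∧ ht (g • x) ≤ a :=
    ⟨K.sup fun g => (hfin g).toFinset.sup fun x => max (ht x) (ht (g • x)), fun g hg x hx =>
      max_le_iff.1 (le_trans (Finset.le_sup (f := fun x => max (ht x) (ht (g • x)))
        ((hfin g).mem_toFinset.2 hx)) (Finset.le_sup (f := fun g => (hfin g).toFinset.sup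
          fun x => max (ht x) (ht (g • x))) hg))⟩
  have h0 : ∀ i, 0 ≤ hm i := fun i => Finset.sum_nonneg fun _ _ => by positivity
  obtain ⟨A, hA, hA0⟩ : ∃ A : ℝ, A = C * (D * (D + 1)) ^ 2 ∧ 0 ≤ A := ⟨_, rfl, by positivity⟩
  obtain ⟨b, hb⟩ := (Real.tendsto_sum_range_one_div_nat_succ_atTop.eventually_gt_atTop
    (hm a + (1 + A * (hm a + D + 2) / ε))).exists
  rw [← hm] at hb
  obtain ⟨L, hL⟩ : ∃ L, L = hm b - hm a := ⟨_, rfl⟩
  have hp : 0 ≤ A * (hm a + D + 2) / ε := by have := h0 a; positivity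
  have L1 : 1 < L := by linarith
  let ψ : ℕ → ℝ := fun i => max (min ((hm b - hm i) / L) 1) 0
  have p0 : ∀ i, b ≤ i → ψ i = 0 := fun i hi => max_eq_right ((min_le_left _ _).trans
    (div_nonpos_of_nonpos_of_nonneg (sub_nonpos.2 (hm_step hi).1) (by linarith)))
  have p1 : ∀ i, i ≤ a → ψ i = 1 := fun i hi => by
    simp only [ψ]
    rw [min_eq_right ((one_le_div (by linarith)).2 (by linarith [(hm_step hi).1])),
      max_eq_left zero_le_one]
  refine ⟨fun x => if x ∈ Λ then ψ (ht x) else 0, (h3 b).subset fun x hx => ?_, fun x => ?_,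
    fun g hg x hx => ?_, fun g hg => ?_⟩
  · by_cases h : x ∈ Λ
    · exact ⟨h, by_contra fun h' => hx (by simp [p0 _ (not_le.1 h').le])⟩
    · simp [h] at hx
  · beta_reduce
    split_ifs
    · exact ⟨le_max_right _ _, max_le (min_le_right _ _) zero_le_one⟩
    · simp
  · simp [h1 g hg x hx, h2 g hg x, p1 _ (ha g hg x hx).1, p1 _ (ha g hg x hx).2]
  rw [finsum_eq_sum_of_support_subset (s := (h3 (b + D)).toFinset.filter fun x => ht (g • x) ≠ ht x),
    ← Finset.sum_fiberwise_of_maps_to (t := range (b + D + 1)) (g := ht) fun x hx => by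
      simp only [mem_filter, Set.Finite.mem_toFinset, Set.mem_ofPred_eq] at hx
      exact mem_range.2 (Nat.lt_succ_of_le hx.1.2)]
  · refine (Finset.sum_le_sum (g := fun i : ℕ => A / L ^ 2 * (1 / ((i : ℝ) + 1))) fun i _ => ?_).trans_lt ?_
    · refine (Finset.sum_le_card_nsmul _ _ ((D * (D + 1) / ((i : ℝ) + 1) / L) ^ 2) fun x hx => ?_).trans ?_
      · simp only [mem_filter, Set.Finite.mem_toFinset, Set.mem_ofPred_eq] at hx
        obtain ⟨⟨⟨a1, -⟩, -⟩, rfl⟩ := hx
        simp only [h2 g hg x, a1, if_true]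
        refine sq_le_sq' (neg_le_of_abs_le ?_) (le_of_abs_le ?_) <;>
        · refine (abs_max_sub_max_le_abs _ _ _).trans ((abs_min_sub_min_le_max _ _ _ _).trans ?_)
          rw [sub_self, abs_zero, max_eq_left (abs_nonneg _), ← sub_div, abs_div,
            abs_of_pos (by linarith : 0 < L), sub_sub_sub_cancel_left, abs_sub_comm]
          exact div_le_div_of_nonneg_right (hm_lip (h4 g hg x a1).1 (h4 g hg x a1).2) (by linarith)
      · have : (((h3 (b + D)).toFinset.filter fun x => ht (g • x) ≠ ht x).filter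
            fun x => ht x = i).card ≤ C * (i + 1) := by
          rw [← Set.ncard_coe_finset]
          refine le_trans (Set.ncard_le_ncard (fun x hx => ?_) ((h3 i).subset
            fun x hx => ⟨hx.1, hx.2.1.le⟩)) (h5 g hg i)
          simp only [coe_filter, mem_filter, Set.Finite.mem_toFinset, Set.mem_ofPred_eq] at hx
          exact ⟨hx.1.1.1, hx.2, hx.2 ▸ hx.1.2⟩
        rw [nsmul_eq_mul]
        refine (mul_le_mul_of_nonneg_right (Nat.cast_le.2 this) (by positivity)).trans (le_of_eq ?_)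
        rw [hA]
        push_cast
        field_simp
    · rw [← Finset.mul_sum, ← hm, div_mul_eq_mul_div, div_lt_iff₀ (by positivity)]
      have a1 : hm (b + D + 1) ≤ hm b + (D + 1) := by
        have := (hm_step (by omega : b ≤ b + D + 1)).2
        have h' : (((b + D + 1 : ℕ) : ℝ) - b) / (b + 1) ≤ ((b + D + 1 : ℕ) : ℝ) - b :=
          div_le_self (by push_cast; linarith [Nat.cast_nonneg (α := ℝ) D]) (by simp)
        push_cast at this h'
        linarith
      have a2 : hm (b + D + 1) ≤ (hm a + D + 2) * L := by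
        nlinarith [h0 a, Nat.cast_nonneg (α := ℝ) D]
      have a3 := (div_lt_iff₀ hε).1 (by linarith : A * (hm a + D + 2) / ε < L)
      nlinarith [mul_le_mul_of_nonneg_left a2 hA0, mul_lt_mul_of_pos_right a3 (by linarith : 0 < L)]
  · intro x hx
    simp only [Function.mem_support, h2 g hg x] at hx
    simp only [coe_filter, Set.Finite.mem_toFinset, Set.mem_ofPred_eq]
    by_cases h : x ∈ Λ
    · refine ⟨⟨h, by_contra fun h' => hx ?_⟩, fun h' => hx (by simp [h'])⟩
      have := h4 g hg x h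
      simp [p0 (ht x) (by omega), p0 (ht (g • x)) (by omega)]
    · simp [h] at hx

end Vale.Agent.P196
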