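import Mathlib.Data.Set.Card
import Mathlib.Data.Real.Basic
import Mathlib.Algebra.Group.Defs

namespace Vale.Agent.P196

/-- Følner's condition: for every finite `K ⊆ G` and `ε > 0` there is a nonempty finite `D ⊆ G`
with `|gD △ D| < ε |D|` for all `g ∈ K`. -/
def Amenable (G : Type*) [Group G] : Prop :=
  ∀ K : Set G, K.Finite → ∀ ε : ℝ, 0 < ε → ∃ D : Set G, D.Finite ∧ D.Nonempty ∧
    ∀ g ∈ K, ((symmDiff ((fun x => g * x) '' D) D).ncard : ℝ) < ε * (D.ncard : ℝ)

end Vale.Agent.P196
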