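import Mathlib
import Vale.Agent.P196.Defs

/-! Reiter functions, Namioka's trick and the extension lemma. -/

open Finset Finsupp

namespace Vale.Agent.P196.AmA

variable {G Y Z : Type*} [Group G]

noncomputable def nm (f : Y →₀ ℝ) : ℝ := ∑ y ∈ f.support, |f y|

lemma nm_eq {f : Y →₀ ℝ} {s : Finset Y} (h : f.support ⊆ s) : nm f = ∑ y ∈ s, |f y| :=
  Finset.sum_subset h fun y _ hy => by simp [Finsupp.notMem_support_iff.1 hy]

lemma nm_nonneg (f : Y →₀ ℝ) : 0 ≤ nm f := Finset.sum_nonneg fun _ _ => abs_nonneg _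

lemma nm_tri {u v w : Y →₀ ℝ} (h : ∀ y, |u y| ≤ |v y| + |w y|) : nm u ≤ nm v + nm w := by
  classical
  rw [nm_eq (s := u.support ∪ v.support ∪ w.support) (by intro; simp +contextual),
    nm_eq (f := v) (s := u.support ∪ v.support ∪ w.support) (by intro; simp +contextual),
    nm_eq (f := w) (s := u.support ∪ v.support ∪ w.support) (by intro; simp +contextual),
    ← Finset.sum_add_distrib]
  exact Finset.sum_le_sum fun y _ => h y

lemma nm_split {u v w : Y →₀ ℝ} (h : ∀ y, |u y| = |v y| + |w y|) : nm u = nm v + nm w := by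
  classical
  rw [nm_eq (s := u.support ∪ v.support ∪ w.support) (by intro; simp +contextual),
    nm_eq (f := v) (s := u.support ∪ v.support ∪ w.support) (by intro; simp +contextual),
    nm_eq (f := w) (s := u.support ∪ v.support ∪ w.support) (by intro; simp +contextual),
    ← Finset.sum_add_distrib]
  exact Finset.sum_congr rfl fun y _ => h y

lemma nm_smul (a : ℝ) (f : Y →₀ ℝ) : nm (a • f) = |a| * nm f := by
  rw [nm_eq Finsupp.support_smul, nm, Finset.mul_sum]
  simp [abs_mul]

lemma nm_sum {ι : Type*} (s : Finset ι) (F : ι → Y →₀ ℝ) :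
    nm (∑ i ∈ s, F i) ≤ ∑ i ∈ s, nm (F i) := by
  classical
  induction s using Finset.induction_on with
  | empty => simp [nm]
  | insert a s ha ih =>
    rw [Finset.sum_insert ha, Finset.sum_insert ha]
    exact (nm_tri fun y => abs_add_le _ _).trans (by linarith)

lemma nm_sum_eq {ι : Type*} (s : Finset ι) {F : ι → Y →₀ ℝ} (h : ∀ i y, 0 ≤ F i y) :
    nm (∑ i ∈ s, F i) = ∑ i ∈ s, nm (F i) := by
  classical
  induction s using Finset.induction_on with
  | empty => simp [nm]
  | insert a s ha ih =>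
    rw [Finset.sum_insert ha, Finset.sum_insert ha, ← ih]
    refine nm_split fun y => (abs_add_eq_add_abs_iff _ _).2 (Or.inl ⟨h _ _, ?_⟩)
    rw [Finsupp.finsetSum_apply]
    exact Finset.sum_nonneg fun i _ => h i y

lemma nm_map {φ : Y → Z} (h : Function.Injective φ) (f : Y →₀ ℝ) :
    nm (f.mapDomain φ) = nm f := by
  classical
  rw [nm, Finsupp.mapDomain_support_of_injective h, Finset.sum_image h.injOn]
  simp [nm, Finsupp.mapDomain_apply h]

lemma map_nonneg (φ : Y → Z) {f : Y →₀ ℝ} (h : ∀ y, 0 ≤ f y) (z : Z) : 0 ≤ f.mapDomain φ z :=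
  Finsupp.mapDomain_nonneg (f := φ) (g := f) h z

lemma act_apply {R : Type*} [AddCommMonoid R] [MulAction G Y] (g : G) (f : Y →₀ R) (y : Y) :
    f.mapDomain (g • ·) y = f (g⁻¹ • y) := by
  conv_lhs => rw [← smul_inv_smul g y]
  exact Finsupp.mapDomain_apply (MulAction.injective g) _ _

variable (G) in
def Rei [MulAction G Y] (Y0 : Set Y) : Prop :=
  ∀ (K : Finset G) (ε : ℝ), 0 < ε → ∃ f : Y →₀ ℝ, (∀ y, 0 ≤ f y) ∧ nm f = 1 ∧
    (f.support : Set Y) ⊆ Y0 ∧ ∀ g ∈ K, nm (f.mapDomain (g • ·) - f) ≤ ε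

open Classical in
noncomputable def ind (D : Finset Y) : Y →₀ ℝ :=
  Finsupp.onFinset D (fun y => if y ∈ D then 1 else 0) (by simp)

open Classical in
lemma ind_apply (D : Finset Y) (y : Y) : ind D y = if y ∈ D then 1 else 0 := rfl

lemma nm_ind (D : Finset Y) : nm (ind D) = D.card := by
  rw [nm_eq (f := ind D) (s := D) Finsupp.support_onFinset_subset,
    Finset.sum_congr rfl (g := fun _ => (1 : ℝ)) fun y hy => by simp [ind_apply, hy]]
  simp

lemma nm_ind_sub (D : Finset G) (g : G) : nm ((ind D).mapDomain (g • ·) - ind D)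
    = (symmDiff ((fun x => g * x) '' (D : Set G)) D).ncard := by
  classical
  rw [← Finset.coe_image, ← Finset.coe_symmDiff, Set.ncard_coe_finset, ← nm_ind, eq_comm,
    ← add_zero (nm (_ - _)), show (0 : ℝ) = nm (0 : G →₀ ℝ) by simp [nm]]
  refine nm_split fun y => ?_
  have : y ∈ D.image (fun x => g * x) ↔ g⁻¹ * y ∈ D := by
    rw [Finset.mem_image]
    exact ⟨by rintro ⟨x, hx, rfl⟩; simpa using hx, fun h => ⟨_, h, by simp⟩⟩
  rw [Finsupp.sub_apply, act_apply]
  simp only [ind_apply, Finset.mem_symmDiff, this, smul_eq_mul]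
  by_cases h1 : y ∈ D <;> by_cases h2 : g⁻¹ * y ∈ D <;> simp [h1, h2]

lemma rei_scale [MulAction G Y] {D : Finset Y} (hD : D.Nonempty) :
    (∀ y, 0 ≤ ((D.card : ℝ)⁻¹ • ind D) y) ∧ nm ((D.card : ℝ)⁻¹ • ind D) = 1 ∧
    (((D.card : ℝ)⁻¹ • ind D).support : Set Y) ⊆ D ∧ ∀ g : G, nm (((D.card : ℝ)⁻¹ • ind D).mapDomain
      (g • ·) - (D.card : ℝ)⁻¹ • ind D) = (D.card : ℝ)⁻¹ * nm ((ind D).mapDomain (g • ·) - ind D) := by
  have h : (0 : ℝ) < D.card := by exact_mod_cast hD.card_pos
  refine ⟨fun y => ?_, ?_, Finset.coe_subset.2 (Finsupp.support_smul.trans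
    Finsupp.support_onFinset_subset), fun g => ?_⟩
  · rw [Finsupp.smul_apply, ind_apply]; split_ifs <;> simp
  · rw [nm_smul, nm_ind, abs_of_pos (by positivity), inv_mul_cancel₀ h.ne']
  · rw [Finsupp.mapDomain_smul, ← smul_sub, nm_smul, abs_of_pos (by positivity)]

lemma rei_of_amen (h : Amenable G) : Rei G (Set.univ : Set G) := by
  intro K ε hε
  obtain ⟨D, h1, h2, h3⟩ := h K K.finite_toSet ε hε
  lift D to Finset G using h1
  have h2' : D.Nonempty := by simpa using h2
  obtain ⟨a1, a2, -, a4⟩ := rei_scale (G := G) h2'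
  refine ⟨_, a1, a2, Set.subset_univ _, fun g hg => ?_⟩
  rw [a4, nm_ind_sub, inv_mul_le_iff₀ (by exact_mod_cast h2'.card_pos), mul_comm]
  simpa using (h3 g hg).le

lemma namioka (K : Finset G) (ε : ℝ) (n : ℕ) : ∀ f : G →₀ ℝ, f.support.card ≤ n →
    (∀ y, 0 ≤ f y) → ∑ g ∈ K, nm (f.mapDomain (g • ·) - f) < ε * nm f →
    ∃ D : Finset G, D.Nonempty ∧ ∑ g ∈ K, nm ((ind D).mapDomain (g • ·) - ind D) < ε * D.card := by
  classical
  induction n with
  | zero =>
    intro f h1 _ h3
    obtain rfl : f = 0 := by simpa using h1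
    simp [nm] at h3
  | succ n ih =>
    intro f h1 h2 h3
    rcases f.support.eq_empty_or_nonempty with h0 | h0
    · exact ih f (by simp [h0]) h2 h3
    by_contra hcon
    push Not at hcon
    obtain ⟨a, ha, hm⟩ := f.support.exists_min_image f h0
    have z : ∀ y, y ∉ f.support → f y = 0 := fun y => Finsupp.notMem_support_iff.1
    have key : ∀ u v, |f u - f v| = |(f - f a • ind f.support) u - (f - f a • ind f.support) v|
        + |(f a • ind f.support) u - (f a • ind f.support) v| := by
      intro u v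
      simp only [Finsupp.sub_apply, Finsupp.smul_apply, ind_apply, smul_eq_mul]
      have := h2 a
      by_cases hu : u ∈ f.support <;> by_cases hv : v ∈ f.support
      · simp [hu, hv]
      · have := hm u hu
        simp only [hu, hv, z v hv, if_true, if_false, mul_one, mul_zero, sub_zero]
        rw [abs_of_nonneg (h2 u), abs_of_nonneg (by linarith), abs_of_nonneg (h2 a)]; ring
      · have := hm v hv
        simp only [hu, hv, z u hu, if_true, if_false, mul_one, mul_zero, sub_zero, zero_sub, abs_neg]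
        rw [abs_of_nonneg (h2 v), abs_of_nonneg (by linarith), abs_of_nonneg (h2 a)]; ring
      · simp [hu, hv, z u hu, z v hv]
    have pos : ∀ y, 0 ≤ (f - f a • ind f.support) y := fun y => by
      simp only [Finsupp.sub_apply, Finsupp.smul_apply, ind_apply, smul_eq_mul]
      split_ifs with hy
      · linarith [hm y hy]
      · simpa using h2 y
    have e1 : nm f = nm (f - f a • ind f.support) + f a * f.support.card := by
      rw [← nm_ind, ← abs_of_nonneg (h2 a), ← nm_smul, abs_of_nonneg (h2 a)]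
      refine nm_split fun y => ?_
      rw [abs_of_nonneg (h2 y), abs_of_nonneg (pos y), abs_of_nonneg]
      · simp
      · rw [Finsupp.smul_apply, ind_apply]; split_ifs <;> simp [h2]
    have e2 : ∀ g : G, nm (f.mapDomain (g • ·) - f) = nm ((f - f a • ind f.support).mapDomain (g • ·)
        - (f - f a • ind f.support)) + f a * nm ((ind f.support).mapDomain (g • ·)
          - ind f.support) := fun g => by
      rw [← abs_of_nonneg (h2 a), ← nm_smul, abs_of_nonneg (h2 a), smul_sub,
        ← Finsupp.mapDomain_smul]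
      refine nm_split fun y => ?_
      have t : ∀ u : G →₀ ℝ, (u.mapDomain (g • ·) - u) y = u (g⁻¹ • y) - u y := fun u => by
        rw [Finsupp.sub_apply, act_apply]
      rw [t, t, t]
      exact key _ _
    obtain ⟨D, d1, d2⟩ := ih (f - f a • ind f.support) (by
      refine Nat.lt_succ_iff.1 (lt_of_lt_of_le (Finset.card_lt_card ⟨fun y hy => ?_, fun h => ?_⟩) h1)
      · by_contra hn
        simp [ind_apply, hn, z y hn] at hy
      · simpa [ind_apply, ha] using h ha) pos (by
      simp only [e2, Finset.sum_add_distrib, ← Finset.mul_sum] at h3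
      rw [e1] at h3
      nlinarith [mul_le_mul_of_nonneg_left (hcon _ h0) (h2 a)])
    exact absurd d2 (not_lt.2 (hcon D d1))

lemma amen_of_rei {Y0 : Set G} (h : Rei G Y0) : Amenable G := by
  intro K hK ε hε
  lift K to Finset G using hK
  obtain ⟨f, h1, h2, -, h4⟩ := h K (ε / (K.card + 1)) (by positivity)
  obtain ⟨D, d1, d2⟩ := namioka K ε _ f le_rfl h1 (by
    refine (Finset.sum_le_card_nsmul _ _ _ h4).trans_lt ?_
    rw [h2, nsmul_eq_mul, mul_div_assoc', div_lt_iff₀ (by positivity)]
    nlinarith)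
  refine ⟨D, D.finite_toSet, by simpa using d1, fun g hg => ?_⟩
  rw [← nm_ind_sub, Set.ncard_coe_finset]
  exact (Finset.single_le_sum (f := fun g : G => nm ((ind D).mapDomain (g • ·) - ind D))
    (fun _ _ => nm_nonneg _) hg).trans_lt d2

lemma ext0 [MulAction G Y] {Y0 : Set Y} (h : Rei G Y0)
    (hs : ∀ y ∈ Y0, ∀ g : G, Amenable (MulAction.stabilizer G (g • y))) : Amenable G := by
  classical
  refine amen_of_rei (Y0 := Set.univ) fun K ε hε => ?_
  obtain ⟨f, h1, h2, h3, h4⟩ := h K (ε / 2) (by positivity)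
  let r : Y → Y := fun y => (Quotient.mk (MulAction.orbitRel G Y) y).out
  have hr : ∀ (g : G) y, r (g • y) = r y := fun g y =>
    congrArg Quotient.out (Quotient.sound (MulAction.mem_orbit y g))
  have hs' : ∀ y, ∃ s : G, s • r y = y := fun y =>
    (MulAction.orbitRel G Y).symm (Quotient.mk_out (s := MulAction.orbitRel G Y) y)
  choose s hs' using hs'
  have hφ : ∀ z : Y, ∃ φ : G →₀ ℝ, (∀ u, 0 ≤ φ u) ∧ nm φ = 1 ∧ ∀ g ∈ K, ∀ y ∈ f.support, r y = z →
      nm (φ.mapDomain (((s (g • y))⁻¹ * g * s y) • ·) - φ) ≤ ε / 2 := by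
    intro z
    by_cases hz : ∃ y ∈ f.support, r y = z
    · obtain ⟨y0, hy0, rfl⟩ := hz
      have am := hs y0 (h3 hy0) (s y0)⁻¹
      rw [show (s y0)⁻¹ • y0 = r y0 from inv_smul_eq_iff.2 (hs' y0).symm] at am
      obtain ⟨φ, a1, a2, -, a4⟩ := rei_of_amen am (((K ×ˢ f.support).image fun p =>
        (s (p.1 • p.2))⁻¹ * p.1 * s p.2).subtype _) (ε / 2) (by positivity)
      refine ⟨φ.mapDomain Subtype.val, map_nonneg _ a1, by rw [nm_map Subtype.val_injective, a2],
        fun g hg y hy hyz => ?_⟩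
      have hm : (s (g • y))⁻¹ * g * s y ∈ MulAction.stabilizer G (r y0) := by
        rw [MulAction.mem_stabilizer_iff, mul_smul, mul_smul, inv_smul_eq_iff, ← hyz, hs', ← hr g,
          hs']
      refine le_of_eq_of_le ?_ (a4 ⟨_, hm⟩ (Finset.mem_subtype.2 (Finset.mem_image.2
        ⟨(g, y), Finset.mem_product.2 ⟨hg, hy⟩, rfl⟩)))
      rw [← nm_map Subtype.val_injective (_ - _), Finsupp.mapDomain_sub, ← Finsupp.mapDomain_comp,
        ← Finsupp.mapDomain_comp]
      rfl
    · exact ⟨single 1 1, fun u => Finsupp.single_nonneg.2 zero_le_one u, by simp [nm],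
        fun g _ y hy e => absurd ⟨y, hy, e⟩ hz⟩
  choose φ p1 p2 p3 using hφ
  let P : Y → G →₀ ℝ := fun y => (φ (r y)).mapDomain (s y • ·)
  have nP : ∀ y, nm (P y) = 1 := fun y => by rw [nm_map (MulAction.injective _), p2]
  have L : ∀ u : Y →₀ ℝ, nm (linearCombination ℝ P u) ≤ nm u := fun u => by
    rw [linearCombination_apply, Finsupp.sum]
    exact (nm_sum _ _).trans (le_of_eq (by simp only [nm_smul, nP, mul_one]; rfl))
  have pos : ∀ y u, 0 ≤ (f y • P y) u := fun y u => mul_nonneg (h1 y) (map_nonneg _ (p1 _) u)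
  refine ⟨linearCombination ℝ P f, fun u => ?_, ?_, Set.subset_univ _, fun g hg => ?_⟩
  · rw [linearCombination_apply, Finsupp.sum, Finsupp.finsetSum_apply]
    exact Finset.sum_nonneg fun y _ => pos y u
  · rw [linearCombination_apply, Finsupp.sum, nm_sum_eq _ pos, ← h2]
    simp only [nm_smul, nP, mul_one]; rfl
  · have e : (linearCombination ℝ P f).mapDomain (g • ·) - linearCombination ℝ P f
        = ∑ y ∈ f.support, f y • ((P y).mapDomain (g • ·) - P (g • y))
          + linearCombination ℝ P (f.mapDomain (g • ·) - f) := by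
      rw [map_sub, linearCombination_mapDomain, linearCombination_apply, linearCombination_apply,
        Finsupp.sum, Finsupp.sum, Finsupp.mapDomain_finsetSum]
      simp [smul_sub, Finsupp.mapDomain_smul]
    rw [e]
    refine (nm_tri fun y => abs_add_le _ _).trans ?_
    have a1 := (L _).trans (h4 g hg)
    have a2 : nm (∑ y ∈ f.support, f y • ((P y).mapDomain (g • ·) - P (g • y))) ≤ nm f * (ε / 2) := by
      rw [nm, ← nm, nm, ← nm, show nm f = ∑ y ∈ f.support, |f y| from rfl, Finset.sum_mul]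
      refine (nm_sum _ _).trans (Finset.sum_le_sum fun y hy => ?_)
      rw [nm_smul]
      refine mul_le_mul_of_nonneg_left (le_of_eq_of_le ?_ (p3 _ g hg y hy rfl)) (abs_nonneg _)
      rw [← nm_map (MulAction.injective (s (g • y))) (_ - φ _), Finsupp.mapDomain_sub,
        ← Finsupp.mapDomain_comp, ← Finsupp.mapDomain_comp, ← hr g y]
      simp only [P, hr]
      congr 3
      funext u
      simp [mul_assoc]
    rw [h2] at a2
    linarith

end Vale.Agent.P196.AmA
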