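import Vale.Agent.P196.AmenH
import Vale.Agent.P196.Amen

/-! Job H: local finiteness of the bottom group, amenability, and finite presentation from the
`Tri` structure.  See notes/P196.md, part H. -/

namespace Vale.Agent.P196

open Equiv

/-- the bottom group is locally finite -/
theorem locfin (s : Finset (Perm YY)) (hs : ∀ g ∈ s, g ∈ GG ∧ ∀ y, R0 (g y) y) :
    (Subgroup.closure (s : Set (Perm YY)) : Set (Perm YY)).Finite := HG.locfin s hs

namespace HG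

def EQ : Setoid YY := ⟨fun y y' => Eqv y.1 y'.1 ∧ y.2 = y'.2, fun _ => ⟨Eqv.refl _, rfl⟩,
  fun h => ⟨h.1.symm, h.2.symm⟩, fun h h' => ⟨h.1.trans h'.1, h.2.trans h'.2⟩⟩

lemma EQ_smul {g} (hg : g ∈ GG) {y y' : YY} (h : EQ y y') : EQ (g y) (g y') := by
  obtain ⟨x, i⟩ := y
  obtain ⟨x', _⟩ := y'
  obtain ⟨h, rfl⟩ := h
  exact eqv_smul hg h i

@[reducible] def actX {P : Subgroup (Perm YY)} (hP : P ≤ GG) : MulAction P (Quotient EQ) where
  smul g := Quotient.map g.1 fun _ _ => EQ_smul (hP g.2)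
  one_smul := by rintro ⟨y⟩; rfl
  mul_smul a b := by rintro ⟨y⟩; rfl

open Classical in
noncomputable def code (y : YY) : List Cell × Ix × Lab × ℤ :=
  (pre y.1, y.2, lab (zz y.1), if IsC y.1 then (zz y.1 1).2.v else 0)

lemma code_inj {y y' : YY} (a : Sing y.1) (b : Sing y'.1) (e : code y = code y') : EQ y y' := by
  simp only [code, Prod.mk.injEq] at e
  refine ⟨eqv_of_vis a b e.1.symm e.2.2.1.symm ?_, e.2.1⟩
  have k := e.2.2.2
  by_cases c : IsC y.1 <;> by_cases c' : IsC y'.1 <;> simp only [c, c', if_true, if_false] at k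
  · exact .inl (L.ext (c'.2.trans c.2.symm) k.symm)
  · exact absurd ((zz y.1 1).2.pos c.2) (by omega)
  · exact absurd ((zz y'.1 1).2.pos c'.2) (by omega)
  · exact .inr ⟨⟨a, by simpa [IsC, a] using c⟩, b, by simpa [IsC, b] using c'⟩

lemma count (M : ℕ) {𝓛 : Set (List Cell)} (h : 𝓛.Finite) {A : Set (Quotient EQ)}
    (hA : ∀ x ∈ A, Sing x.out.1 ∧ (IsC x.out.1 → (zz x.out.1 1).2.v ≤ M) ∧ pre x.out.1 ∈ 𝓛) :
    A.Finite ∧ A.ncard ≤ 𝓛.ncard * (Nat.card Ix * (Nat.card Lab * (M + 1))) := by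
  have fin : (𝓛 ×ˢ (Set.univ : Set Ix) ×ˢ (Set.univ : Set Lab) ×ˢ Set.Icc (0 : ℤ) M).Finite :=
    h.prod (Set.finite_univ.prod (Set.finite_univ.prod (Set.finite_Icc _ _)))
  have mp : ∀ x ∈ A, code x.out ∈
      𝓛 ×ˢ (Set.univ : Set Ix) ×ˢ (Set.univ : Set Lab) ×ˢ Set.Icc (0 : ℤ) M := fun x hx => by
    refine ⟨(hA x hx).2.2, trivial, trivial, ?_⟩
    by_cases c : IsC x.out.1 <;> simp only [code, c, if_true, if_false, Set.mem_Icc]
    · exact ⟨zero_le_one.trans ((zz x.out.1 1).2.pos c.2), (hA x hx).2.1 c⟩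
    · omega
  have inj : Set.InjOn (fun x : Quotient EQ => code x.out) A := fun x hx y hy e =>
    Quotient.out_equiv_out.1 (code_inj (hA x hx).1 (hA y hy).1 e)
  refine ⟨Set.Finite.of_finite_image (fin.subset (by rintro _ ⟨x, hx, rfl⟩; exact mp x hx)) inj,
    (Set.ncard_le_ncard_of_injOn _ mp inj fin).trans_eq ?_⟩
  simp [Set.ncard_prod, ← Finset.coe_Icc]

def mkL (v : ℤ) : L := ⟨false, max v 1, fun _ => le_max_right _ _⟩

lemma mkL_eq {g : L} (h : g.inf = false) {v : ℤ} (e : v = g.v) : mkL v = g :=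
  L.ext h.symm (e.symm ▸ max_eq_left (g.pos h))

lemma short (s : Finset (List Cell)) (i : ℕ) : ∃ 𝓛 : Finset (List Cell),
    𝓛.card ≤ s.card * 12 * (i + 1) ∧ ∀ c ∈ s, ∀ d : List Cell, d.length ≤ 2 → FinC (c ++ d) →
      lvl (c ++ d) = i → c ++ d ∈ 𝓛 := by
  classical
  refine ⟨(s ×ˢ Finset.range 3 ×ˢ (Finset.univ : Finset (Bool × Bool)) ×ˢ Finset.range (i + 1)).image
    fun p => p.1 ++ List.take p.2.1 [(p.2.2.1.1, mkL p.2.2.2),
      (p.2.2.1.2, mkL (i - lvl p.1 - p.2.2.2))], Finset.card_image_le.trans_eq (by simp; ring),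
    fun c hc d h1 h2 h3 => Finset.mem_image.2 ?_⟩
  rw [finC_append] at h2
  have := lvl_nonneg h2.1
  rcases d with _ | ⟨a, _ | ⟨b, _ | ⟨e, d⟩⟩⟩
  · exact ⟨(c, 0, (true, true), 0), by simp [hc], rfl⟩
  all_goals simp only [finC_cons, lvl_append, lvl_cons, lvl_nil, List.length_cons] at h1 h2 h3
  · have := a.2.pos h2.2.1
    exact ⟨(c, 1, (a.1, true), a.2.v.toNat), by simp [hc]; omega, by
      simp only [List.take, mkL_eq h2.2.1 (show (a.2.v.toNat : ℤ) = a.2.v by omega)]⟩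
  · have := a.2.pos h2.2.1
    have := b.2.pos h2.2.2.1
    exact ⟨(c, 2, (a.1, b.1), a.2.v.toNat), by simp [hc]; omega, by
      simp only [List.take, mkL_eq h2.2.2.1 (show (i : ℤ) - lvl c - a.2.v.toNat = b.2.v by omega),
        mkL_eq h2.2.1 (show (a.2.v.toNat : ℤ) = a.2.v by omega)]⟩
  · omega

lemma ht_ctl {g} (hg : g ∈ GG) : ∃ (D : ℕ) (s : Finset (List Cell)), ∀ y : YY, Sing y.1 →
    |lvl (pre (g y).1) - lvl (pre y.1)| ≤ D ∧ (lvl (pre (g y).1) ≠ lvl (pre y.1) →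
      ∃ c ∈ s, ∃ d : List Cell, d.length ≤ 2 ∧ pre y.1 = c ++ d) := by
  classical
  obtain ⟨s, hs⟩ := cover (Q := fun (r : List Cell × List Cell × Dl) y =>
    Basic r.1 r.2.1 r.2.2 y.1 (g y).1) fun y =>
      let ⟨k, c, c', Δ, _, h, _⟩ := nice hg y.1 y.2; ⟨(c, c', Δ), k, fun x e => (h x e).2⟩
  refine ⟨s.sup fun r => (|r.2.2.n0| + |r.2.2.n1| + |r.2.2.n2|).toNat, s.image (·.1), fun y hy => ?_⟩
  obtain ⟨r, a, b⟩ := hs y
  have := Finset.le_sup (f := fun r : List Cell × List Cell × Dl =>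
    (|r.2.2.n0| + |r.2.2.n1| + |r.2.2.n2|).toNat) a
  exact ⟨(basic_ht b hy).1.trans (by omega),
    fun e => ⟨_, Finset.mem_image_of_mem _ a, (basic_ht b hy).2 e⟩⟩

lemma kind_sing {x x'} (h : kind x' = kind x) (hs : Sing x) : Sing x' :=
  by_contra fun e => by simp [kind, hs, e] at h

theorem step {P Q : Subgroup (Perm YY)} (hP : P ≤ GG) (hQP : Q ≤ P) (Sg : Om → Prop) (φ : Om → ℤ)
    (hS : ∀ {x x'}, kind x' = kind x → (Sg x' ↔ Sg x)) (sing : ∀ {x}, Sg x → Sing x)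
    (H1 : ∀ g ∈ GG, ∀ x x' i, Sg x → Eqv x x' → φ (g (x', i)).1 - φ x' = φ (g (x, i)).1 - φ x)
    (H2 : ∀ g ∈ P, ∃ B : Finset YY, ∀ y : YY, Sg y.1 → φ (g y).1 ≠ φ y.1 → ∃ b ∈ B, EQ y b)
    (H3 : ∀ g ∈ P, ∃ B : Finset YY, ∀ y : YY, Sg y.1 → IsC y.1 →
      (zz (g y).1 1).2 ≠ (zz y.1 1).2 → ∃ b ∈ B, EQ y b)
    (hQ : ∀ g ∈ P, (∀ y : YY, Sg y.1 → φ (g y).1 = φ y.1) → g ∈ Q) (am : Amenable Q) :
    Amenable P := by
  classical
  let := actX hP
  have o1 : ∀ (g : P) (x : Quotient EQ), EQ (g.1 x.out) (g • x).out := fun g x =>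
    Quotient.exact (s := EQ) (by
      rw [Quotient.out_eq]; exact congrArg (g • ·) (Quotient.out_eq x))
  have H1' : ∀ g ∈ GG, ∀ y y' : YY, Sg y.1 → EQ y y' → φ (g y').1 - φ y'.1 = φ (g y).1 - φ y.1 := by
    rintro g hg ⟨x, i⟩ ⟨x', _⟩ a ⟨b, rfl⟩; exact H1 g hg x x' i a b
  have kE : ∀ {y y' : YY}, EQ y y' → kind y'.1 = kind y.1 := fun {y y'} e => by
    by_cases a : Sing y.1
    · exact (e.1.vis a).2.2.2.2.2.1
    · rw [((reg_iff _).2 a).eq_of_eqv e.1]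
  have k1 : ∀ (g : P) (x : Quotient EQ), kind (g • x).out.1 = kind x.out.1 := fun g x =>
    (kE (o1 g x)).trans (kind_inv (hP g.2) _)
  have nz : ∀ {g : P} {x : Quotient EQ}, (if Sg x.out.1 then φ (g.1 x.out).1 - φ x.out.1 else 0) ≠ 0 →
      Sg x.out.1 ∧ φ (g.1 x.out).1 ≠ φ x.out.1 := fun h => by
    split_ifs at h with a
    exacts [⟨a, sub_ne_zero.1 h⟩, absurd rfl h]
  choose! B2 b2 using H2
  choose! B3 b3 using H3
  refine amen_step (fun (g : P) (x : Quotient EQ) =>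
    if Sg x.out.1 then φ (g.1 x.out).1 - φ x.out.1 else 0) (fun g h x => ?_) (fun g => ?_)
    (fun x => ht x.out.1) (fun K => ?_) (Q.subgroupOf P) (fun g h => hQ g g.2 fun y hy => ?_)
    (amen_of_injective (Subgroup.subgroupOfEquivOfLe hQP).toMonoidHom (MulEquiv.injective _) am)
  · by_cases a : Sg x.out.1
    · rw [if_pos a, if_pos a, if_pos ((hS (k1 h x)).2 a),
        H1' g (hP g.2) _ _ ((hS (kind_inv (hP h.2) _)).2 a) (o1 h x)]
      exact (sub_add_sub_cancel _ _ _).symm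
    · rw [if_neg a, if_neg a, if_neg ((hS (k1 h x)).not.2 a), add_zero]
  · refine (((B2 g).image (Quotient.mk EQ)).finite_toSet).subset fun x hx => ?_
    obtain ⟨b, c1, c2⟩ := b2 g g.2 _ (nz hx).1 (nz hx).2
    exact Finset.mem_coe.2 (Finset.mem_image.2 ⟨b, c1, (Quotient.out_eq x ▸ Quotient.sound c2 :).symm⟩)
  swap
  · have := h (Quotient.mk EQ y)
    have e : EQ y (Quotient.mk EQ y).out := EQ.symm (Quotient.mk_out y)
    rwa [if_pos ((hS (kE e)).2 hy), H1' g (hP g.2) _ _ hy e, sub_eq_zero] at this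
  obtain ⟨M, hM⟩ : ∃ M : ℕ, ∀ g ∈ K, ∀ b ∈ B2 g ∪ B3 g,
      (zz b.1 1).2.v ≤ M ∧ (zz (g.1 b).1 1).2.v ≤ M := by
    refine ⟨K.sup fun g => (B2 g ∪ B3 g).sup fun b =>
      max (zz b.1 1).2.v.toNat (zz (g.1 b).1 1).2.v.toNat, fun g hg b hb => ?_⟩
    have := (Finset.le_sup (f := fun b : YY => max (zz b.1 1).2.v.toNat (zz (g.1 b).1 1).2.v.toNat)
      hb).trans (Finset.le_sup (f := fun g : P => (B2 g ∪ B3 g).sup fun b =>
        max (zz b.1 1).2.v.toNat (zz (g.1 b).1 1).2.v.toNat) hg)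
    omega
  have gE : ∀ {y y' : YY}, EQ y y' → IsC y.1 → (zz y'.1 1).2 = (zz y.1 1).2 :=
    fun e c => (e.1.vis c.1).2.2.2.2.1 c
  choose! D s hD using fun g : P => ht_ctl (hP g.2)
  have pe : ∀ (g : P) (x : Quotient EQ), Sg x.out.1 → pre (g • x).out.1 = pre (g.1 x.out).1 :=
    fun g x a => ((o1 g x).1.vis (kind_sing (kind_inv (hP g.2) _) (sing a))).2.1
  refine ⟨{x | Sg x.out.1 ∧ (IsC x.out.1 → (zz x.out.1 1).2.v ≤ M)},
    (K.biUnion s).card * 12 * (Nat.card Ix * (Nat.card Lab * (M + 1))), K.sup D,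
    fun g hg x hx => ⟨(nz hx).1, fun c => ?_⟩, fun g hg x => ?_,
    fun n => (count M (fin_list n) fun x hx => ⟨sing hx.1.1, hx.1.2, finC_pre _, ?_⟩).1,
    fun g hg x hx => ?_, fun g hg i => ?_⟩
  · obtain ⟨b, c1, c2⟩ := b2 g g.2 _ (nz hx).1 (nz hx).2
    exact gE c2 c ▸ (hM g hg b (Finset.mem_union_left _ c1)).1
  · simp only [Set.mem_ofPred_eq, hS (k1 g x), (kind_isOm (k1 g x)).2]
    refine and_congr_right fun a => forall_congr' fun c => ?_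
    have c' := (kind_isOm (kind_inv (hP g.2) x.out)).2.2 c
    rw [gE (o1 g x) c']
    by_cases e : (zz (g.1 x.out).1 1).2 = (zz x.out.1 1).2
    · rw [e]
    obtain ⟨b, c1, c2⟩ := b3 g g.2 _ a c e
    have := hM g hg b (Finset.mem_union_right _ c1)
    rw [gE c2 c, gE (EQ_smul (hP g.2) c2) c'] at this
    exact iff_of_true this.2 this.1
  · have := hx.2
    simp only [ht] at this
    omega
  · have := abs_le.1 (hD g x.out (sing hx.1)).1
    have := Finset.le_sup (f := D) hg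
    have := lvl_nonneg (finC_pre x.out.1)
    have := lvl_nonneg (finC_pre (g.1 x.out).1)
    simp only [ht, pe g x hx.1]
    omega
  obtain ⟨𝓛, l1, l2⟩ := short (K.biUnion s) i
  refine (count M 𝓛.finite_toSet fun x hx => ⟨sing hx.1.1, hx.1.2, ?_⟩).2.trans ?_
  · obtain ⟨⟨a, -⟩, c1, c2⟩ := hx
    have := lvl_nonneg (finC_pre x.out.1)
    simp only [ht, pe g x a] at c1 c2
    obtain ⟨c, d1, d, d2, d3⟩ := (hD g x.out (sing a)).2 fun e => c2 (e ▸ c1)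
    rw [d3]
    exact l2 c (Finset.mem_biUnion.2 ⟨g, hg, d1⟩) d d2 (d3 ▸ finC_pre _) (by rw [← d3]; omega)
  · rw [Set.ncard_coe_finset, mul_right_comm _ _ (i + 1)]
    exact Nat.mul_le_mul_right _ l1

lemma side_H1 : ∀ g ∈ GG, ∀ x x' i, Sing x → Eqv x x' →
    chi (side (g (x', i)).1) - chi (side x') = chi (side (g (x, i)).1) - chi (side x) :=
  fun g hg x x' i a e => by
    rw [(e.vis a).2.2.2.2.2.2,
      ((eqv_smul hg e i).1.vis (kind_sing (kind_inv hg (x, i)) a)).2.2.2.2.2.2]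

lemma chi_inj {a b : Bool} (h : chi a = chi b) : a = b := by
  cases a <;> cases b <;> simp_all [chi]

lemma omC {x} (a : IsOm x) (b : IsC x) : False := by simpa [a.2] using b.2

end HG

open HG

theorem GG_amenable : Amenable GG := by
  have a0 : Amenable (GG ⊓ PR (Perm YY) R0 :) := amen_of_locFin fun s => by
    classical
    refine Set.Finite.of_finite_image ((locfin (s.image (Subgroup.subtype _)) fun g h => ?_).subset ?_)
      (Subgroup.subtype_injective _).injOn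
    · obtain ⟨g, -, rfl⟩ := Finset.mem_image.1 h
      exact g.2
    · rw [Finset.coe_image, ← MonoidHom.map_closure, Subgroup.coe_map]
  have a1 := step (P := GG ⊓ PR (Perm YY) R1) (Q := GG ⊓ PR (Perm YY) R0) inf_le_left
    (fun g h => ⟨h.1, fun y => (h.2 y).1⟩) IsC (fun x => chi (side x)) (fun h => (kind_isOm h).2)
    (fun h => h.1) (fun g hg x x' i a => side_H1 g hg x x' i a.1)
    (fun g h => (fs2 h.1 fun y => (h.2 y).1).imp fun B hB y a e =>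
      hB y (.inr ⟨a, fun k => e (congrArg chi k)⟩))
    (fun g h => (fs3 h.1 h.2).imp fun B hB y a _ => hB y a)
    (fun g h k => ⟨h.1, fun y => ⟨h.2 y, fun a => chi_inj (k y a)⟩⟩) a0
  have a2 := step (P := GG ⊓ PR (Perm YY) R2) (Q := GG ⊓ PR (Perm YY) R1) inf_le_left
    (fun g h => ⟨h.1, fun y => (h.2 y).1⟩) IsOm hh (fun h => (kind_isOm h).1)
    (fun h => h.1) (fun g hg x x' i a e => hh_eqv hg a.1 e i)
    (fun g h => (fs2 h.1 h.2).imp fun B hB y a e => hB y (.inl ⟨a, e⟩))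
    (fun g h => ⟨∅, fun y a b => (omC a b).elim⟩) (fun g h k => ⟨h.1, fun y => ⟨h.2 y, k y⟩⟩) a1
  exact step (Q := GG ⊓ PR (Perm YY) R2) le_rfl inf_le_left IsOm (fun x => chi (side x)) (fun h => (kind_isOm h).1)
    (fun h => h.1) (fun g hg x x' i a => side_H1 g hg x x' i a.1)
    (fun g h => (fs1 h).imp fun B hB y a e => hB y a fun k => e (congrArg chi k))
    (fun g h => ⟨∅, fun y a b => (omC a b).elim⟩)
    (fun g h k => ⟨h, fun y => ⟨kind_inv h y, fun a => chi_inj (k y a)⟩⟩) a2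

theorem GG_fp {E : Type} [Group E] [MulAction E YY] (𝒯 : Tri E YY)
    (hE : Group.IsFinitelyPresented E) (hr : (MulAction.toPermHom E YY).range = GG)
    (hc : ∀ O, 𝒯.Clop O ↔ Clop O) : Group.IsFinitelyPresented GG := by
  classical
  have pg : ∀ g : E, MulAction.toPermHom E YY g ∈ GG := fun g => hr ▸ ⟨g, rfl⟩
  have ns : ∀ {y y' : YY}, ¬ 𝒯.Sep y y' ↔ Eqv y.1 y'.1 ∧ y.2 = y'.2 := by
    simp only [Tri.Sep, hc, sep_iff, not_not, implies_true]
  have nb : ∀ {Q : YY → Prop} {y : YY}, (∃ k, ∀ x, Sim k y.1 x → Q (x, y.2)) →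
      ∃ A, 𝒯.Clop A ∧ y ∈ A ∧ ∀ y' ∈ A, Q y' := fun h => by simpa only [hc] using nbhd h
  have un : ∀ (g : E) (y : YY), ¬ 𝒯.Sep (g • y) y → (IsOm y.1 → hh (g • y).1 = hh y.1) →
      ∃ A, 𝒯.Clop A ∧ y ∈ A ∧ ∀ y' ∈ A, g • y' = y' := fun g y a b =>
    nb (uniq (pg g) y.1 y.2 (ns.1 a).1 (ns.1 a).2 b)
  have cn : ∀ (y y' : YY) {x}, Conn y.1 x → Eqv x y'.1 → ∃ g : E, ¬ 𝒯.Sep (g • y) y' ∧ (g • y).1 = x :=
    fun y y' x a b => by
      obtain ⟨g, h, e⟩ := exists_conn a y.2 y'.2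
      obtain ⟨g, rfl⟩ := hr.ge h
      have e' : g • y = (x, y'.2) := e
      exact ⟨g, ns.2 (e' ▸ ⟨b, rfl⟩), congrArg _ e'⟩
  have mn : ∀ y₀ : YY, Sing y₀.1 → ∀ (B : Finset YY) (b : Bool), ∃ y : YY, kind y.1 = kind y₀.1 ∧
      side y.1 = b ∧ ∀ y' ∈ B, 𝒯.Sep y y' := fun y₀ a B b =>
    let ⟨x, c1, c2, c3⟩ := many a (B.image (·.1)) b
    ⟨(x, y₀.2), c1, c2, fun y' h => by_contra fun e => c3 _ (Finset.mem_image_of_mem _ h) (ns.1 e).1⟩
  have ki : ∀ (g : E) (y : YY), kind (g • y).1 = kind y.1 := fun g => kind_inv (pg g)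
  have vs : ∀ {y y' : YY}, Sing y.1 → ¬ 𝒯.Sep y y' → kind y'.1 = kind y.1 ∧ side y'.1 = side y.1 :=
    fun a e => ((ns.1 e).1.vis a).2.2.2.2.2
  have h1 : ∀ (g : E) (y : YY), IsOm y.1 → ∀ y', ¬ 𝒯.Sep y y' →
      hh (g • y').1 - hh y'.1 = hh (g • y).1 - hh y.1 := by
    rintro g ⟨x, i⟩ a ⟨x', _⟩ e
    obtain ⟨e, rfl⟩ := ns.1 e
    exact hh_eqv (pg g) a.1 e i
  have h3 : ∀ y y' : YY, IsOm y.1 → kind y.1 = kind y'.1 → ∀ m : ℤ,
      ∃ g : E, ¬ 𝒯.Sep (g • y) y' ∧ hh (g • y).1 = m := fun y y' a e m =>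
    let ⟨_, c1, c2, c3⟩ := trans_om a e.symm m
    let ⟨g, d1, d2⟩ := cn y y' c1 c2
    ⟨g, d1, d2 ▸ c3⟩
  have sp : ∀ {x : Om} {y : YY}, 𝒯.Sep (x, y.2) y → ¬ Eqv x y.1 := fun {x y} a e => (ns (y := (x, y.2))).2 ⟨e, rfl⟩ a
  have z0 : 𝒯.ZR R0 = ⊥ := 𝒯.fin R0 (fun s h => by
    rw [MonoidHom.map_closure, ← Finset.coe_image]
    refine locfin _ fun g k => ?_
    obtain ⟨g, k', rfl⟩ := Finset.mem_image.1 k
    exact ⟨pg g, h k'⟩) fun g h y a => un g y a (h y).1.2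
  have z1 : (𝒯.ZR R1).FG := 𝒯.stage R1 R0 1 (.inr rfl) false {y | IsC y.1} (fun y => kind y.1) 0
    (fun y => side y.1) (fun _ _ => Iff.rfl) (fun _ _ h => ⟨(kind_isOm h.1.1).2, fun _ => h.1.1⟩)
    (fun y a y' e => ⟨(kind_isOm (vs a.1 e).1).2.2 a, vs a.1 e⟩) (fun _ _ _ _ _ => rfl)
    (fun g h => (fs2 (pg g) fun y => (h y).1).imp fun B hB y a e => by
      simpa only [ns] using hB y (.inr ⟨a, e⟩))
    (fun y a y' _ e m => let ⟨_, c1, c2⟩ := trans_C a e.symm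
      (cn y y' c1 c2).imp fun g h => ⟨h.1, Subsingleton.elim _ _⟩)
    (fun g y a _ _ => nb (let ⟨k, hk⟩ := locA (pg g) y.1 y.2; ⟨k, fun x e =>
      have t := fun (o : IsOm x) => (hk x e (fun q => omC ((kind_isOm (q.vis o.1).2.2.2.2.2.1).1.2 o) a)
        o.1).2.1 fun o => (omC o a).elim
      ⟨⟨⟨ki g _, fun o => (t o).1⟩, fun o => (t o).2 o⟩,
        fun c q => ((hk x e (sp q) c.1).2.1 fun o => (omC o a).elim).1⟩⟩))
    (fun g y a b _ => un g y b fun o => (omC o a).elim)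
    (fun y a B b => (mn y a.1 B b).imp fun y h => ⟨(kind_isOm h.1).2.2 a, h.1, fun _ => h.2.1, h.2.2⟩)
    (z0 ▸ Subgroup.FG.bot)
  have z2 : (𝒯.ZR R2).FG := 𝒯.stage R2 R1 0 (.inl rfl) true {y | IsOm y.1}
    (fun y => (kind y.1, side y.1)) (fun y => hh y.1) (fun y => side y.1) (fun _ _ => Iff.rfl)
    (fun _ _ h => ⟨(kind_isOm h.1).1, fun a => Prod.ext h.1 (h.2 a)⟩)
    (fun y a y' e => ⟨(kind_isOm (vs a.1 e).1).1.2 a, Prod.ext (vs a.1 e).1 (vs a.1 e).2, (vs a.1 e).2⟩)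
    h1 (fun g h => (fs2 (pg g) h).imp fun B hB y a e => by simpa only [ns] using hB y (.inl ⟨a, e⟩))
    (fun y a y' _ e => h3 y y' a (congrArg Prod.fst e))
    (fun g y a _ t => nb (let ⟨k, hk⟩ := locA (pg g) y.1 y.2; ⟨k, fun x e =>
      ⟨⟨ki g _, fun o => by
        by_cases q : Eqv x y.1
        · exact ((((eqv_smul (pg g) q y.2).1.vis (kind_sing (ki g (x, y.2)) o.1)).2.2.2.2.2.2.symm.trans
            (congrArg Prod.snd t)).trans (q.vis o.1).2.2.2.2.2.2 :)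
        · exact (hk x e q o.1).1 o⟩,
        fun c q => ((hk x e (sp q) c.1).2.1 fun _ => congrArg Prod.snd t).2 c⟩⟩))
    (fun g y _ b c => un g y b fun _ => c)
    (fun y a B b => (mn y a.1 B (side y.1)).imp fun y h =>
      ⟨(kind_isOm h.1).1.2 a, Prod.ext h.1 h.2.1, nofun, h.2.2⟩) z1
  have z3 : (𝒯.ZR R3).FG := 𝒯.stage R3 R2 0 (.inl rfl) false {y | IsOm y.1}
    (fun y => kind y.1) (fun y => hh y.1) (fun y => side y.1) (fun _ _ => Iff.rfl)
    (fun _ _ h => ⟨(kind_isOm h).1, fun _ => h⟩)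
    (fun y a y' e => ⟨(kind_isOm (vs a.1 e).1).1.2 a, vs a.1 e⟩)
    h1 (fun g _ => (fs1 (pg g)).imp fun B hB y a e => by simpa only [ns] using hB y a e)
    (fun y a y' _ => h3 y y' a)
    (fun g y _ _ _ => nb (let ⟨k, hk⟩ := locA (pg g) y.1 y.2; ⟨k, fun x e =>
      ⟨ki g _, fun c q => (hk x e (sp q) c.1).1 c⟩⟩))
    (fun g y _ b c => un g y b fun _ => c)
    (fun y a B b => (mn y a.1 B b).imp fun y h => ⟨(kind_isOm h.1).1.2 a, h.1, fun _ => h.2.1, h.2.2⟩) z2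
  rw [Tri.ZR, Set.inter_eq_left.2 fun g _ => show g ∈ PR E R3 from ki g, 𝒯.gen, top_inf_eq, Zk,
    ← MonoidHom.ker_rangeRestrict, ← Group.fg_iff_subgroup_fg] at z3
  rw [← hr]
  exact .of_surjective _ (MonoidHom.rangeRestrict_surjective _) (.of_FG _)

end Vale.Agent.P196
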