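import Mathlib
import Vale.Agent.P196.Alg

/-! Abstract coset argument for the stage lemma. -/

namespace Vale.Agent.P196.TrB

variable {G X B : Type} [Group G] {n : ℕ} [MulAction G (X × ZMod n)]

/-- `x` is one of the three base points -/
def In (x : X) (p q r : X × ZMod n) : Prop := x = p.1 ∨ x = q.1 ∨ x = r.1

def sh (w : X × ZMod n) (m : ZMod n) : X × ZMod n := (w.1, w.2 + m)

def Rl (T : Set G) (F : X × ZMod n → B) (τ : G) (p q r : X × ZMod n) (C : Set X) : Prop :=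
  τ ∈ T ∧ τ • p = q ∧ τ • q = r ∧ τ • r = p ∧
    ∀ w, ¬ In w.1 p q r → F (τ • w) = F w ∧ (w.1 ∈ C → τ • w = w)

structure Ax (T : Set G) (F : X × ZMod n → B) (Z : Subgroup G) : Prop where
  shift : ∀ (g : G) (w : X × ZMod n) m, g • sh w m = sh (g • w) m
  Fsh : ∀ (p q : X × ZMod n) m, F p = F q → F (sh p m) = F (sh q m)
  conj : ∀ τ ∈ T, ∀ g : G, g * τ * g⁻¹ ∈ T
  inv : ∀ τ ∈ T, τ⁻¹ ∈ T
  cube : ∀ τ ∈ T, τ * τ * τ = 1
  fin : ∀ g : G, {x | ∃ m, F (g • (x, m)) ≠ F (x, m)}.Finite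
  ex4 : ∀ o p q r : X × ZMod n, D4 o.1 p.1 q.1 r.1 → ∀ C : Set X, C.Finite →
    ∃ τ σ, Rl T F τ o q r C ∧ Rl T F σ o p q C ∧ τ * σ ∈ T
  ind : ∀ τ ∈ T, ∀ τ' ∈ T, ∀ p q r : X × ZMod n, τ • p = q → τ • q = r → τ • r = p →
    τ' • p = q → τ' • q = r → τ' • r = p → ∃ σ, ∃ ρ ∈ T, ∃ ρ' ∈ T, τ = σ * ρ ∧ τ' = σ * ρ' ∧
      ∀ w : X × ZMod n, (ρ • w = w ∧ ρ' • w = w) ∨ (ρ • w = τ • w ∧ ρ' • w = τ' • w ∧ ¬ In w.1 p q r)
  tr : ∀ τ ∈ T, ∀ p : X × ZMod n, τ • p ≠ p → (τ • p).1 ≠ p.1 ∧ ∀ C : Set X, C.Finite →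
    ∃ σ ∈ T, ∃ ρ ∈ T, τ = ρ * σ ∧ ∀ w : X × ZMod n,
      (σ • w = τ • w ∧ ρ • w = w ∧ (w.1 ∈ C → In w.1 p (τ • p) (τ • τ • p))) ∨
      (σ • w = w ∧ ρ • w = τ • w ∧ ¬ In w.1 p (τ • p) (τ • τ • p))
  Zc : ∀ z ∈ Z, ∀ g, z * g = g * z
  Zt : ∀ z ∈ Z, ∀ w : X × ZMod n, z • w = w

lemma eq_sh {w p : X × ZMod n} (h : w.1 = p.1) : w = sh p (w.2 - p.2) := by
  ext <;> simp [sh, h]

lemma pf {π : Equiv.Perm (X × ZMod n)} (hs : ∀ u m, π (sh u m) = sh (π u) m) {u v : X × ZMod n}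
    (e : u.1 = v.1) : (π u).1 = (π v).1 := by rw [eq_sh e, hs]; rfl

lemma In.rot {x : X} {p q r : X × ZMod n} : In x q r p ↔ In x p q r := by unfold In; tauto

lemma In.swap {x : X} {p q r : X × ZMod n} : In x p r q ↔ In x p q r := by unfold In; tauto

variable {T : Set G} {F : X × ZMod n → B} {Z : Subgroup G} {τ : G} {p q r : X × ZMod n}
  {C : Set X}

lemma Ax.fst (h : Ax T F Z) (g : G) {u w : X × ZMod n} : (g • u).1 = (g • w).1 ↔ u.1 = w.1 := by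
  have : ∀ (g : G) {u w : X × ZMod n}, u.1 = w.1 → (g • u).1 = (g • w).1 := fun g u w e => by
    rw [eq_sh e, h.shift]; rfl
  exact ⟨fun e => by simpa using this g⁻¹ e, this g⟩

lemma Ax.in_iff (h : Ax T F Z) (g : G) (w : X × ZMod n) :
    In (g • w).1 (g • p) (g • q) (g • r) ↔ In w.1 p q r := by simp only [In, h.fst]

lemma Rl.in_iff (h : Ax T F Z) (a : Rl T F τ p q r C) (w : X × ZMod n) :
    In (τ • w).1 p q r ↔ In w.1 p q r := by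
  rw [← h.in_iff τ w, a.2.1, a.2.2.1, a.2.2.2.1]
  exact In.rot.symm

lemma Rl.mono (a : Rl T F τ p q r C) {C' : Set X} (h : ∀ x ∈ C', ¬ In x p q r → x ∈ C) :
    Rl T F τ p q r C' :=
  ⟨a.1, a.2.1, a.2.2.1, a.2.2.2.1, fun w hw => ⟨(a.2.2.2.2 w hw).1,
    fun hc => (a.2.2.2.2 w hw).2 (h _ hc hw)⟩⟩

lemma Rl.inv (h : Ax T F Z) (a : Rl T F τ p q r C) : Rl T F τ⁻¹ p r q C := by
  refine ⟨h.inv _ a.1, inv_smul_eq_iff.2 a.2.2.2.1.symm, inv_smul_eq_iff.2 a.2.2.1.symm,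
    inv_smul_eq_iff.2 a.2.1.symm, fun w hw => ⟨?_, fun hc => inv_smul_eq_iff.2
      ((a.2.2.2.2 w (In.swap.not.1 hw)).2 hc).symm⟩⟩
  have := (a.2.2.2.2 (τ⁻¹ • w) (by rw [← a.in_iff h, smul_inv_smul]; exact In.swap.not.1 hw)).1
  rw [← this, smul_inv_smul]

lemma Ax.ex3 [Infinite X] (h : Ax T F Z) (d : D3 p.1 q.1 r.1) (hC : C.Finite) :
    ∃ τ, Rl T F τ p q r C := by
  classical
  obtain ⟨x, hx⟩ := Infinite.exists_notMem_finset {p.1, q.1, r.1}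
  simp only [Finset.mem_insert, Finset.mem_singleton, not_or] at hx
  obtain ⟨-, σ, -, a, -⟩ := h.ex4 p q r (x, 0) ⟨d.1, d.2.1, Ne.symm hx.1, d.2.2, Ne.symm hx.2.1,
    Ne.symm hx.2.2⟩ C hC
  exact ⟨σ, a⟩

variable (T F) in
def Nm : Subgroup G := Subgroup.closure {τ | τ ∈ T ∧ ∀ w, F (τ • w) = F w}

lemma Nm_pres {g : G} (hg : g ∈ Nm T F) (w : X × ZMod n) : F (g • w) = F w := by
  induction hg using Subgroup.closure_induction generalizing w with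
  | mem x hx => exact hx.2 w
  | one => rw [one_smul]
  | mul x y _ _ h1 h2 => rw [mul_smul, h1, h2]
  | inv x _ h1 => rw [← h1, smul_inv_smul]

noncomputable def col (c : G ⧸ Nm T F) (w : X × ZMod n) : B := F (c.out⁻¹ • w)

lemma col_smul (g : G) (c : G ⧸ Nm T F) (w : X × ZMod n) : col (g • c) w = col c (g⁻¹ • w) := by
  have : (g • c).out⁻¹ * (g * c.out) ∈ Nm T F := by
    rw [← QuotientGroup.eq, QuotientGroup.out_eq', ← smul_eq_mul, MulAction.Quotient.coe_smul_out]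
  rw [col, col, ← Nm_pres this (c.out⁻¹ • g⁻¹ • w)]
  simp [mul_smul]

lemma col_one (w : X × ZMod n) : col ((1 : G) : G ⧸ Nm T F) w = F w := by
  have : ((1 : G) : G ⧸ Nm T F).out⁻¹ * 1 ∈ Nm T F := by
    rw [← QuotientGroup.eq, QuotientGroup.out_eq']
  rw [col, ← Nm_pres this w, mul_one]

def bad (c : G ⧸ Nm T F) : Set X := {x | ∃ m, col c (x, m) ≠ F (x, m)}

lemma nbad {c : G ⧸ Nm T F} {w : X × ZMod n} (h : w.1 ∉ bad c) : col c w = F w :=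
  by_contra fun e => h ⟨w.2, e⟩

lemma Ax.out (h : Ax T F Z) (c : G ⧸ Nm T F) (h1 : τ ∈ T) (h2 : ∀ w, F (τ • w) = F w)
    (h3 : ∀ w : X × ZMod n, w.1 ∈ bad c → τ • w = w) : τ • c = c := by
  have h4 : ∀ u, col c (τ • u) = col c u := fun u => by
    by_cases a : u.1 ∈ bad c
    · rw [h3 u a]
    by_cases b : (τ • u).1 ∈ bad c
    · rw [smul_left_cancel τ (h3 _ b)]
    · rw [nbad a, nbad b, h2]
  rw [← MulAction.Quotient.coe_smul_out, eq_comm, ← QuotientGroup.out_eq' c, QuotientGroup.eq,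
    QuotientGroup.out_eq']
  refine Subgroup.subset_closure ⟨by simpa [mul_assoc] using h.conj τ h1 c.out⁻¹, fun w => ?_⟩
  simpa [col, mul_smul] using h4 (c.out • w)

lemma Rl.col (h : Ax T F Z) {c : G ⧸ Nm T F} (a : Rl T F τ p q r (bad c)) {w : X × ZMod n}
    (hw : ¬ In w.1 p q r) : col (τ • c) w = col c w := by
  have b := (a.inv h).2.2.2.2
  have hw' := In.swap.not.2 hw
  rw [col_smul]
  by_cases e : w.1 ∈ bad c
  · rw [(b w hw').2 e]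
  by_cases e' : (τ⁻¹ • w).1 ∈ bad c
  · rw [smul_left_cancel _ ((b _ (((a.inv h).in_iff h w).not.2 hw')).2 e')]
  · rw [nbad e, nbad e', (b w hw').1]

lemma Rl.bad (h : Ax T F Z) {c : G ⧸ Nm T F} (a : Rl T F τ p q r (bad c)) :
    ∀ x ∈ bad (τ • c), ¬ In x p q r → x ∈ bad c :=
  fun x ⟨m, hm⟩ hx => ⟨m, by rwa [← a.col h (w := (x, m)) hx]⟩

lemma Rl.ind (h : Ax T F Z) {c : G ⧸ Nm T F} {τ' : G} (a : Rl T F τ p q r (TrB.bad c))
    (b : Rl T F τ' p q r (TrB.bad c)) : τ • c = τ' • c := by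
  obtain ⟨σ, ρ, h1, ρ', h2, e1, e2, h3⟩ := h.ind τ a.1 τ' b.1 p q r a.2.1 a.2.2.1 a.2.2.2.1
    b.2.1 b.2.2.1 b.2.2.2.1
  rw [e1, e2, mul_smul, mul_smul, h.out c h1, h.out c h2]
  · exact fun w => (h3 w).elim (fun e => by rw [e.2]) fun e => by rw [e.2.1, (b.2.2.2.2 w e.2.2).1]
  · exact fun w hw => (h3 w).elim (·.2) fun e => by rw [e.2.1, (b.2.2.2.2 w e.2.2).2 hw]
  · exact fun w => (h3 w).elim (fun e => by rw [e.1]) fun e => by rw [e.1, (a.2.2.2.2 w e.2.2).1]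
  · exact fun w hw => (h3 w).elim (·.1) fun e => by rw [e.1, (a.2.2.2.2 w e.2.2).2 hw]

variable (T F) in
abbrev PP := Equiv.Perm (G ⧸ Nm T F) × Equiv.Perm (X × ZMod n)

def IsT (w : PP T F) (p q r : X × ZMod n) : Prop :=
  ((∀ u m, w.2 (sh u m) = sh (w.2 u) m) ∧ w.2 p = q ∧ w.2 q = r ∧ w.2 r = p ∧
    ∀ u, ¬ In u.1 p q r → w.2 u = u) ∧ ∀ c, ∃ τ, Rl T F τ p q r (bad c) ∧ w.1 c = τ • c

variable {w w' : PP T F}

lemma IsT.all (h : Ax T F Z) (a : IsT w p q r) {c : G ⧸ Nm T F} (b : Rl T F τ p q r (bad c)) :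
    w.1 c = τ • c := by
  obtain ⟨σ, h1, h2⟩ := a.2 c
  rw [h2, h1.ind h b]

lemma IsT.agree (h : Ax T F Z) (a : IsT w p q r) (b : Rl T F τ p q r C) {u : X × ZMod n}
    (hu : In u.1 p q r ∨ u.1 ∈ C) : w.2 u = τ • u := by
  by_cases e : In u.1 p q r
  · rcases e with e | e | e <;> rw [eq_sh e, a.1.1, h.shift]
    · rw [a.1.2.1, b.2.1]
    · rw [a.1.2.2.1, b.2.2.1]
    · rw [a.1.2.2.2.1, b.2.2.2.1]
  · rw [a.1.2.2.2.2 u e, (b.2.2.2.2 u e).2 (hu.resolve_left e)]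

lemma IsT.uniq (h : Ax T F Z) (a : IsT w p q r) (b : IsT w' p q r) : w = w' := by
  refine Prod.ext (Equiv.ext fun c => ?_) (Equiv.ext fun u => ?_)
  · obtain ⟨σ, h1, h2⟩ := a.2 c
    rw [h2, b.all h h1]
  · obtain ⟨σ, h1, -⟩ := a.2 ((1 : G) : G ⧸ Nm T F)
    by_cases e : In u.1 p q r
    · rw [a.agree h h1 (.inl e), b.agree h h1 (.inl e)]
    · rw [a.1.2.2.2.2 u e, b.1.2.2.2.2 u e]

open Classical in
noncomputable def cyf (p q r u : X × ZMod n) : X × ZMod n :=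
  if u.1 = p.1 then sh q (u.2 - p.2) else if u.1 = q.1 then sh r (u.2 - q.2)
    else if u.1 = r.1 then sh p (u.2 - r.2) else u

lemma cyf_inv (d : D3 p.1 q.1 r.1) (u : X × ZMod n) : cyf p r q (cyf p q r u) = u := by
  obtain ⟨d1, d2, d3⟩ := d
  obtain ⟨x, m⟩ := u
  by_cases h1 : x = p.1
  · simp [cyf, sh, h1, d1.symm, d3]
  by_cases h2 : x = q.1
  · simp [cyf, sh, h2, d1.symm, d2.symm]
  by_cases h3 : x = r.1
  · simp [cyf, sh, h3, d2.symm, d3.symm]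
  · simp [cyf, h1, h2, h3]

lemma Ax.bad_fin (h : Ax T F Z) (c : G ⧸ Nm T F) : (bad c).Finite := h.fin _

lemma Ax.exT [Infinite X] (h : Ax T F Z) (d : D3 p.1 q.1 r.1) : ∃ w : PP T F, IsT w p q r := by
  have d' : D3 p.1 r.1 q.1 := ⟨d.2.1, d.1, d.2.2.symm⟩
  choose τ hτ using fun c : G ⧸ Nm T F => h.ex3 d (h.bad_fin c)
  choose σ hσ using fun c : G ⧸ Nm T F => h.ex3 d' (h.bad_fin c)
  refine ⟨(⟨fun c => τ c • c, fun c => σ c • c, fun c => ?_, fun c => ?_⟩,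
    ⟨cyf p q r, cyf p r q, cyf_inv d, cyf_inv d'⟩), ⟨fun u m => ?_, ?_, ?_, ?_, fun u hu => ?_⟩,
    fun c => ⟨τ c, hτ c, rfl⟩⟩
  · exact ((hσ _).ind h (((hτ c).inv h).mono fun x hx e =>
      (hτ c).bad h x hx (In.swap.not.1 e))).trans (inv_smul_smul _ _)
  · exact ((hτ _).ind h (((hσ c).inv h).mono fun x hx e =>
      (hσ c).bad h x hx (In.swap.not.1 e))).trans (inv_smul_smul _ _)
  · simp only [Equiv.coe_fn_mk, cyf, sh]
    split_ifs <;> simp [add_sub_right_comm, add_assoc]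
  · simp [cyf, sh]
  · simp [cyf, sh, d.1.symm]
  · simp [cyf, sh, d.2.1.symm, d.2.2.symm]
  · simp only [In, not_or] at hu
    simp [cyf, hu]

lemma IsT.shift (h : Ax T F Z) (a : IsT w p q r) (m : ZMod n) :
    IsT w (sh p m) (sh q m) (sh r m) := by
  refine ⟨⟨a.1.1, by rw [a.1.1, a.1.2.1], by rw [a.1.1, a.1.2.2.1], by rw [a.1.1, a.1.2.2.2.1],
    a.1.2.2.2.2⟩, fun c => ?_⟩
  obtain ⟨σ, b, h2⟩ := a.2 c
  exact ⟨σ, ⟨b.1, by rw [h.shift, b.2.1], by rw [h.shift, b.2.2.1], by rw [h.shift, b.2.2.2.1],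
    b.2.2.2.2⟩, h2⟩

lemma IsT.rot (a : IsT w p q r) : IsT w q r p := by
  refine ⟨⟨a.1.1, a.1.2.2.1, a.1.2.2.2.1, a.1.2.1, fun u hu => a.1.2.2.2.2 u (In.rot.not.1 hu)⟩,
    fun c => ?_⟩
  obtain ⟨σ, b, h2⟩ := a.2 c
  exact ⟨σ, ⟨b.1, b.2.2.1, b.2.2.2.1, b.2.1, fun u hu => b.2.2.2.2 u (In.rot.not.1 hu)⟩, h2⟩

lemma IsT.inv (h : Ax T F Z) (a : IsT w p q r) : IsT w⁻¹ p r q := by
  have e : ∀ {u v}, w.2 v = u → (w⁻¹).2 u = v := fun h => Equiv.Perm.inv_eq_iff_eq.2 h.symm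
  refine ⟨⟨fun u m => e (by rw [a.1.1]; simp), e a.1.2.2.2.1, e a.1.2.2.1, e a.1.2.1,
    fun u hu => e (a.1.2.2.2.2 u (In.swap.not.1 hu))⟩, fun c => ?_⟩
  obtain ⟨σ, b, -⟩ := a.2 c
  refine ⟨σ⁻¹, b.inv h, Equiv.Perm.inv_eq_iff_eq.2 ?_⟩
  rw [a.all h (b.mono fun x hx e => (b.inv h).bad h x hx (In.swap.not.2 e)), smul_inv_smul]

lemma IsT.sq (h : Ax T F Z) (a : IsT w p q r) : IsT (w * w) p r q := by
  obtain ⟨⟨a1, a2, a3, a4, a5⟩, a6⟩ := id a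
  refine ⟨⟨fun u m => by simp [a1], by simp [a2, a3], by simp [a4, a2], by simp [a3, a4],
    fun u hu => by simp [a5 u (In.swap.not.1 hu)]⟩, fun c => ?_⟩
  obtain ⟨σ, b, h2⟩ := a6 c
  refine ⟨σ⁻¹, b.inv h, ?_⟩
  rw [← eq_inv_of_mul_eq_one_left (h.cube σ b.1), mul_smul, ← a.all h (b.mono (b.bad h)), ← h2]
  rfl

lemma in_fin (p q r : X × ZMod n) : {x | In x p q r}.Finite :=
  (Set.toFinite {p.1, q.1, r.1}).subset fun _ h => h

lemma IsT.conj [Infinite X] (h : Ax T F Z) (a : IsT w p q r) (d : D3 p.1 q.1 r.1)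
    {p' q' r' : X × ZMod n} (b : IsT w' p' q' r') (d' : D3 p'.1 q'.1 r'.1) :
    IsT (w * w' * w⁻¹) (w.2 p') (w.2 q') (w.2 r') := by
  have ai := a.inv h
  refine ⟨⟨fun u m => by simp only [Prod.snd_mul, Equiv.Perm.mul_apply, ai.1.1, b.1.1, a.1.1],
    by simp [b.1.2.1], by simp [b.1.2.2.1], by simp [b.1.2.2.2.1], fun u hu => ?_⟩, fun c => ?_⟩
  · have : ∀ v : X × ZMod n, (w⁻¹.2 u).1 = v.1 → u.1 = (w.2 v).1 := fun v e => by
      simpa using pf a.1.1 e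
    simp only [Prod.snd_mul, Equiv.Perm.mul_apply]
    rw [b.1.2.2.2.2 _ fun e => hu (e.imp (this _) (Or.imp (this _) (this _)))]
    simp
  obtain ⟨τ, h1⟩ := h.ex3 d ((h.bad_fin c).union (in_fin p' q' r'))
  obtain ⟨σ, h2⟩ := h.ex3 d' ((h.bad_fin c).union (in_fin p q r))
  have h3 := (h1.mono fun x (hx : x ∈ bad c) _ => .inl hx).inv h
  have h4 : Rl T F σ p' q' r' (bad (τ⁻¹ • c)) := h2.mono fun x hx _ => by_contra fun e =>
    e (.inl (h3.bad h x hx fun e' => e (.inr (In.swap.1 e'))))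
  rw [a.agree h h1 (.inr (.inr (.inl rfl))), a.agree h h1 (.inr (.inr (.inr (.inl rfl)))),
    a.agree h h1 (.inr (.inr (.inr (.inr rfl))))]
  refine ⟨τ * σ * τ⁻¹, ⟨h.conj σ h2.1 τ, by simp [mul_smul, h2.2.1], by simp [mul_smul, h2.2.2.1],
    by simp [mul_smul, h2.2.2.2.1], fun u hu => ?_⟩, ?_⟩
  · obtain ⟨v, rfl⟩ : ∃ v, u = τ • v := ⟨τ⁻¹ • u, by simp⟩
    rw [h.in_iff] at hu
    simp only [mul_smul, inv_smul_smul]
    have k := h2.2.2.2.2 v hu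
    by_cases e : In v.1 p q r
    · simp [k.2 (.inr e)]
    by_cases e' : In (σ • v).1 p q r
    · simp [smul_left_cancel σ ((h2.2.2.2.2 _ ((h2.in_iff h v).not.2 hu)).2 (.inr e'))]
    refine ⟨by rw [(h1.2.2.2.2 _ e').1, k.1, (h1.2.2.2.2 _ e).1], fun hb => ?_⟩
    have := smul_left_cancel τ ((h1.2.2.2.2 _ ((h1.in_iff h v).not.2 e)).2 (.inl hb))
    rw [this] at hb
    rw [k.2 (.inl hb)]
  · simp only [Prod.fst_mul, Equiv.Perm.mul_apply, mul_smul]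
    rw [ai.all h h3, b.all h h4, a.all h (h1.mono fun x hx e => by_contra fun e' =>
      e' (.inl (h3.bad h x (h4.bad h x hx fun e'' => e' (.inr e'')) (In.swap.not.2 e))))]

lemma IsT.pr (h : Ax T F Z) {o : X × ZMod n} (a : IsT w o q r) (b : IsT w' o p q)
    (d : D4 o.1 p.1 q.1 r.1) : IsT (w * w') o p r := by
  obtain ⟨d1, d2, d3, d4, d5, d6⟩ := id d
  have np : ¬ In p.1 o q r := by simp [In, d1.symm, d4, d5]
  have nr : ¬ In r.1 o p q := by simp [In, d3.symm, d5.symm, d6.symm]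
  refine ⟨⟨fun u m => by simp [a.1.1, b.1.1], by simp [b.1.2.1, a.1.2.2.2.2 p np],
    by simp [b.1.2.2.1, a.1.2.2.1], by simp [b.1.2.2.2.2 r nr, a.1.2.2.2.1], fun u hu => ?_⟩,
    fun c => ?_⟩
  · by_cases e : u.1 = q.1
    · rw [eq_sh e]; simp [a.1.1, b.1.1, b.1.2.2.2.1, a.1.2.1]
    · simp only [In, not_or] at hu
      simp [b.1.2.2.2.2 u (by simp [In, hu, e]), a.1.2.2.2.2 u (by simp [In, hu, e])]
  obtain ⟨τ, σ, h1, h2, h3⟩ := h.ex4 o p q r d _ ((h.bad_fin c).union (in_fin p r r))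
  have h4 := h2.mono fun x (hx : x ∈ bad c) _ => .inl hx
  refine ⟨τ * σ, ⟨h3, by rw [mul_smul, h2.2.1, (h1.2.2.2.2 p np).2 (.inr (.inl rfl))],
    by rw [mul_smul, h2.2.2.1, h1.2.2.1],
    by rw [mul_smul, (h2.2.2.2.2 r nr).2 (.inr (.inr (.inl rfl))), h1.2.2.2.1], fun u hu => ?_⟩, ?_⟩
  · by_cases e : u.1 = q.1
    · have : (τ * σ) • u = u := by
        rw [eq_sh e, h.shift, mul_smul, h2.2.2.2.1, h1.2.1]
      simp [this]
    simp only [In, not_or] at hu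
    have k1 : ¬ In u.1 o p q := by simp [In, hu, e]
    have k2 : ¬ In u.1 o q r := by simp [In, hu, e]
    have k3 := (h2.in_iff h u).not.2 k1
    rw [mul_smul]
    refine ⟨?_, fun hb => by rw [(h2.2.2.2.2 u k1).2 (.inl hb), (h1.2.2.2.2 u k2).2 (.inl hb)]⟩
    by_cases e' : (σ • u).1 = r.1
    · rw [smul_left_cancel σ ((h2.2.2.2.2 _ k3).2 (.inr (.inr (.inl e')))), (h1.2.2.2.2 u k2).1]
    · simp only [In, not_or] at k3
      rw [(h1.2.2.2.2 _ (by simp [In, k3, e'])).1, (h2.2.2.2.2 u k1).1]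
  · simp only [Prod.fst_mul, Equiv.Perm.mul_apply, mul_smul]
    rw [b.all h h4, a.all h (h1.mono fun x hx e => by_contra fun e' => e' (.inl (h4.bad h x hx ?_)))]
    rintro (k | k | k)
    · exact e (.inl k)
    · exact e' (.inr (.inl k))
    · exact e (.inr (.inl k))

variable (T F) in
def WW : Subgroup (PP T F) := Subgroup.closure {w | ∃ p q r, D3 p.1 q.1 r.1 ∧ IsT w p q r}

lemma Ax.ww (h : Ax T F Z) (hw : w ∈ WW T F) : (∀ c u, col (w.1 c) (w.2 u) = col c u) ∧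
    ∀ z ∈ Z, ∀ c, w.1 (z • c) = z • w.1 c := by
  induction hw using Subgroup.closure_induction with
  | mem x hx =>
    obtain ⟨p, q, r, -, a⟩ := hx
    refine ⟨fun c u => ?_, fun z hz c => ?_⟩ <;> obtain ⟨σ, b, e⟩ := a.2 c
    · by_cases k : In u.1 p q r
      · rw [e, a.agree h b (.inl k), col_smul, inv_smul_smul]
      · rw [e, a.1.2.2.2.2 u k, b.col h k]
    · rw [e, a.all h (τ := σ) (b.mono fun x ⟨m, hm⟩ _ =>
        ⟨m, by rwa [col_smul, h.Zt _ (inv_mem hz)] at hm⟩), ← mul_smul, ← mul_smul, h.Zc z hz]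
  | one => simp
  | mul x y _ _ h1 h2 =>
    exact ⟨fun c u => (h1.1 _ _).trans (h2.1 c u), fun z hz c => by simp [h1.2 z hz, h2.2 z hz]⟩
  | inv x _ h1 =>
    refine ⟨fun c u => by rw [← h1.1]; simp, fun z hz c => Equiv.Perm.inv_eq_iff_eq.2 ?_⟩
    rw [h1.2 z hz]; simp

lemma Ax.trans1 [Infinite X] (h : Ax T F Z) (k : ℕ) : ∀ τ ∈ T, ∀ (c : G ⧸ Nm T F) (C : Set X),
    C.Finite → bad c ⊆ C → (∀ u : X × ZMod n, u.1 ∉ C → F (τ • u) = F u) →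
    {x ∈ C | ∃ m : ZMod n, τ • (x, m) ≠ (x, m)}.ncard ≤ k → ∃ w ∈ WW T F, w.1 c = τ • c := by
  induction k using Nat.strong_induction_on with
  | _ k ih =>
  intro τ hτ c C h1 h2 h3 h4
  by_cases e : ∀ u : X × ZMod n, u.1 ∈ C → τ • u = u
  · refine ⟨1, one_mem _, (h.out c hτ (fun u => ?_) fun u hu => e u (h2 hu)).symm⟩
    by_cases k : u.1 ∈ C
    · rw [e u k]
    · exact h3 u k
  push Not at e
  obtain ⟨p, hp, e⟩ := e
  obtain ⟨d1, h5⟩ := h.tr τ hτ p e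
  obtain ⟨σ, hσ, ρ, hρ, e1, h5⟩ := h5 C h1
  have c3 : τ • τ • τ • p = p := by rw [← mul_smul, ← mul_smul, h.cube τ hτ, one_smul]
  have d : D3 p.1 (τ • p).1 (τ • τ • p).1 := ⟨d1.symm, fun k => d1 (by
    rw [(h.fst τ).2 k, c3]), fun k => d1 ((h.fst τ).1 k).symm⟩
  have k : ∀ u : X × ZMod n, In u.1 p (τ • p) (τ • τ • p) → σ • u = τ • u ∧ ρ • u = u :=
    fun u hu => (h5 u).elim (fun a => ⟨a.1, a.2.1⟩) fun a => absurd hu a.2.2
  have a : Rl T F σ p (τ • p) (τ • τ • p) (bad c) := by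
    refine ⟨hσ, (k _ (.inl rfl)).1, (k _ (.inr (.inl rfl))).1,
      (k _ (.inr (.inr rfl))).1.trans c3, fun u hu => (h5 u).elim (fun a => ?_) fun a => by simp [a.1]⟩
    exact ⟨by rw [a.1, h3 u fun k => hu (a.2.2 k)], fun k => absurd (a.2.2 (h2 k)) hu⟩
  obtain ⟨w, hw⟩ := h.exT d
  have fin := h1.subset (Set.sep_subset C fun x => ∃ m : ZMod n, τ • (x, m) ≠ (x, m))
  obtain ⟨v, hv, e2⟩ := ih _ ((Set.ncard_sdiff_singleton_lt_of_mem (a := p.1) (by exact ⟨hp, p.2, e⟩)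
    fin).trans_le h4) ρ hρ (σ • c) (C ∪ {x | In x p (τ • p) (τ • τ • p)}) (h1.union (in_fin _ _ _))
    (fun x hx => by_contra fun e => e (.inl (h2 (a.bad h x hx fun e' => e (.inr e')))))
    (fun u hu => (h5 u).elim (fun a => by rw [a.2.1]) fun a => by
      rw [a.2.1, h3 u fun k => hu (.inl k)])
    (Set.ncard_le_ncard (fun x ⟨hx, m, hm⟩ => (h5 (x, m)).elim (fun a => absurd a.2.1 hm) fun a =>
      ⟨⟨hx.resolve_right a.2.2, m, a.2.1 ▸ hm⟩, fun e => a.2.2 (.inl e)⟩) fin.sdiff)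
  refine ⟨v * w, mul_mem hv (Subgroup.subset_closure ⟨_, _, _, d, hw⟩), ?_⟩
  rw [Prod.fst_mul, Equiv.Perm.mul_apply, hw.all h a, e2, e1, mul_smul]

lemma Ax.trans [Infinite X] (h : Ax T F Z) {g : G} (hg : g ∈ Subgroup.closure T)
    (c : G ⧸ Nm T F) : ∃ w ∈ WW T F, w.1 c = g • c := by
  induction hg using Subgroup.closure_induction generalizing c with
  | mem x hx =>
    exact h.trans1 _ x hx c _ ((h.bad_fin c).union (h.fin x)) Set.subset_union_left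
      (fun u hu => by_contra fun e => hu (.inr ⟨u.2, e⟩)) le_rfl
  | one => exact ⟨1, one_mem _, by simp⟩
  | mul x y _ _ h1 h2 =>
    obtain ⟨v, hv, e⟩ := h2 c
    obtain ⟨w, hw, e'⟩ := h1 (y • c)
    exact ⟨w * v, mul_mem hw hv, by simp [e, e', mul_smul]⟩
  | inv x _ h1 =>
    obtain ⟨w, hw, e⟩ := h1 (x⁻¹ • c)
    exact ⟨w⁻¹, inv_mem hw, Equiv.Perm.inv_eq_iff_eq.2 (by simp [e])⟩

def Ax.KK (h : Ax T F Z) (L : Subgroup G) (hL : L ≤ Z) : Subgroup (WW T F) where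
  carrier := {w | ∃ z ∈ L, w.1.1 ((1 : G) : G ⧸ Nm T F) = z • ((1 : G) : G ⧸ Nm T F)}
  one_mem' := ⟨1, one_mem _, by simp⟩
  mul_mem' := by
    rintro a b ⟨y, hy, e⟩ ⟨z, hz, e'⟩
    refine ⟨z * y, mul_mem hz hy, (congrArg a.1.1 e').trans ?_⟩
    rw [(h.ww a.2).2 z (hL hz), e, mul_smul]
  inv_mem' := by
    rintro a ⟨y, hy, e⟩
    refine ⟨y⁻¹, inv_mem hy, Equiv.Perm.inv_eq_iff_eq.2 ?_⟩
    rw [(h.ww a.2).2 _ (hL (inv_mem hy)), e, inv_smul_smul]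

theorem Ax.main [Infinite X] (h : Ax T F Z) (hn : n = 0 ∨ n = 1)
    (hF : (∃ s : X → Bool, (∀ b, {x | s x = b}.Infinite) ∧
      ∀ p q : X × ZMod n, F p = F q ↔ s p.1 = s q.1) ∨
      ∀ p q : X × ZMod n, F p = F q ↔ p.2 = q.2)
    (fg : (Nm T F ⊓ Z).FG) : (Subgroup.closure T ⊓ Z).FG := by
  classical
  have ex : ∀ p q r : X × ZMod n, ∃ w : WW T F, D3 p.1 q.1 r.1 → IsT w.1 p q r := fun p q r => by
    by_cases d : D3 p.1 q.1 r.1
    · obtain ⟨w, hw⟩ := h.exT d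
      exact ⟨⟨w, Subgroup.subset_closure ⟨_, _, _, d, hw⟩⟩, fun _ => hw⟩
    · exact ⟨1, fun e => absurd e d⟩
  choose t ht using ex
  let : MulAction (WW T F) (X × ZMod n) :=
    MulAction.compHom _ ((MonoidHom.snd _ _).comp (WW T F).subtype)
  have sm : ∀ (w : WW T F) (u : X × ZMod n), w • u = w.1.2 u := fun _ _ => rfl
  have good : ∀ (L : Subgroup G) (hL : L ≤ Z) (p q r : X × ZMod n), D3 p.1 q.1 r.1 → F p = F q →
      F q = F r → t p q r ∈ h.KK L hL := fun L hL p q r d e1 e2 => by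
    obtain ⟨σ, b, e⟩ := (ht p q r d).2 ((1 : G) : G ⧸ Nm T F)
    refine ⟨1, one_mem _, e.trans ((h.out _ b.1 (fun u => ?_) fun u ⟨m, hm⟩ =>
      absurd (col_one _) hm).trans (one_smul _ _).symm)⟩
    by_cases k : In u.1 p q r
    · rcases k with k | k | k <;> rw [eq_sh k, h.shift] <;> refine h.Fsh _ _ _ ?_
      · rw [b.2.1, e1]
      · rw [b.2.2.1, e2]
      · rw [b.2.2.2.1, e1, e2]
    · exact (b.2.2.2.2 u k).1
  have sw : ∀ {p q r : X × ZMod n}, D3 p.1 q.1 r.1 → D3 p.1 r.1 q.1 :=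
    fun d => ⟨d.2.1, d.1, d.2.2.symm⟩
  obtain ⟨S, s1, s2⟩ := dl_lemma n hn t
    (fun p q r m d => Subtype.ext ((ht (sh p m) (sh q m) (sh r m) d).uniq h ((ht p q r d).shift h m)))
    (fun p q r d => Subtype.ext ((ht p q r d).rot.uniq h (ht _ _ _ ⟨d.2.2, d.1.symm, d.2.1.symm⟩)))
    (fun p q r d => Subtype.ext ((ht _ _ _ (sw d)).uniq h ((ht p q r d).inv h)))
    (fun p q r d => Subtype.ext (((ht p q r d).sq h).uniq h (ht _ _ _ (sw d))))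
    (fun p q r m d => ((ht p q r d).shift h m).1.2.1)
    (fun p q r u d a b c => (ht p q r d).1.2.2.2.2 u (by simp [In, a, b, c]))
    (fun p q r p' q' r' d d' => Subtype.ext (((ht p q r d).conj h d (ht _ _ _ d') d').uniq h
      (ht _ _ _ (by
        have : ∀ {u v : X × ZMod n}, u.1 ≠ v.1 → (t p q r • u).1 ≠ (t p q r • v).1 :=
          fun {u v} e e' => e (by simpa [sm] using pf ((ht p q r d).inv h).1.1 e')
        exact ⟨this d'.1, this d'.2.1, this d'.2.2⟩))))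
    (fun o p q r d => Subtype.ext (((ht o q r ⟨d.2.1, d.2.2.1, d.2.2.2.2.2⟩).pr h
      (ht o p q ⟨d.1, d.2.1, d.2.2.2.1⟩) d).uniq h (ht _ _ _ ⟨d.1, d.2.2.1, d.2.2.2.2.1⟩)))
    (by
      exact top_le_iff.1 <| Subgroup.closure_closure_coe_preimage.ge.trans <| Subgroup.closure_mono fun w ⟨p, q, r, d, a⟩ =>
        ⟨p, q, r, d, Subtype.ext (a.uniq h (ht p q r d))⟩)
    F hF (h.KK (Subgroup.closure T ⊓ Z) inf_le_right) (good _ _) (by
      rintro w ⟨z, hz, e⟩ u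
      rw [← col_one (T := T) (F := F) u, ← (h.ww w.2).1, e, col_smul, h.Zt _ (inv_mem hz.2), col_one, sm])
  choose! z z1 z2 using fun a (ha : a ∈ S) => s1 ha
  obtain ⟨S', s3⟩ := fg
  have le : Subgroup.closure ((S.image z ∪ S' : Finset G) : Set G) ≤ Subgroup.closure T ⊓ Z := by
    rw [Subgroup.closure_le, Finset.coe_union, Finset.coe_image]
    refine Set.union_subset (by rintro _ ⟨a, ha, rfl⟩; exact z1 a ha) fun a ha => ?_
    have : a ∈ Nm T F ⊓ Z := s3 ▸ Subgroup.subset_closure ha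
    exact ⟨Subgroup.closure_mono (fun _ k => k.1) this.1, this.2⟩
  refine ⟨S.image z ∪ S', le_antisymm le fun g hg => ?_⟩
  obtain ⟨w, hw, e⟩ := h.trans hg.1 ((1 : G) : G ⧸ Nm T F)
  obtain ⟨y, hy, e'⟩ := (Subgroup.closure_le (h.KK _ (le.trans inf_le_right))).2
    (Set.union_subset (fun a ha => ⟨z a, Subgroup.subset_closure (Finset.mem_coe.2
      (Finset.mem_union_left _ (Finset.mem_image_of_mem z ha))),
      z2 a ha⟩) (by rintro _ ⟨p, q, r, d, e1, e2, rfl⟩; exact good _ _ p q r d e1 e2))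
    (s2 (show (⟨w, hw⟩ : WW T F) ∈ _ from ⟨g, hg, e⟩))
  have k : y⁻¹ * g ∈ Nm T F ⊓ Z := ⟨QuotientGroup.eq.1 (by simpa using e'.symm.trans e),
    Z.mul_mem (Z.inv_mem (le hy).2) hg.2⟩
  rw [← s3] at k
  simpa using mul_mem hy (Subgroup.closure_mono (by simp) k)

end Vale.Agent.P196.TrB
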