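import Mathlib
import Vale.Agent.P196.TriB

/-! Job C: central kernel of a group generated by lifted clopen 3-cycles.
See notes/P196.md, part C: definitions and FIN. -/

namespace Vale.Agent.P196

variable {E Y : Type} [Group E] [MulAction E Y]

/-- `τ` acts as the 3-cycle `g₁ A → g₂ A → g₃ A → g₁ A` and trivially elsewhere -/
def IsCyc (τ : E) (A : Set Y) (g₁ g₂ g₃ : E) : Prop :=
  (∀ y ∈ A, τ • g₁ • y = g₂ • y ∧ τ • g₂ • y = g₃ • y ∧ τ • g₃ • y = g₁ • y) ∧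
    ∀ y', (∀ y ∈ A, y' ≠ g₁ • y ∧ y' ≠ g₂ • y ∧ y' ≠ g₃ • y) → τ • y' = y'

/-- A group `E` acting on `Y`, a compact Boolean algebra `Clop` of subsets and a set `T` of
lifted 3-cycles. -/
structure Tri (E Y : Type) [Group E] [MulAction E Y] where
  Clop : Set Y → Prop
  clop_univ : Clop Set.univ
  clop_inter : ∀ {A B}, Clop A → Clop B → Clop (A ∩ B)
  clop_compl : ∀ {A}, Clop A → Clop Aᶜ
  clop_pre : ∀ (g : E) {A}, Clop A → Clop ((fun y => g • y) ⁻¹' A)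
  compact : ∀ A : Y → Set Y, (∀ y, Clop (A y) ∧ y ∈ A y) →
    ∃ s : Finset Y, ∀ y, ∃ y' ∈ s, y ∈ A y'
  T : Set E
  star : ∀ τ ∈ T, ∀ τ' ∈ T, (∀ y : Y, τ • y = τ' • y) → τ = τ'
  one_mem : (1 : E) ∈ T
  conj : ∀ τ ∈ T, ∀ g : E, g * τ * g⁻¹ ∈ T
  inv : ∀ τ ∈ T, τ⁻¹ ∈ T
  cube : ∀ τ ∈ T, τ * τ * τ = 1
  gen : Subgroup.closure T = ⊤
  split : ∀ τ ∈ T, ∀ O, Clop O → (∀ y ∈ O, τ • y ∈ O) → ∃ τ₁ ∈ T, ∃ τ₂ ∈ T, τ = τ₁ * τ₂ ∧
    (∀ y ∈ O, τ₁ • y = τ • y ∧ τ₂ • y = y) ∧ ∀ y ∉ O, τ₁ • y = y ∧ τ₂ • y = τ • y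
  sep : ∀ τ ∈ T, ∀ y : Y, τ • y ≠ y → ∃ O, Clop O ∧ y ∈ O ∧ τ • y ∉ O
  frame3 : ∀ (y : Y) (g : Fin 3 → E),
    (∀ a b, a ≠ b → ∃ O, Clop O ∧ g a • y ∈ O ∧ g b • y ∉ O) →
    ∃ A, Clop A ∧ y ∈ A ∧ ∀ A', Clop A' → A' ⊆ A → ∃ τ ∈ T, IsCyc τ A' (g 0) (g 1) (g 2)
  frame4 : ∀ (y : Y) (g : Fin 4 → E),
    (∀ a b, a ≠ b → ∃ O, Clop O ∧ g a • y ∈ O ∧ g b • y ∉ O) →
    ∃ A, Clop A ∧ y ∈ A ∧ ∀ A', Clop A' → A' ⊆ A → ∀ τ₁ ∈ T, ∀ τ₂ ∈ T,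
      IsCyc τ₁ A' (g 0) (g 2) (g 3) → IsCyc τ₂ A' (g 0) (g 1) (g 2) → τ₁ * τ₂ ∈ T

/-- two points are separated by a clopen set -/
def Tri.Sep (𝒯 : Tri E Y) (y y' : Y) : Prop := ∃ O, 𝒯.Clop O ∧ y ∈ O ∧ y' ∉ O

/-- the kernel of the action -/
def Zk (E Y : Type) [Group E] [MulAction E Y] : Subgroup E := (MulAction.toPermHom E Y).ker

/-- elements moving every point inside its `R`-class -/
def PR (E : Type) [Group E] [MulAction E Y] (R : Setoid Y) : Subgroup E where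
  carrier := {g | ∀ y, R (g • y) y}
  one_mem' := fun y => by rw [one_smul]
  mul_mem' := fun {a b} ha hb y => by
    rw [mul_smul]; exact R.trans (ha _) (hb _)
  inv_mem' := fun {a} ha y => by
    have := ha (a⁻¹ • y)
    rw [smul_inv_smul] at this
    exact R.symm this

/-- the part of the kernel seen by the lifted 3-cycles preserving `R` -/
def Tri.ZR (𝒯 : Tri E Y) (R : Setoid Y) : Subgroup E :=
  Subgroup.closure (𝒯.T ∩ PR E R) ⊓ Zk E Y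

namespace Tri

variable {𝒯 : Tri E Y} {y y' y'' : Y} {A B O O' : Set Y} {τ σ : E}

lemma clop_union (a : 𝒯.Clop A) (b : 𝒯.Clop B) : 𝒯.Clop (A ∪ B) := by
  simpa [Set.compl_inter] using 𝒯.clop_compl (𝒯.clop_inter (𝒯.clop_compl a) (𝒯.clop_compl b))

lemma clop_empty : 𝒯.Clop ∅ := by simpa using 𝒯.clop_compl 𝒯.clop_univ

lemma clop_iUnion {ι : Type*} (s : Finset ι) {A : ι → Set Y} (h : ∀ i, 𝒯.Clop (A i)) :
    𝒯.Clop (⋃ i ∈ s, A i) := by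
  classical
  induction s using Finset.induction_on with
  | empty => simpa using clop_empty
  | insert a s _ ih => rw [Finset.set_biUnion_insert]; exact clop_union (h a) ih

lemma satu (a : 𝒯.Clop O) (h : ¬ 𝒯.Sep y y') (hy : y ∈ O) : y' ∈ O :=
  by_contra fun e => h ⟨O, a, hy, e⟩

lemma Sep.symm (h : 𝒯.Sep y y') : 𝒯.Sep y' y :=
  let ⟨_, a, b, c⟩ := h; ⟨_, 𝒯.clop_compl a, c, fun e => e b⟩

lemma nsep_refl (y : Y) : ¬ 𝒯.Sep y y := fun ⟨_, _, b, c⟩ => c b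

lemma nsep_trans (a : ¬ 𝒯.Sep y y') (b : ¬ 𝒯.Sep y' y'') : ¬ 𝒯.Sep y y'' :=
  fun ⟨_, h, c, d⟩ => d (satu h b (satu h a c))

lemma sep_smul (g : E) : 𝒯.Sep (g • y) (g • y') ↔ 𝒯.Sep y y' := by
  have : ∀ (g : E) {y y' : Y}, 𝒯.Sep (g • y) (g • y') → 𝒯.Sep y y' :=
    fun g _ _ ⟨_, a, b, c⟩ => ⟨_, 𝒯.clop_pre g a, b, c⟩
  exact ⟨this g, fun h => this g⁻¹ (by simpa using h)⟩

lemma mem_Zk {z : E} : z ∈ Zk E Y ↔ ∀ y : Y, z • y = y := by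
  simp [Zk, Equiv.ext_iff]

lemma Zk_central (𝒯 : Tri E Y) {z : E} (hz : z ∈ Zk E Y) (g : E) : z * g = g * z := by
  have hg : g ∈ Subgroup.closure 𝒯.T := 𝒯.gen ▸ Subgroup.mem_top g
  refine (Subgroup.closure_le (Subgroup.centralizer {z})).2 (fun τ h w hw => ?_) hg z rfl
  rw [Set.mem_singleton_iff.1 hw, ← mul_inv_eq_iff_eq_mul]
  exact 𝒯.star _ (𝒯.conj τ h z) _ h fun y => by
    simp only [mul_smul, mem_Zk.1 hz, mem_Zk.1 (inv_mem hz)]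

lemma comm (_a : τ ∈ 𝒯.T) (b : σ ∈ 𝒯.T) (h1 : ∀ y ∉ O, τ • y = y) (h2 : ∀ y ∈ O, σ • y = y) :
    Commute τ σ := by
  rw [Commute, SemiconjBy, ← mul_inv_eq_iff_eq_mul]
  refine 𝒯.star _ (𝒯.conj σ b τ) _ b fun y => ?_
  have k : ∀ y ∉ O, τ⁻¹ • y = y := fun y hy => inv_smul_eq_iff.2 (h1 y hy).symm
  rw [mul_smul, mul_smul]
  by_cases hy : y ∈ O
  · rw [h2 y hy, h2, smul_inv_smul]
    exact by_contra fun e => e (by rwa [← smul_inv_smul τ y, h1 _ e] at hy)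
  · rw [k y hy, h1]
    exact fun e => hy (by rwa [smul_left_cancel σ (h2 _ e)] at e)

lemma c3 (a : τ ∈ 𝒯.T) (y : Y) : τ • τ • τ • y = y := by
  rw [← mul_smul, ← mul_smul, 𝒯.cube τ a, one_smul]

variable (𝒯) in
def Ev (y : Y) (P : Set Y → Prop) : Prop :=
  ∃ A, 𝒯.Clop A ∧ y ∈ A ∧ ∀ A', 𝒯.Clop A' → A' ⊆ A → P A'

lemma Ev.and {P Q : Set Y → Prop} (a : 𝒯.Ev y P) (b : 𝒯.Ev y Q) :
    𝒯.Ev y fun A => P A ∧ Q A :=
  let ⟨_, a1, a2, a3⟩ := a; let ⟨_, b1, b2, b3⟩ := b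
  ⟨_, 𝒯.clop_inter a1 b1, ⟨a2, b2⟩, fun _ h k => ⟨a3 _ h (k.trans Set.inter_subset_left),
    b3 _ h (k.trans Set.inter_subset_right)⟩⟩

lemma Ev.imp {p : Prop} {P : Set Y → Prop} (a : p → 𝒯.Ev y P) : 𝒯.Ev y fun A => p → P A := by
  by_cases h : p
  · simpa [h] using a h
  · exact ⟨_, 𝒯.clop_univ, trivial, fun _ _ _ e => absurd e h⟩

lemma Ev.fin {ι : Type*} {s : Set ι} (hs : s.Finite) {P : ι → Set Y → Prop}
    (a : ∀ i ∈ s, 𝒯.Ev y (P i)) : 𝒯.Ev y fun A => ∀ i ∈ s, P i A := by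
  induction s, hs using Set.Finite.induction_on with
  | empty => exact ⟨_, 𝒯.clop_univ, trivial, by simp⟩
  | insert _ _ ih =>
    simpa using (a _ (Set.mem_insert _ _)).and (ih fun i h => a i (Set.mem_insert_of_mem _ h))

lemma Ev.all {ι : Type*} [Finite ι] {P : ι → Set Y → Prop} (a : ∀ i, 𝒯.Ev y (P i)) :
    𝒯.Ev y fun A => ∀ i, P i A := by
  simpa using Ev.fin Set.finite_univ fun i _ => a i

lemma Ev.pt {Q : Y → Prop} (h : ∃ A, 𝒯.Clop A ∧ y ∈ A ∧ ∀ y' ∈ A, Q y') :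
    𝒯.Ev y fun A => ∀ y' ∈ A, Q y' :=
  let ⟨A, a, b, c⟩ := h; ⟨A, a, b, fun _ _ k z hz => c z (k hz)⟩

lemma Ev.f3 {a b c : E} (h1 : 𝒯.Sep (a • y) (b • y)) (h2 : 𝒯.Sep (a • y) (c • y))
    (h3 : 𝒯.Sep (b • y) (c • y)) : 𝒯.Ev y fun A => ∃ τ ∈ 𝒯.T, IsCyc τ A a b c :=
  𝒯.frame3 y ![a, b, c] fun i j h => by
    fin_cases i <;> fin_cases j <;>
      first | exact absurd rfl h | assumption | exact h1.symm | exact h2.symm | exact h3.symm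

open Classical in
variable (𝒯) in
noncomputable def res (O : Set Y) (τ : E) : E :=
  if h : ∃ σ ∈ 𝒯.T, (∀ y ∈ O, σ • y = τ • y) ∧ ∀ y ∉ O, σ • y = y then h.choose else 1

lemma res_spec (a : τ ∈ 𝒯.T) (b : 𝒯.Clop O) (c : ∀ y ∈ O, τ • y ∈ O) :
    𝒯.res O τ ∈ 𝒯.T ∧ (∀ y ∈ O, 𝒯.res O τ • y = τ • y) ∧ ∀ y ∉ O, 𝒯.res O τ • y = y := by
  have h : ∃ σ ∈ 𝒯.T, (∀ y ∈ O, σ • y = τ • y) ∧ ∀ y ∉ O, σ • y = y :=
    let ⟨σ, h1, _, _, _, h2, h3⟩ := 𝒯.split τ a O b c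
    ⟨σ, h1, fun y h => (h2 y h).1, fun y h => (h3 y h).1⟩
  rw [res, dif_pos h]
  exact h.choose_spec

lemma res_union (a : τ ∈ 𝒯.T) (b : 𝒯.Clop O) (c : ∀ y ∈ O, τ • y ∈ O) (b' : 𝒯.Clop O')
    (c' : ∀ y ∈ O', τ • y ∈ O') (d : ∀ y ∈ O, y ∉ O') :
    𝒯.res (O ∪ O') τ = 𝒯.res O τ * 𝒯.res O' τ := by
  obtain ⟨r1, r2, r3⟩ := res_spec a (clop_union b b') fun y h => h.imp (c y) (c' y)
  obtain ⟨s1, s2, s3⟩ := res_spec a b c
  obtain ⟨t1, t2, t3⟩ := res_spec a b' c'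
  obtain ⟨σ, h1, ρ, h2, e, h3, h4⟩ := 𝒯.split _ r1 O b fun y h => by
    rw [r2 y (.inl h)]; exact c y h
  rw [e, 𝒯.star σ h1 _ s1, 𝒯.star ρ h2 _ t1] <;> intro y <;> by_cases hy : y ∈ O
  · rw [(h3 y hy).2, t3 y (d y hy)]
  · rw [(h4 y hy).2]
    by_cases hy' : y ∈ O'
    · rw [r2 y (.inr hy'), t2 y hy']
    · rw [r3 y (fun k => k.elim hy hy'), t3 y hy']
  · rw [(h3 y hy).1, r2 y (.inl hy), s2 y hy]
  · rw [(h4 y hy).1, s3 y hy]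

lemma list_act (l : List E) (a : ∀ τ ∈ l, τ ∈ 𝒯.T ∧ ∀ y ∈ O, τ • y ∈ O) (b : 𝒯.Clop O) (y : Y) :
    (y ∈ O → (l.map (𝒯.res O)).prod • y = l.prod • y ∧ l.prod • y ∈ O) ∧
      (y ∉ O → (l.map (𝒯.res O)).prod • y = y) := by
  induction l with
  | nil => simp
  | cons τ l ih =>
    have := a τ List.mem_cons_self
    obtain ⟨-, r2, r3⟩ := res_spec this.1 b this.2
    replace ih := ih fun σ h => a σ (List.mem_cons_of_mem _ h)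
    simp only [List.map_cons, List.prod_cons, mul_smul]
    exact ⟨fun h => ⟨by rw [(ih.1 h).1, r2 _ (ih.1 h).2], this.2 _ (ih.1 h).2⟩,
      fun h => by rw [ih.2 h, r3 y h]⟩

lemma list_union (l : List E) (a : ∀ τ ∈ l, τ ∈ 𝒯.T ∧ (∀ y ∈ O, τ • y ∈ O) ∧ ∀ y ∈ O', τ • y ∈ O')
    (b : 𝒯.Clop O) (b' : 𝒯.Clop O') (d : ∀ y ∈ O, y ∉ O') :
    (l.map (𝒯.res (O ∪ O'))).prod = (l.map (𝒯.res O)).prod * (l.map (𝒯.res O')).prod := by
  induction l with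
  | nil => simp
  | cons τ l ih =>
    have k := a τ List.mem_cons_self
    have a' := fun σ h => a σ (List.mem_cons_of_mem _ h)
    have : Commute (𝒯.res O' τ) (l.map (𝒯.res O)).prod := Commute.list_prod_right _ _ fun x hx => by
      obtain ⟨σ, h, rfl⟩ := List.mem_map.1 hx
      have r := res_spec k.1 b' k.2.2
      have r' := res_spec (a' σ h).1 b (a' σ h).2.1
      exact comm r.1 r'.1 r.2.2 fun y hy => r'.2.2 y fun e => d y e hy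
    simp only [List.map_cons, List.prod_cons]
    rw [ih a', res_union k.1 b k.2.1 b' k.2.2 d, mul_assoc, mul_assoc, ← mul_assoc (𝒯.res O' τ),
      this.eq, mul_assoc]

section Loc

variable {ι : Type} [DecidableEq ι] {g : ι → E} {π π' : Equiv.Perm ι}

def Loc (g : ι → E) (A : Set Y) (σ : E) (π : Equiv.Perm ι) : Prop :=
  (∀ a, ∀ y ∈ A, σ • g a • y = g (π a) • y) ∧ ∀ w, (∀ a, ∀ y ∈ A, w ≠ g a • y) → σ • w = w

omit [DecidableEq ι] in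
lemma Loc.mul (a : Loc g A τ π) (b : Loc g A σ π') : Loc g A (τ * σ) (π * π') :=
  ⟨fun i y h => by rw [mul_smul, b.1 i y h, a.1 _ y h]; rfl,
    fun w h => by rw [mul_smul, b.2 w h, a.2 w h]⟩

omit [DecidableEq ι] in
lemma Loc.inv (a : Loc g A τ π) : Loc g A τ⁻¹ π⁻¹ :=
  ⟨fun i y h => inv_smul_eq_iff.2 (by rw [a.1 _ y h]; simp),
    fun w h => inv_smul_eq_iff.2 (a.2 w h).symm⟩

omit [DecidableEq ι] in
lemma Loc.eq (a : Loc g A τ π) (b : Loc g A σ π') (h1 : τ ∈ 𝒯.T) (h2 : σ ∈ 𝒯.T) (e : π = π') :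
    τ = σ := 𝒯.star _ h1 _ h2 fun w => by
  by_cases h : ∀ a, ∀ y ∈ A, w ≠ g a • y
  · rw [a.2 w h, b.2 w h]
  · push Not at h
    obtain ⟨i, y, hy, rfl⟩ := h
    rw [a.1 i y hy, b.1 i y hy, e]

def cy (a b c : ι) : Equiv.Perm ι := Equiv.swap a c * Equiv.swap a b

lemma cy_spec {a b c : ι} (d : D3 a b c) : cy a b c a = b ∧ cy a b c b = c ∧ cy a b c c = a ∧
    ∀ x, x ≠ a → x ≠ b → x ≠ c → cy a b c x = x := by
  obtain ⟨d1, d2, d3⟩ := d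
  refine ⟨?_, ?_, ?_, fun x h1 h2 h3 => ?_⟩ <;>
    simp [cy, Equiv.swap_apply_def, d1.symm, d2.symm, d3.symm, *]

lemma cy_eq {a b c : ι} (d : D3 a b c) (h1 : π a = b) (h2 : π b = c) (h3 : π c = a)
    (h4 : ∀ x, x ≠ a → x ≠ b → x ≠ c → π x = x) : π = cy a b c := Equiv.ext fun x => by
  obtain ⟨c1, c2, c3, c4⟩ := cy_spec d
  by_cases e1 : x = a
  · rw [e1, h1, c1]
  by_cases e2 : x = b
  · rw [e2, h2, c2]
  by_cases e3 : x = c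
  · rw [e3, h3, c3]
  · rw [h4 x e1 e2 e3, c4 x e1 e2 e3]

lemma loc_cyc (dj : ∀ a b, ∀ y ∈ A, ∀ y' ∈ A, g a • y = g b • y' → a = b) {a b c : ι}
    (d : D3 a b c) : IsCyc τ A (g a) (g b) (g c) ↔ Loc g A τ (cy a b c) := by
  obtain ⟨c1, c2, c3, c4⟩ := cy_spec d
  refine ⟨fun h => ⟨fun x y hy => ?_, fun w hw => h.2 w fun y hy => ⟨hw _ y hy, hw _ y hy,
    hw _ y hy⟩⟩, fun h => ⟨fun y hy => ⟨by rw [h.1 _ y hy, c1], by rw [h.1 _ y hy, c2],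
      by rw [h.1 _ y hy, c3]⟩, fun w hw => ?_⟩⟩
  · by_cases e1 : x = a
    · rw [e1, c1, (h.1 y hy).1]
    by_cases e2 : x = b
    · rw [e2, c2, (h.1 y hy).2.1]
    by_cases e3 : x = c
    · rw [e3, c3, (h.1 y hy).2.2]
    · rw [c4 x e1 e2 e3, h.2 _ fun z hz => ⟨fun e => e1 (dj _ _ _ hy _ hz e),
        fun e => e2 (dj _ _ _ hy _ hz e), fun e => e3 (dj _ _ _ hy _ hz e)⟩]
  · by_cases k : ∀ a, ∀ y ∈ A, w ≠ g a • y
    · exact h.2 w k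
    push Not at k
    obtain ⟨i, y, hy, rfl⟩ := k
    rw [h.1 i y hy, c4] <;> rintro rfl <;> simp [hw y hy] at *
    all_goals simpa using hw y hy

lemma loc_main [Fintype ι] (hA : 𝒯.Clop A) (hy : y ∈ A)
    (dj : ∀ a b, ∀ y ∈ A, ∀ y' ∈ A, g a • y = g b • y' → a = b)
    (f3 : ∀ a b c, D3 a b c → ∃ τ ∈ 𝒯.T, IsCyc τ A (g a) (g b) (g c))
    (f4 : ∀ n a c d, D4 n a c d → ∀ τ₁ ∈ 𝒯.T, ∀ τ₂ ∈ 𝒯.T, IsCyc τ₁ A (g n) (g c) (g d) →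
      IsCyc τ₂ A (g n) (g a) (g c) → τ₁ * τ₂ ∈ 𝒯.T) {z : E}
    (hz : z ∈ Subgroup.closure {σ | σ ∈ 𝒯.T ∧ ∃ π, Loc g A σ π}) (h0 : ∀ w : Y, z • w = w) :
    z = 1 := by
  choose! t t1 t2 using f3
  have t3 := fun a b c d => (loc_cyc dj d).1 (t2 a b c d)
  have inj : ∀ {a b}, g a • y = g b • y → a = b := dj _ _ _ hy _ hy
  have sw : ∀ {a b c : ι}, D3 a b c → D3 a c b := fun d => ⟨d.2.1, d.1, d.2.2.symm⟩
  have hinv : ∀ a b c, D3 a b c → t a c b = (t a b c)⁻¹ := fun a b c d => by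
    obtain ⟨c1, c2, c3, c4⟩ := cy_spec d
    exact (t3 _ _ _ (sw d)).eq (t3 _ _ _ d).inv (t1 _ _ _ (sw d)) (𝒯.inv _ (t1 _ _ _ d))
      (cy_eq (sw d) (Equiv.Perm.inv_eq_iff_eq.2 c3.symm) (Equiv.Perm.inv_eq_iff_eq.2 c2.symm)
        (Equiv.Perm.inv_eq_iff_eq.2 c1.symm) fun x h1 h2 h3 =>
          Equiv.Perm.inv_eq_iff_eq.2 (c4 x h1 h3 h2).symm).symm
  refine alt_inj (fun a => g a • y) (fun a b => inj) t (fun a b c d => ?_) hinv (fun a b c d => ?_)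
    (fun a b c d => ((t2 a b c d).1 y hy).1)
    (fun a b c x d h1 h2 h3 => by rw [(t3 a b c d).1 x y hy, (cy_spec d).2.2.2 x h1 h2 h3])
    (fun a b c a' b' c' a'' b'' c'' d d' h1 h2 h3 => ?_) (fun n a c d e => ?_) z
    ((Subgroup.closure_le _).2 ?_ hz) fun a => h0 _
  · have d' : D3 b c a := ⟨d.2.2, d.1.symm, d.2.1.symm⟩
    obtain ⟨c1, c2, c3, c4⟩ := cy_spec d
    exact (t3 _ _ _ d).eq (t3 _ _ _ d') (t1 _ _ _ d) (t1 _ _ _ d')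
      (cy_eq d' c2 c3 c1 fun x h1 h2 h3 => c4 x h3 h1 h2)
  · rw [hinv a b c d, eq_inv_of_mul_eq_one_left (𝒯.cube _ (t1 a b c d))]
  · rw [(t3 a b c d).1 _ y hy] at h1 h2 h3
    obtain ⟨rfl, rfl, rfl⟩ := And.intro (inj h1) (And.intro (inj h2) (inj h3))
    have d'' : D3 (cy a b c a') (cy a b c b') (cy a b c c') := by simpa [D3] using d'
    obtain ⟨c1, c2, c3, c4⟩ := cy_spec d'
    refine (((t3 _ _ _ d).mul (t3 _ _ _ d')).mul (t3 _ _ _ d).inv).eq (t3 _ _ _ d'')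
      (𝒯.conj _ (t1 _ _ _ d') _) (t1 _ _ _ d'') (cy_eq d'' (by simp [c1]) (by simp [c2])
        (by simp [c3]) fun x h1 h2 h3 => ?_)
    simp only [Equiv.Perm.mul_apply]
    rw [c4] <;> simp [Equiv.symm_apply_eq, *]
  · obtain ⟨e1, e2, e3, e4, e5, e6⟩ := id e
    have d1 : D3 n c d := ⟨e2, e3, e6⟩
    have d2 : D3 n a c := ⟨e1, e2, e4⟩
    have d3 : D3 n a d := ⟨e1, e3, e5⟩
    obtain ⟨c1, c2, c3, c4⟩ := cy_spec d1
    obtain ⟨b1, b2, b3, b4⟩ := cy_spec d2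
    refine ((t3 _ _ _ d1).mul (t3 _ _ _ d2)).eq (t3 _ _ _ d3) (f4 n a c d e _ (t1 _ _ _ d1) _
      (t1 _ _ _ d2) (t2 _ _ _ d1) (t2 _ _ _ d2)) (t1 _ _ _ d3) (cy_eq d3
        (by simp [b1, c4 a e1.symm e4 e5]) (by simp [b2, c2])
        (by simp [b4 d e3.symm e5.symm e6.symm, c3]) fun x h1 h2 h3 => ?_)
    by_cases h : x = c
    · simp [h, b3, c1]
    · simp [b4 x h1 h2 h, c4 x h1 h h3]
  rintro σ ⟨h1, π, h2⟩
  induction hk : π.support.card using Nat.strong_induction_on generalizing σ π with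
  | _ k ih =>
  by_cases e : π = 1
  · rw [h2.eq (σ := 1) (π' := 1) ⟨by simp, by simp⟩ h1 𝒯.one_mem e]
    exact Subgroup.one_mem _
  obtain ⟨a, ha⟩ : ∃ a, π a ≠ a := by simpa [Equiv.ext_iff] using e
  have p3 : π (π (π a)) = a := inj (by
    rw [← h2.1 _ y hy, ← h2.1 _ y hy, ← h2.1 _ y hy, c3 h1])
  have d : D3 a (π a) (π (π a)) := ⟨ha.symm, fun e => ha (by rw [e, p3, ← e]),
    fun e => ha (π.injective e).symm⟩
  let O : Set Y := {w | (g a)⁻¹ • w ∈ A} ∪ ({w | (g (π a))⁻¹ • w ∈ A} ∪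
    {w | (g (π (π a)))⁻¹ • w ∈ A})
  have hO : ∀ w, w ∈ O ↔ ∃ y ∈ A, w = g a • y ∨ w = g (π a) • y ∨ w = g (π (π a)) • y := fun w =>
    ⟨by rintro (h | h | h) <;> exact ⟨_, h, by simp⟩, by rintro ⟨y, hy, h | h | h⟩ <;> simp [O, h, hy]⟩
  obtain ⟨ρ, r1, ρ', r2, r3, r4, r5⟩ := 𝒯.split σ h1 O (clop_union (𝒯.clop_pre _ hA)
    (clop_union (𝒯.clop_pre _ hA) (𝒯.clop_pre _ hA))) fun w hw => by
      obtain ⟨y, hy, rfl | rfl | rfl⟩ := (hO w).1 hw <;> rw [h2.1 _ y hy] <;>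
        exact (hO _).2 ⟨y, hy, by simp [p3]⟩
  have r6 : ρ = t a (π a) (π (π a)) := ((loc_cyc dj d).1 ⟨fun y hy => by
    refine ⟨?_, ?_, ?_⟩ <;> rw [(r4 _ ((hO _).2 ⟨y, hy, by simp⟩)).1, h2.1 _ y hy]
    rw [p3], fun w hw => (r5 w fun k => by
      obtain ⟨y, hy, k⟩ := (hO w).1 k
      have := hw y hy
      tauto).1⟩).eq (t3 _ _ _ d) r1 (t1 _ _ _ d) rfl
  obtain ⟨c1, c2, c3, c4⟩ := cy_spec d
  have r7 := (t3 _ _ _ d).inv.mul h2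
  rw [← r6, r3, inv_mul_cancel_left] at r7
  rw [r3]
  refine mul_mem (Subgroup.subset_closure ⟨_, _, _, d, r6⟩) (ih _ (hk ▸ Finset.card_lt_card
    ⟨fun x hx => ?_, fun k => ?_⟩) r2 _ r7 rfl)
  · rw [Equiv.Perm.mem_support] at hx ⊢
    intro k
    refine hx (by
      rw [Equiv.Perm.mul_apply, k, Equiv.Perm.inv_eq_iff_eq, c4] <;> rintro rfl
      exacts [ha k, d.2.2 k.symm, d.2.1 (p3.symm.trans k)])
  · exact Equiv.Perm.mem_support.1 (k (Equiv.Perm.mem_support.2 ha))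
      (Equiv.Perm.inv_eq_iff_eq.2 c1.symm)

end Loc

end Tri

/-- FIN: the locally finite base -/
theorem Tri.fin (𝒯 : Tri E Y) (R : Setoid Y)
    (lf : ∀ s : Finset E, (s : Set E) ⊆ PR E R →
      ((Subgroup.closure (s : Set E)).map (MulAction.toPermHom E Y) : Set (Equiv.Perm Y)).Finite)
    (uniq : ∀ g ∈ PR E R, ∀ y : Y, ¬ 𝒯.Sep (g • y) y →
      ∃ A, 𝒯.Clop A ∧ y ∈ A ∧ ∀ y' ∈ A, g • y' = y') :
    𝒯.ZR R = ⊥ := by
  classical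
  refine (Subgroup.eq_bot_iff_forall _).2 fun z hz => ?_
  obtain ⟨l, hl, rfl⟩ : ∃ l : List E, (∀ τ ∈ l, τ ∈ 𝒯.T ∩ PR E R) ∧ l.prod = z := by
    refine Subgroup.closure_induction (fun x hx => ⟨[x], by simpa using hx, by simp⟩)
      ⟨[], by simp, rfl⟩ ?_ ?_ hz.1
    · rintro _ _ - - ⟨a, ha, rfl⟩ ⟨b, hb, rfl⟩
      exact ⟨a ++ b, fun τ h => (List.mem_append.1 h).elim (ha τ) (hb τ), List.prod_append⟩
    · rintro _ - ⟨a, ha, rfl⟩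
      refine ⟨_, fun τ h => ?_, (List.prod_inv_reverse a).symm⟩
      obtain ⟨σ, h', rfl⟩ := List.mem_map.1 (List.mem_reverse.1 h)
      exact ⟨𝒯.inv _ (ha σ h').1, (PR E R).inv_mem (ha σ h').2⟩
  set H := Subgroup.closure (l.toFinset : Set E) with hH
  have sub : (l.toFinset : Set E) ⊆ PR E R := fun τ h => (hl τ (by simpa using h)).2
  have HP : H ≤ PR E R := (Subgroup.closure_le _).2 sub
  have lH : ∀ τ ∈ l, τ ∈ H := fun τ h => Subgroup.subset_closure (by simpa using h)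
  obtain ⟨s, s1, s2⟩ : ∃ s : Finset E, (∀ g ∈ s, g ∈ H) ∧
      ∀ g ∈ H, ∃ g' ∈ s, ∀ y : Y, g • y = g' • y := by
    obtain ⟨s, s1, s2, s3⟩ := (lf _ sub).exists_subset_finite_image_eq (s := H)
      (f := MulAction.toPermHom E Y) le_rfl
    refine ⟨s2.toFinset, fun g h => s1 (s2.mem_toFinset.1 h), fun g h => ?_⟩
    obtain ⟨g', h1, h2⟩ := s3.ge (Subgroup.mem_map_of_mem _ h)
    exact ⟨g', s2.mem_toFinset.2 h1, fun y => (Equiv.ext_iff.1 h2 y).symm⟩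
  have key : ∀ y : Y, ∃ U, (𝒯.Clop U ∧ y ∈ U) ∧ (∀ g ∈ H, ∀ w ∈ U, g • w ∈ U) ∧ ∀ O, 𝒯.Clop O →
      (∀ g ∈ H, ∀ w ∈ O, g • w ∈ O) → O ⊆ U → (l.map (𝒯.res O)).prod = 1 := by
    intro y
    have ex : ∀ a : s.image (· • y), ∃ g ∈ H, g • y = a := fun a =>
      let ⟨g, h1, h2⟩ := Finset.mem_image.1 a.2; ⟨g, s1 g h1, h2⟩
    choose g g1 g2 using ex
    have un : ∀ u ∈ H, ∀ v ∈ H, ¬ 𝒯.Sep (u • y) (v • y) →
        ∃ A, 𝒯.Clop A ∧ y ∈ A ∧ ∀ y' ∈ A, u • y' = v • y' := fun u hu v hv h => by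
      simpa only [mul_smul, inv_smul_eq_iff] using uniq (v⁻¹ * u) (HP (mul_mem (inv_mem hv) hu)) y
        (by rwa [← Tri.sep_smul v, mul_smul, smul_inv_smul])
    have sp : ∀ {a b}, a ≠ b → 𝒯.Sep (g a • y) (g b • y) := fun {a b} h => by_contra fun e =>
      let ⟨_, _, h2, h3⟩ := un _ (g1 a) _ (g1 b) e
      h (Subtype.ext (by rw [← g2, ← g2, h3 y h2]))
    obtain ⟨A, a1, a2, a3⟩ := ((Tri.Ev.fin s.finite_toSet fun u hu => Tri.Ev.all fun a =>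
      Tri.Ev.imp fun e : u • y = g a • y => Tri.Ev.pt (un u (s1 u hu) _ (g1 a)
        (e ▸ Tri.nsep_refl _))).and (Tri.Ev.all fun a => Tri.Ev.all fun b => Tri.Ev.imp
      fun e : a ≠ b => (show 𝒯.Ev y fun A => ∀ u ∈ A, ∀ v ∈ A, g a • u ≠ g b • v from
        let ⟨_, o1, o2, o3⟩ := sp e
        ⟨_, 𝒯.clop_inter (𝒯.clop_pre (g a) o1) (𝒯.clop_compl (𝒯.clop_pre (g b) o1)), ⟨o2, o3⟩,
          fun _ _ k u hu v hv e => (k hv).2 (by simpa [← e] using (k hu).1)⟩))).and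
      ((Tri.Ev.all fun a => Tri.Ev.all fun b => Tri.Ev.all fun c => Tri.Ev.imp
        fun d : D3 a b c => Tri.Ev.f3 (sp d.1) (sp d.2.1) (sp d.2.2)).and
      (Tri.Ev.all fun n => Tri.Ev.all fun a => Tri.Ev.all fun c => Tri.Ev.all fun d => Tri.Ev.imp
        fun e : D4 n a c d => (𝒯.frame4 y (g ∘ ![n, a, c, d]) fun i j h => sp (by
          obtain ⟨e1, e2, e3, e4, e5, e6⟩ := e
          fin_cases i <;> fin_cases j <;> first | exact absurd rfl h | assumption | (symm; assumption)) :)))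
    have mv : ∀ u ∈ H, ∃ a, ∀ w ∈ A, u • w = g a • w := fun u hu => by
      obtain ⟨v, h1, h2⟩ := s2 u hu
      refine ⟨⟨_, Finset.mem_image_of_mem _ h1⟩, fun w hw => ?_⟩
      rw [h2]
      exact (a3 A a1 le_rfl).1.1 v h1 _ (by rw [g2]) w hw
    have mU : ∀ w, w ∈ (⋃ a ∈ Finset.univ, {w | (g a)⁻¹ • w ∈ A}) ↔ ∃ a, ∃ v ∈ A, w = g a • v :=
      fun w => by
        simp only [Finset.mem_univ, Set.iUnion_true, Set.mem_iUnion, Set.mem_ofPred_eq]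
        exact exists_congr fun a => ⟨fun h => ⟨_, h, by simp⟩, by rintro ⟨v, h, rfl⟩; simpa using h⟩
    refine ⟨_, ⟨Tri.clop_iUnion Finset.univ fun a => 𝒯.clop_pre (g a)⁻¹ a1, (mU _).2 ?_⟩,
      fun u hu w hw => ?_, fun O o1 o2 o3 => ?_⟩
    · obtain ⟨a, ha⟩ := mv 1 H.one_mem
      exact ⟨a, y, a2, by rw [← ha y a2, one_smul]⟩
    · obtain ⟨a, v, hv, rfl⟩ := (mU w).1 hw
      obtain ⟨b, hb⟩ := mv _ (mul_mem hu (g1 a))
      exact (mU _).2 ⟨b, v, hv, by rw [← hb v hv, mul_smul]⟩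
    have la := Tri.list_act l (fun τ h => ⟨(hl τ h).1, o2 τ (lH τ h)⟩) o1
    have rs := fun τ h => Tri.res_spec (hl τ h).1 o1 (o2 τ (lH τ h))
    have out : ∀ w ∈ O, ∃ a, ∃ v ∈ O ∩ A, w = g a • v := fun w hw => by
      obtain ⟨a, v, hv, rfl⟩ := (mU w).1 (o3 hw)
      exact ⟨a, v, ⟨by simpa using o2 _ (inv_mem (g1 a)) _ hw, hv⟩, rfl⟩
    rcases (O ∩ A).eq_empty_or_nonempty with e | ⟨y', hy'⟩
    · refine List.prod_eq_one fun x hx => ?_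
      obtain ⟨τ, h, rfl⟩ := List.mem_map.1 hx
      refine 𝒯.star _ (rs τ h).1 _ 𝒯.one_mem fun w => ?_
      rw [one_smul, (rs τ h).2.2 w fun k => by simpa [e] using out w k]
    obtain ⟨⟨-, b2⟩, b3, b4⟩ := a3 _ (𝒯.clop_inter o1 a1) Set.inter_subset_right
    have dj : ∀ a b, ∀ u ∈ O ∩ A, ∀ v ∈ O ∩ A, g a • u = g b • v → a = b :=
      fun a b u hu v hv e => by_contra fun k => b2 a b k u hu v hv e
    refine Tri.loc_main (𝒯.clop_inter o1 a1) hy' dj b3 b4 (list_prod_mem fun x hx => ?_) fun w => ?_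
    · obtain ⟨τ, h, rfl⟩ := List.mem_map.1 hx
      choose π hπ using fun a => mv _ (mul_mem (lH τ h) (g1 a))
      refine Subgroup.subset_closure ⟨(rs τ h).1, Equiv.ofBijective π (Finite.injective_iff_bijective.1
        fun a b e => dj a b _ hy' _ hy' (smul_left_cancel τ ?_)), fun a v hv => ?_, fun w hw =>
          (rs τ h).2.2 w fun k => let ⟨a, v, h1, h2⟩ := out w k; hw a v h1 h2⟩
      · rw [← mul_smul, ← mul_smul, hπ _ _ hy'.2, hπ _ _ hy'.2, e]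
      · rw [(rs τ h).2.1 _ (o2 _ (g1 a) _ hv.1), ← mul_smul, hπ _ _ hv.2]; rfl
    · by_cases k : w ∈ O
      · rw [((la w).1 k).1, Tri.mem_Zk.1 hz.2]
      · exact (la w).2 k
  choose U u1 u2 u3 using key
  obtain ⟨c, hc⟩ := 𝒯.compact U u1
  have fin : ∀ c : Finset Y, ∀ O, 𝒯.Clop O → (∀ g ∈ H, ∀ w ∈ O, g • w ∈ O) →
      (∀ w ∈ O, ∃ y ∈ c, w ∈ U y) → (l.map (𝒯.res O)).prod = 1 := fun c => by
    induction c using Finset.induction_on with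
    | empty => exact fun O o1 o2 o3 => List.prod_eq_one fun x hx => by
                obtain ⟨τ, h, rfl⟩ := List.mem_map.1 hx
                have r := Tri.res_spec (hl τ h).1 o1 (o2 τ (lH τ h))
                refine 𝒯.star _ r.1 _ 𝒯.one_mem fun w => ?_
                rw [one_smul, r.2.2 w fun k => by simpa using o3 w k]
    | insert y c _ ih =>
      intro O o1 o2 o3
      have i1 : ∀ g ∈ H, ∀ w ∈ O ∩ U y, g • w ∈ O ∩ U y :=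
        fun g h w k => ⟨o2 g h w k.1, u2 y g h w k.2⟩
      have i2 : ∀ g ∈ H, ∀ w ∈ O ∩ (U y)ᶜ, g • w ∈ O ∩ (U y)ᶜ := fun g h w k =>
        ⟨o2 g h w k.1, fun e => k.2 (by simpa using u2 y _ (inv_mem h) _ e)⟩
      have c1 := 𝒯.clop_inter o1 (u1 y).1
      have c2 := 𝒯.clop_inter o1 (𝒯.clop_compl (u1 y).1)
      rw [← Set.inter_union_compl O (U y), Tri.list_union l (fun τ h => ⟨(hl τ h).1,
        i1 τ (lH τ h), i2 τ (lH τ h)⟩) c1 c2 fun w a b => b.2 a.2,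
        u3 y _ c1 i1 Set.inter_subset_right, ih _ c2 i2, one_mul]
      intro w k
      obtain ⟨v, h1, h2⟩ := o3 w k.1
      exact ⟨v, (Finset.mem_insert.1 h1).resolve_left fun e => k.2 (e ▸ h2), h2⟩
  rw [← fin c _ 𝒯.clop_univ (by simp) fun w _ => hc w, List.map_congr_left (g := id), List.map_id]
  intro τ h
  have r := Tri.res_spec (hl τ h).1 𝒯.clop_univ (by simp)
  exact 𝒯.star _ r.1 _ (hl τ h).1 fun w => r.2.1 w trivial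

end Vale.Agent.P196
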