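import Mathlib
import Vale.Agent.P196.TriA

/-! Job C: the stage lemma (definitions and FIN are in `TriA.lean`).
See notes/P196.md, part C. -/

namespace Vale.Agent.P196

open TrB

variable {E Y : Type} [Group E] [MulAction E Y]

/-- the function that the smaller group preserves: height (`κ = true`) or side (`κ = false`) -/
def Same {n : ℕ} (κ : Bool) (H : Y → ZMod n) (s : Y → Bool) (y' y : Y) : Prop :=
  if κ then H y' = H y else s y' = s y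

structure StgH (𝒯 : Tri E Y) (R : Setoid Y) {n : ℕ} (κ : Bool) (S : Set Y) (H : Y → ZMod n)
    (s : Y → Bool) : Prop where
  hR : ∀ y' y, R y' y → y ∈ S → y' ∈ S
  sat : ∀ y ∈ S, ∀ y', ¬ 𝒯.Sep y y' → y' ∈ S ∧ s y' = s y
  H1 : ∀ g : E, ∀ y ∈ S, ∀ y', ¬ 𝒯.Sep y y' → H (g • y') - H y' = H (g • y) - H y
  H2 : ∀ g ∈ PR E R, ∃ B : Finset Y, ∀ y ∈ S, ¬ Same κ H s (g • y) y → ∃ b ∈ B, ¬ 𝒯.Sep y b
  H3 : ∀ y ∈ S, ∀ y' ∈ S, ∀ m, ∃ g : E, ¬ 𝒯.Sep (g • y) y' ∧ H (g • y) = m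
  H4 : ∀ g : E, ∀ y ∈ S, g • y ∈ S → ∃ A, 𝒯.Clop A ∧ y ∈ A ∧
    ∀ y₁ ∈ A, R (g • y₁) y₁ ∧ (y₁ ∈ S → 𝒯.Sep y₁ y → Same κ H s (g • y₁) y₁)
  H5 : ∀ g : E, ∀ y ∈ S, ¬ 𝒯.Sep (g • y) y → H (g • y) = H y →
    ∃ A, 𝒯.Clop A ∧ y ∈ A ∧ ∀ y' ∈ A, g • y' = y'
  inf : ∀ (B : Finset Y) (b : Bool), ∃ y ∈ S, (κ = false → s y = b) ∧ ∀ y' ∈ B, 𝒯.Sep y y'

variable {𝒯 : Tri E Y} {R : Setoid Y} {n : ℕ} {κ : Bool} {S : Set Y} {H : Y → ZMod n}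
  {s : Y → Bool}

def stgOid (𝒯 : Tri E Y) (S : Set Y) : Setoid S :=
  ⟨fun a b => ¬ 𝒯.Sep a b, fun _ => Tri.nsep_refl _, fun h e => h e.symm, Tri.nsep_trans⟩

def StgH.sm (h : StgH 𝒯 R κ S H s) (g : PR E R) (w : Quotient (stgOid 𝒯 S) × ZMod n) :
    Quotient (stgOid 𝒯 S) × ZMod n :=
  Quotient.liftOn w.1 (fun y : S => ((⟦⟨g.1 • y, h.hR _ _ (g.2 y) y.2⟩⟧ : Quotient (stgOid 𝒯 S)),
    w.2 + (H (g.1 • y) - H y))) (fun a b (e : ¬ 𝒯.Sep a b) => Prod.ext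
      (Quotient.sound fun k => e ((Tri.sep_smul g.1).1 k)) (by rw [h.H1 g a a.2 b e]))

@[reducible] def StgH.act (h : StgH 𝒯 R κ S H s) :
    MulAction (PR E R) (Quotient (stgOid 𝒯 S) × ZMod n) where
  smul := h.sm
  one_smul := by
    rintro ⟨⟨y⟩, m⟩
    refine Prod.ext (congrArg (Quotient.mk (stgOid 𝒯 S)) (Subtype.ext (one_smul E y.1))) ?_
    change m + (H ((1 : E) • y.1) - H y) = m
    simp
  mul_smul a b := by
    rintro ⟨⟨y⟩, m⟩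
    refine Prod.ext (congrArg (Quotient.mk (stgOid 𝒯 S)) (Subtype.ext (mul_smul a.1 b.1 y.1))) ?_
    change m + (H ((a.1 * b.1) • y.1) - H y) =
      m + (H (b.1 • y.1) - H y) + (H (a.1 • b.1 • y.1) - H (b.1 • y.1))
    rw [mul_smul]; ring

structure StgM (𝒯 : Tri E Y) (R : Setoid Y) (S : Set Y) (H : Y → ZMod n) {X : Type}
    [MulAction (PR E R) (X × ZMod n)] (pt : Y → X × ZMod n) : Prop where
  sur : ∀ w, ∃ y ∈ S, pt y = w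
  snd : ∀ y, (pt y).2 = H y
  fst : ∀ {y y'}, y ∈ S → y' ∈ S → ((pt y).1 = (pt y').1 ↔ ¬ 𝒯.Sep y y')
  act : ∀ (g : PR E R), ∀ y ∈ S, g • pt y = pt (g.1 • y)
  shift : ∀ (g : PR E R) (w : X × ZMod n) m, g • sh w m = sh (g • w) m

lemma StgH.model (h : StgH 𝒯 R κ S H s) : ∃ (X : Type) (_ : MulAction (PR E R) (X × ZMod n))
    (pt : Y → X × ZMod n), StgM 𝒯 R S H pt := by
  classical
  obtain ⟨y₀, h₀, -⟩ := h.inf ∅ true
  have fst : ∀ {y y'}, y ∈ S → y' ∈ S → ((if e : y ∈ S then ⟦⟨y, e⟩⟧ else ⟦⟨y₀, h₀⟩⟧ :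
      Quotient (stgOid 𝒯 S)) = (if e : y' ∈ S then ⟦⟨y', e⟩⟧ else ⟦⟨y₀, h₀⟩⟧) ↔ ¬ 𝒯.Sep y y') :=
    fun a b => by rw [dif_pos a, dif_pos b]; exact Quotient.eq
  let := h.act
  refine ⟨_, this, fun y => (if e : y ∈ S then ⟦⟨y, e⟩⟧ else ⟦⟨y₀, h₀⟩⟧, H y), ?_, fun _ => rfl,
    fst, fun g y hy => ?_, ?_⟩
  · rintro ⟨⟨y⟩, m⟩
    obtain ⟨g, g1, g2⟩ := h.H3 y y.2 y y.2 m
    have k := (h.sat y y.2 _ fun e => g1 e.symm).1
    exact ⟨_, k, Prod.ext ((dif_pos k).trans (Quotient.sound g1)) g2⟩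
  · simp only [dif_pos hy, dif_pos (h.hR _ _ (g.2 y) hy)]
    exact Prod.ext rfl (add_sub_cancel _ _)
  · rintro g ⟨⟨y⟩, m⟩ k
    exact Prod.ext rfl (add_right_comm _ _ _)

lemma Tri.core {τ : E} (a : τ ∈ 𝒯.T) {A : Set Y} (hA : 𝒯.Clop A) : ∃ O, 𝒯.Clop O ∧ O ⊆ A ∧
    (∀ y, τ • y ∈ O ↔ y ∈ O) ∧ ∀ y ∈ A, τ • y ∈ A → τ • τ • y ∈ A → y ∈ O :=
  ⟨_, 𝒯.clop_inter hA (𝒯.clop_inter (𝒯.clop_pre τ hA) (𝒯.clop_pre τ (𝒯.clop_pre τ hA))),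
    Set.inter_subset_left, fun y => by simp only [Set.mem_inter_iff, Set.mem_preimage, Tri.c3 a]; tauto,
    fun _ a b c => ⟨a, b, c⟩⟩

lemma Tri.splitP {τ : PR E R} (a : τ.1 ∈ 𝒯.T) {O : Set Y} (b : 𝒯.Clop O)
    (c : ∀ y ∈ O, τ.1 • y ∈ O) : ∃ σ ρ : PR E R, σ.1 ∈ 𝒯.T ∧ ρ.1 ∈ 𝒯.T ∧ τ = σ * ρ ∧
    (∀ y ∈ O, σ.1 • y = τ.1 • y ∧ ρ.1 • y = y) ∧ ∀ y ∉ O, σ.1 • y = y ∧ ρ.1 • y = τ.1 • y := by
  obtain ⟨σ, h1, ρ, h2, e, h3, h4⟩ := 𝒯.split _ a O b c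
  refine ⟨⟨σ, fun y => ?_⟩, ⟨ρ, fun y => ?_⟩, h1, h2, Subtype.ext e, h3, h4⟩ <;> by_cases k : y ∈ O
  · rw [(h3 y k).1]; exact τ.2 y
  · rw [(h4 y k).1]
  · rw [(h3 y k).2]
  · rw [(h4 y k).2]; exact τ.2 y

variable {X B : Type} [MulAction (PR E R) (X × ZMod n)] {pt : Y → X × ZMod n}
  {F : X × ZMod n → B}

lemma StgM.inv (m : StgM 𝒯 R S H pt) {τ : PR E R} {p q r w : X × ZMod n} (a : τ • p = q)
    (b : τ • q = r) (c : τ • r = p) (h : In w.1 p q r) : In (τ • w).1 p q r := by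
  have : ∀ {u : X × ZMod n}, w.1 = u.1 → (τ • w).1 = (τ • u).1 := fun e => by
    rw [eq_sh e, m.shift]; rfl
  rcases h with h | h | h <;> simp [In, this h, *]

lemma StgM.av (m : StgM 𝒯 R S H pt) (u : X × ZMod n) {C : Set X}
    (hC : C.Finite) : ∃ A, 𝒯.Clop A ∧
      ∀ z ∈ S, ((pt z).1 = u.1 → z ∈ A) ∧ (z ∈ A → (pt z).1 ∈ C → (pt z).1 = u.1) := by
  obtain ⟨y, hy, rfl⟩ := m.sur u
  obtain ⟨A, a1, a2, a3⟩ := Tri.Ev.fin (𝒯 := 𝒯) (y := y) hC (P := fun c A => ∀ z ∈ A, z ∈ S →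
      (pt z).1 = c → (pt z).1 = (pt y).1) fun c _ => Tri.Ev.pt (by
    obtain ⟨v, hv, e⟩ := m.sur (c, 0)
    by_cases k : 𝒯.Sep y v
    · obtain ⟨O, o1, o2, o3⟩ := k
      exact ⟨O, o1, o2, fun z hz hz' e' => absurd (Tri.satu o1 ((m.fst hz' hv).1 (by rw [e', e])) hz) o3⟩
    · exact ⟨_, 𝒯.clop_univ, trivial, fun z _ hz e' => by rw [e', (m.fst hy hv).2 k, e]⟩)
  exact ⟨A, a1, fun z hz => ⟨fun e => Tri.satu a1 ((m.fst hy hz).1 e.symm) a2,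
    fun b c => a3 A a1 le_rfl _ c z b hz rfl⟩⟩

lemma StgH.nb (h : StgH 𝒯 R κ S H s) (m : StgM 𝒯 R S H pt) {g g' : PR E R} {w : X × ZMod n}
    (e : g • w = g' • w) : ∃ A, 𝒯.Clop A ∧ (∀ z ∈ S, (pt z).1 = w.1 → z ∈ A) ∧
      ∀ z ∈ A, g.1 • z = g'.1 • z := by
  obtain ⟨y, hy, rfl⟩ := m.sur w
  have e' : pt ((g'⁻¹ * g).1 • y) = pt y := by rw [← m.act _ y hy, mul_smul, e, inv_smul_smul]
  obtain ⟨A, a1, a2, a3⟩ := h.H5 _ y hy ((m.fst (h.hR _ _ ((g'⁻¹ * g).2 y) hy) hy).1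
    (congrArg _ e')) (by rw [← m.snd, e', m.snd])
  exact ⟨A, a1, fun z hz e => Tri.satu a1 ((m.fst hy hz).1 e.symm) a2,
    fun z hz => by simpa [mul_smul, inv_smul_eq_iff] using a3 z hz⟩

lemma StgH.real (h : StgH 𝒯 R κ S H s) (m : StgM 𝒯 R S H pt)
    (FS : ∀ y ∈ S, ∀ y' ∈ S, F (pt y') = F (pt y) ↔ Same κ H s y' y) {y : Y} (hy : y ∈ S)
    {g : X × ZMod n → E} (g1 : ∀ w, g w • y ∈ S) (g2 : ∀ w, pt (g w • y) = w)
    (p q r : X × ZMod n) {C : Set X} (hC : C.Finite) :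
    𝒯.Ev y fun A => y ∈ A → ∀ τ ∈ 𝒯.T, IsCyc τ A (g p) (g q) (g r) →
      ∃ k : τ ∈ PR E R, Rl {τ : PR E R | τ.1 ∈ 𝒯.T} F ⟨τ, k⟩ p q r C := by
  have fin : ({p, q, r} : Set (X × ZMod n)).Finite := Set.toFinite _
  obtain ⟨A, a1, a2, a3⟩ := Tri.Ev.fin (𝒯 := 𝒯) (y := y) fin fun u _ =>
    (Tri.Ev.fin fin (P := fun v A => ∀ z ∈ A, R (g v • z) (g u • z) ∧
      (g u • z ∈ S → (pt (g u • z)).1 ≠ u.1 → Same κ H s (g v • z) (g u • z))) fun v _ =>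
        Tri.Ev.pt (by
          obtain ⟨A, a1, a2, a3⟩ := h.H4 (g v * (g u)⁻¹) _ (g1 u) (by simpa [mul_smul] using g1 v)
          refine ⟨_, 𝒯.clop_pre (g u) a1, a2, fun z hz => ?_⟩
          have := a3 _ hz
          rw [mul_smul, inv_smul_smul] at this
          exact ⟨this.1, fun b c => this.2 b (by_contra fun e =>
            c (by rw [(m.fst b (g1 u)).2 e, g2]))⟩)).and
      (Tri.Ev.pt (Q := fun z => g u • z ∈ S → (pt (g u • z)).1 ∈ C → (pt (g u • z)).1 = u.1)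
        (let ⟨A, a1, a2⟩ := m.av u hC
        ⟨_, 𝒯.clop_pre (g u) a1, (a2 _ (g1 u)).1 (by rw [g2]), fun z hz b => (a2 _ b).2 hz⟩))
  refine ⟨A, a1, a2, fun A' b1 b2 b3 τ hτ cy => ?_⟩
  have a4 := a3 A' b1 b2
  have cs : ∀ z, τ • z = z ∨ ∃ v ∈ A', ∃ a ∈ ({p, q, r} : Set (X × ZMod n)),
      ∃ b ∈ ({p, q, r} : Set (X × ZMod n)), z = g a • v ∧ τ • z = g b • v := fun z => by
    refine or_iff_not_imp_left.2 fun e => ?_
    have := mt (cy.2 z) e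
    push Not at this
    obtain ⟨v, hv, k⟩ := this
    obtain ⟨c1, c2, c3⟩ := cy.1 v hv
    by_cases e1 : z = g p • v
    · exact ⟨v, hv, p, by simp, q, by simp, e1, e1 ▸ c1⟩
    by_cases e2 : z = g q • v
    · exact ⟨v, hv, q, by simp, r, by simp, e2, e2 ▸ c2⟩
    · exact ⟨v, hv, r, by simp, p, by simp, k e1 e2, k e1 e2 ▸ c3⟩
  have k : τ ∈ PR E R := fun z => by
    rcases cs z with e | ⟨v, hv, a, ha, b, hb, rfl, e⟩ <;> rw [e]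
    exact ((a4 a ha).1 b hb v hv).1
  have mv : ∀ {a b}, τ • g a • y = g b • y → (⟨τ, k⟩ : PR E R) • a = b := fun {a b} e => by
    rw [← g2 a, m.act _ _ (g1 a)]
    exact (congrArg pt e).trans (g2 b)
  refine ⟨k, hτ, mv (cy.1 y b3).1, mv (cy.1 y b3).2.1, mv (cy.1 y b3).2.2, fun w hw => ?_⟩
  obtain ⟨z, hz, rfl⟩ := m.sur w
  rw [m.act _ _ hz]
  rcases cs z with e | ⟨v, hv, a, ha, b, hb, rfl, e⟩
  · simp [e]
  have ne : (pt (g a • v)).1 ≠ a.1 := fun e => hw (by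
    rcases ha with rfl | rfl | rfl <;> simp [In, e])
  exact ⟨(FS _ hz _ (h.hR _ _ (k _) hz)).2 (e ▸ ((a4 a ha).1 b hb v hv).2 hz ne),
    fun c => absurd ((a4 a ha).2 v hv hz c) ne⟩

lemma StgH.ax (h : StgH 𝒯 R κ S H s) (m : StgM 𝒯 R S H pt)
    (FS : ∀ y ∈ S, ∀ y' ∈ S, F (pt y') = F (pt y) ↔ Same κ H s y' y)
    (Fsh : ∀ (p q : X × ZMod n) m, F p = F q → F (sh p m) = F (sh q m)) :
    Ax {τ : PR E R | τ.1 ∈ 𝒯.T} F ((Zk E Y).subgroupOf (PR E R)) where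
  shift := m.shift
  Fsh := Fsh
  conj τ a g := 𝒯.conj _ a g.1
  inv τ a := 𝒯.inv _ a
  cube τ a := Subtype.ext (𝒯.cube _ a)
  fin g := by
    obtain ⟨D, hD⟩ := h.H2 g.1 g.2
    refine (D.finite_toSet.image fun b => (pt b).1).subset fun x ⟨k, hk⟩ => ?_
    obtain ⟨y, hy, e⟩ := m.sur (x, k)
    rw [← e, m.act _ _ hy] at hk
    obtain ⟨b, b1, b2⟩ := hD y hy (mt (FS _ hy _ (h.hR _ _ (g.2 y) hy)).2 hk)
    exact ⟨b, b1, ((m.fst hy (h.sat y hy b b2).1).2 b2).symm.trans (congrArg _ e)⟩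
  ex4 o p q r d C hC := by
    obtain ⟨y, hy, -⟩ := m.sur o
    have ex : ∀ w, ∃ g : E, g • y ∈ S ∧ pt (g • y) = w := fun w => by
      obtain ⟨v, hv, rfl⟩ := m.sur w
      obtain ⟨g, a, b⟩ := h.H3 y hy v hv (H v)
      have k := (h.sat v hv _ fun e => a e.symm).1
      exact ⟨g, k, Prod.ext ((m.fst k hv).2 a) (by rw [m.snd, m.snd, b])⟩
    choose g g1 g2 using ex
    have sp : ∀ {a b : X × ZMod n}, a.1 ≠ b.1 → 𝒯.Sep (g a • y) (g b • y) := fun e =>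
      by_contra fun k => e (by simpa [g2] using (m.fst (g1 _) (g1 _)).2 k)
    obtain ⟨e1, e2, e3, e4, e5, e6⟩ := d
    obtain ⟨A, a1, a2, a3⟩ := (((h.real m FS hy g1 g2 o q r hC).and (h.real m FS hy g1 g2 o p q hC)).and
      ((Tri.Ev.f3 (sp e2) (sp e3) (sp e6)).and (Tri.Ev.f3 (sp e1) (sp e2) (sp e4)))).and
      (𝒯.frame4 y (g ∘ ![o, p, q, r]) fun i j h => sp (by
        fin_cases i <;> fin_cases j <;> first | exact absurd rfl h | assumption | (symm; assumption)) :)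
    obtain ⟨⟨⟨b1, b2⟩, ⟨τ, t1, t2⟩, σ, s1, s2⟩, b3⟩ := a3 A a1 le_rfl
    obtain ⟨_, c1⟩ := b1 a2 τ t1 t2
    obtain ⟨_, c2⟩ := b2 a2 σ s1 s2
    exact ⟨_, _, c1, c2, b3 τ t1 σ s1 t2 s2⟩
  ind τ a τ' a' p q r e1 e2 e3 f1 f2 f3 := by
    obtain ⟨A, a1, a2, a3⟩ := h.nb m (e1.trans f1.symm)
    obtain ⟨B, b1, b2, b3⟩ := h.nb m (e2.trans f2.symm)
    obtain ⟨C, c1, c2, c3⟩ := h.nb m (e3.trans f3.symm)
    obtain ⟨O, o1, o2, o3, o4⟩ := Tri.core a (Tri.clop_union a1 (Tri.clop_union b1 c1))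
    have eq : ∀ z ∈ O, τ.1 • z = τ'.1 • z := fun z hz =>
      (o2 hz).elim (a3 z) fun k => k.elim (b3 z) (c3 z)
    have iA : ∀ z ∈ S, In (pt z).1 p q r → z ∈ A ∪ (B ∪ C) := fun z hz k =>
      k.imp (a2 z hz) fun k => k.imp (b2 z hz) (c2 z hz)
    obtain ⟨σ, ρ, s1, s2, s3, s4, s5⟩ := Tri.splitP a o1 fun z hz => (o3 z).2 hz
    obtain ⟨σ', ρ', t1, t2, t3, t4, t5⟩ := Tri.splitP a' o1 fun z hz => eq z hz ▸ (o3 z).2 hz
    obtain rfl : σ = σ' := Subtype.ext (𝒯.star _ s1 _ t1 fun z => by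
      by_cases k : z ∈ O
      · rw [(s4 z k).1, (t4 z k).1, eq z k]
      · rw [(s5 z k).1, (t5 z k).1])
    refine ⟨σ, ρ, s2, ρ', t2, s3, t3, fun w => ?_⟩
    obtain ⟨z, hz, rfl⟩ := m.sur w
    have z1 := h.hR _ _ (τ.2 z) hz
    simp only [m.act _ _ hz]
    by_cases k : z ∈ O
    · exact .inl ⟨by rw [(s4 z k).2], by rw [(t4 z k).2]⟩
    · refine .inr ⟨by rw [(s5 z k).2], by rw [(t5 z k).2], fun i => k ?_⟩
      have i1 := m.inv e1 e2 e3 i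
      have i2 := m.inv e1 e2 e3 i1
      rw [m.act _ _ hz] at i1 i2
      rw [m.act _ _ z1] at i2
      exact o4 z (iA z hz i) (iA _ z1 i1) (iA _ (h.hR _ _ (τ.2 _) z1) i2)
  tr τ a p e := by
    refine ⟨?_, fun C hC => ?_⟩
    · obtain ⟨y, hy, rfl⟩ := m.sur p
      rw [m.act _ _ hy] at e ⊢
      exact fun k => (m.fst hy (h.hR _ _ (τ.2 y) hy)).1 k.symm
        (𝒯.sep _ a y fun k => e (congrArg pt k))
    have e3 : τ • τ • τ • p = p := by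
      rw [← mul_smul, ← mul_smul, show τ * τ * τ = 1 from Subtype.ext (𝒯.cube _ a), one_smul]
    obtain ⟨A, a1, a2⟩ := m.av p hC
    obtain ⟨B, b1, b2⟩ := m.av (τ • p) hC
    obtain ⟨D, c1, c2⟩ := m.av (τ • τ • p) hC
    obtain ⟨O, o1, o2, o3, o4⟩ := Tri.core a (Tri.clop_union a1 (Tri.clop_union b1 c1))
    have iA : ∀ z ∈ S, In (pt z).1 p (τ • p) (τ • τ • p) → z ∈ A ∪ (B ∪ D) := fun z hz k =>
      k.imp (a2 z hz).1 fun k => k.imp (b2 z hz).1 (c2 z hz).1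
    obtain ⟨ρ, σ, s1, s2, s3, s4, s5⟩ := Tri.splitP a (𝒯.clop_compl o1) fun z hz => (o3 z).not.2 hz
    refine ⟨σ, s2, ρ, s1, s3, fun w => ?_⟩
    obtain ⟨z, hz, rfl⟩ := m.sur w
    have z1 := h.hR _ _ (τ.2 z) hz
    simp only [m.act _ _ hz]
    by_cases k : z ∈ O
    · exact .inl ⟨by rw [(s5 z fun e => e k).2], by rw [(s5 z fun e => e k).1], fun c =>
        (o2 k).imp (fun i => (a2 z hz).2 i c) fun i =>
          i.imp (fun i => (b2 z hz).2 i c) fun i => (c2 z hz).2 i c⟩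
    · refine .inr ⟨by rw [(s4 z k).2], by rw [(s4 z k).1], fun i => k ?_⟩
      have i1 := m.inv rfl rfl e3 i
      have i2 := m.inv rfl rfl e3 i1
      rw [m.act _ _ hz] at i1 i2
      rw [m.act _ _ z1] at i2
      exact o4 z (iA z hz i) (iA _ z1 i1) (iA _ (h.hR _ _ (τ.2 _) z1) i2)
  Zc z hz g := Subtype.ext (𝒯.Zk_central hz g.1)
  Zt z hz w := by
    obtain ⟨y, hy, rfl⟩ := m.sur w
    rw [m.act _ _ hy, Tri.mem_Zk.1 (Subgroup.mem_subgroupOf.1 hz)]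

lemma stg_fg {P Z : Subgroup E} {U : Set P} {V : Set E} (e : P.subtype '' U = V) :
    (Subgroup.closure U ⊓ Z.subgroupOf P).FG ↔ (Subgroup.closure V ⊓ Z).FG := by
  have : (Subgroup.closure U ⊓ Z.subgroupOf P).map P.subtype = Subgroup.closure V ⊓ Z := by
    rw [← e, ← MonoidHom.map_closure, Subgroup.map_inf _ _ _ P.subtype_injective,
      Subgroup.subgroupOf_map_subtype, inf_comm Z, ← inf_assoc,
      inf_eq_left.2 (Subgroup.map_subtype_le _)]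
  rw [← this, Subgroup.fg_iff_submonoid_fg, Subgroup.fg_iff_submonoid_fg]
  exact ⟨fun h => h.map _, fun h => h.map_injective _ P.subtype_injective⟩

theorem StgH.stage (h : StgH 𝒯 R κ S H s) (hn : n = 0 ∨ n = 1) {R' : Setoid Y}
    (hR' : ∀ y' y, R' y' y ↔ R y' y ∧ (y ∈ S → Same κ H s y' y)) (hfg : (𝒯.ZR R').FG) :
    (𝒯.ZR R).FG := by
  classical
  obtain ⟨X, _, pt, m⟩ := h.model
  choose rep r1 r2 using m.sur
  have rs : ∀ y ∈ S, s (rep ((pt y).1, 0)) = s y := fun y hy =>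
    (h.sat y hy _ ((m.fst hy (r1 _)).1 (by rw [r2]))).2
  have inf : ∀ (D : Set X) (b : Bool), D.Finite → ∃ y ∈ S, (κ = false → s y = b) ∧ (pt y).1 ∉ D :=
    fun D b hD => by
      obtain ⟨y, y1, y2, y3⟩ := h.inf (hD.toFinset.image fun x => rep (x, 0)) b
      exact ⟨y, y1, y2, fun k => (m.fst y1 (r1 _)).1 (by rw [r2])
        (y3 _ (Finset.mem_image_of_mem _ (hD.mem_toFinset.2 k)))⟩
  have : Infinite X := Set.infinite_univ_iff.1 fun k => let ⟨_, _, _, e⟩ := inf _ true k; e trivial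
  let F : X × ZMod n → ZMod n × Bool := fun w => if κ then (w.2, false) else (0, s (rep (w.1, 0)))
  have FS : ∀ y ∈ S, ∀ y' ∈ S, F (pt y') = F (pt y) ↔ Same κ H s y' y := fun y hy y' hy' => by
    cases κ <;> simp [F, Same, m.snd, rs, hy, hy']
  refine (stg_fg ?_).1 ((h.ax m FS fun p q k => ?_).main hn ?_ ((stg_fg ?_).2 hfg))
  · ext τ; simp [and_comm]
  · cases κ <;> simp +contextual [F, sh]
  · cases κ
    · refine .inl ⟨fun x => s (rep (x, 0)), fun b k => ?_, by simp [F]⟩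
      obtain ⟨y, y1, y2, y3⟩ := inf _ b k
      exact y3 ((rs y y1).trans (y2 rfl))
    · exact .inr (by simp [F])
  · ext τ
    refine ⟨?_, fun k => ⟨⟨τ, fun y => ((hR' _ _).1 (k.2 y)).1⟩, ⟨k.1, fun w => ?_⟩, rfl⟩⟩
    · rintro ⟨τ, k, rfl⟩
      exact ⟨k.1, fun y => (hR' _ _).2 ⟨τ.2 y, fun hy => (FS _ hy _ (h.hR _ _ (τ.2 y) hy)).1
        (by rw [← k.2 (pt y), m.act _ _ hy])⟩⟩
    · have := (hR' _ _).1 (k.2 (rep w))
      rw [← r2 w, m.act _ _ (r1 w)]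
      exact (FS _ (r1 w) _ (h.hR _ _ this.1 (r1 w))).2 (this.2 (r1 w))

/-- Stage lemma, for finitely many types of singular points at once. -/
theorem Tri.stage (𝒯 : Tri E Y) (R R' : Setoid Y) {Θ : Type} [Finite Θ] (n : ℕ)
    (hn : n = 0 ∨ n = 1) (κ : Bool) (Sg : Set Y) (ty : Y → Θ) (H : Y → ZMod n) (s : Y → Bool)
    (hR' : ∀ y' y, R' y' y ↔ R y' y ∧ (y ∈ Sg → Same κ H s y' y))
    (hR : ∀ y' y, R y' y → (y' ∈ Sg ↔ y ∈ Sg) ∧ (y ∈ Sg → ty y' = ty y))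
    (sat : ∀ y ∈ Sg, ∀ y', ¬ 𝒯.Sep y y' → y' ∈ Sg ∧ ty y' = ty y ∧ s y' = s y)
    (H1 : ∀ g : E, ∀ y ∈ Sg, ∀ y', ¬ 𝒯.Sep y y' → H (g • y') - H y' = H (g • y) - H y)
    (H2 : ∀ g ∈ PR E R, ∃ B : Finset Y, ∀ y ∈ Sg, ¬ Same κ H s (g • y) y → ∃ b ∈ B, ¬ 𝒯.Sep y b)
    (H3 : ∀ y ∈ Sg, ∀ y' ∈ Sg, ty y = ty y' → ∀ m, ∃ g : E, ¬ 𝒯.Sep (g • y) y' ∧ H (g • y) = m)
    (H4 : ∀ g : E, ∀ y ∈ Sg, g • y ∈ Sg → ty (g • y) = ty y → ∃ A, 𝒯.Clop A ∧ y ∈ A ∧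
      ∀ y₁ ∈ A, R (g • y₁) y₁ ∧ (y₁ ∈ Sg → 𝒯.Sep y₁ y → Same κ H s (g • y₁) y₁))
    (H5 : ∀ g : E, ∀ y ∈ Sg, ¬ 𝒯.Sep (g • y) y → H (g • y) = H y →
      ∃ A, 𝒯.Clop A ∧ y ∈ A ∧ ∀ y' ∈ A, g • y' = y')
    (inf : ∀ y₀ ∈ Sg, ∀ (B : Finset Y) (b : Bool), ∃ y ∈ Sg, ty y = ty y₀ ∧
      (κ = false → s y = b) ∧ ∀ y' ∈ B, 𝒯.Sep y y')
    (hfg : (𝒯.ZR R').FG) : (𝒯.ZR R).FG := by
  classical
  have sy : ∀ {a b : Y}, Same κ H s a b → Same κ H s b a := by cases κ <;> exact Eq.symm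
  have st : ∀ {a b c : Y}, Same κ H s a b → Same κ H s b c → Same κ H s a c := by
    cases κ <;> exact Eq.trans
  obtain ⟨Q, hQ⟩ : ∃ Q : Finset Θ → Setoid Y, ∀ D y' y, Q D y' y ↔
      R y' y ∧ (y ∈ Sg → ty y ∈ D → Same κ H s y' y) :=
    ⟨fun D => ⟨fun y' y => R y' y ∧ (y ∈ Sg → ty y ∈ D → Same κ H s y' y),
      fun y => ⟨R.refl y, fun _ _ => by cases κ <;> exact rfl⟩,
      fun h => ⟨R.symm h.1, fun k e => have k' := (hR _ _ h.1).1.1 k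
        sy (h.2 k' ((hR _ _ h.1).2 k' ▸ e))⟩,
      fun h h' => ⟨R.trans h.1 h'.1, fun k e => st (h.2 ((hR _ _ h'.1).1.2 k)
        (((hR _ _ h'.1).2 k).symm ▸ e)) (h'.2 k e)⟩⟩, fun _ _ _ => Iff.rfl⟩
  have step : ∀ D : Finset Θ, (𝒯.ZR (Q D)).FG → (𝒯.ZR R).FG := fun D => by
    induction D using Finset.induction_on with
    | empty => rw [show Q ∅ = R from Setoid.ext fun a b => by simp [hQ]]; exact id
    | insert θ D hθ ih =>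
      refine fun k => ih ?_
      have e : ∀ y' y, Q (insert θ D) y' y ↔
          Q D y' y ∧ (y ∈ {y | y ∈ Sg ∧ ty y = θ} → Same κ H s y' y) := fun y' y => by
        simp only [hQ, Finset.mem_insert, Set.mem_ofPred_eq]
        tauto
      by_cases ne : ∃ y₀ ∈ Sg, ty y₀ = θ
      swap
      · rwa [show Q D = Q (insert θ D) from Setoid.ext fun a b =>
          ((e a b).trans (and_iff_left fun i => absurd ⟨b, i⟩ ne)).symm]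
      obtain ⟨y₀, h₀, rfl⟩ := ne
      refine StgH.stage (S := {y | y ∈ Sg ∧ ty y = ty y₀}) (κ := κ) (H := H) (s := s)
        ⟨fun y' y a b => let c := hR _ _ ((hQ _ _ _).1 a).1; ⟨c.1.2 b.1, (c.2 b.1).trans b.2⟩,
        fun y a y' b => let c := sat y a.1 y' b; ⟨⟨c.1, c.2.1.trans a.2⟩, c.2.2⟩,
        fun g y a => H1 g y a.1, fun g a => ?_, fun y a y' b => H3 y a.1 y' b.1 (a.2.trans b.2.symm),
        fun g y a b => ?_, fun g y a => H5 g y a.1, fun B b => ?_⟩ hn e k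
      · exact (H2 g fun y => ((hQ _ _ _).1 (a y)).1).imp fun B hB y i => hB y i.1
      · obtain ⟨A, a1, a2, a3⟩ := H4 g y a.1 b.1 (b.2.trans a.2.symm)
        refine ⟨A, a1, a2, fun z hz => ⟨(hQ _ _ _).2 ⟨(a3 z hz).1, fun i j => (a3 z hz).2 i
          (by_contra fun l => hθ ?_)⟩, fun i => (a3 z hz).2 i.1⟩⟩
        rwa [← a.2, (sat z i y l).2.1]
      · obtain ⟨y, y1, y2, y3⟩ := inf y₀ h₀ B b
        exact ⟨y, ⟨y1, y2⟩, y3⟩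
  have := Fintype.ofFinite Θ
  exact step Finset.univ (by
    rwa [show Q Finset.univ = R' from Setoid.ext fun a b => by simp [hQ, hR']])

end Vale.Agent.P196
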