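import Vale.Agent.P196.Nice
import Vale.Agent.P196.Tri

/-! Job H, first half: local finiteness of the bottom group and the change of `ht`. -/

namespace Vale.Agent.P196.HG

open Equiv

lemma app_append (c d : List Cell) (z : Om) : app (c ++ d) z = app c (app d z) := by
  induction c with
  | nil => rfl
  | cons a c ih => simp [app, ih]

@[simp] lemma lvl_nil : lvl [] = 0 := rfl
@[simp] lemma lvl_cons (a : Cell) (c) : lvl (a :: c) = a.2.v + lvl c := by simp [lvl]
@[simp] lemma lvl_append (c d) : lvl (c ++ d) = lvl c + lvl d := by simp [lvl]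
@[simp] lemma finC_nil : FinC [] := by simp [FinC]
@[simp] lemma finC_cons (a : Cell) (c) : FinC (a :: c) ↔ a.2.inf = false ∧ FinC c := by simp [FinC]
@[simp] lemma finC_append (c d) : FinC (c ++ d) ↔ FinC c ∧ FinC d := by
  simp [FinC, or_imp, forall_and]

lemma len_le {c : List Cell} (h : FinC c) : (c.length : ℤ) ≤ lvl c := by
  induction c with
  | nil => simp
  | cons a c ih =>
    rw [finC_cons] at h
    have := a.2.pos h.1
    have := ih h.2
    simp only [List.length_cons, lvl_cons]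
    omega

lemma lvl_nonneg {c : List Cell} (h : FinC c) : 0 ≤ lvl c := (Int.natCast_nonneg _).trans (len_le h)

lemma fin_cell (n : ℤ) : {a : Cell | a.2.inf = false ∧ a.2.v ≤ n}.Finite :=
  Set.Finite.of_finite_image (f := fun a : Cell => (a.1, a.2.v))
    ((Set.finite_univ.prod (Set.finite_Icc 1 n)).subset (by
      rintro _ ⟨a, h, rfl⟩; exact ⟨trivial, a.2.pos h.1, h.2⟩))
    fun a h b h' e => Prod.ext (Prod.ext_iff.1 e).1 (L.ext (h.1.trans h'.1.symm) (Prod.ext_iff.1 e).2)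

lemma fin_list (n : ℕ) : {c | FinC c ∧ lvl c ≤ n}.Finite := by
  induction n with
  | zero =>
    refine (Set.finite_singleton []).subset fun c h => List.length_eq_zero_iff.1 ?_
    have := len_le h.1
    have := h.2
    omega
  | succ n ih =>
    refine (((fin_cell (n + 1)).image2 List.cons ih).insert []).subset ?_
    rintro (_ | ⟨a, c⟩) ⟨h1, h2⟩
    · exact .inl rfl
    rw [finC_cons] at h1
    have := a.2.pos h1.1
    have := lvl_nonneg h1.2
    rw [lvl_cons] at h2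
    exact .inr ⟨a, ⟨h1.1, by omega⟩, c, ⟨h1.2, by omega⟩, rfl⟩

lemma nbhd {Q : YY → Prop} {y : YY} (h : ∃ k, ∀ x, Sim k y.1 x → Q (x, y.2)) :
    ∃ A, Clop A ∧ y ∈ A ∧ ∀ y' ∈ A, Q y' :=
  let ⟨k, hk⟩ := h
  ⟨_, clop_prod (inB_cls k y.1) y.2, ⟨mem_cls _ _, rfl⟩, by rintro ⟨x, _⟩ ⟨a, rfl⟩; exact hk x a⟩

lemma cover {ι : Type} {Q : ι → YY → Prop}
    (h : ∀ y : YY, ∃ r k, ∀ x, Sim k y.1 x → Q r (x, y.2)) : ∃ s : Finset ι, ∀ y, ∃ r ∈ s, Q r y := by
  classical
  choose r hr using h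
  choose A a1 a2 a3 using fun y => nbhd (hr y)
  obtain ⟨s, hs⟩ := yy_compact A fun y => ⟨a1 y, a2 y⟩
  exact ⟨s.image r, fun y => let ⟨y', b, c⟩ := hs y; ⟨_, Finset.mem_image_of_mem r b, a3 y' y c⟩⟩

lemma app_inj {c z z'} (h : app c z = app c z') : z = z' := by
  induction c with
  | nil => exact h
  | cons a c ih => exact ih (cons_inj.1 h).2

lemma sing_of_app {c z} (hc : FinC c) (h : Sing (app c z)) : Sing z := by
  induction c with
  | nil => exact h
  | cons a c ih =>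
    rw [finC_cons] at hc
    obtain ⟨_ | n, hn⟩ := h
    · exact absurd (hc.1.symm.trans hn) (by simp)
    · exact ih hc.2 ⟨n, hn⟩

lemma pre_app {c z} (hc : FinC c) (h : Sing z) : pre (app c z) = c ++ pre z := by
  have := (sing_app ((finC_append _ _).2 ⟨hc, finC_pre z⟩) h.zz_inf).2.1
  rwa [app_append, app_pre] at this

lemma basic_ht {c c' Δ x x'} (h : Basic c c' Δ x x') (hs : Sing x) :
    |lvl (pre x') - lvl (pre x)| ≤ |Δ.n0| + |Δ.n1| + |Δ.n2| ∧
      (lvl (pre x') ≠ lvl (pre x) → ∃ d : List Cell, d.length ≤ 2 ∧ pre x = c ++ d) := by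
  obtain ⟨h1, h2, h3, z, z', rfl, rfl, ⟨-, a1, a2⟩, ⟨-, b1, b2⟩, ⟨-, c1, c2⟩, h4, -⟩ := h
  obtain ⟨e0, g0, e1, g1, e2, g2, t, rfl⟩ := om_cases z
  obtain ⟨e0', g0', e1', g1', e2', g2', t', rfl⟩ := om_cases z'
  obtain rfl : t' = t := funext h4
  simp only [cons_zero, cons_one, cons_two] at a1 a2 b1 b2 c1 c2
  have := abs_nonneg Δ.n0
  have := abs_nonneg Δ.n1
  have := abs_nonneg Δ.n2
  have := abs_le.1 (le_refl |Δ.n0|)
  have := abs_le.1 (le_refl |Δ.n1|)
  have := abs_le.1 (le_refl |Δ.n2|)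
  have k : ∀ {c : List Cell} (d : List Cell) (z : Om), FinC c → FinC d → (z 0).2.inf = true →
      pre (app c (app d z)) = c ++ d := fun d z a b e => by
    rw [← app_append, (sing_app (by simp [a, b]) e).2.1]
  cases i0 : g0.inf
  cases i1 : g1.inf
  cases i2 : g2.inf
  · have ht : Sing t' := sing_of_app (c := [(e0, g0), (e1, g1), (e2, g2)]) (by simp [*])
      (sing_of_app h1 hs)
    have p : ∀ {c : List Cell} (d : List Cell), FinC c → FinC d →
        pre (app c (app d t')) = c ++ d ++ pre t' := fun d a b => by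
      rw [← app_append, pre_app (by simp [a, b]) ht]
    have p1 := p [(e0, g0), (e1, g1), (e2, g2)] h1 (by simp [*])
    have p2 := p [(e0', g0'), (e1', g1'), (e2', g2')] h2 (by simp [*])
    simp only [app] at p1 p2
    rw [p1, p2, abs_le]
    simp only [lvl_append, lvl_cons, lvl_nil]
    exact ⟨by omega, fun e => absurd (by omega) e⟩
  · have p1 := k [(e0, g0), (e1, g1)] (cons (e2, g2) t') h1 (by simp [*]) i2
    have p2 := k [(e0', g0'), (e1', g1')] (cons (e2', g2') t') h2 (by simp [*]) (c1.trans i2)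
    simp only [app] at p1 p2
    rw [p1, p2, abs_le]
    simp only [lvl_append, lvl_cons, lvl_nil]
    exact ⟨by omega, fun _ => ⟨_, by simp, rfl⟩⟩
  · have p1 := k [(e0, g0)] (cons (e1, g1) (cons (e2, g2) t')) h1 (by simp [*]) i1
    have p2 := k [(e0', g0')] (cons (e1', g1') (cons (e2', g2') t')) h2 (by simp [*]) (b1.trans i1)
    simp only [app] at p1 p2
    rw [p1, p2, abs_le]
    simp only [lvl_append, lvl_cons, lvl_nil]
    exact ⟨by omega, fun _ => ⟨_, by simp, rfl⟩⟩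
  · have p1 := k [] (cons (e0, g0) (cons (e1, g1) (cons (e2, g2) t'))) h1 finC_nil i0
    have p2 := k [] (cons (e0', g0') (cons (e1', g1') (cons (e2', g2') t'))) h2 finC_nil (a1.trans i0)
    simp only [app] at p1 p2
    rw [p1, p2, abs_le]
    simp only [lvl_append, lvl_nil]
    exact ⟨by omega, fun _ => ⟨_, by simp, rfl⟩⟩

/-- the shape of the moves of the bottom group -/
def Mv (R : ℕ) (x x' : Om) : Prop :=
  ∃ c c' a a' b b' t, FinC c ∧ FinC c' ∧ x = app c (cons a (cons b t)) ∧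
    x' = app c' (cons a' (cons b' t)) ∧ lvl c ≤ R ∧ lvl c' ≤ R ∧ a'.2.inf = a.2.inf ∧
    b'.2.inf = b.2.inf ∧ lvl c' + a'.2.v + b'.2.v = lvl c + a.2.v + b.2.v ∧
    (b'.2 = b.2 ∨ (b.2.inf = false ∧ b'.2.v ≤ R))

lemma Mv.mono {R R' x x'} (h : Mv R x x') (e : R ≤ R') : Mv R' x x' := by
  obtain ⟨c, c', a, a', b, b', t, h1, h2, h3, h4, h5, h6, h7, h8, h9, h0⟩ := h
  exact ⟨c, c', a, a', b, b', t, h1, h2, h3, h4, by omega, by omega, h7, h8, h9,
    h0.imp_right fun h => ⟨h.1, by omega⟩⟩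

lemma basic_mv {c c' Δ x x'} (h : Basic c c' Δ x x') (f2 : Δ.f2 = false) (n2 : Δ.n2 = 0) {m : ℤ}
    (n1 : Δ.n1 = 0 ∨ ∃ z, x = app c z ∧ (z 1).2.inf = false ∧ (z 1).2.v = m) :
    Mv (lvl c + lvl c' + |m + Δ.n1|).toNat x x' := by
  obtain ⟨h1, h2, h3, z, z', rfl, rfl, ⟨-, a1, a2⟩, ⟨-, b1, b2⟩, ⟨c0, c1, c2⟩, h4, -⟩ := h
  obtain ⟨e0, g0, e1, g1, e2, g2, t, rfl⟩ := om_cases z
  obtain ⟨e0', g0', e1', g1', e2', g2', t', rfl⟩ := om_cases z'
  obtain rfl : t' = t := funext h4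
  simp only [cons_zero, cons_one, cons_two, f2, n2, Bool.xor_false, add_zero] at a1 a2 b1 b2 c0 c1 c2
  obtain rfl : g2' = g2 := L.ext c1 c2
  have := lvl_nonneg h1
  have := lvl_nonneg h2
  have := abs_nonneg (m + Δ.n1)
  have := le_abs_self (m + Δ.n1)
  refine ⟨c, c', _, _, _, _, _, h1, h2, rfl, by rw [c0], by omega, by omega, a1, b1, by
    dsimp only; omega, n1.imp (fun e => L.ext b1 (by rw [b2, e, add_zero])) ?_⟩
  rintro ⟨z, e, k1, k2⟩
  rw [← app_inj e] at k1 k2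
  exact ⟨k1, by simp only [cons_one, cons_zero] at k2 ⊢; omega⟩

lemma exists_mv {g} (hg : g ∈ GG) (h : ∀ y, R0 (g y) y) : ∃ R, ∀ y, Mv R y.1 (g y).1 := by
  suffices H : ∀ y : YY, ∃ r k, ∀ x, Sim k y.1 x → Mv r (x, y.2).1 (g (x, y.2)).1 by
    obtain ⟨s, hs⟩ := cover (Q := fun r y => Mv r y.1 (g y).1) H
    exact ⟨s.sup id, fun y => let ⟨_, a, b⟩ := hs y; b.mono (Finset.le_sup (f := id) a)⟩
  rintro ⟨x, i⟩
  obtain ⟨k, c, c', Δ, i', h1, h2, h3⟩ := nice hg x i
  by_cases hs : Sing x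
  swap
  · obtain rfl := h2 ((reg_iff x).2 hs)
    exact ⟨_, k, fun x₁ e => basic_mv (m := 0) (h1 x₁ e).2 rfl rfl (.inl rfl)⟩
  obtain ⟨f1, f2, l, z, z', e1, e2, ⟨a0, a1, a2⟩, ⟨-, b1, -⟩, ⟨c0, -⟩, -, -, -, d1, d2⟩ :=
    (h1 x (sim_refl _ _)).2
  have ez : z = zz x := app_inj (c := c) (by rw [← e1, h3 hs, app_pre])
  have zi : (z 0).2.inf = true := ez ▸ hs.zz_inf
  obtain ⟨s1, s2, s3⟩ := sing_app f2 (a1.trans zi)
  rw [← e2] at s1 s2 s3
  obtain ⟨⟨⟨r1, r2⟩, r3⟩, r4⟩ := h (x, i)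
  have sd : side (g (x, i)).1 = side x := by
    cases e : (zz x 1).2.inf
    exacts [r4 ⟨hs, e⟩, r2 ⟨hs, e⟩]
  have tq : tt (g (x, i)).1 = tt x := by
    have : kind (g (x, i)).1 = kind x := r1
    simp only [kind, if_pos s1, if_pos hs, Option.some.injEq, Prod.mk.injEq] at this
    exact this.2.1
  have : Δ.f2 = false ∧ Δ.n2 = 0 := by
    rw [side, side, tq] at sd
    rw [tt, tt] at tq
    rw [tt, s3, ← ez] at sd
    rw [s3, ← ez] at tq
    simp only [lab, hd_ut, decide_eq_decide] at tq sd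
    rw [d1 zi]
    by_cases e : (z 0).1 = true ∧ (z 2).2.o = true
    · rw [(tq.2 e).1, e.1]
      rw [if_pos (decide_eq_true e), if_pos (decide_eq_true e), c0] at sd
      revert sd
      cases Δ.f2 <;> cases (z 2).1 <;> simp
    · have : (z' 0).1 = (z 0).1 := by simpa only [e, decide_false, Bool.false_eq_true, if_false] using sd
      exact ⟨Bool.eq_false_iff.2 fun k => e (by simpa using d2 zi k), by rw [this, sub_self]⟩
  cases e : (zz x 1).2.inf
  · obtain ⟨k1, p1⟩ := g1_vis e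
    obtain ⟨k2, p2⟩ := app_vis f1 k1
    refine ⟨_, max k k2, fun x₁ e' => basic_mv (m := (zz x 1).2.v) (h1 x₁ (e'.mono (le_max_left _ _))).2
      this.1 this.2 (.inr ?_)⟩
    obtain ⟨w, q1, q2⟩ := p2 (zz x) x₁ (by rw [← ez, ← e1]; exact e'.mono (le_max_right _ _))
    exact ⟨w, q1, by rw [p1 w q2, e], by rw [p1 w q2]⟩
  · refine ⟨_, k, fun x₁ e' => basic_mv (m := 0) (h1 x₁ e').2 this.1 this.2 (.inl ?_)⟩
    have := r3 ⟨hs, e⟩
    rw [hh, hh, s2, s3, ← ez, ← h3 hs, a2] at this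
    omega

lemma app_pfx {c d : List Cell} {z u : Om} (hc : FinC c) (e : app c z = app d u)
    (h : (u 0).2.inf = true ∨ lvl c < lvl d + (u 0).2.v) : ∃ r, d = c ++ r ∧ z = app r u := by
  induction c generalizing d with
  | nil => exact ⟨d, rfl, e⟩
  | cons a c ih =>
    rw [finC_cons] at hc
    cases d with
    | nil =>
      have := lvl_nonneg hc.2
      rw [← show cons a (app c z) = u from e] at h
      simp only [cons_zero, hc.1, lvl_cons, lvl_nil, Bool.false_eq_true, false_or] at h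
      omega
    | cons b d =>
      obtain ⟨rfl, e'⟩ := cons_inj.1 e
      obtain ⟨r, rfl, k⟩ := ih hc.2 e' (h.imp_right fun h => by simp only [lvl_cons] at h; omega)
      exact ⟨r, rfl, k⟩

/-- finite invariant sets -/
def Inv (R N : ℕ) (Q : ℤ) (f : Bool) (g : L) : Set (List Cell × Cell × Cell) :=
  {p | FinC p.1 ∧ lvl p.1 ≤ N ∧ p.2.1.2.inf = f ∧ lvl p.1 + p.2.1.2.v + p.2.2.2.v = Q ∧
    p.2.2.2.inf = g.inf ∧ (p.2.2.2 = g ∨ (g.inf = false ∧ p.2.2.2.v ≤ R)) ∧
    (f = true ∨ R < lvl p.1 + p.2.1.2.v)}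

lemma inv_fin (R N Q f g) : (Inv R N Q f g).Finite :=
  Set.Finite.of_finite_image (f := fun p => (p.1, p.2.1.1, p.2.2))
    (((fin_list N).prod (Set.finite_univ.prod (((fin_cell R).insert (true, g)).insert
      (false, g)))).subset (by
      rintro _ ⟨⟨d, a, e, b⟩, ⟨h1, h2, -, -, h3, h4, -⟩, rfl⟩
      refine ⟨⟨h1, h2⟩, trivial, ?_⟩
      rcases h4 with rfl | h4
      · cases e <;> simp
      · exact .inr (.inr ⟨h3.trans h4.1, h4.2⟩)))
    (by
      rintro ⟨d, a, b⟩ h ⟨d', a', b'⟩ h' e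
      obtain ⟨rfl, e', rfl⟩ : d = d' ∧ a.1 = a'.1 ∧ b = b' := by simpa using e
      have := h.2.2.2.1.trans h'.2.2.2.1.symm
      rw [show a = a' from Prod.ext e' (L.ext (h.2.2.1.trans h'.2.2.1.symm) (by simpa using this))])

lemma inv_mv {R N : ℕ} {Q : ℤ} {f g t} (hN : R ≤ N) (hf : f = false → g.inf = false ∧ Q ≤ N ∧ 2 * R < Q)
    {x x'} (h : Mv R x x') :
    x ∈ (fun p => app p.1 (cons p.2.1 (cons p.2.2 t))) '' Inv R N Q f g →
      x' ∈ (fun p => app p.1 (cons p.2.1 (cons p.2.2 t))) '' Inv R N Q f g := by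
  obtain ⟨c, c', u, u', v, v', w, h1, h2, rfl, rfl, h5, h6, h7, h8, h9, h0⟩ := h
  rintro ⟨⟨d, a, b⟩, ⟨i1, i2, i3, i4, i5, i6, i7⟩, e⟩
  dsimp only at *
  obtain ⟨r, rfl, k⟩ := app_pfx h1 e.symm (i7.imp (fun k => i3.trans k) fun k => by
    rw [cons_zero]; omega)
  rw [finC_append] at i1
  rcases r with _ | ⟨r0, _ | ⟨r1, r⟩⟩ <;> simp only [app, cons_inj] at k <;>
    obtain ⟨rfl, rfl, rfl⟩ := k <;>
    simp only [lvl_append, lvl_cons, lvl_nil, finC_cons, add_zero] at *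
  · refine ⟨(c', u', v'), ⟨h2, by dsimp only; omega, h7.trans i3, h9.trans i4, h8.trans i5,
      h0.elim (fun k => k ▸ i6) fun k => .inr ⟨i5.symm.trans k.1, k.2⟩, ?_⟩, rfl⟩
    refine i7.elim .inl fun k => or_iff_not_imp_left.2 fun k' => ?_
    have := hf (Bool.eq_false_iff.2 k')
    rcases h0 with h0 | h0
    · rw [h0] at h9; dsimp only; omega
    · dsimp only; omega
  · refine ⟨(c' ++ [u'], v', b), ⟨by simp [h2, h7, i1.2.1], ?_, h8.trans i3, ?_, i5, i6,
      i7.imp_right fun k => ?_⟩, by simp [app_append, app]⟩ <;>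
      simp only [lvl_append, lvl_cons, lvl_nil, add_zero] <;> try omega
    rcases h0 with h0 | h0
    · rw [h0] at h9; omega
    · have := hf (i3.symm.trans h0.1)
      have := v'.2.pos (h8.trans h0.1)
      have := b.2.pos (i5.trans (hf (i3.symm.trans h0.1)).1)
      omega
  · refine ⟨(c' ++ u' :: v' :: r, a, b), ⟨by simp [h2, h7, h8, i1.2], ?_, i3, ?_, i5, i6,
      i7.imp_right fun k => ?_⟩, by simp [app_append, app]⟩ <;>
      simp only [lvl_append, lvl_cons] <;> omega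

lemma app_ofFn (n : ℕ) (x : Om) : app (List.ofFn fun i : Fin n => x i) (fun m => x (m + n)) = x := by
  induction n generalizing x with
  | zero => rfl
  | succ n ih =>
    rw [List.ofFn_succ, app]
    exact (congrArg (cons (x 0)) (ih (tl x))).trans (cons_tl x)

lemma exists_inv (R : ℕ) (x : Om) : ∃ S : Set Om, S.Finite ∧ x ∈ S ∧
    ∀ u u', Mv R u u' → u ∈ S → u' ∈ S := by
  have k : ∀ z : Om, cons (z 0) (cons (z 1) (tl (tl z))) = z :=
    fun z => (congrArg (cons (z 0)) (cons_tl (tl z))).trans (cons_tl z)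
  by_cases hs : Sing x
  · have := lvl_nonneg (finC_pre x)
    refine ⟨_, (inv_fin R (R + ht x) _ true (zz x 1).2).image _, ⟨(pre x, zz x 0, zz x 1),
      ⟨finC_pre x, ?_, hs.zz_inf, rfl, rfl, .inl rfl, .inl rfl⟩, ?_⟩,
      fun _ _ => inv_mv (f := true) (t := tl (tl (zz x))) le_self_add nofun⟩
    · simp only [ht]; omega
    · simp only [k, app_pre]
  · have hr := (reg_iff x).2 hs
    have e := app_ofFn (2 * R) x
    have fd : FinC (List.ofFn fun i : Fin (2 * R) => x i) := List.forall_mem_ofFn_iff.2 fun i => hr i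
    have l := len_le fd
    rw [List.length_ofFn] at l
    generalize (List.ofFn fun i : Fin (2 * R) => x i) = d at *
    have hz : ∀ m, ((fun m => x (m + 2 * R)) m).2.inf = false := fun m => hr _
    generalize (fun m => x (m + 2 * R)) = z at *
    have := (z 0).2.pos (hz 0)
    have := (z 1).2.pos (hz 1)
    refine ⟨_, (inv_fin R (lvl d + (z 0).2.v + (z 1).2.v).toNat _ false (z 1).2).image _,
      ⟨(d, z 0, z 1), ⟨fd, ?_, hz 0, rfl, rfl, .inl rfl, .inr ?_⟩, ?_⟩,
      fun _ _ => inv_mv (t := tl (tl z)) ?_ fun _ => ⟨hz 1, ?_, ?_⟩⟩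
    pick_goal 3
    · simp only [k, e]
    all_goals (try dsimp only); omega

theorem locfin (s : Finset (Perm YY)) (hs : ∀ g ∈ s, g ∈ GG ∧ ∀ y, R0 (g y) y) :
    (Subgroup.closure (s : Set (Perm YY)) : Set (Perm YY)).Finite := by
  set H := Subgroup.closure (s : Set (Perm YY))
  have HP : H ≤ GG ⊓ PR (Perm YY) R0 := (Subgroup.closure_le _).2 hs
  choose! r hr using fun g (h : g ∈ GG ⊓ PR (Perm YY) R0) => exists_mv h.1 h.2
  have orb : ∀ y : YY, (MulAction.orbit H y).Finite := fun y => by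
    obtain ⟨S, s1, s2, s3⟩ := exists_inv (s.sup fun g => max (r g) (r g⁻¹)) y.1
    have : ∀ g ∈ H, ∀ u : YY, u.1 ∈ S → (g u).1 ∈ S := fun g hg => by
      induction hg using Subgroup.closure_induction'' with
      | mem g h => exact fun u => s3 _ _ ((hr g (hs g h) u).mono ((le_max_left _ _).trans
          (Finset.le_sup (f := fun g => max (r g) (r g⁻¹)) h)))
      | inv_mem g h => exact fun u => s3 _ _ ((hr _ (inv_mem (HP (Subgroup.subset_closure h))) u).mono
          ((le_max_right _ _).trans (Finset.le_sup (f := fun g => max (r g) (r g⁻¹)) h)))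
      | one => exact fun _ => id
      | mul a b _ _ ha hb => exact fun u k => ha _ (hb u k)
    exact (s1.prod Set.finite_univ).subset (by rintro _ ⟨g, rfl⟩; exact ⟨this g g.2 y s2, trivial⟩)
  have fi : ∀ y : YY, (MulAction.stabilizer H y).FiniteIndex := fun y =>
    ⟨by rw [MulAction.index_stabilizer]; exact ((Set.ncard_pos (orb y)).2 ⟨y, 1, rfl⟩).ne'⟩
  obtain ⟨c, hc⟩ := cover (Q := fun y u => ∀ g ∈ MulAction.stabilizer H y, g • u = u) fun y => by
    have := fi y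
    obtain ⟨t, ht⟩ := (Group.fg_iff_subgroup_fg _).1 (inferInstance : Group.FG (MulAction.stabilizer H y))
    have u : ∀ g ∈ t, ∃ k, ∀ x, Sim k y.1 x → g • (x, y.2) = (x, y.2) := fun g h => by
      have e : g.1 (y.1, y.2) = y := (ht ▸ Subgroup.subset_closure h : g ∈ MulAction.stabilizer H y)
      exact uniq (HP g.2).1 y.1 y.2 (by rw [e]; exact Eqv.refl _) (by rw [e]) fun _ => by rw [e]
    choose! k hk using u
    exact ⟨y, t.sup k, fun x e => (ht ▸ (Subgroup.closure_le (MulAction.stabilizer H (x, y.2))).2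
      fun g h => hk g h x (e.mono (Finset.le_sup h)) : MulAction.stabilizer H y ≤ _)⟩
  have := Subgroup.finiteIndex_iInf' (s := c) _ fun y _ => fi y
  rw [show ⨅ y ∈ c, MulAction.stabilizer H y = ⊥ from (Subgroup.eq_bot_iff_forall _).2 fun g h =>
    Subtype.ext (Equiv.ext fun u => let ⟨y, a, b⟩ := hc u
      b g (Subgroup.mem_iInf.1 (Subgroup.mem_iInf.1 h y) a))] at this
  exact Set.finite_coe_iff.1 ((Subgroup.finite_iff_finite_and_finiteIndex ⊥).2 ⟨inferInstance, this⟩)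

end Vale.Agent.P196.HG
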