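import Vale.Agent.P196.LocC

/-! Job P2: locality, transports, the base model, one-spread states. Output: `exists_rdata`.
See notes/P196.md, part P2. -/

namespace Vale.Agent.P196

open Equiv

/-- `u` is a good lift of the 3-cycle `(i j k)` -/
def IsLift (u : UU) (i j k : Ix) : Prop :=
  qq u = cyc i j k ∧ ∀ I : Finset Ix, I.card = 5 → i ∈ I → j ∈ I → k ∈ I → u ∈ UI I

/-- what the rest of the proof uses about the lifted fibre actions -/
structure RData where
  r : Set Om → UU →* Gam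
  loc : ∀ V, InB V → ∀ I J : Finset Ix, I.card = 5 → I ⊆ J → 15 ≤ J.card → ∀ u ∈ UI I, r V u ∈ GJ J
  lab : ∀ W, r (lab ⁻¹' W) = wu W
  empty : ∀ u, r ∅ u = 1
  add : ∀ V V', InB V → InB V' → Disjoint V V' → ∀ u, r (V ∪ V') u = r V u * r V' u
  comm : ∀ V V', InB V → InB V' → Disjoint V V' → ∀ u v, Commute (r V u) (r V' v)
  pi : ∀ V, InB V → ∀ u, piG (r V u) = bet V (qq u)
  tr5 : ∀ (a : Letter) V, InB V → (∀ x ∈ V, P196.lab x ∈ a.dom) → ∀ I : Finset Ix, I.card = 5 →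
    ∃ M : Gam, ∀ u ∈ UI I, M * r V u * M⁻¹ = r (a.act '' V) u
  tr3 : ∀ (a : Letter) (j : Fin 3 → Ix) (B : Fin 3 → Finset Ix), (∀ n, j n ∈ B n) →
    (∀ n, 3 ≤ (B n).card ∧ (B n).card ≤ 100) → (∀ n n', n ≠ n' → Disjoint (B n) (B n')) →
    ∃ m : Fin 3 → Gam, (∀ n, m n ∈ GJ (B n) ∧
      ∀ x, P196.lab x ∈ a.dom → piG (m n) (x, j n) = (a.act x, j n)) ∧
      ∀ V, InB V → (∀ x ∈ V, P196.lab x ∈ a.dom) → ∀ u, IsLift u (j 0) (j 1) (j 2) →
        m 0 * m 1 * m 2 * r V u * (m 0 * m 1 * m 2)⁻¹ = r (a.act '' V) u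
  ll1 : ∀ V, InB V → ∀ (I J : Finset Ix) (i : Ix), I.card = 5 → i ∈ I → Disjoint (I.erase i) J →
    ∀ m ∈ GJ J, (∀ x ∈ V, piG m (x, i) = (x, i)) → ∀ u ∈ UI I, Commute m (r V u)

section
open QL
open scoped commutatorElement

lemma comm_inter {X : Type} [Group X] (F : Set Om → UU →* X)
    (add : ∀ V V', InB V → InB V' → Disjoint V V' → ∀ u, F (V ∪ V') u = F V u * F V' u)
    (comm : ∀ V V', InB V → InB V' → Disjoint V V' → ∀ u v, Commute (F V u) (F V' v))
    {A B : Set Om} (hA : InB A) (hB : InB B) (u v : UU) :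
    ⁅F A u, F B v⁆ = F (A ∩ B) ⁅u, v⁆ := by
  have hC := hA.inter hB
  have d1 : Disjoint (A ∩ B) (A \ B) := Set.disjoint_left.2 fun _ h h' => h'.2 h.2
  have d2 : Disjoint (A ∩ B) (B \ A) := Set.disjoint_left.2 fun _ h h' => h'.2 h.1
  have d3 : Disjoint (A \ B) (B \ A) := Set.disjoint_left.2 fun _ h h' => h'.2 h.1
  have e1 := add _ _ hC (hA.diff hB) d1 u
  have e2 := add _ _ hC (hB.diff hA) d2 v
  rw [Set.inter_union_sdiff] at e1
  rw [Set.inter_comm, Set.inter_union_sdiff, Set.inter_comm] at e2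
  have c1 := (comm _ _ hC (hA.diff hB) d1 v u).symm
  have c2 := comm _ _ hC (hB.diff hA) d2 u v
  have c2' := comm _ _ hC (hB.diff hA) d2 v v
  have c3 := comm _ _ (hA.diff hB) (hB.diff hA) d3 u v
  rw [map_commutatorElement, e1, e2]
  generalize F (A ∩ B) u = c, F (A ∩ B) v = d, F (A \ B) u = a, F (B \ A) v = b at *
  have h1 : a * (d * b) * a⁻¹ = d * b := by rw [(c1.mul_right c3).eq]; group
  have h2 : b * c⁻¹ * b⁻¹ = c⁻¹ := by rw [← c2.inv_left.eq]; group
  calc ⁅c * a, d * b⁆ = c * (a * (d * b) * a⁻¹) * c⁻¹ * (d * b)⁻¹ := by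
        rw [commutatorElement_def]; group
    _ = c * d * (b * c⁻¹ * b⁻¹) * d⁻¹ := by rw [h1]; group
    _ = ⁅c, d⁆ := by rw [h2, commutatorElement_def]

lemma r_add {V V'} (h : InB V) (h' : InB V') (d : Disjoint V V') (u : UU) :
    (base.r (V ∪ V')).f u = (base.r V).f u * (base.r V').f u := by
  rw [base.r_bh.add V V' h h' d, Proj.add_f (base.r_bh.orth V V' h h' d)]

lemma r_mov {a : Letter} {V} (hV : InB V) (hd : ∀ x ∈ V, lab x ∈ a.dom) {I : Finset Ix} {n M}
    (hI : I.card = 5) (hn : n ≤ 800) (hM : Mov a I ∅ n M) {u} (hu : u ∈ UI I) :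
    M * (base.r V).f u * M⁻¹ = (base.r (a.act '' V)).f u := by
  rw [← eqA a base V hV hd]
  exact (trP_spec (base.r_le hV hd) hI hn hM hu).symm

lemma r_pi {V} (hV : InB V) : ∀ u, piG ((base.r V).f u) = bet V (qq u) := by
  refine B_ind (fun V => ∀ u, piG ((base.r V).f u) = bet V (qq u)) (fun W u => ?_)
    (fun A A' h h' d a b u => ?_) (fun A A' h h' a b u => ?_) (fun A h a u => ?_)
    (fun a A h hd b u => ?_) hV
  · rw [base.r_lab]; exact piG_wu W u
  · rw [r_add h h' d, map_mul, a, b, bet_add d]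
  · refine DFunLike.congr_fun (MonoidHom.eq_of_eqOn_dense (f := piG.comp (base.r (A ∩ A')).f)
      (g := (bet (A ∩ A')).comp qq) (commutator_eq_closure UU ▸ UU_perfect) ?_) u
    rintro _ ⟨u, v, rfl⟩
    have e1 := comm_inter (fun V => (base.r V).f) (fun _ _ => r_add)
      (fun V V' => base.r_bh.orth V V') h h' u v
    have e2 := comm_inter (fun V => (bet V).comp qq) (fun _ _ _ _ d _ => bet_add d _)
      (fun _ _ _ _ d _ _ => bet_commute d _ _) h h' u v
    rw [← e2, MonoidHom.comp_apply, ← e1, map_commutatorElement, a, b]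
    rfl
  · have e1 := r_add h h.compl disjoint_compl_right u
    have e2 := bet_add (disjoint_compl_right (a := A)) (qq u)
    rw [Set.union_compl_self] at e1 e2
    have e3 : piG ((base.r Set.univ).f u) = bet Set.univ (qq u) := by
      rw [← Set.preimage_univ (f := lab), base.r_lab]; exact piG_wu _ u
    rw [e1, e2, map_mul, a] at e3
    exact mul_left_cancel e3
  · refine DFunLike.congr_fun (hom_ext5 (f := piG.comp (base.r (a.act '' A)).f)
      (g := (bet (a.act '' A)).comp qq) fun I hI u hu => ?_) u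
    obtain ⟨M, hM⟩ := exists_mov a (I := I) (P := ∅) (by simp) (by omega) (by simp)
    rw [MonoidHom.comp_apply, ← r_mov h hd hI (by omega) hM hu, map_mul, map_mul, map_inv, b,
      conj_bet (τ := 1) (fun i hi => Alt_fix (UI_q hu) hi) fun x hx => hM.2 x (hd x hx)]
    simp

/-- movers with explicit support -/
def MV (a : Letter) (I J : Finset Ix) (n : ℕ) (M : Gam) : Prop :=
  M ∈ GJ J ∧ Short n M ∧ I ⊆ J ∧ ∀ x, lab x ∈ a.dom → ∀ i ∈ I, piG M (x, i) = (a.act x, i)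

lemma MV.mul {a I J n M I' J' n' M'} (h : MV a I J n M) (h' : MV a I' J' n' M')
    (d : Disjoint J J') : MV a (I ∪ I') (J ∪ J') (n + n') (M * M') := by
  obtain ⟨a1, a2, a3, a4⟩ := h
  obtain ⟨b1, b2, b3, b4⟩ := h'
  refine ⟨mul_mem (GJ_mono Finset.subset_union_left a1) (GJ_mono Finset.subset_union_right b1),
    a2.mul b2, Finset.union_subset_union a3 b3, fun x hx i hi => ?_⟩
  rw [map_mul, Perm.mul_apply]
  rcases Finset.mem_union.1 hi with h | h
  · rw [GJ_fix b1 x (Finset.disjoint_left.1 d (a3 h)), a4 x hx i h]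
  · rw [b4 x hx i h, GJ_fix a1 _ (Finset.disjoint_right.1 d (b3 h))]

lemma exists_MV (a : Letter) {I J : Finset Ix} (h : I ⊆ J) (hc : 3 * I.card ≤ J.card) :
    ∃ M, MV a I J (3 * I.card) M := by
  obtain ⟨M, m1, m2⟩ := exists_mov_in a (P := ∅) (by simp) (by simpa) (by simpa)
  exact ⟨M, m1, m2.1.1, h, m2.2⟩

lemma IsLift.mem {u i j k} (h : IsLift u i j k) (β : Proj) {A : Finset Ix}
    (hA : Disjoint {i, j, k} A) (hc : A.card ≤ 900) : ∃ J, Disjoint J A ∧ β.f u ∈ GJ J := by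
  have h3 : ({i, j, k} : Finset Ix).card ≤ 3 := Finset.card_le_three
  obtain ⟨J, j1, j2, -, j4⟩ := exists_sup _ A hA (by omega)
  obtain ⟨I, i1, i2, i3⟩ := Finset.exists_subsuperset_card_eq (n := 5) j1 (by omega) (by omega)
  exact ⟨J, j4, β.loc I J i3 i2 j2 u (h.2 I i3 (i1 (by simp)) (i1 (by simp)) (i1 (by simp)))⟩

lemma r_tr3 (a : Letter) (j : Fin 3 → Ix) (B : Fin 3 → Finset Ix) (h1 : ∀ n, j n ∈ B n)
    (h2 : ∀ n, 3 ≤ (B n).card ∧ (B n).card ≤ 100) (h3 : ∀ n n', n ≠ n' → Disjoint (B n) (B n')) :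
    ∃ m : Fin 3 → Gam, (∀ n, m n ∈ GJ (B n) ∧
      ∀ x, lab x ∈ a.dom → piG (m n) (x, j n) = (a.act x, j n)) ∧
      ∀ V, InB V → (∀ x ∈ V, lab x ∈ a.dom) → ∀ u, IsLift u (j 0) (j 1) (j 2) →
        m 0 * m 1 * m 2 * (base.r V).f u * (m 0 * m 1 * m 2)⁻¹ = (base.r (a.act '' V)).f u := by
  choose m hm using fun n => exists_MV a (I := {j n}) (J := B n) (by simpa using h1 n)
    (by simpa using (h2 n).1)
  refine ⟨m, fun n => ⟨(hm n).1, fun x hx => (hm n).2.2.2 x hx _ (by simp)⟩,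
    fun V hV hd u hu => ?_⟩
  have hc : (B 0 ∪ B 1 ∪ B 2).card ≤ 300 := by
    have := Finset.card_union_le (B 0 ∪ B 1) (B 2)
    have := Finset.card_union_le (B 0) (B 1)
    have := h2 0; have := h2 1; have := h2 2
    omega
  obtain ⟨G, g1, g2⟩ := fresh (B 0 ∪ B 1 ∪ B 2) 6 (by omega)
  obtain ⟨I, i1, i2⟩ := Finset.exists_subset_card_eq (s := G) (n := 2) (by omega)
  obtain ⟨M, hM⟩ := exists_MV a i1 (by omega)
  have h012 := ((hm 0).mul (hm 1) (h3 0 1 (by simp))).mul (hm 2)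
    (Finset.disjoint_union_left.2 ⟨h3 0 2 (by simp), h3 1 2 (by simp)⟩)
  have ne : ∀ n n', n ≠ n' → j n ≠ j n' := fun n n' h e =>
    Finset.disjoint_left.1 (h3 n n' h) (h1 n) (e ▸ h1 n')
  have hall := h012.mul hM g2.symm
  have dI : Disjoint ({j 0} ∪ {j 1} ∪ {j 2}) I := (g2.symm.mono h012.2.2.1 i1)
  have c5 : ({j 0} ∪ {j 1} ∪ {j 2} ∪ I).card = 5 := by
    rw [Finset.card_union_of_disjoint dI, i2, Finset.card_union_of_disjoint
      (by simp [ne 2 0, ne 2 1]), Finset.card_union_of_disjoint (by simp [ne 0 1])]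
    simp
  obtain ⟨J, j1, j2⟩ := hu.mem (base.r V) (A := G) (g2.symm.mono_left (by
    simp [Finset.insert_subset_iff, h1])) (by omega)
  rw [← r_mov hV hd c5 (n := 400) (by omega) ⟨⟨hall.2.1.mono (by simp; omega), _,
    (Finset.card_union_le _ _).trans (by omega), by simp, hall.1⟩, hall.2.2.2⟩
    (hu.2 _ c5 (by simp) (by simp) (by simp)), mul_assoc _ M, ← (GJ_comm j1 j2 hM.1).eq]
  group

lemma r_ll1 {V} (hV : InB V) (I J : Finset Ix) (i : Ix) (hI : I.card = 5) (hi : i ∈ I)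
    (hd : Disjoint (I.erase i) J) (m) (hm : m ∈ GJ J) (hf : ∀ x ∈ V, piG m (x, i) = (x, i))
    (u) (hu : u ∈ UI I) : Commute m ((base.r V).f u) := by
  let c : PI := ⟨I.erase i, i, by rw [Finset.card_erase_of_mem hi, hI], by simp⟩
  have e : {i} ∪ I.erase i = I := by rw [← Finset.insert_eq, Finset.insert_erase hi]
  have L : ∀ β : Proj, Located (β.f u) {c.i} c.P β := fun β =>
    located_proj β (by rw [← hI]; exact congrArg _ e) (e.symm ▸ hu)
  refine loc_ind (fun A => ∀ V0, InB V0 → V0 ⊆ A → V0 ⊆ V → Commute m ((base.r V0).f u))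
    (fun x => ?_) (fun A A' _ _ s h V0 a b => h V0 a (b.trans s))
    (fun A A' h h' d a b V0 h0 s1 s2 => ?_) V hV (Set.subset_univ _) le_rfl
  · by_cases hx : x ∈ V
    · obtain ⟨k, p, i', a1, a2⟩ := sp_all hm x i
      obtain ⟨o, e1⟩ := a1 x (sim_refl _ _)
      rw [hf x hx, Prod.ext_iff] at e1
      obtain ⟨e1, rfl⟩ := e1
      obtain ⟨-, -, -, k', h⟩ := loop_triv (Q := Proj) (H := Gam) _ p x le_rfl o e1.symm
      refine ⟨max k k', fun V0 h0 s _ => ?_⟩
      have := (a2 c hd c.hi).2 V0 h0 (fun y hy => Sim.mono (le_max_left _ _) (s hy)) _ (L _)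
      rw [h base c.st c.st_ok _ ((L _).mono (base.r_mono h0 (inB_cls _ _)
        fun y hy => Sim.mono (le_max_right _ _) (s hy))), St.run_nil] at this
      have e2 := c.nm_self (L (base.r V0))
      change c.nm i * _ * (c.nm i)⁻¹ = _ at e2
      rw [e2] at this
      exact mul_inv_eq_iff_eq_mul.1 this
    · obtain ⟨k, hk⟩ := hV.compl.cls_sub hx
      refine ⟨k, fun V0 _ s1 s2 => ?_⟩
      rw [Set.eq_empty_of_forall_notMem (s := V0) fun y hy => hk k le_rfl (s1 hy) (s2 hy),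
        base.r_bh.empty]
      exact Commute.one_right _
  · have e0 : V0 = V0 ∩ A ∪ V0 ∩ A' := by
      rw [← Set.inter_union_distrib_left, Set.inter_eq_left.2 s1]
    rw [e0, r_add (h0.inter h) (h0.inter h') (d.mono Set.inter_subset_right Set.inter_subset_right)]
    exact (a _ (h0.inter h) Set.inter_subset_right (Set.inter_subset_left.trans s2)).mul_right
      (b _ (h0.inter h') Set.inter_subset_right (Set.inter_subset_left.trans s2))

end

theorem exists_rdata : Nonempty RData := ⟨{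
  r V := (base.r V).f
  loc V _ := (base.r V).loc
  lab W := by rw [base.r_lab]; rfl
  empty u := by rw [base.r_bh.empty]; rfl
  add _ _ := r_add
  comm V V' := base.r_bh.orth V V'
  pi _ := r_pi
  tr5 a V hV hd I hI :=
    let ⟨M, hM⟩ := exists_mov a (I := I) (P := ∅) (by simp) (by omega) (by simp)
    ⟨M, fun _ hu => r_mov hV hd hI (by omega) hM hu⟩
  tr3 := r_tr3
  ll1 _ := r_ll1 }⟩

end Vale.Agent.P196
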