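import Vale.Agent.P196.StarA

/-! Job S, part B: conjugates of the lifted 3-cycles depend only on the germs. -/

namespace Vale.Agent.P196

open Equiv

namespace Sr

variable {D : RData} {V : Set Om}

lemma d3_of {j : Fin 3 → Ix} (h : Function.Injective j) : D3 (j 0) (j 1) (j 2) :=
  ⟨h.ne (by decide), h.ne (by decide), h.ne (by decide)⟩

lemma inj3 {i j k : Ix} (h : D3 i j k) : Function.Injective ![i, j, k] := by
  obtain ⟨h1, h2, h3⟩ := h
  intro a b e
  fin_cases a <;> fin_cases b <;> simp_all [eq_comm]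

lemma piG_mem (γ : Gam) : piG γ ∈ GG := piG_range ▸ ⟨γ, rfl⟩

lemma ll3F (hV : InB V) {F : Finset Ix} (hF : F.card = 4) {δ} (hδ : δ ∈ GJ Fᶜ) {j : Fin 3 → Ix}
    (hj : Function.Injective j) (hjF : ∀ a, j a ∉ F) (h : ∀ x ∈ V, ∀ a, piG δ (x, j a) = (x, j a)) :
    Commute (mk D δ) (rho D V (j 0) (j 1) (j 2)) := by
  obtain ⟨f, hf, f', hf', hff⟩ := Finset.one_lt_card.1 (by omega : 1 < F.card)
  have n1 : ∀ a, f ≠ j a := fun a e => hjF a (e ▸ hf)
  have n2 : ∀ a, f' ≠ j a := fun a e => hjF a (e ▸ hf')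
  have base : ∀ a x y z, D3 x y z → x ∈ insert (j a) F → y ∈ insert (j a) F →
      z ∈ insert (j a) F → Commute (mk D δ) (rho D V x y z) := by
    intro a x y z d hx hy hz
    have hI : (insert (j a) F).card = 5 := by rw [Finset.card_insert_of_notMem (hjF a), hF]
    refine (D.ll1 V hV _ Fᶜ (j a) hI (Finset.mem_insert_self _ _) ?_ δ hδ (fun x hx => h x hx a) _
      ((lf_spec d).2 _ hI hx hy hz)).map (mk D)
    rw [Finset.erase_insert (hjF a)]
    exact disjoint_compl_right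
  have two : ∀ a b, a ≠ b → Commute (mk D δ) (rho D V f (j a) (j b)) := by
    intro a b e
    rw [← rho_pr hV (⟨n1 a, hff, n1 b, (n2 a).symm, hj.ne e, n2 b⟩ : D4 f (j a) f' (j b))]
    exact (base b _ _ _ ⟨hff, n1 b, n2 b⟩ (by simp [hf]) (by simp [hf']) (by simp)).mul_right
      (base a _ _ _ ⟨n1 a, hff, (n2 a).symm⟩ (by simp [hf]) (by simp) (by simp [hf']))
  obtain ⟨d1, d2, d3⟩ := d3_of hj
  rw [← rho_pr hV (⟨d1, (n1 0).symm, d2, (n1 1).symm, d3, n1 2⟩ : D4 (j 0) (j 1) f (j 2)),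
    rho_rot hV (⟨(n1 0).symm, d2, n1 2⟩ : D3 (j 0) f (j 2)),
    ← rho_rot hV (⟨n1 0, n1 1, d1⟩ : D3 f (j 0) (j 1))]
  exact (two 2 0 (by decide)).mul_right (two 0 1 (by decide))

/-- the conjugate of a lifted 3-cycle -/
noncomputable def cj (D : RData) (γ : Gam) (V : Set Om) (j : Fin 3 → Ix) : EE D :=
  mk D γ * rho D V (j 0) (j 1) (j 2) * (mk D γ)⁻¹

lemma cj_mul (s γ : Gam) (V : Set Om) (j : Fin 3 → Ix) :
    cj D (s * γ) V j = mk D s * cj D γ V j * (mk D s)⁻¹ := by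
  simp only [cj, map_mul, mul_inv_rev, mul_assoc]

lemma uniqF (hV : InB V) {F : Finset Ix} (hF : F.card = 4) {m m'} (hm : m ∈ GJ Fᶜ)
    (hm' : m' ∈ GJ Fᶜ) {j j' : Fin 3 → Ix} (hj : Function.Injective j)
    (hj' : Function.Injective j') (hjF : ∀ a, j a ∉ F) (hjF' : ∀ a, j' a ∉ F)
    (h : ∀ x ∈ V, ∀ a, piG m (x, j a) = piG m' (x, j' a)) : cj D m V j = cj D m' V j' := by
  classical
  have hc : Fᶜ.card = 996 := by rw [Finset.card_compl, card_Ix, hF]
  obtain ⟨σ, hσ, hσj⟩ := exists_alt (Finset.univ.image j') Fᶜ (j ∘ Function.invFun j')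
    (by
      intro x hx y hy e
      simp only [Finset.coe_image, Set.mem_image] at hx hy
      obtain ⟨a, -, rfl⟩ := hx
      obtain ⟨b, -, rfl⟩ := hy
      simp only [Function.comp, Function.leftInverse_invFun hj' _] at e
      rw [hj e])
    (by
      intro x hx
      obtain ⟨a, -, rfl⟩ := Finset.mem_image.1 hx
      simpa using hjF' a)
    (fun x _ => by simpa using hjF _)
    (by have := (Finset.card_image_le (s := Finset.univ) (f := j')); simp at this; omega)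
  have hσ' : ∀ a, σ (j' a) = j a := fun a => by
    rw [hσj _ (Finset.mem_image_of_mem _ (Finset.mem_univ a))]
    simp only [Function.comp, Function.leftInverse_invFun hj' _]
  obtain ⟨v, rfl⟩ := qq_surj (Alt_mono (Finset.subset_univ _) hσ)
  have hv : al v ∈ GJ Fᶜ := wu_mem hσ
  have e1 : cj D m V j = cj D (m * al v) V j' := by
    rw [cj_mul, cj, cj, rho_al hV (d3_of hj'), hσ', hσ', hσ']
  have c := ll3F (D := D) hV hF (mul_mem (inv_mem hm') (mul_mem hm hv)) hj' hjF' fun x hx a => by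
    rw [map_mul, map_mul, map_inv, Perm.mul_apply, Perm.mul_apply, piG_wu,
      bet_mem (by trivial), hσ', h x hx a]
    simp
  rw [e1, ← mul_inv_cancel_left m' (m * al v), cj_mul, cj, c.eq, mul_inv_cancel_right, cj]

lemma mv_path (p : List Letter) {j f f' : Ix} (h : D3 j f f') :
    ∃ ν ∈ GJ {j, f, f'}, ∀ x, Ok p x → piG ν (x, j) = (run p x, j) := by
  induction p with
  | nil => exact ⟨1, one_mem _, by simp⟩
  | cons a p ih =>
    obtain ⟨ν, h1, h2⟩ := ih
    obtain ⟨M, h3, -, h4⟩ := exists_mv a {j} {f, f'} (by simp [h.1, h.2.1])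
      (by simp [Finset.card_pair h.2.2])
    refine ⟨ν * M, mul_mem h1 (by rw [Finset.insert_eq]; exact h3), fun x hx => ?_⟩
    rw [map_mul, Perm.mul_apply, h4 x hx.1 j (by simp), h2 _ hx.2, run_cons]

/-- three germs of one element are pulled back by an element avoiding a given set of indices -/
lemma pull (D : RData) (γ : Gam) (x₀ : Om) {i : Fin 3 → Ix} (hi : Function.Injective i)
    (G : Finset Ix) (hG : G.card ≤ 100) (ht : ∀ a, (piG γ (x₀, i a)).2 ∉ G) :
    ∃ (k : ℕ) (j : Fin 3 → Ix) (m : Gam), Function.Injective j ∧ (∀ a, j a ∉ G) ∧ m ∈ GJ Gᶜ ∧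
      ∀ x ∈ cls k x₀, ∀ a, piG m (x, j a) = piG γ (x, i a) := by
  classical
  choose k p t hp using fun a => locPath (piG_mem γ) x₀ (i a)
  let K := Finset.univ.sup k
  have hp' : ∀ a, ∀ x ∈ cls K x₀, Ok (p a) x ∧ piG γ (x, i a) = (run (p a) x, t a) :=
    fun a x hx => hp a x (Sim.mono (Finset.le_sup (Finset.mem_univ a)) hx)
  have htG : ∀ a, t a ∉ G := fun a => by
    have := ht a
    rwa [(hp' a x₀ (mem_cls _ _)).2] at this
  obtain ⟨e, he, heG⟩ := fresh_inj (Fin 3 × Fin 3) (G ∪ Finset.univ.image t) (by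
    have h1 := Finset.card_union_le G (Finset.univ.image t)
    have h2 := Finset.card_image_le (s := Finset.univ) (f := t)
    simp at h2 ⊢
    omega)
  have e1 : ∀ q, e q ∉ G := fun q h => heG q (Finset.mem_union_left _ h)
  have e2 : ∀ q a, e q ≠ t a := fun q a h => heG q (Finset.mem_union_right _ (by simp [h]))
  have e3 : ∀ q a, t a ≠ e q := fun q a h => e2 q a h.symm
  have d1 : ∀ a, D3 (e (a, 0)) (e (a, 1)) (e (a, 2)) := fun a => by simp [D3, he.eq_iff]
  have d2 : ∀ a, D3 (e (a, 0)) (t a) (e (a, 1)) := fun a => by simp [D3, he.eq_iff, e2, e3]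
  choose ν hν hν' using fun a => mv_path (p a) (d1 a)
  let W : Fin 3 → Set Om := fun a => run (p a) '' cls K x₀
  have hW : ∀ a, InB (W a) := fun a => (inB_cls K x₀).im_run _ fun x hx => (hp' a x hx).1
  let μ : Fin 3 → Gam := fun a => D.r (W a) (lf (e (a, 0)) (t a) (e (a, 1))) * ν a
  have hμ : ∀ a y, piG (μ a) y = bet (W a) (cyc (e (a, 0)) (t a) (e (a, 1))) (piG (ν a) y) := by
    intro a y
    rw [map_mul, Perm.mul_apply, D.pi _ (hW a), (lf_spec (d2 a)).1]
  have hGc : 15 ≤ Gᶜ.card := by rw [Finset.card_compl, card_Ix]; omega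
  have m0 : ∀ a, μ a ∈ GJ Gᶜ := fun a =>
    mul_mem (r_mem (hW a) (d2 a) (by simp [e1]) (by simp [htG]) (by simp [e1]) hGc)
      (GJ_mono (by simp [Finset.insert_subset_iff, e1]) (hν a))
  have m1 : ∀ a, ∀ x ∈ cls K x₀, piG (μ a) (x, e (a, 0)) = piG γ (x, i a) := by
    intro a x hx
    rw [hμ, hν' a x (hp' a x hx).1, bet_mem (Set.mem_image_of_mem _ hx), cyc_1 (d2 a),
      (hp' a x hx).2]
  have bf : ∀ (V : Set Om) (σ : Perm Ix) x m, σ m = m → bet V σ (x, m) = (x, m) := by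
    intro V σ x m h
    by_cases hx : x ∈ V
    · rw [bet_mem hx, h]
    · rw [bet_not hx]
  have m2 : ∀ a b, b ≠ a → ∀ x, piG (μ b) (x, e (a, 0)) = (x, e (a, 0)) := by
    intro a b hab x
    rw [hμ, GJ_fix (hν b) x (by simp [he.eq_iff, hab.symm]), bf _ _ _ _
      (cyc_0 (by simp [he.eq_iff, hab.symm]) (e2 _ _) (by simp [he.eq_iff]))]
  have m3 : ∀ a b, b ≠ a → ∀ x ∈ cls K x₀, piG (μ b) (piG γ (x, i a)) = piG γ (x, i a) := by
    intro a b hab x hx
    rw [(hp' a x hx).2, hμ, GJ_fix (hν b) _ (by simp [e3])]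
    by_cases h : t a = t b
    · refine bet_not ?_ _ _
      rintro ⟨x', hx', e'⟩
      have h1 : piG γ (x', i b) = piG γ (x, i a) := by
        rw [(hp' a x hx).2, (hp' b x' hx').2, e', h]
      exact hab (hi (congrArg Prod.snd ((piG γ).injective h1)))
    · exact bf _ _ _ _ (cyc_0 (e3 _ _) h (e3 _ _))
  refine ⟨K, fun a => e (a, 0), μ 0 * μ 1 * μ 2, fun a b h => by simpa using he h,
    fun a => e1 _, mul_mem (mul_mem (m0 0) (m0 1)) (m0 2), fun x hx a => ?_⟩
  simp only [map_mul piG (μ 0 * μ 1), map_mul piG (μ 0), Perm.mul_apply]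
  obtain rfl | rfl | rfl : a = 0 ∨ a = 1 ∨ a = 2 := by fin_cases a <;> simp
  · rw [m2 0 2 (by decide), m2 0 1 (by decide), m1 0 x hx]
  · rw [m2 1 2 (by decide), m1 1 x hx, m3 1 0 (by decide) x hx]
  · rw [m1 2 x hx, m3 2 1 (by decide) x hx, m3 2 0 (by decide) x hx]

lemma cls_mono {k k' : ℕ} (h : k ≤ k') (x : Om) : cls k' x ⊆ cls k x := fun _ hx => Sim.mono h hx

/-- local normal form -/
def NF (D : RData) (γ : Gam) (x₀ : Om) (i : Fin 3 → Ix) (F : Finset Ix) : Prop :=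
  ∃ (k : ℕ) (j : Fin 3 → Ix) (m : Gam), Function.Injective j ∧ (∀ a, j a ∉ F) ∧ m ∈ GJ Fᶜ ∧
    (∀ x ∈ cls k x₀, ∀ a, piG m (x, j a) = piG γ (x, i a)) ∧
    ∀ V, InB V → V ⊆ cls k x₀ → cj D γ V i = cj D m V j

lemma NF.tgt {γ x₀ i F} (h : NF D γ x₀ i F) (a : Fin 3) : (piG γ (x₀, i a)).2 ∉ F := by
  obtain ⟨k, j, m, -, h2, h3, h4, -⟩ := h
  rw [← h4 x₀ (mem_cls _ _) a]
  simpa using GJ_maps h3 x₀ (i := j a) (by simpa using h2 a)

lemma NF.change {γ x₀ i F} (hi : Function.Injective i) (h : NF D γ x₀ i F) (hF : F.card = 4)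
    (G : Finset Ix) (hG : G.card ≤ 50) (ht : ∀ a, (piG γ (x₀, i a)).2 ∉ G) :
    NF D γ x₀ i (F ∪ G) := by
  obtain ⟨k', j', m', a1, a2, a3, a4⟩ := pull D γ x₀ hi (F ∪ G)
    ((Finset.card_union_le _ _).trans (by omega)) fun a => by simp [h.tgt a, ht a]
  obtain ⟨k, j, m, h1, h2, h3, h4, h5⟩ := h
  refine ⟨max k k', j', m', a1, a2, a3, fun x hx => a4 x (cls_mono (le_max_right _ _) _ hx),
    fun V hV hs => ?_⟩
  rw [h5 V hV (hs.trans (cls_mono (le_max_left _ _) _))]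
  refine uniqF hV hF h3 (GJ_mono (by simp) a3) h1 a1 h2
    (fun a h => a2 a (Finset.mem_union_left _ h)) fun x hx a => ?_
  rw [h4 x (cls_mono (le_max_left _ _) _ (hs hx)), a4 x (cls_mono (le_max_right _ _) _ (hs hx))]

lemma NF.anti {γ x₀ i F F'} (h : NF D γ x₀ i F) (hF : F' ⊆ F) : NF D γ x₀ i F' := by
  obtain ⟨k, j, m, h1, h2, h3, h4, h5⟩ := h
  exact ⟨k, j, m, h1, fun a e => h2 a (hF e), GJ_mono (by simpa using hF) h3, h4, h5⟩

lemma exists_NF (D : RData) (γ : Gam) (x₀ : Om) {i : Fin 3 → Ix} (hi : Function.Injective i) :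
    ∃ F : Finset Ix, F.card = 4 ∧ NF D γ x₀ i F := by
  classical
  have step : ∀ (s : Gam) (J : Finset Ix), J.card ≤ 3 → s ∈ GJ J → ∀ γ,
      (∃ F : Finset Ix, F.card = 4 ∧ NF D γ x₀ i F) →
      ∃ F : Finset Ix, F.card = 4 ∧ NF D (s * γ) x₀ i F := by
    rintro s J hJ hs γ ⟨F, hF, h⟩
    obtain ⟨G, hG, hd⟩ := fresh (J ∪ Finset.univ.image fun a => (piG γ (x₀, i a)).2) 4 (by
      have h1 := Finset.card_union_le J (Finset.univ.image fun a => (piG γ (x₀, i a)).2)
      have h2 := Finset.card_image_le (s := Finset.univ) (f := fun a => (piG γ (x₀, i a)).2)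
      simp at h2
      omega)
    rw [Finset.disjoint_union_right] at hd
    obtain ⟨k, j, m, h1, h2, h3, h4, h5⟩ := (h.change hi hF G (by omega) fun a e =>
      Finset.disjoint_left.1 hd.2 e (by simp)).anti Finset.subset_union_right
    refine ⟨G, hG, k, j, s * m, h1, h2, mul_mem (GJ_mono ?_ hs) h3, fun x hx a => ?_,
      fun V hV hs => ?_⟩
    · exact Finset.subset_compl_iff_disjoint_left.2 hd.1
    · rw [map_mul, map_mul, Perm.mul_apply, Perm.mul_apply, h4 x hx]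
    · rw [cj_mul, cj_mul, h5 V hV hs]
  have hγ : γ ∈ Subgroup.closure {γ | ∃ J : Finset Ix, J.card ≤ 3 ∧ γ ∈ GJ J} := by
    rw [GJ_gen]; trivial
  induction hγ using Subgroup.closure_induction_left with
  | one =>
    obtain ⟨G, hG, hd⟩ := fresh (Finset.univ.image i) 4 (by
      have h2 := Finset.card_image_le (s := Finset.univ) (f := i)
      simp at h2
      omega)
    exact ⟨G, hG, 0, i, 1, hi, fun a e => Finset.disjoint_left.1 hd e (by simp), one_mem _,
      fun _ _ _ => rfl, fun _ _ _ => rfl⟩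
  | mul_left s hs γ _ ih => obtain ⟨J, h1, h2⟩ := hs; exact step s J h1 h2 γ ih
  | inv_mul_cancel s hs γ _ ih => obtain ⟨J, h1, h2⟩ := hs; exact step _ J h1 (inv_mem h2) γ ih

/-- additive properties that hold locally hold globally -/
lemma glob (Q : Set Om → Prop) (hV : InB V) (h0 : Q ∅)
    (hadd : ∀ A B, InB A → InB B → Disjoint A B → Q A → Q B → Q (A ∪ B))
    (hloc : ∀ x ∈ V, ∃ k, ∀ A, InB A → A ⊆ V → A ⊆ cls k x → Q A) : Q V := by
  refine loc_ind (fun A => ∀ B, InB B → B ⊆ V → B ⊆ A → Q B) (fun x => ?_)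
    (fun A A' _ _ h1 h2 B a b c => h2 B a b (c.trans h1)) (fun A A' hA hA' d h h' B a b c => ?_)
    V hV le_rfl (Set.subset_univ _)
  · by_cases hx : x ∈ V
    · exact hloc x hx
    · obtain ⟨k, hk⟩ := hV.compl.cls_sub hx
      refine ⟨k, fun B _ b c => ?_⟩
      rwa [Set.eq_empty_of_forall_notMem fun y hy => hk k le_rfl (c hy) (b hy)]
  · rw [← Set.inter_eq_left.2 c, Set.inter_union_distrib_left]
    exact hadd _ _ (a.inter hA) (a.inter hA') (d.mono Set.inter_subset_right Set.inter_subset_right)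
      (h _ (a.inter hA) (Set.inter_subset_left.trans b) Set.inter_subset_right)
      (h' _ (a.inter hA') (Set.inter_subset_left.trans b) Set.inter_subset_right)

lemma cj_empty (γ : Gam) (j : Fin 3 → Ix) : cj D γ ∅ j = 1 := by simp [cj, rho_empty]

lemma cj_add {A B} (hA : InB A) (hB : InB B) (d : Disjoint A B) (γ : Gam) (j : Fin 3 → Ix) :
    cj D γ (A ∪ B) j = cj D γ A j * cj D γ B j := by
  simp [cj, rho_add hA hB d, mul_assoc]

/-- the conjugates depend only on the three germs -/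
theorem can (hV : InB V) {γ γ' : Gam} {i i' : Fin 3 → Ix} (hi : Function.Injective i)
    (hi' : Function.Injective i') (h : ∀ x ∈ V, ∀ a, piG γ (x, i a) = piG γ' (x, i' a)) :
    cj D γ V i = cj D γ' V i' := by
  refine glob (fun A => cj D γ A i = cj D γ' A i') hV (by simp only [cj_empty])
    (fun A B hA hB d a b => by simp only [cj_add hA hB d, a, b]) fun x₀ hx₀ => ?_
  obtain ⟨F, hF, h1⟩ := exists_NF D γ x₀ hi
  obtain ⟨F', hF', h2⟩ := exists_NF D γ' x₀ hi'
  obtain ⟨k, j, m, a1, a2, a3, a4, a5⟩ := (h1.change hi hF F' (by omega) fun a => by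
    rw [h x₀ hx₀]; exact h2.tgt a).anti Finset.subset_union_right
  obtain ⟨k', j', m', b1, b2, b3, b4, b5⟩ := h2
  refine ⟨max k k', fun A hA hAV hs => ?_⟩
  have s1 := hs.trans (cls_mono (le_max_left _ _) _)
  have s2 := hs.trans (cls_mono (le_max_right _ _) _)
  rw [a5 A hA s1, b5 A hA s2]
  exact uniqF hA hF' a3 b3 a1 b1 a2 b2 fun x hx a => by
    rw [a4 x (s1 hx), b4 x (s2 hx), h x (hAV hx)]

lemma path3 (D : RData) (p : List Letter) {i : Fin 3 → Ix} (hi : Function.Injective i) :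
    ∃ γ : Gam, (∀ x, Ok p x → ∀ a, piG γ (x, i a) = (run p x, i a)) ∧
      ∀ V, InB V → (∀ x ∈ V, Ok p x) → cj D γ V i = rho D (run p '' V) (i 0) (i 1) (i 2) := by
  classical
  induction p with
  | nil => exact ⟨1, by simp, fun V _ _ => by simp [cj, run]⟩
  | cons a p ih =>
    obtain ⟨γ, h1, h2⟩ := ih
    obtain ⟨e, he, hei⟩ := fresh_inj (Fin 3 × Fin 2) (Finset.univ.image i) (by
      have h2 := Finset.card_image_le (s := Finset.univ) (f := i)
      simp at h2 ⊢
      omega)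
    have e2 : ∀ q a, e q ≠ i a := fun q a h => hei q (by simp [h])
    have e3 : ∀ q a, i a ≠ e q := fun q a h => e2 q a h.symm
    obtain ⟨m, hm, hm'⟩ := D.tr3 a i (fun n => {i n, e (n, 0), e (n, 1)}) (by simp)
      (fun n => by
        rw [Finset.card_eq_three.2 ⟨_, _, _, e3 _ _, e3 _ _, by simp [he.eq_iff], rfl⟩]; omega)
      (fun n n' h => by simp [he.eq_iff, hi.eq_iff, e2, e3, h.symm])
    have fx : ∀ n n', n ≠ n' → ∀ x, piG (m n) (x, i n') = (x, i n') := fun n n' h x =>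
      GJ_fix (hm n).1 x (by simp [hi.eq_iff, e3, h.symm])
    refine ⟨γ * (m 0 * m 1 * m 2), fun x hx b => ?_, fun V hV hV' => ?_⟩
    · rw [map_mul, Perm.mul_apply, run_cons, ← h1 _ hx.2]
      congr 1
      simp only [map_mul, Perm.mul_apply]
      obtain rfl | rfl | rfl : b = 0 ∨ b = 1 ∨ b = 2 := by fin_cases b <;> simp
      · rw [fx 2 0 (by decide), fx 1 0 (by decide), (hm 0).2 x hx.1]
      · rw [fx 2 1 (by decide), (hm 1).2 x hx.1, fx 0 1 (by decide)]
      · rw [(hm 2).2 x hx.1, fx 1 2 (by decide), fx 0 2 (by decide)]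
    · have hd : ∀ x ∈ V, lab x ∈ a.dom := fun x hx => (hV' x hx).1
      have e1 : cj D (m 0 * m 1 * m 2) V i = rho D (a.act '' V) (i 0) (i 1) (i 2) := by
        rw [cj, rho, ← map_inv, ← map_mul, ← map_mul, hm' V hV hd _ (lf_spec (d3_of hi)), rho]
      rw [cj_mul, e1, ← cj, h2 _ (hV.im_act a hd) (by rintro _ ⟨x, hx, rfl⟩; exact (hV' x hx).2),
        Set.image_image]
      rfl

end Sr

end Vale.Agent.P196
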