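import Vale.Agent.P196.Base
import Vale.Agent.P196.Tri
import Vale.Agent.P196.StarB

/-! Job S: the honest quotient `E`, the property star and the `Tri` structure.
See notes/P196.md, part S. -/

namespace Vale.Agent.P196

open Equiv

namespace Sr

variable {D : RData} {V V' : Set Om} {i i' : Fin 3 → Ix}

/-- the 3-cycle on three indices -/
abbrev c3 (i : Fin 3 → Ix) : Perm Ix := cyc (i 0) (i 1) (i 2)

lemma fin3 (a : Fin 3) : a = 0 ∨ a = 1 ∨ a = 2 := by fin_cases a <;> simp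

lemma c3_succ (hi : Function.Injective i) (a : Fin 3) : c3 i (i a) = i (a + 1) := by
  obtain rfl | rfl | rfl := fin3 a
  exacts [cyc_1 (d3_of hi), cyc_2 (d3_of hi), cyc_3 (d3_of hi)]

lemma bet_succ (hi : Function.Injective i) {x} (hx : x ∈ V) (a : Fin 3) :
    bet V (c3 i) (x, i a) = (x, i (a + 1)) := by rw [bet_mem hx, c3_succ hi]

lemma bet_fix {y : YY} (h : ¬ (y.1 ∈ V ∧ ∃ a, y.2 = i a)) : bet V (c3 i) y = y := by
  obtain ⟨x, m⟩ := y
  by_cases hx : x ∈ V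
  · rw [bet_mem hx, cyc_0 (fun e => h ⟨hx, _, e⟩) (fun e => h ⟨hx, _, e⟩) fun e => h ⟨hx, _, e⟩]
  · exact bet_not hx _ _

lemma bet_moved (hi : Function.Injective i) {y : YY} :
    bet V (c3 i) y ≠ y ↔ y.1 ∈ V ∧ ∃ a, y.2 = i a := by
  refine ⟨fun h => by_contra fun k => h (bet_fix k), ?_⟩
  obtain ⟨x, m⟩ := y
  rintro ⟨hx, a, rfl⟩ e
  rw [bet_succ hi hx] at e
  have := hi (congrArg Prod.snd e)
  obtain rfl | rfl | rfl := fin3 a <;> exact absurd this (by decide)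

lemma cj_smul (hV : InB V) (hi : Function.Injective i) (γ : Gam) (y : YY) :
    cj D γ V i • piG γ y = piG γ (bet V (c3 i) y) := by
  rw [cj, mul_smul, mul_smul, ← mk_smul D γ y, inv_smul_smul, rho_smul hV (d3_of hi), mk_smul]

lemma rho_shift (hV : InB V) (hi : Function.Injective i) (b : Fin 3) :
    rho D V (i (b + 0)) (i (b + 1)) (i (b + 2)) = rho D V (i 0) (i 1) (i 2) := by
  obtain rfl | rfl | rfl := fin3 b
  · rfl
  · exact (rho_rot hV (d3_of hi)).symm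
  · exact rho_rot hV (d3_of hi).rot.rot

lemma clop_box (hV : InB V) (S : Set Ix) : Clop {y | y.1 ∈ V ∧ y.2 ∈ S} := by
  intro m
  by_cases h : m ∈ S
  · simpa [h] using hV
  · simpa [h] using inB_empty

lemma star0 (hV : InB V) (hi : Function.Injective i) (hi' : Function.Injective i')
    (γ : Gam) (H : ∀ y, piG γ (bet V (c3 i) y) = bet V' (c3 i') (piG γ y)) :
    cj D γ V i = rho D V' (i' 0) (i' 1) (i' 2) := by
  let F : Set Om → Set Om := fun A => {x' | ∃ x ∈ A, ∃ a, piG γ (x, i a) = (x', i' 0)}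
  have mv : ∀ y : YY, (y.1 ∈ V ∧ ∃ a, y.2 = i a) ↔
      ((piG γ y).1 ∈ V' ∧ ∃ a, (piG γ y).2 = i' a) := fun y => by
    rw [← bet_moved hi, ← bet_moved hi', ← H, (piG γ).injective.ne_iff]
  have hF : ∀ A, InB A → InB (F A) := by
    intro A hA
    have h1 := Clop.pre (piG_mem γ⁻¹) (clop_box hA (Set.range i)) (i' 0)
    have h2 : F A = {x | (x, i' 0) ∈ piG γ⁻¹ ⁻¹' {y | y.1 ∈ A ∧ y.2 ∈ Set.range i}} := by
      ext x'
      simp only [F, Set.mem_ofPred_eq, Set.mem_preimage, map_inv]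
      constructor
      · rintro ⟨x, hx, a, e⟩
        rw [← e, Perm.coe_inv, symm_apply_apply]
        exact ⟨hx, a, rfl⟩
      · rintro ⟨h3, a, h4⟩
        exact ⟨_, h3, a, by rw [h4, Prod.mk.eta, Perm.coe_inv, apply_symm_apply]⟩
    rwa [h2]
  have hFV : F V = V' := by
    ext x'
    constructor
    · rintro ⟨x, hx, a, e⟩
      have := ((mv (x, i a)).1 ⟨hx, a, rfl⟩).1
      rwa [e] at this
    · intro hx'
      obtain ⟨⟨x, m⟩, e⟩ := (piG γ).surjective (x', i' 0)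
      obtain ⟨h1, a, h2⟩ := (mv (x, m)).2 (by rw [e]; exact ⟨hx', 0, rfl⟩)
      exact ⟨x, h1, a, by rw [← e]; exact congrArg (fun n => piG γ (x, n)) h2.symm⟩
  rw [← hFV]
  refine glob (fun A => cj D γ A i = rho D (F A) (i' 0) (i' 1) (i' 2)) hV ?_
    (fun A B hA hB d a b => ?_) fun x₀ hx₀ => ?_
  · have : F ∅ = ∅ := by simp [F]
    simp only [this, cj_empty, rho_empty]
  · have h1 : F (A ∪ B) = F A ∪ F B := by
      ext x'; simp only [F, Set.mem_ofPred_eq, Set.mem_union, or_and_right, exists_or]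
    have h2 : Disjoint (F A) (F B) := by
      rw [Set.disjoint_left]
      rintro x' ⟨x, hx, a, e⟩ ⟨y, hy, b, e'⟩
      obtain rfl : x = y := congrArg Prod.fst ((piG γ).injective (e.trans e'.symm))
      exact Set.disjoint_left.1 d hx hy
    rw [h1, cj_add hA hB d, rho_add (hF A hA) (hF B hB) h2, a, b]
  · obtain ⟨k, p, t, hp⟩ := locPath (piG_mem γ) x₀ (i 0)
    obtain ⟨b, hb⟩ := ((mv (x₀, i 0)).1 ⟨hx₀, 0, rfl⟩).2
    rw [(hp x₀ (sim_refl _ _)).2] at hb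
    obtain rfl : t = i' b := hb
    have hi'' : Function.Injective fun a => i' (b + a) := fun a a' e => add_left_cancel (hi' e)
    obtain ⟨η, h1, h2⟩ := path3 D p hi''
    refine ⟨k, fun A hA hAV hs => ?_⟩
    have h3 : ∀ x ∈ A, ∀ a, piG γ (x, i a) = (run p x, i' (b + a)) := by
      intro x hx
      have e0 : piG γ (x, i 0) = (run p x, i' (b + 0)) := by rw [(hp x (hs hx)).2, add_zero]
      have hx' : run p x ∈ V' := by
        have := ((mv (x, i 0)).1 ⟨hAV hx, 0, rfl⟩).1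
        rwa [e0] at this
      have st : ∀ a, piG γ (x, i a) = (run p x, i' (b + a)) →
          piG γ (x, i (a + 1)) = (run p x, i' (b + (a + 1))) := fun a e => by
        rw [← bet_succ hi (hAV hx), H, e, bet_succ hi' hx', add_assoc]
      intro a
      obtain rfl | rfl | rfl := fin3 a
      exacts [e0, st 0 e0, st 1 (st 0 e0)]
    have ok : ∀ x ∈ A, Ok p x := fun x hx => (hp x (hs hx)).1
    have h4 : F A = run p '' A := by
      ext x'
      constructor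
      · rintro ⟨x, hx, a, e⟩
        rw [h3 x hx] at e
        exact ⟨x, hx, congrArg Prod.fst e⟩
      · rintro ⟨x, hx, rfl⟩
        exact ⟨x, hx, -b, by rw [h3 x hx, add_neg_cancel]⟩
    rw [can hA hi hi'' fun x hx a => (h3 x hx a).trans (h1 x (ok x hx) a).symm, h2 A hA ok, h4]
    exact rho_shift (hA.im_run p ok) hi' b

/-- the lifted 3-cycles and their conjugates -/
def TT (D : RData) : Set (EE D) :=
  {τ | ∃ γ V i, InB V ∧ Function.Injective i ∧ τ = cj D γ V i}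

lemma star {τ τ'} (h : τ ∈ TT D) (h' : τ' ∈ TT D) (e : ∀ y : YY, τ • y = τ' • y) : τ = τ' := by
  obtain ⟨γ, V, i, hV, hi, rfl⟩ := h
  obtain ⟨γ', V', i', hV', hi', rfl⟩ := h'
  have := star0 (D := D) (V' := V') hV hi hi' (γ'⁻¹ * γ) fun y => by
    apply (piG γ').injective
    rw [← cj_smul (D := D) hV' hi', ← e]
    simp only [map_mul, map_inv, Perm.mul_apply, Perm.coe_inv, apply_symm_apply]
    rw [cj_smul hV hi]
  rw [← mul_inv_cancel_left γ' γ, cj_mul, this, cj]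

lemma rho_mem (hV : InB V) {i j k} (h : D3 i j k) (γ : Gam) :
    mk D γ * rho D V i j k * (mk D γ)⁻¹ ∈ TT D := ⟨γ, V, ![i, j, k], hV, inj3 h, rfl⟩

lemma gen_cc (a : Letter) (p : T3) : mk D (gen (.inr (a, p))) ∈ TT D := by
  obtain ⟨⟨i, j, k⟩, h⟩ := p
  obtain ⟨F, hF, hd⟩ := fresh {i, j, k} 2 (by
    have := Finset.card_le_three (a := i) (b := j) (c := k)
    omega)
  simp only [Finset.disjoint_insert_right, Finset.disjoint_singleton_right] at hd
  obtain ⟨M, h1, h2, h3⟩ := exists_mv a.inv {i} F (by simp [hd.1]) (by simp [hF])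
  have h' : D3 i j k := h
  have f1 : ∀ x, piG M (x, j) = (x, j) := fun x => GJ_fix h1 x (by simp [hd.2.1, h'.1.symm])
  have f2 : ∀ x, piG M (x, k) = (x, k) := fun x => GJ_fix h1 x (by simp [hd.2.2, h'.2.1.symm])
  have f0 : ∀ x, lab x ∈ a.inv.dom → piG M (x, i) = (a.inv.act x, i) :=
    fun x hx => h3 x hx i (by simp)
  have e : gen (.inr (a, ⟨(i, j, k), h⟩)) = M * wu a.inv.dom (lf i j k) * M⁻¹ := by
    refine short_eq (short_gen _) ((h2.mul (short_wu _ _)).mul h2.inv) (by simp) ?_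
    rw [piG_gen, map_mul, map_mul, map_inv, eq_mul_inv_iff_mul_eq, piG_wu, (lf_spec h').1]
    refine Equiv.ext fun ⟨x, m⟩ => ?_
    simp only [evP, Perm.mul_apply]
    by_cases hx : lab x ∈ a.inv.dom ∧ (m = i ∨ m = j ∨ m = k)
    · have a1 := act_dom hx.1
      have a2 := act_inv hx.1
      rw [Letter.inv_inv] at a1 a2
      rw [bet_mem (V := lab ⁻¹' a.inv.dom) hx.1]
      obtain rfl | rfl | rfl := hx.2
      · rw [cyc_1 h', f0 x hx.1, f1, cc_1 h' a1, a2]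
      · rw [cyc_2 h', f1, f2, cc_2 h' hx.1]
      · rw [cyc_3 h', f2, f0 x hx.1, cc_3 h' hx.1]
    · have b0 : bet (lab ⁻¹' a.inv.dom) (cyc i j k) (x, m) = (x, m) := by
        refine bet_fix (i := ![i, j, k]) fun ⟨c1, b, c2⟩ => hx ⟨c1, ?_⟩
        obtain rfl | rfl | rfl := fin3 b
        exacts [.inl c2, .inr (.inl c2), .inr (.inr c2)]
      rw [b0]
      obtain ⟨⟨x', m'⟩, e⟩ : ∃ y, piG M (x, m) = y := ⟨_, rfl⟩
      rw [e]
      refine cc_0 h' ?_ ?_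
      · rintro ⟨rfl, c⟩
        have := f0 _ (act_dom c)
        rw [act_inv c, ← e] at this
        obtain ⟨rfl, rfl⟩ := Prod.mk.inj ((piG M).injective this)
        exact hx ⟨act_dom c, .inl rfl⟩
      · rintro ⟨rfl | rfl, c⟩
        · obtain ⟨rfl, rfl⟩ := Prod.mk.inj ((piG M).injective (e.trans (f1 _).symm))
          exact hx ⟨c, .inr (.inl rfl)⟩
        · obtain ⟨rfl, rfl⟩ := Prod.mk.inj ((piG M).injective (e.trans (f2 _).symm))
          exact hx ⟨c, .inr (.inr rfl)⟩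
  rw [e, map_mul, map_mul, map_inv, ← D.lab]
  exact rho_mem (inB_lab _) h' M

lemma gen_top : Subgroup.closure (TT D) = ⊤ := by
  rw [eq_top_iff]
  rintro g -
  obtain ⟨γ, rfl⟩ := mk_surj D g
  have hγ : γ ∈ Subgroup.closure {γ | ∃ J : Finset Ix, J.card ≤ 3 ∧ γ ∈ GJ J} := by
    rw [GJ_gen]; trivial
  refine (Subgroup.closure_le ((Subgroup.closure (TT D)).comap (mk D))).2 ?_ hγ
  rintro δ ⟨J, -, hδ⟩
  refine (Subgroup.closure_le ((Subgroup.closure (TT D)).comap (mk D))).2 ?_ hδ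
  rintro _ (⟨W, σ, rfl, i, -, j, -, k, -, h, e⟩ | ⟨a, p, rfl, -⟩)
  · have e1 : gen (.inl (W, σ)) = wu W (lf i j k) := by
      have : σ = uce.q (lf i j k) := Subtype.ext (e.trans (lf_spec h).1.symm)
      rw [this]; rfl
    refine Subgroup.subset_closure ?_
    have := rho_mem (D := D) (inB_lab W) h 1
    rwa [map_one, one_mul, inv_one, mul_one, rho, D.lab, ← e1] at this
  · exact Subgroup.subset_closure (gen_cc a p)

lemma split {τ} (h : τ ∈ TT D) {O : Set YY} (hO : Clop O) (inv : ∀ y ∈ O, τ • y ∈ O) :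
    ∃ τ₁ ∈ TT D, ∃ τ₂ ∈ TT D, τ = τ₁ * τ₂ ∧
      (∀ y ∈ O, τ₁ • y = τ • y ∧ τ₂ • y = y) ∧ ∀ y ∉ O, τ₁ • y = y ∧ τ₂ • y = τ • y := by
  obtain ⟨γ, V, i, hV, hi, rfl⟩ := h
  let U : Set Om := {x | piG γ (x, i 0) ∈ O}
  have hU : InB U := Clop.pre (piG_mem γ) hO (i 0)
  have st : ∀ x ∈ V, ∀ a, piG γ (x, i a) ∈ O → piG γ (x, i (a + 1)) ∈ O := fun x hx a h => by
    rw [← bet_succ hi hx, ← cj_smul (D := D) hV hi]; exact inv _ h
  have eqv : ∀ x ∈ V, ∀ a, piG γ (x, i a) ∈ O ↔ x ∈ U := fun x hx a => by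
    obtain rfl | rfl | rfl := fin3 a
    · rfl
    · exact ⟨fun h => st x hx 2 (st x hx 1 h), st x hx 0⟩
    · exact ⟨st x hx 2, fun h => st x hx 1 (st x hx 0 h)⟩
  have key : ∀ (W : Set Om) (y : YY), (∀ a, y.1 ∈ V → y.2 = i a → y.1 ∈ W) →
      bet (V ∩ W) (c3 i) y = bet V (c3 i) y ∧ bet (V ∩ Wᶜ) (c3 i) y = y := by
    rintro W ⟨x, m⟩ h
    refine ⟨?_, bet_fix fun ⟨c, a, e⟩ => c.2 (h a c.1 e)⟩
    by_cases c : x ∈ V ∧ ∃ a, m = i a
    · obtain ⟨c, a, e⟩ := c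
      rw [bet_mem c, bet_mem (V := V ∩ W) ⟨c, h a c e⟩]
    · rw [bet_fix (V := V) (y := (x, m)) c, bet_fix fun k => c ⟨k.1.1, k.2⟩]
  refine ⟨_, ⟨γ, V ∩ U, i, hV.inter hU, hi, rfl⟩, _, ⟨γ, V ∩ Uᶜ, i, hV.inter hU.compl, hi, rfl⟩,
    ?_, fun y hy => ?_, fun y hy => ?_⟩
  · rw [← cj_add (hV.inter hU) (hV.inter hU.compl)
      (disjoint_compl_right.mono Set.inter_subset_right Set.inter_subset_right),
      Set.inter_union_compl]
  · obtain ⟨⟨x, m⟩, rfl⟩ := (piG γ).surjective y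
    obtain ⟨k1, k2⟩ := key U (x, m) fun a c e => (eqv x c a).1 (by rw [← e]; exact hy)
    rw [cj_smul (hV.inter hU) hi, cj_smul (hV.inter hU.compl) hi, cj_smul hV hi, k1, k2]
    exact ⟨rfl, rfl⟩
  · obtain ⟨⟨x, m⟩, rfl⟩ := (piG γ).surjective y
    obtain ⟨k1, k2⟩ := key Uᶜ (x, m) fun a c e u => hy (by
      have := (eqv x c a).2 u
      rwa [← e] at this)
    rw [compl_compl] at k2
    rw [cj_smul (hV.inter hU) hi, cj_smul (hV.inter hU.compl) hi, cj_smul hV hi, k1, k2]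
    exact ⟨rfl, rfl⟩

lemma sep {τ} (h : τ ∈ TT D) (y : YY) (hy : τ • y ≠ y) : ∃ O, Clop O ∧ y ∈ O ∧ τ • y ∉ O := by
  obtain ⟨γ, V, i, hV, hi, rfl⟩ := h
  obtain ⟨⟨x, m⟩, rfl⟩ := (piG γ).surjective y
  rw [cj_smul hV hi] at hy ⊢
  obtain ⟨hx, a, rfl⟩ := (bet_moved hi).1 ((piG γ).injective.ne_iff.1 hy)
  refine ⟨_, Clop.pre (piG_mem γ⁻¹) (clop_prod inB_univ (i a)), by simp, ?_⟩
  rw [bet_succ hi hx] at hy ⊢
  simpa using fun e => hy (by rw [e])

lemma frame {d : ℕ} (hd : d ≤ 5) (y : YY) (g : Fin d → EE D)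
    (h : ∀ a b, a ≠ b → ∃ O, Clop O ∧ g a • y ∈ O ∧ g b • y ∉ O) :
    ∃ (A : Set YY) (η : Gam) (j : Fin d → Ix), Clop A ∧ y ∈ A ∧ Function.Injective j ∧
      ∀ A', Clop A' → A' ⊆ A → ∃ V, InB V ∧ ∀ a b c, D3 a b c →
        IsCyc (mk D η * rho D V (j a) (j b) (j c) * (mk D η)⁻¹) A' (g a) (g b) (g c) := by
  obtain ⟨x, i⟩ := y
  choose γ hγ using fun a => mk_surj D (g a)
  obtain ⟨h₀, hh, k, j, hj, H⟩ := multi hd x i (fun a => piG (γ a)) (fun a => piG_mem _)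
    fun a b e => (sep_iff _ _).1 (by simpa only [← hγ, mk_smul] using h a b e)
  rw [← piG_range] at hh
  obtain ⟨η, rfl⟩ := hh
  refine ⟨_, η, j, clop_prod (inB_cls k x) i, ⟨mem_cls _ _, rfl⟩, hj, fun A' hA' hs =>
    ⟨_, hA' i, fun a b c d => ?_⟩⟩
  have d' : D3 (j a) (j b) (j c) := by simpa [D3, hj.eq_iff] using d
  have sm := cj_smul (D := D) (hA' i) (inj3 d') η
  have gy : ∀ y ∈ A', ∀ a, g a • y = piG η (y.1, j a) ∧ (y.1, i) ∈ A' := by
    rintro ⟨x', m⟩ hy a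
    obtain ⟨h1, rfl⟩ := hs hy
    exact ⟨by rw [← hγ, mk_smul, H a x' h1], hy⟩
  refine ⟨fun y hy => ?_, fun y' hy' => ?_⟩
  · have m := (gy y hy a).2
    rw [(gy y hy a).1, (gy y hy b).1, (gy y hy c).1]
    exact ⟨(sm _).trans (congrArg _ (bet_succ (inj3 d') m 0)),
      (sm _).trans (congrArg _ (bet_succ (inj3 d') m 1)),
      (sm _).trans (congrArg _ (bet_succ (inj3 d') m 2))⟩
  · obtain ⟨⟨x', m⟩, rfl⟩ := (piG η).surjective y'
    refine (sm _).trans (congrArg _ (bet_fix fun ⟨c1, n, c2⟩ => ?_))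
    have h1 := hy' _ c1
    rw [(gy _ c1 a).1, (gy _ c1 b).1, (gy _ c1 c).1] at h1
    obtain rfl : m = _ := c2
    obtain rfl | rfl | rfl := fin3 n
    exacts [h1.1 rfl, h1.2.1 rfl, h1.2.2 rfl]

lemma cyc_act {τ τ' a b c : EE D} {A : Set YY} (h : IsCyc τ A a b c) (h' : IsCyc τ' A a b c)
    (y : YY) : τ • y = τ' • y := by
  by_cases k : ∀ z ∈ A, y ≠ a • z ∧ y ≠ b • z ∧ y ≠ c • z
  · rw [h.2 y k, h'.2 y k]
  · push Not at k
    obtain ⟨z, hz, k⟩ := k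
    by_cases k1 : y = a • z
    · rw [k1, (h.1 z hz).1, (h'.1 z hz).1]
    by_cases k2 : y = b • z
    · rw [k2, (h.1 z hz).2.1, (h'.1 z hz).2.1]
    · rw [k k1 k2, (h.1 z hz).2.2, (h'.1 z hz).2.2]

/-- the structure of lifted 3-cycles -/
noncomputable def tri (D : RData) : Tri (EE D) YY where
  Clop := Clop
  clop_univ := clop_univ
  clop_inter := Clop.inter
  clop_compl := Clop.compl
  clop_pre := fun g _ hA => by
    obtain ⟨γ, rfl⟩ := mk_surj D g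
    exact Clop.pre (piG_mem γ) hA
  compact := yy_compact
  T := TT D
  star := fun _ h _ h' => star h h'
  one_mem := by
    obtain ⟨e, he, -⟩ := fresh_inj (Fin 3) ∅ (by simp)
    exact ⟨1, ∅, e, inB_empty, he, (cj_empty _ _).symm⟩
  conj := by
    rintro _ ⟨γ, V, i, hV, hi, rfl⟩ g
    obtain ⟨s, rfl⟩ := mk_surj D g
    exact ⟨s * γ, V, i, hV, hi, (cj_mul _ _ _ _).symm⟩
  inv := by
    rintro _ ⟨γ, V, i, hV, hi, rfl⟩
    have := rho_mem (D := D) hV (d3_of hi).swap γ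
    rw [← rho_inv hV (d3_of hi)] at this
    simpa [cj, mul_assoc] using this
  cube := by
    rintro _ ⟨γ, V, i, hV, hi, rfl⟩
    have := rho_cube (D := D) hV (d3_of hi)
    rw [cj, conj_mul, conj_mul, this, mul_one, mul_inv_cancel]
  gen := gen_top
  split := fun _ h _ hO inv => split h hO inv
  sep := fun _ h => sep h
  frame3 := fun y g h => by
    obtain ⟨A, η, j, h1, h2, h3, h4⟩ := frame (by omega) y g h
    refine ⟨A, h1, h2, fun A' a b => ?_⟩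
    obtain ⟨V, hV, k⟩ := h4 A' a b
    exact ⟨_, rho_mem hV (d3_of h3) η, k 0 1 2 (by simp [D3])⟩
  frame4 := fun y g h => by
    obtain ⟨A, η, j, h1, h2, h3, h4⟩ := frame (by omega) y g h
    refine ⟨A, h1, h2, fun A' a b τ₁ t1 τ₂ t2 c1 c2 => ?_⟩
    obtain ⟨V, hV, k⟩ := h4 A' a b
    rw [star t1 (rho_mem hV (by simp [D3, h3.eq_iff]) η) (cyc_act c1 (k 0 2 3 (by simp [D3]))),
      star t2 (rho_mem hV (by simp [D3, h3.eq_iff]) η) (cyc_act c2 (k 0 1 2 (by simp [D3]))),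
      conj_mul, rho_pr hV (by simp [D4, h3.eq_iff])]
    exact rho_mem hV (by simp [D3, h3.eq_iff]) η

end Sr

theorem exists_tri (D : RData) : ∃ (E : Type) (_ : Group E) (_ : MulAction E YY) (𝒯 : Tri E YY),
    Group.IsFinitelyPresented E ∧ (MulAction.toPermHom E YY).range = GG ∧
      ∀ O, 𝒯.Clop O ↔ Clop O := by
  refine ⟨Sr.EE D, inferInstance, inferInstance, Sr.tri D, Sr.EE_fp D, ?_, fun _ => Iff.rfl⟩
  rw [← piG_range]
  ext g
  constructor
  · rintro ⟨e, rfl⟩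
    obtain ⟨γ, rfl⟩ := Sr.mk_surj D e
    exact ⟨γ, Equiv.ext fun _ => rfl⟩
  · rintro ⟨γ, rfl⟩
    exact ⟨Sr.mk D γ, Equiv.ext fun _ => rfl⟩

end Vale.Agent.P196
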