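import Vale.Agent.P196.AmenG
import Vale.Agent.P196.Star

namespace Vale.Agent.P196

theorem final : ∃ (G : Type) (_ : Group G), Infinite G ∧ Group.IsFinitelyPresented G ∧
    IsSimpleGroup G ∧ Amenable G := by
  obtain ⟨D⟩ := exists_rdata
  obtain ⟨E, _, _, 𝒯, h1, h2, h3⟩ := exists_tri D
  exact ⟨GG, inferInstance, GG_infinite, GG_fp 𝒯 h1 h2 h3, GG_simple fun _ => moves_reg,
    GG_amenable⟩

end Vale.Agent.P196
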