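import Vale.Agent.P196.Grp

/-! Job P1 (first half): the finitely presented group `Gam`. See notes/P196.md, part P1. -/

namespace Vale.Agent.P196

open Equiv

/-- length bound for the defining relations -/
def Lmax : ℕ := 100000

/-- all short relations of the generators -/
def rels : Set (FreeGroup Gen) :=
  {w | (∃ l : List (Gen × Bool), l.length ≤ Lmax ∧ w = FreeGroup.mk l) ∧ FreeGroup.lift evP w = 1}

/-- the finitely presented cover -/
def Gam : Type := PresentedGroup rels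

noncomputable instance : Group Gam := inferInstanceAs (Group (PresentedGroup rels))

/-- generators -/
noncomputable def gen (s : Gen) : Gam := PresentedGroup.of s

/-- the projection -/
noncomputable def piG : Gam →* Perm YY := PresentedGroup.toGroup (f := evP) fun _ h => h.2

lemma piG_gen (s : Gen) : piG (gen s) = evP s := PresentedGroup.toGroup.of _

lemma piG_mk (w : FreeGroup Gen) : piG (PresentedGroup.mk rels w) = FreeGroup.lift evP w := rfl

theorem Gam_fp : Group.IsFinitelyPresented Gam := by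
  have : Finite rels := by
    refine Set.Finite.subset ((List.finite_length_le (Gen × Bool) Lmax).image FreeGroup.mk) ?_
    rintro _ ⟨⟨l, h, rfl⟩, _⟩
    exact ⟨l, h, rfl⟩
  exact inferInstanceAs (Group.IsFinitelyPresented (PresentedGroup rels))
lemma gen_closure : Subgroup.closure (Set.range gen) = ⊤ :=
  PresentedGroup.closure_range_of rels
lemma piG_range : piG.range = GG := by
  rw [MonoidHom.range_eq_map, ← gen_closure, MonoidHom.map_closure, ← Set.range_comp, GG]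
  exact congrArg (fun f => Subgroup.closure (Set.range f)) (funext piG_gen)

/-- products of at most `n` generators and inverses -/
def Short (n : ℕ) (γ : Gam) : Prop :=
  ∃ l : List (Gen × Bool), l.length ≤ n ∧ γ = PresentedGroup.mk rels (FreeGroup.mk l)

lemma short_one : Short 0 1 := ⟨[], le_rfl, rfl⟩
lemma short_gen (s) : Short 1 (gen s) := ⟨[(s, true)], le_rfl, rfl⟩
lemma Short.mono {n m γ} (h : Short n γ) (hn : n ≤ m) : Short m γ :=
  h.imp fun _ h => ⟨h.1.trans hn, h.2⟩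
lemma Short.mul {n m γ γ'} (h : Short n γ) (h' : Short m γ') : Short (n + m) (γ * γ') := by
  obtain ⟨l, h1, rfl⟩ := h
  obtain ⟨l', h2, rfl⟩ := h'
  refine ⟨l ++ l', by rw [List.length_append]; omega, ?_⟩
  rw [← FreeGroup.mul_mk]
  exact (map_mul (PresentedGroup.mk rels) _ _).symm
lemma Short.inv {n γ} (h : Short n γ) : Short n γ⁻¹ := by
  obtain ⟨l, h1, rfl⟩ := h
  refine ⟨FreeGroup.invRev l, by rwa [FreeGroup.invRev_length], ?_⟩
  rw [← FreeGroup.inv_mk]
  exact (map_inv (PresentedGroup.mk rels) _).symm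
lemma short_eq {n m γ γ'} (h : Short n γ) (h' : Short m γ') (hn : n + m ≤ 100000)
    (e : piG γ = piG γ') : γ = γ' := by
  obtain ⟨l, h1, h2⟩ := h.mul h'.inv
  have h3 : piG (γ * γ'⁻¹) = 1 := by rw [map_mul, map_inv, e, mul_inv_cancel]
  rw [← mul_inv_eq_one, h2]
  rw [h2, piG_mk] at h3
  exact PresentedGroup.one_of_mem ⟨⟨l, h1.trans hn, rfl⟩, h3⟩

lemma wl_mul (W : Set Lab) (σ τ : AA) :
    gen (.inl (W, σ * τ)) = gen (.inl (W, σ)) * gen (.inl (W, τ)) :=
  short_eq (short_gen _) ((short_gen _).mul (short_gen _)) (by norm_num) (by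
    rw [map_mul, piG_gen, piG_gen, piG_gen]
    exact map_mul (bet (lab ⁻¹' W)) σ.1 τ.1)

/-- the honest copy of the alternating group over a label set -/
noncomputable def wl (W : Set Lab) : AA →* Gam :=
  MonoidHom.mk' (fun σ => gen (.inl (W, σ))) (wl_mul W)

/-- the same, on the universal central extension -/
noncomputable def wu (W : Set Lab) : UU →* Gam := (wl W).comp uce.q

/-- the constant copy -/
noncomputable abbrev al : UU →* Gam := wu Set.univ

lemma piG_wu (W u) : piG (wu W u) = bet (lab ⁻¹' W) (qq u) := piG_gen _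
lemma short_wu (W u) : Short 1 (wu W u) := short_gen _

/-- the subgroup generated by the 3-cycle generators with indices in `J` -/
noncomputable def GJ (J : Finset Ix) : Subgroup Gam :=
  Subgroup.closure ({γ | ∃ W σ, γ = gen (.inl (W, σ)) ∧
      ∃ i ∈ J, ∃ j ∈ J, ∃ k ∈ J, D3 i j k ∧ σ.1 = cyc i j k} ∪
    {γ | ∃ a p, γ = gen (.inr (a, p)) ∧ p.1.1 ∈ J ∧ p.1.2.1 ∈ J ∧ p.1.2.2 ∈ J})

lemma GJ_mono {J J'} (h : J ⊆ J') : GJ J ≤ GJ J' := by
  refine Subgroup.closure_mono ?_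
  rintro γ (⟨W, σ, h0, i, hi, j, hj, k, hk, h1⟩ | ⟨a, p, h0, h1, h2, h3⟩)
  · exact Or.inl ⟨W, σ, h0, i, h hi, j, h hj, k, h hk, h1⟩
  · exact Or.inr ⟨a, p, h0, h h1, h h2, h h3⟩
lemma GJ_fix {J γ} (h : γ ∈ GJ J) (x : Om) {i} (hi : i ∉ J) : piG γ (x, i) = (x, i) := by
  refine (show GJ J ≤ (MulAction.stabilizer (Perm YY) (x, i)).comap piG from
    (Subgroup.closure_le _).2 ?_) h
  have hne : ∀ {a}, a ∈ J → i ≠ a := fun ha e => hi (e ▸ ha)
  rintro γ (⟨W, σ, rfl, a, ha, b, hb, c, hc, _, h1⟩ | ⟨a, p, rfl, h1, h2, h3⟩)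
  · change piG _ (x, i) = (x, i)
    rw [piG_gen]
    change bet (lab ⁻¹' W) σ.1 (x, i) = (x, i)
    by_cases hx : x ∈ lab ⁻¹' W
    · rw [bet_mem hx, h1, cyc_0 (hne ha) (hne hb) (hne hc)]
    · exact bet_not hx _ _
  · change piG _ (x, i) = (x, i)
    rw [piG_gen]
    exact cc_0 p.2 (fun h => hne h1 h.1) (fun h => h.1.elim (hne h2) (hne h3))
lemma GJ_comm {J J' γ γ'} (h : Disjoint J J') (h1 : γ ∈ GJ J) (h2 : γ' ∈ GJ J') :
    Commute γ γ' := by
  have key : ∀ s s', gen s ∈ GJ J → gen s' ∈ GJ J' → gen s * gen s' = gen s' * gen s := by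
    intro s s' hs hs'
    refine short_eq ((short_gen _).mul (short_gen _)) ((short_gen _).mul (short_gen _))
      (by norm_num) ?_
    rw [map_mul, map_mul]
    refine Perm.Disjoint.commute fun y => ?_
    by_cases hy : y.2 ∈ J
    · exact Or.inr (GJ_fix hs' y.1 (Finset.disjoint_left.1 h hy))
    · exact Or.inl (GJ_fix hs y.1 hy)
  have k2 : ∀ s, gen s ∈ GJ J → GJ J' ≤ Subgroup.centralizer {gen s} := by
    intro s hs
    refine (Subgroup.closure_le _).2 fun δ hδ => ?_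
    have hδ' : δ ∈ GJ J' := Subgroup.subset_closure hδ
    rw [SetLike.mem_coe, Subgroup.mem_centralizer_singleton_iff]
    rcases hδ with ⟨W, σ, rfl, _⟩ | ⟨a, p, rfl, _⟩ <;> exact (key _ _ hs hδ').symm
  have k3 : GJ J ≤ Subgroup.centralizer {γ'} := by
    refine (Subgroup.closure_le _).2 fun δ hδ => ?_
    have hδ' : δ ∈ GJ J := Subgroup.subset_closure hδ
    rw [SetLike.mem_coe, Subgroup.mem_centralizer_singleton_iff]
    rcases hδ with ⟨W, σ, rfl, _⟩ | ⟨a, p, rfl, _⟩ <;>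
      exact (Subgroup.mem_centralizer_singleton_iff.1 (k2 _ hδ' h2)).symm
  exact Subgroup.mem_centralizer_singleton_iff.1 (k3 h1)
lemma GJ_maps {J γ} (h : γ ∈ GJ J) (x : Om) {i} (hi : i ∈ J) : (piG γ (x, i)).2 ∈ J := by
  by_contra h1
  have h2 := (piG γ).injective (GJ_fix h (piG γ (x, i)).1 h1)
  exact h1 ((congrArg Prod.snd h2).symm ▸ hi)
lemma wl_mem {J : Finset Ix} {W} {H : Subgroup Gam}
    (hH : ∀ (σ : AA) i j k, i ∈ J → j ∈ J → k ∈ J → D3 i j k → σ.1 = cyc i j k → wl W σ ∈ H)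
    {σ : AA} (h : σ.1 ∈ Alt J) : wl W σ ∈ H := by
  have : Alt J ≤ (H.comap (wl W)).map (Alt Finset.univ).subtype := by
    refine (Subgroup.closure_le _).2 ?_
    rintro _ ⟨i, hi, j, hj, k, hk, h1, rfl⟩
    exact ⟨⟨cyc i j k, cyc_mem_Alt (by simp) (by simp) (by simp) h1⟩, hH _ i j k hi hj hk h1 rfl, rfl⟩
  obtain ⟨τ, h1, h2⟩ := this h
  rw [← show τ = σ from Subtype.ext h2]
  exact h1
lemma wu_mem {J W u} (h : qq u ∈ Alt J) : wu W u ∈ GJ J :=
  wl_mem (σ := uce.q u) (fun σ i j k hi hj hk h1 h2 =>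
    Subgroup.subset_closure (Or.inl ⟨W, σ, rfl, i, hi, j, hj, k, hk, h1, h2⟩)) h
lemma bet_conj {V V' : Set Om} (h : V' ⊆ V) (τ σ : Perm Ix) :
    bet V τ * bet V' σ * (bet V τ)⁻¹ = bet V' (τ * σ * τ⁻¹) := by
  rw [← map_inv]
  refine Equiv.ext fun ⟨x, i⟩ => ?_
  by_cases hx : x ∈ V'
  · simp only [Perm.mul_apply, bet_mem hx, bet_mem (h hx)]
  · by_cases hx' : x ∈ V
    · simp only [Perm.mul_apply, bet_mem hx', bet_not hx]
      simp
    · simp only [Perm.mul_apply, bet_not hx, bet_not hx']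
lemma cc_conjU (a : Letter) {i j k : Ix} (h : D3 i j k) (τ : Perm Ix) :
    bet Set.univ τ * cc a i j k * (bet Set.univ τ)⁻¹ = cc a (τ i) (τ j) (τ k) := by
  have h' : D3 (τ i) (τ j) (τ k) := ⟨τ.injective.ne h.1, τ.injective.ne h.2.1, τ.injective.ne h.2.2⟩
  rw [mul_inv_eq_iff_eq_mul]
  refine Equiv.ext fun ⟨x, m⟩ => ?_
  rw [Perm.mul_apply, Perm.mul_apply, bet_mem (Set.mem_univ x)]
  by_cases h1 : m = i ∧ lab x ∈ a.dom
  · rw [h1.1, cc_1 h h1.2, cc_1 h' h1.2, bet_mem (Set.mem_univ _)]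
  by_cases h2 : (m = j ∨ m = k) ∧ lab x ∈ a.inv.dom
  · rcases h2.1 with rfl | rfl
    · rw [cc_2 h h2.2, cc_2 h' h2.2, bet_mem (Set.mem_univ _)]
    · rw [cc_3 h h2.2, cc_3 h' h2.2, bet_mem (Set.mem_univ _)]
  rw [cc_0 h h1 h2, cc_0 h' (by simpa using h1) (by simpa using h2), bet_mem (Set.mem_univ _)]
lemma GJ_conj {J γ} (u : UU) (h : γ ∈ GJ J) : al u * γ * (al u)⁻¹ ∈ GJ (J.image (qq u)) := by
  refine (show GJ J ≤ (GJ (J.image (qq u))).comap (MulAut.conj (al u)).toMonoidHom from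
    (Subgroup.closure_le _).2 ?_) h
  have hm := fun a (ha : a ∈ J) => Finset.mem_image_of_mem (qq u) ha
  have hD : ∀ {i j k}, D3 i j k → D3 (qq u i) (qq u j) (qq u k) := fun h =>
    ⟨(qq u).injective.ne h.1, (qq u).injective.ne h.2.1, (qq u).injective.ne h.2.2⟩
  rintro γ (⟨W, σ, rfl, a, ha, b, hb, c, hc, h0, h1⟩ | ⟨a, p, rfl, h1, h2, h3⟩)
  · refine Subgroup.subset_closure (Or.inl ⟨W, ⟨qq u * σ.1 * (qq u)⁻¹,
      mul_mem (mul_mem (qq_mem u) σ.2) (inv_mem (qq_mem u))⟩, ?_, _, hm a ha, _, hm b hb, _, hm c hc,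
      hD h0, by rw [← cyc_conj, ← h1]⟩)
    refine short_eq (((short_wu _ u).mul (short_gen _)).mul (short_wu _ u).inv) (short_gen _)
      (by norm_num) ?_
    change piG (al u * gen _ * (al u)⁻¹) = _
    rw [map_mul, map_mul, map_inv, piG_wu, piG_gen, piG_gen]
    exact bet_conj (by simp) _ _
  · refine Subgroup.subset_closure (Or.inr ⟨a, ⟨(_, _, _), hD p.2⟩, ?_, hm _ h1, hm _ h2, hm _ h3⟩)
    refine short_eq (((short_wu _ u).mul (short_gen _)).mul (short_wu _ u).inv) (short_gen _)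
      (by norm_num) ?_
    change piG (al u * gen _ * (al u)⁻¹) = _
    rw [map_mul, map_mul, map_inv, piG_wu, piG_gen, piG_gen]
    exact cc_conjU a p.2 _
lemma GJ_gen : Subgroup.closure {γ | ∃ J : Finset Ix, J.card ≤ 3 ∧ γ ∈ GJ J} = ⊤ := by
  rw [eq_top_iff, ← gen_closure, Subgroup.closure_le]
  rintro _ ⟨(⟨W, σ⟩ | ⟨a, p⟩), rfl⟩
  · refine wl_mem (J := Finset.univ) (W := W) (σ := σ) (fun σ i j k _ _ _ h1 h2 => ?_) σ.2
    exact Subgroup.subset_closure ⟨{i, j, k}, Finset.card_le_three, Subgroup.subset_closure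
      (Or.inl ⟨W, σ, rfl, i, by simp, j, by simp, k, by simp, h1, h2⟩)⟩
  · exact Subgroup.subset_closure ⟨{p.1.1, p.1.2.1, p.1.2.2}, Finset.card_le_three,
      Subgroup.subset_closure (Or.inr ⟨a, p, rfl, by simp, by simp, by simp⟩)⟩

/-- short movers: follow a letter simultaneously at all indices of `I` -/
lemma exists_mv (a : Letter) (I F : Finset Ix) (hd : Disjoint I F) (hF : 2 * I.card ≤ F.card) :
    ∃ M ∈ GJ (I ∪ F), Short (2 * I.card) M ∧
      ∀ x, lab x ∈ a.dom → ∀ i ∈ I, piG M (x, i) = (a.act x, i) := by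
  induction I using Finset.induction_on generalizing F with
  | empty => exact ⟨1, one_mem _, by simpa using short_one, by simp⟩
  | insert i I hi ih =>
    rw [Finset.card_insert_of_notMem hi] at hF ⊢
    obtain ⟨j, hj, k, hk, hjk⟩ := Finset.one_lt_card.1 (show 1 < F.card by omega)
    have hd' := Finset.disjoint_left.1 hd
    have hiF : i ∉ F := hd' (by simp)
    have hij : i ≠ j := fun e => hiF (e ▸ hj)
    have hik : i ≠ k := fun e => hiF (e ▸ hk)
    have hsub : ({j, k} : Finset Ix) ⊆ F := by simp [Finset.insert_subset_iff, hj, hk]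
    obtain ⟨M, h1, h2, h3⟩ := ih (F \ {j, k})
      (Finset.disjoint_left.2 fun b hb hb' => hd' (by simp [hb]) (Finset.mem_sdiff.1 hb').1)
      (by rw [Finset.card_sdiff_of_subset hsub, Finset.card_pair hjk]; omega)
    have d1 : D3 j i k := ⟨hij.symm, hjk, hik⟩
    have d2 : D3 i j k := ⟨hij, hik, hjk⟩
    let σ : AA := ⟨cyc j i k, cyc_mem_Alt (by simp) (by simp) (by simp) d1⟩
    let m : Gam := gen (.inl (Set.univ, σ)) * gen (.inr (a, ⟨(i, j, k), d2⟩))
    have hm : m ∈ GJ {i, j, k} := mul_mem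
      (Subgroup.subset_closure (Or.inl ⟨_, _, rfl, j, by simp, i, by simp, k, by simp, d1, rfl⟩))
      (Subgroup.subset_closure (Or.inr ⟨_, _, rfl, by simp, by simp, by simp⟩))
    refine ⟨M * m, mul_mem (GJ_mono (Finset.union_subset_union (Finset.subset_insert _ _)
      Finset.sdiff_subset) h1) (GJ_mono (by simp [Finset.insert_subset_iff, hj, hk]) hm),
      (h2.mul ((short_gen _).mul (short_gen _))).mono (by omega), fun x hx b hb => ?_⟩
    rw [map_mul, Perm.mul_apply]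
    rcases Finset.mem_insert.1 hb with rfl | hb'
    · have : piG m (x, b) = (a.act x, b) := by
        rw [map_mul, Perm.mul_apply, piG_gen, piG_gen]
        change bet _ (cyc j b k) (cc a b j k (x, b)) = _
        rw [cc_1 d2 hx, bet_mem (by simp), cyc_1 d1]
      rw [this, GJ_fix h1 _ (by simp [hi, hiF])]
    · have hbF : b ∉ F := hd' hb
      rw [GJ_fix hm _ (by
        simp only [Finset.mem_insert, Finset.mem_singleton, not_or]
        exact ⟨fun e => hi (e ▸ hb'), fun e => hbF (e ▸ hj), fun e => hbF (e ▸ hk)⟩), h3 x hx b hb']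

end Vale.Agent.P196
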