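import Mathlib

/-! Pure group theory for job U: central extensions of perfect groups. -/

namespace Vale.Agent.P196.UA

open scoped commutatorElement

lemma comm_central {G : Type*} [Group G] {a b c d : G} (h2 : Commute c b)
    (h3 : Commute c d) (h4 : Commute d a) : ⁅a * c, b * d⁆ = ⁅a, b⁆ := by
  have e1 : a * c * (b * d) = a * b * (c * d) := by
    rw [mul_assoc a c, ← mul_assoc c b, h2.eq]; simp only [mul_assoc]
  have e2 : b * d * (a * c) = b * a * (c * d) := by
    rw [mul_assoc b d, ← mul_assoc d a, h4.eq, h3.eq]; simp only [mul_assoc]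
  have e3 : ∀ x y : G, ⁅x, y⁆ = x * y * (y * x)⁻¹ := fun x y => by
    rw [commutatorElement_def, mul_inv_rev]; simp only [mul_assoc]
  rw [e3, e3, e1, e2]; group

lemma hom_eq {H X : Type*} [Group H] [Group X] (hH : commutator H = ⊤) (f g : H →* X)
    (h : ∀ u v, Commute ((f u)⁻¹ * g u) (f v) ∧ Commute ((f u)⁻¹ * g u) (g v)) : f = g := by
  have : commutator H ≤ f.eqLocus g := by
    rw [commutator_def, Subgroup.commutator_le]
    intro u _ v _
    change f ⁅u, v⁆ = g ⁅u, v⁆
    rw [map_commutatorElement, map_commutatorElement]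
    have e : ∀ w, g w = f w * ((f w)⁻¹ * g w) := fun w => by group
    rw [e u, e v]
    exact (comm_central (h u v).1 ((h u v).1.inv_right.mul_right (h u v).2) (h v u).1).symm
  rw [hH] at this
  exact MonoidHom.ext fun x => this (Subgroup.mem_top x)

lemma perfect_top {G : Type*} [Group G] {K : Subgroup G} (h : ⁅K, K⁆ = K) : commutator K = ⊤ := by
  apply Subgroup.map_injective K.subtype_injective
  rw [Subgroup.map_subtype_commutator, h, ← MonoidHom.range_eq_map, K.range_subtype]

/-- modifying elements by central ones does not change the commutator subgroup -/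
lemma comm_le {G : Type*} [Group G] {K H : Subgroup G}
    (h : ∀ k ∈ K, ∃ a ∈ H, ∀ v, Commute (a⁻¹ * k) v) : ⁅K, K⁆ ≤ ⁅H, H⁆ := by
  rw [Subgroup.commutator_le]
  intro k hk l hl
  obtain ⟨a, ha, h1⟩ := h k hk
  obtain ⟨b, hb, h2⟩ := h l hl
  have e1 : k = a * (a⁻¹ * k) := by group
  have e2 : l = b * (b⁻¹ * l) := by group
  rw [e1, e2, comm_central (h1 _) (h1 _) (h2 _)]
  exact Subgroup.commutator_mem_commutator ha hb

/-- an element whose commutators with a perfect subgroup centralise it commutes with it -/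
lemma commute_of_perfect {G : Type*} [Group G] {K : Subgroup G} (hK : ⁅K, K⁆ = K) {u : G}
    (h : ∀ v ∈ K, ∀ w, Commute (v⁻¹ * (u * v * u⁻¹)) w) {v : G} (hv : v ∈ K) : Commute u v := by
  have := hom_eq (perfect_top hK) K.subtype ((MulAut.conj u).toMonoidHom.comp K.subtype)
    fun a b => ⟨h a a.2 _, h a a.2 _⟩
  have h2 : v = u * v * u⁻¹ := by simpa using DFunLike.congr_fun this (⟨v, hv⟩ : K)
  change u * v = v * u
  conv_rhs => rw [h2]
  group

lemma commute_of_center {G : Type*} [Group G] {z : G} (h : z ∈ Subgroup.center G) (v : G) :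
    Commute z v := (Subgroup.mem_center_iff.1 h v).symm

/-- the derived subgroup of a central extension of a perfect group -/
lemma derived {P A : Type*} [Group P] [Group A] (e : P →* A) (hs : Function.Surjective e)
    (hc : e.ker ≤ Subgroup.center P) (hA : commutator A = ⊤) :
    ⁅commutator P, commutator P⁆ = commutator P ∧ ∀ a, ∃ p ∈ commutator P, e p = a := by
  have h1 : ∀ a, ∃ p ∈ commutator P, e p = a := by
    intro a
    have : (commutator P).map e = ⊤ := by
      rw [map_commutator_eq, MonoidHom.range_eq_top.2 hs]; exact hA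
    have h2 : a ∈ (commutator P).map e := this ▸ Subgroup.mem_top a
    exact h2
  refine ⟨le_antisymm (Subgroup.commutator_le_self _) ?_, h1⟩
  refine comm_le (K := ⊤) fun k _ => ?_
  obtain ⟨p, hp, h2⟩ := h1 (e k)
  exact ⟨p, hp, commute_of_center (hc (by simp [h2]))⟩

section
variable (A : Type) [Group A]

/-- the canonical free presentation -/
def pi : FreeGroup A →* A := FreeGroup.lift id

lemma pi_surj : Function.Surjective (pi A) := fun a => ⟨FreeGroup.of a, by simp [pi]⟩

/-- the free central extension -/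
abbrev QQ : Type := FreeGroup A ⧸ ⁅(⊤ : Subgroup (FreeGroup A)), (pi A).ker⁆

/-- its projection -/
def pq : QQ A →* A :=
  QuotientGroup.lift _ (pi A) fun _ hx => Subgroup.commutator_le_right _ _ hx

lemma pq_mk (x : FreeGroup A) : pq A (QuotientGroup.mk x) = pi A x := rfl

lemma pq_surj : Function.Surjective (pq A) := fun a => by
  obtain ⟨x, hx⟩ := pi_surj A a
  exact ⟨QuotientGroup.mk x, hx⟩

lemma pq_central : (pq A).ker ≤ Subgroup.center (QQ A) := by
  intro z hz
  rw [Subgroup.mem_center_iff]
  intro g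
  obtain ⟨z, rfl⟩ := QuotientGroup.mk_surjective z
  obtain ⟨g, rfl⟩ := QuotientGroup.mk_surjective g
  rw [← commutatorElement_eq_one_iff_mul_comm]
  change ⁅QuotientGroup.mk' _ g, QuotientGroup.mk' _ z⁆ = 1
  rw [← map_commutatorElement]
  exact (QuotientGroup.eq_one_iff _).2
    (Subgroup.commutator_mem_commutator (Subgroup.mem_top _) hz)

lemma fin_comm [Finite A] : Finite (commutator (QQ A)) := by
  choose s hs using pq_surj A
  have : Finite (commutatorSet (QQ A)) := by
    refine Set.Finite.subset (Set.finite_range fun p : A × A => ⁅s p.1, s p.2⁆) ?_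
    rintro _ ⟨a, b, rfl⟩
    refine ⟨(pq A a, pq A b), ?_⟩
    have h1 := commute_of_center (pq_central A (x := (s (pq A a))⁻¹ * a) (by simp [hs]))
    have h2 := commute_of_center (pq_central A (x := (s (pq A b))⁻¹ * b) (by simp [hs]))
    have := comm_central (a := s (pq A a)) (b := s (pq A b)) (h1 _) (h1 _) (h2 _)
    simpa using this.symm
  infer_instance

/-- every central extension receives the free central extension -/
lemma exists_lift {P : Type} [Group P] (e : P →* A) (hs : Function.Surjective e)
    (hc : e.ker ≤ Subgroup.center P) : ∃ ψ : QQ A →* P, e.comp ψ = pq A := by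
  choose s hs using hs
  have h1 : e.comp (FreeGroup.lift s) = pi A := by
    ext a; simp [pi, hs]
  have h2 : ∀ x, e (FreeGroup.lift s x) = pi A x := fun x => DFunLike.congr_fun h1 x
  refine ⟨QuotientGroup.lift _ (FreeGroup.lift s) ?_, ?_⟩
  · change ⁅(⊤ : Subgroup (FreeGroup A)), (pi A).ker⁆ ≤ (FreeGroup.lift s).ker
    rw [Subgroup.commutator_le]
    intro g _ r hr
    rw [MonoidHom.mem_ker, map_commutatorElement, commutatorElement_eq_one_iff_mul_comm]
    exact Subgroup.mem_center_iff.1 (hc (by rw [MonoidHom.mem_ker, h2]; exact hr)) _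
  · refine MonoidHom.ext fun x => ?_
    obtain ⟨x, rfl⟩ := QuotientGroup.mk_surjective x
    exact h2 x

end

theorem split {A : Type} [Group A] (hA : commutator A = ⊤) {P : Type} [Group P]
    (e : P →* commutator (QQ A)) (hs : Function.Surjective e)
    (hc : e.ker ≤ Subgroup.center P) : ∃ s : commutator (QQ A) →* P, e.comp s = MonoidHom.id _ := by
  obtain ⟨hU, hq⟩ := derived (pq A) (pq_surj A) (pq_central A) hA
  have hU' := perfect_top hU
  obtain ⟨hP, he⟩ := derived e hs hc hU'
  let q : commutator (QQ A) →* A := (pq A).comp (commutator (QQ A)).subtype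
  have hqc : ∀ u : commutator (QQ A), q u = 1 → ∀ v, Commute u v := fun u hu v =>
    Subtype.ext (commute_of_center (pq_central A hu) v.1).eq
  let e' : commutator P →* A := q.comp (e.comp (commutator P).subtype)
  have hs' : Function.Surjective e' := by
    intro a
    obtain ⟨u, hu, h1⟩ := hq a
    obtain ⟨p, hp, h2⟩ := he ⟨u, hu⟩
    refine ⟨⟨p, hp⟩, ?_⟩
    change q (e p) = a
    rw [h2]; exact h1
  have hc' : e'.ker ≤ Subgroup.center (commutator P) := by
    intro k hk
    rw [Subgroup.mem_center_iff]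
    intro g
    have h1 : Commute k.1 g.1 := by
      refine commute_of_perfect hP (fun v _ w => commute_of_center (hc ?_) w) g.2
      have := (hqc (e k.1) hk (e v)).eq
      rw [MonoidHom.mem_ker, map_mul, map_mul, map_mul, this]
      simp
    exact Subtype.ext h1.eq.symm
  obtain ⟨ψ, hψ⟩ := exists_lift A e' hs' hc'
  refine ⟨(commutator P).subtype.comp (ψ.comp (commutator (QQ A)).subtype), ?_⟩
  refine hom_eq hU' _ _ fun u v => ?_
  have : q ((e (ψ u.1).1)⁻¹ * u) = 1 := by
    have h1 : q (e (ψ u.1).1) = q u := DFunLike.congr_fun hψ u.1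
    rw [map_mul, map_inv, h1, inv_mul_cancel]
  exact ⟨hqc _ this _, hqc _ this _⟩

theorem lift {A : Type} [Group A] (hA : commutator A = ⊤) (X Z : Type) [Group X] [Group Z]
    (φ : X →* Z) (hs : Function.Surjective φ) (hc : φ.ker ≤ Subgroup.center X)
    (f : commutator (QQ A) →* Z) : ∃ f' : commutator (QQ A) →* X, φ.comp f' = f := by
  let P : Subgroup (X × commutator (QQ A)) :=
    (φ.comp (MonoidHom.fst _ _)).eqLocus (f.comp (MonoidHom.snd _ _))
  obtain ⟨s, hs'⟩ := split hA ((MonoidHom.snd _ _).comp P.subtype) (by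
    intro u
    obtain ⟨x, hx⟩ := hs (f u)
    exact ⟨⟨(x, u), hx⟩, rfl⟩) (by
    intro p hp
    have h1 : p.1.2 = 1 := hp
    have h2 : φ p.1.1 = f p.1.2 := p.2
    rw [h1, map_one] at h2
    rw [Subgroup.mem_center_iff]
    intro g
    refine Subtype.ext (Prod.ext (Subgroup.mem_center_iff.1 (hc h2) _) ?_)
    change g.1.2 * p.1.2 = p.1.2 * g.1.2
    rw [h1, one_mul, mul_one])
  refine ⟨(MonoidHom.fst _ _).comp (P.subtype.comp s), MonoidHom.ext fun u => ?_⟩
  have h1 : (s u).1.2 = u := DFunLike.congr_fun hs' u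
  have h2 : φ (s u).1.1 = f (s u).1.2 := (s u).2
  rw [h1] at h2
  exact h2

end Vale.Agent.P196.UA
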