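import Mathlib
import Vale.Agent.P196.Alg
import Vale.Agent.P196.UceA

/-! Job U: the index set, 3-cycles, the groups `Alt I` and the universal central extension `UU`.
See notes/P196.md, part U. -/

namespace Vale.Agent.P196

open Equiv
open scoped commutatorElement

/-- the index set -/
def Ix : Type := Fin 1000

instance : Fintype Ix := inferInstanceAs (Fintype (Fin 1000))
instance : DecidableEq Ix := inferInstanceAs (DecidableEq (Fin 1000))

lemma card_Ix : Fintype.card Ix = 1000 := Fintype.card_fin 1000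

lemma fresh (J : Finset Ix) (n : ℕ) (h : J.card + n ≤ 1000) :
    ∃ F : Finset Ix, F.card = n ∧ Disjoint F J := by
  obtain ⟨F, h1, h2⟩ := Finset.exists_subset_card_eq (s := Jᶜ) (n := n)
    (by rw [Finset.card_compl, card_Ix]; omega)
  exact ⟨F, h2, Finset.disjoint_left.2 fun a ha => Finset.mem_compl.1 (h1 ha)⟩

/-- the 3-cycle `i ↦ j ↦ k ↦ i` -/
def cyc (i j k : Ix) : Perm Ix := swap i k * swap i j

lemma cyc_1 {i j k} (h : D3 i j k) : cyc i j k i = j := by
  simp [cyc, swap_apply_of_ne_of_ne h.1.symm h.2.2]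
lemma cyc_2 {i j k} (h : D3 i j k) : cyc i j k j = k := by simp [cyc]
lemma cyc_3 {i j k} (h : D3 i j k) : cyc i j k k = i := by
  simp [cyc, swap_apply_of_ne_of_ne h.2.1.symm h.2.2.symm]
lemma cyc_0 {i j k a} (hi : a ≠ i) (hj : a ≠ j) (hk : a ≠ k) : cyc i j k a = a := by
  simp [cyc, swap_apply_of_ne_of_ne hi hj, swap_apply_of_ne_of_ne hi hk]
lemma eq_cyc {i j k} (h : D3 i j k) {σ : Perm Ix} (h1 : σ i = j) (h2 : σ j = k) (h3 : σ k = i)
    (h0 : ∀ a, a ≠ i → a ≠ j → a ≠ k → σ a = a) : σ = cyc i j k := by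
  refine Equiv.ext fun a => ?_
  by_cases hi : a = i
  · rw [hi, h1, cyc_1 h]
  by_cases hj : a = j
  · rw [hj, h2, cyc_2 h]
  by_cases hk : a = k
  · rw [hk, h3, cyc_3 h]
  rw [h0 a hi hj hk, cyc_0 hi hj hk]
lemma cyc_rot {i j k} (h : D3 i j k) : cyc i j k = cyc j k i :=
  eq_cyc h.rot (cyc_2 h) (cyc_3 h) (cyc_1 h) fun _ a b c => cyc_0 c a b
lemma cyc_inv {i j k} (h : D3 i j k) : cyc i k j = (cyc i j k)⁻¹ := by
  simp [cyc]
lemma cyc_sq {i j k} (h : D3 i j k) : cyc i j k * cyc i j k = cyc i k j :=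
  eq_cyc h.swap (by rw [Perm.mul_apply, cyc_1 h, cyc_2 h]) (by rw [Perm.mul_apply, cyc_3 h, cyc_1 h])
    (by rw [Perm.mul_apply, cyc_2 h, cyc_3 h])
    fun _ a b c => by rw [Perm.mul_apply, cyc_0 a c b, cyc_0 a c b]
lemma cyc_conj (σ : Perm Ix) (i j k) : σ * cyc i j k * σ⁻¹ = cyc (σ i) (σ j) (σ k) := by
  simp only [cyc, swap_apply_apply]; group
lemma cyc_pr {n a c d} (h : D4 n a c d) : cyc n c d * cyc n a c = cyc n a d := by
  simp only [cyc, mul_assoc, swap_mul_self_mul]

/-- the group generated by the 3-cycles inside `I` -/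
def Alt (I : Finset Ix) : Subgroup (Perm Ix) :=
  Subgroup.closure {σ | ∃ i ∈ I, ∃ j ∈ I, ∃ k ∈ I, D3 i j k ∧ σ = cyc i j k}

lemma cyc_mem_Alt {I i j k} (hi : i ∈ I) (hj : j ∈ I) (hk : k ∈ I) (h : D3 i j k) :
    cyc i j k ∈ Alt I := Subgroup.subset_closure ⟨i, hi, j, hj, k, hk, h, rfl⟩
lemma Alt_mono {I J} (h : I ⊆ J) : Alt I ≤ Alt J :=
  Subgroup.closure_mono fun _ ⟨i, hi, j, hj, k, hk, h1⟩ => ⟨i, h hi, j, h hj, k, h hk, h1⟩
lemma Alt_fix {I σ i} (h : σ ∈ Alt I) (hi : i ∉ I) : σ i = i := by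
  refine (show Alt I ≤ MulAction.stabilizer (Perm Ix) i from (Subgroup.closure_le _).2 ?_) h
  rintro _ ⟨a, ha, b, hb, c, hc, _, rfl⟩
  exact cyc_0 (fun e => hi (e ▸ ha)) (fun e => hi (e ▸ hb)) (fun e => hi (e ▸ hc))
lemma Alt_maps {I σ i} (h : σ ∈ Alt I) (hi : i ∈ I) : σ i ∈ I := by
  by_contra h1
  have := σ.injective (Alt_fix h h1)
  exact h1 (this.symm ▸ hi)
lemma Alt_conj {I σ} (τ : Perm Ix) (h : σ ∈ Alt I) : τ * σ * τ⁻¹ ∈ Alt (I.image τ) := by
  refine (show Alt I ≤ (Alt (I.image τ)).comap (MulAut.conj τ).toMonoidHom from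
    (Subgroup.closure_le _).2 ?_) h
  rintro _ ⟨a, ha, b, hb, c, hc, h1, rfl⟩
  change τ * cyc a b c * τ⁻¹ ∈ Alt (I.image τ)
  rw [cyc_conj]
  exact cyc_mem_Alt (Finset.mem_image_of_mem _ ha) (Finset.mem_image_of_mem _ hb)
    (Finset.mem_image_of_mem _ hc) ⟨τ.injective.ne h1.1, τ.injective.ne h1.2.1, τ.injective.ne h1.2.2⟩
/-- high transitivity -/
lemma exists_alt (s K : Finset Ix) (f : Ix → Ix) (hf : Set.InjOn f s) (h1 : s ⊆ K)
    (h2 : ∀ i ∈ s, f i ∈ K) (h3 : s.card + 2 ≤ K.card) : ∃ σ ∈ Alt K, ∀ i ∈ s, σ i = f i := by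
  induction s using Finset.induction_on with
  | empty => exact ⟨1, one_mem _, by simp⟩
  | insert a s ha ih =>
    rw [Finset.card_insert_of_notMem ha] at h3
    have hsub := Finset.subset_insert a s
    obtain ⟨σ, hσ, h4⟩ := ih (hf.mono (by exact_mod_cast hsub)) (hsub.trans h1)
      (fun i hi => h2 i (hsub hi)) (by omega)
    by_cases h5 : σ a = f a
    · exact ⟨σ, hσ, by simpa [h5] using h4⟩
    have : (insert (σ a) (insert (f a) (s.image f))).card < K.card :=
      lt_of_le_of_lt (Finset.card_insert_le _ _) (by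
        have := Finset.card_insert_le (f a) (s.image f)
        have := Finset.card_image_le (s := s) (f := f)
        omega)
    obtain ⟨d, hd, h6⟩ := Finset.exists_mem_notMem_of_card_lt_card this
    simp only [Finset.mem_insert, Finset.mem_image, not_or, not_exists, not_and] at h6
    have d3 : D3 (σ a) (f a) d := ⟨h5, Ne.symm h6.1, Ne.symm h6.2.1⟩
    refine ⟨cyc (σ a) (f a) d * σ, mul_mem (cyc_mem_Alt (Alt_maps hσ (h1 (by simp)))
      (h2 a (by simp)) hd d3) hσ, fun i hi => ?_⟩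
    rcases Finset.mem_insert.1 hi with rfl | hi'
    · exact cyc_1 d3
    · have hne : i ≠ a := fun e => ha (e ▸ hi')
      rw [Perm.mul_apply, h4 i hi']
      refine cyc_0 (by rw [← h4 i hi']; exact σ.injective.ne hne)
        (fun e => hne (hf hi (by simp) e)) (h6.2.2 i hi')
lemma Alt_perfect {I : Finset Ix} (h : 5 ≤ I.card) : ⁅Alt I, Alt I⁆ = Alt I := by
  refine le_antisymm (Subgroup.commutator_le_self _) ((Subgroup.closure_le _).2 ?_)
  rintro _ ⟨i, hi, j, hj, k, hk, h1, rfl⟩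
  obtain ⟨τ, hτ, h2⟩ := exists_alt {i, j, k} I (swap j k) (swap j k).injective.injOn
    (by simp [Finset.insert_subset_iff, hi, hj, hk])
    (by simp [swap_apply_of_ne_of_ne h1.1 h1.2.1, hi, hj, hk])
    (by have := Finset.card_le_three (a := i) (b := j) (c := k); omega)
  have e : cyc i j k = ⁅τ, cyc i j k⁆ := by
    rw [commutatorElement_def, cyc_conj, h2 i (by simp), h2 j (by simp), h2 k (by simp),
      swap_apply_of_ne_of_ne h1.1 h1.2.1, swap_apply_left, swap_apply_right, ← cyc_inv h1,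
      cyc_sq h1.swap]
  rw [SetLike.mem_coe, e]
  exact Subgroup.commutator_mem_commutator hτ (cyc_mem_Alt hi hj hk h1)

/-- the alternating group of the index set -/
abbrev AA : Type := Alt Finset.univ

/-- interface of the universal central extension -/
structure UceData where
  U : Type
  [grp : Group U]
  [fin : Finite U]
  q : U →* AA
  surj : Function.Surjective q
  central : q.ker ≤ Subgroup.center U
  perfect : commutator U = ⊤
  lift : ∀ (X Z : Type) [Group X] [Group Z] (φ : X →* Z), Function.Surjective φ →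
    φ.ker ≤ Subgroup.center X → ∀ f : U →* Z, ∃ f' : U →* X, φ.comp f' = f

theorem exists_uce : Nonempty UceData := by
  have hA : commutator AA = ⊤ := UA.perfect_top (Alt_perfect (by simp [card_Ix]))
  obtain ⟨hU, hq⟩ := UA.derived (UA.pq AA) (UA.pq_surj AA) (UA.pq_central AA) hA
  exact ⟨{ U := commutator (UA.QQ AA)
           fin := UA.fin_comm AA
           q := (UA.pq AA).comp (commutator (UA.QQ AA)).subtype
           surj := fun a => by
             obtain ⟨p, hp, h⟩ := hq a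
             exact ⟨⟨p, hp⟩, h⟩
           central := fun u hu => Subgroup.mem_center_iff.2 fun g =>
             Subtype.ext (Subgroup.mem_center_iff.1 (UA.pq_central AA hu) g.1)
           perfect := UA.perfect_top hU
           lift := UA.lift hA }⟩

noncomputable def uce : UceData := Classical.choice exists_uce

/-- the universal central extension of `AA` -/
def UU : Type := uce.U

noncomputable instance : Group UU := uce.grp
instance : Finite UU := uce.fin

/-- the projection to permutations of the index set -/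
noncomputable def qq : UU →* Perm Ix := (Alt Finset.univ).subtype.comp uce.q

lemma qq_mem (u : UU) : qq u ∈ Alt Finset.univ := (uce.q u).2
lemma qq_surj {σ} (h : σ ∈ Alt Finset.univ) : ∃ u, qq u = σ := by
  obtain ⟨u, hu⟩ := uce.surj ⟨σ, h⟩
  exact ⟨u, congrArg Subtype.val hu⟩
lemma qq_central {u : UU} (h : qq u = 1) (v : UU) : u * v = v * u :=
  (Subgroup.mem_center_iff (G := UU).1 (uce.central (x := u) (Subtype.ext h)) v).symm
lemma UU_perfect : commutator UU = ⊤ := uce.perfect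
lemma UU_lift {X Z : Type} [Group X] [Group Z] (φ : X →* Z) (h1 : Function.Surjective φ)
    (h2 : φ.ker ≤ Subgroup.center X) (f : UU →* Z) : ∃ f' : UU →* X, φ.comp f' = f :=
  uce.lift X Z φ h1 h2 f

/-- homomorphisms from a perfect group that differ by central elements agree -/
lemma hom_eq_of_central {H X : Type*} [Group H] [Group X] (hH : commutator H = ⊤) (f g : H →* X)
    (h : ∀ u v, Commute ((f u)⁻¹ * g u) (f v) ∧ Commute ((f u)⁻¹ * g u) (g v)) : f = g :=
  UA.hom_eq hH f g h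

/-- the perfect part of the preimage of `Alt I` -/
noncomputable def UI (I : Finset Ix) : Subgroup UU := ⁅(Alt I).comap qq, (Alt I).comap qq⁆

lemma UI_mono {I J} (h : I ⊆ J) : UI I ≤ UI J :=
  Subgroup.commutator_mono (Subgroup.comap_mono (Alt_mono h)) (Subgroup.comap_mono (Alt_mono h))
lemma UI_q {I u} (h : u ∈ UI I) : qq u ∈ Alt I := Subgroup.commutator_le_self ((Alt I).comap qq) h
lemma UI_surj {I : Finset Ix} (hI : 5 ≤ I.card) {σ} (h : σ ∈ Alt I) : ∃ u ∈ UI I, qq u = σ := by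
  have h1 : ((Alt I).comap qq).map qq = Alt I := Subgroup.map_comap_eq_self fun τ hτ =>
    qq_surj (Alt_mono (Finset.subset_univ _) hτ)
  have h2 : (UI I).map qq = Alt I := by
    rw [UI, Subgroup.map_commutator, h1, Alt_perfect hI]
  rw [← h2] at h
  exact h
lemma UI_le {I : Finset Ix} {H : Subgroup UU} (h : ∀ σ ∈ Alt I, ∃ u ∈ H, qq u = σ) :
    UI I ≤ ⁅H, H⁆ := by
  refine UA.comm_le fun k hk => ?_
  obtain ⟨u, hu, h1⟩ := h _ hk
  exact ⟨u, hu, qq_central (by simp [h1])⟩
lemma UI_perfect {I : Finset Ix} (hI : 5 ≤ I.card) : ⁅UI I, UI I⁆ = UI I :=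
  le_antisymm (Subgroup.commutator_le_self _) (UI_le fun _ => UI_surj hI)
lemma UI_conj {I u} (v : UU) (h : u ∈ UI I) : v * u * v⁻¹ ∈ UI (I.image (qq v)) := by
  have h1 : ((Alt I).comap qq).map (MulAut.conj v).toMonoidHom ≤
      (Alt (I.image (qq v))).comap qq := by
    rintro _ ⟨w, hw, rfl⟩
    change qq (v * w * v⁻¹) ∈ Alt (I.image (qq v))
    rw [map_mul, map_mul, map_inv]
    exact Alt_conj _ hw
  have h2 : (UI I).map (MulAut.conj v).toMonoidHom ≤ UI (I.image (qq v)) := by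
    rw [UI, Subgroup.map_commutator]
    exact Subgroup.commutator_mono h1 h1
  exact h2 ⟨u, h, rfl⟩
/-- `UI K` is generated by the `UI I` with `I ⊆ K` of size five -/
lemma UI_gen {K : Finset Ix} (hK : 5 ≤ K.card) :
    UI K = Subgroup.closure {u | ∃ I ⊆ K, I.card = 5 ∧ u ∈ UI I} := by
  refine le_antisymm ((UI_le ?_).trans (Subgroup.commutator_le_self _))
    ((Subgroup.closure_le _).2 fun u ⟨I, h1, _, h2⟩ => UI_mono h1 h2)
  intro σ hσ
  refine (show Alt K ≤ (Subgroup.closure {u | ∃ I ⊆ K, I.card = 5 ∧ u ∈ UI I}).map qq from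
    (Subgroup.closure_le _).2 ?_) hσ
  rintro _ ⟨i, hi, j, hj, k, hk, h1, rfl⟩
  obtain ⟨I, h2, h3, h4⟩ := Finset.exists_subsuperset_card_eq (s := {i, j, k}) (t := K) (n := 5)
    (by simp [Finset.insert_subset_iff, hi, hj, hk])
    (by have := Finset.card_le_three (a := i) (b := j) (c := k); omega) hK
  obtain ⟨u, hu, h5⟩ := UI_surj h4.ge
    (cyc_mem_Alt (h2 (by simp)) (h2 (by simp)) (h2 (by simp)) h1)
  exact ⟨u, Subgroup.subset_closure ⟨I, h3, h4, hu⟩, h5⟩
lemma UI_univ : UI Finset.univ = ⊤ := by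
  have : (Alt Finset.univ).comap qq = ⊤ := eq_top_iff.2 fun u _ => qq_mem u
  rw [UI, this]; exact UU_perfect
/-- an element whose image commutes with `Alt K` commutes with `UI K` -/
lemma UI_comm {K : Finset Ix} (hK : 5 ≤ K.card) {u : UU} (h : ∀ σ ∈ Alt K, Commute (qq u) σ)
    {v} (hv : v ∈ UI K) : Commute u v := by
  refine UA.commute_of_perfect (UI_perfect hK) (fun w hw => qq_central ?_) hv
  rw [map_mul, map_mul, map_mul, (h _ (UI_q hw)).eq]
  simp
lemma exists_inj {s t : Finset Ix} (h : s.card = t.card) :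
    ∃ f : Ix → Ix, Set.InjOn f s ∧ ∀ i ∈ s, f i ∈ t := by
  let e := Finset.equivOfCardEq h
  refine ⟨fun a => if ha : a ∈ s then e ⟨a, ha⟩ else a, fun a ha b hb hab => ?_, fun a ha => ?_⟩
  · have ha' : a ∈ s := ha
    have hb' : b ∈ s := hb
    simp only [dif_pos ha', dif_pos hb'] at hab
    exact congrArg Subtype.val (e.injective (Subtype.ext hab))
  · simp only [dif_pos ha]
    exact (e ⟨a, ha⟩).2
/-- a lift of a 3-cycle in one `UI I` lies in all `UI I'` containing its support -/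
lemma lift_mem {I I' : Finset Ix} (hI : I.card = 5) (hI' : I'.card = 5) {i j k} (h : D3 i j k)
    (h1 : i ∈ I ∧ j ∈ I ∧ k ∈ I) (h2 : i ∈ I' ∧ j ∈ I' ∧ k ∈ I') {u} (hu : u ∈ UI I)
    (hq : qq u = cyc i j k) : u ∈ UI I' := by
  have hT : ({i, j, k} : Finset Ix).card = 3 := Finset.card_eq_three.2 ⟨i, j, k, h.1, h.2.1, h.2.2, rfl⟩
  have s1 : ({i, j, k} : Finset Ix) ⊆ I := by simp [Finset.insert_subset_iff, h1]
  have s2 : ({i, j, k} : Finset Ix) ⊆ I' := by simp [Finset.insert_subset_iff, h2]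
  have c1 := Finset.card_sdiff_of_subset s1
  have c2 := Finset.card_sdiff_of_subset s2
  have c3 : (({i, j, k} : Finset Ix)ᶜ).card = 997 := by rw [Finset.card_compl, card_Ix, hT]
  obtain ⟨f, hf, hf'⟩ := exists_inj (s := I \ {i, j, k}) (t := I' \ {i, j, k}) (by omega)
  obtain ⟨σ, hσ, h3⟩ := exists_alt (I \ {i, j, k}) {i, j, k}ᶜ f hf
    (fun a ha => Finset.mem_compl.2 (Finset.mem_sdiff.1 ha).2)
    (fun a ha => Finset.mem_compl.2 (Finset.mem_sdiff.1 (hf' a ha)).2) (by omega)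
  obtain ⟨v, hv, rfl⟩ := UI_surj (by omega) hσ
  have hc : Commute u v := by
    refine UI_comm (by omega) (fun τ hτ => ?_) hv
    have := cyc_conj τ i j k
    rw [Alt_fix hτ (by simp), Alt_fix hτ (by simp), Alt_fix hτ (by simp),
      mul_inv_eq_iff_eq_mul] at this
    rw [hq]; exact this.symm
  have e : v * u * v⁻¹ = u := by rw [← hc.eq]; simp
  rw [← e]
  refine UI_mono (fun a ha => ?_) (UI_conj v hu)
  obtain ⟨b, hb, rfl⟩ := Finset.mem_image.1 ha
  by_cases hbT : b ∈ ({i, j, k} : Finset Ix)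
  · rw [Alt_fix hσ (fun hb => Finset.mem_compl.1 hb hbT)]; exact s2 hbT
  · have hb' := Finset.mem_sdiff.2 ⟨hb, hbT⟩
    rw [h3 b hb']; exact (Finset.mem_sdiff.1 (hf' b hb')).1
/-- the central elements of `UI I` do not depend on `I` -/
lemma ker_mem {I I' : Finset Ix} (hI : I.card = 5) (hI' : I'.card = 5) {u} (hu : u ∈ UI I)
    (hq : qq u = 1) : u ∈ UI I' := by
  obtain ⟨f, hf, hf'⟩ := exists_inj (s := I) (t := I') (by omega)
  obtain ⟨σ, hσ, h3⟩ := exists_alt I Finset.univ f hf (Finset.subset_univ _) (by simp)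
    (by simp [card_Ix, hI])
  obtain ⟨v, rfl⟩ := qq_surj hσ
  have e : v * u * v⁻¹ = u := by rw [← qq_central hq v]; simp
  rw [← e]
  refine UI_mono (fun a ha => ?_) (UI_conj v hu)
  obtain ⟨b, hb, rfl⟩ := Finset.mem_image.1 ha
  rw [h3 b hb]; exact hf' b hb
/-- gluing: a family of maps on the `UI I` compatible with conjugation comes from a homomorphism -/
lemma glue {X : Type} [Group X] (R : UU → X → Prop)
    (h1 : ∀ I : Finset Ix, I.card = 5 → ∀ u ∈ UI I, ∃ x, R u x)
    (h2 : ∀ u x, R u x → ∃ I : Finset Ix, I.card = 5 ∧ u ∈ UI I)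
    (h3 : ∀ u x x', R u x → R u x' → x = x')
    (h4 : ∀ I : Finset Ix, I.card = 5 → ∀ u ∈ UI I, ∀ v ∈ UI I, ∀ x y, R u x → R v y →
      R (u * v) (x * y))
    (h5 : ∀ u x v y, R u x → R v y → R (u * v * u⁻¹) (x * y * x⁻¹)) :
    ∃ f : UU →* X, ∀ u x, R u x → f u = x := by
  have hinv : ∀ u x, R u x → R u⁻¹ x⁻¹ := by
    intro u x h
    obtain ⟨I, hI, hu⟩ := h2 u x h
    obtain ⟨e, he⟩ := h1 I hI 1 (one_mem _)
    have he1 : e = 1 := by
      have := h4 I hI 1 (one_mem _) 1 (one_mem _) e e he he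
      rw [one_mul] at this
      simpa using h3 _ _ _ this he
    obtain ⟨y, hy⟩ := h1 I hI u⁻¹ (inv_mem hu)
    have := h4 I hI u hu u⁻¹ (inv_mem hu) x y h hy
    rw [mul_inv_cancel] at this
    have h6 : x * y = 1 := (h3 _ _ _ this he).trans he1
    rwa [← eq_inv_of_mul_eq_one_right h6]
  let P : Subgroup (UU × X) := Subgroup.closure {p | R p.1 p.2}
  have hP : ∀ p ∈ P, ∀ v y, R v y → R (p.1 * v * p.1⁻¹) (p.2 * y * p.2⁻¹) := by
    intro p hp
    induction hp using Subgroup.closure_induction'' with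
    | mem p hp => exact fun v y h => h5 _ _ _ _ hp h
    | inv_mem p hp => exact fun v y h => h5 _ _ _ _ (hinv _ _ hp) h
    | one => intro v y h; simpa using h
    | mul p p' _ _ hp hp' =>
      intro v y h
      have := hp _ _ (hp' v y h)
      simpa only [Prod.fst_mul, Prod.snd_mul, mul_inv_rev, mul_assoc] using this
  let φ : P →* UU := (MonoidHom.fst _ _).comp P.subtype
  have hs : Function.Surjective φ := by
    rw [← MonoidHom.range_eq_top, eq_top_iff, ← UI_univ, UI_gen (by simp [card_Ix]),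
      Subgroup.closure_le]
    rintro u ⟨I, _, hI, hu⟩
    obtain ⟨x, hx⟩ := h1 I hI u hu
    exact ⟨⟨(u, x), Subgroup.subset_closure hx⟩, rfl⟩
  have hc : φ.ker ≤ Subgroup.center P := by
    intro p hp
    have hp1 : p.1.1 = 1 := hp
    rw [Subgroup.mem_center_iff]
    intro g
    have : P ≤ Subgroup.centralizer {p.1} := by
      refine (Subgroup.closure_le _).2 fun r hr => ?_
      have h6 := hP p.1 p.2 r.1 r.2 hr
      rw [hp1, one_mul, inv_one, mul_one] at h6
      have h7 := h3 _ _ _ h6 hr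
      rw [mul_inv_eq_iff_eq_mul] at h7
      rw [SetLike.mem_coe, Subgroup.mem_centralizer_singleton_iff]
      exact Prod.ext (by simp [hp1]) h7.symm
    exact Subtype.ext (Subgroup.mem_centralizer_singleton_iff.1 (this g.2))
  obtain ⟨s, hs'⟩ := UU_lift φ hs hc (MonoidHom.id _)
  have hs1 : ∀ u, φ (s u) = u := fun u => DFunLike.congr_fun hs' u
  refine ⟨(MonoidHom.snd _ _).comp (P.subtype.comp s), fun u x h => ?_⟩
  obtain ⟨I, hI, hu⟩ := h2 u x h
  choose xx hxx using h1 I hI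
  let g : UI I →* P := MonoidHom.mk' (fun w => ⟨(w.1, xx w.1 w.2), Subgroup.subset_closure (hxx _ _)⟩)
    fun a b => Subtype.ext (Prod.ext rfl
      (h3 _ _ _ (hxx _ _) (h4 I hI _ a.2 _ b.2 _ _ (hxx _ _) (hxx _ _))))
  have := hom_eq_of_central (UA.perfect_top (UI_perfect hI.ge)) (s.comp (UI I).subtype) g
    fun a b => by
      have h6 : (s a.1)⁻¹ * g a ∈ φ.ker := by
        rw [MonoidHom.mem_ker, map_mul, map_inv, hs1]
        exact inv_mul_cancel _
      exact ⟨UA.commute_of_center (hc h6) _, UA.commute_of_center (hc h6) _⟩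
  have h7 : s u = g ⟨u, hu⟩ := DFunLike.congr_fun this (⟨u, hu⟩ : UI I)
  change (s u).1.2 = x
  rw [h7]
  exact h3 _ _ _ (hxx u hu) h

end Vale.Agent.P196
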