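import Vale.Agent.P196.OmSim
import Vale.Agent.P196.Uce

/-! The group `GG`.  Job D2: local paths, clopen sets, movers, frames, simplicity.
See notes/P196.md, part D2. -/

namespace Vale.Agent.P196

open Equiv
open scoped commutatorElement

/-- the space on which the group acts -/
abbrev YY := Om × Ix

open Classical in
/-- `σ` acting on the fibres over `V` -/
noncomputable def bet (V : Set Om) : Perm Ix →* Perm YY where
  toFun σ := Equiv.prodShear (Equiv.refl Om) fun x => if x ∈ V then σ else 1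
  map_one' := Equiv.ext fun y => by simp
  map_mul' σ τ := Equiv.ext fun y => by
    obtain ⟨x, i⟩ := y
    by_cases h : x ∈ V <;> simp [h]

lemma bet_mem {V : Set Om} {x : Om} (h : x ∈ V) (σ i) : bet V σ (x, i) = (x, σ i) := by
  simp [bet, h]
lemma bet_not {V : Set Om} {x : Om} (h : x ∉ V) (σ i) : bet V σ (x, i) = (x, i) := by
  simp [bet, h]

open Classical in
/-- the involution exchanging `(x, i)` and `(a x, k)` -/
noncomputable def swf (a : Letter) (i k : Ix) (y : YY) : YY :=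
  if i ≠ k ∧ y.2 = i ∧ lab y.1 ∈ a.dom then (a.act y.1, k)
  else if i ≠ k ∧ y.2 = k ∧ lab y.1 ∈ a.inv.dom then (a.inv.act y.1, i) else y

lemma swf_invol (a i k) : Function.Involutive (swf a i k) := by
  rintro ⟨x, j⟩
  by_cases h0 : i = k
  · simp [swf, h0]
  by_cases h1 : j = i ∧ lab x ∈ a.dom
  · have h3 : k ≠ i := fun h => h0 h.symm
    simp [swf, h0, h1, h3, act_dom h1.2, act_inv h1.2]
  by_cases h2 : j = k ∧ lab x ∈ a.inv.dom
  · have h4 := act_dom h2.2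
    have h5 := act_inv h2.2
    rw [Letter.inv_inv] at h4 h5
    have h3 : k ≠ i := fun h => h0 h.symm
    simp [swf, h0, h2, h3, h4, h5]
  · have : swf a i k (x, j) = (x, j) := by
      unfold swf
      rw [if_neg (fun h => h1 h.2), if_neg (fun h => h2 h.2)]
    rw [this, this]

/-- the 3-cycle `(x, i) ↦ (a x, j) ↦ (a x, k) ↦ (x, i)` -/
noncomputable def cc (a : Letter) (i j k : Ix) : Perm YY :=
  bet (lab ⁻¹' a.inv.dom) (swap j k) * (swf_invol a i k).toPerm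

lemma swf_1 {a i k x} (h : i ≠ k) (hx : lab x ∈ a.dom) : swf a i k (x, i) = (a.act x, k) := by
  simp [swf, h, hx]
lemma swf_2 {a i k x} (h : i ≠ k) (hx : lab x ∈ a.inv.dom) :
    swf a i k (x, k) = (a.inv.act x, i) := by
  have h' : k ≠ i := fun e => h e.symm
  simp [swf, h, h', hx]
lemma swf_0 {a i k x m} (h1 : ¬ (m = i ∧ lab x ∈ a.dom)) (h2 : ¬ (m = k ∧ lab x ∈ a.inv.dom)) :
    swf a i k (x, m) = (x, m) := by
  unfold swf
  rw [if_neg (fun h => h1 h.2), if_neg (fun h => h2 h.2)]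

lemma cc_apply (a i j k y) :
    cc a i j k y = bet (lab ⁻¹' a.inv.dom) (swap j k) (swf a i k y) := rfl

lemma cc_1 {a i j k x} (h : D3 i j k) (hx : lab x ∈ a.dom) : cc a i j k (x, i) = (a.act x, j) := by
  rw [cc_apply, swf_1 h.2.1 hx, bet_mem (V := lab ⁻¹' a.inv.dom) (act_dom hx), swap_apply_right]
lemma cc_2 {a i j k x} (h : D3 i j k) (hx : lab x ∈ a.inv.dom) : cc a i j k (x, j) = (x, k) := by
  rw [cc_apply, swf_0 (fun e => h.1 e.1.symm) (fun e => h.2.2 e.1),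
    bet_mem (V := lab ⁻¹' a.inv.dom) hx, swap_apply_left]
lemma cc_3 {a i j k x} (h : D3 i j k) (hx : lab x ∈ a.inv.dom) :
    cc a i j k (x, k) = (a.inv.act x, i) := by
  rw [cc_apply, swf_2 h.2.1 hx]
  by_cases h1 : a.inv.act x ∈ lab ⁻¹' a.inv.dom
  · rw [bet_mem h1, swap_apply_of_ne_of_ne h.1 h.2.1]
  · rw [bet_not h1]
lemma cc_0 {a i j k x m} (h : D3 i j k) (h1 : ¬ (m = i ∧ lab x ∈ a.dom))
    (h2 : ¬ ((m = j ∨ m = k) ∧ lab x ∈ a.inv.dom)) : cc a i j k (x, m) = (x, m) := by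
  have _ := h
  rw [cc_apply, swf_0 h1 (fun e => h2 ⟨Or.inr e.1, e.2⟩)]
  by_cases h3 : x ∈ lab ⁻¹' a.inv.dom
  · rw [bet_mem h3,
      swap_apply_of_ne_of_ne (fun e => h2 ⟨Or.inl e, h3⟩) (fun e => h2 ⟨Or.inr e, h3⟩)]
  · rw [bet_not h3]

/-- triples of distinct indices -/
def T3 : Type := {p : Ix × Ix × Ix // D3 p.1 p.2.1 p.2.2}

instance : Finite T3 := by unfold T3; infer_instance

/-- names of generators -/
abbrev Gen : Type := (Set Lab × AA) ⊕ (Letter × T3)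

/-- the generators as permutations -/
noncomputable def evP : Gen → Perm YY
  | .inl (W, σ) => bet (lab ⁻¹' W) σ.1
  | .inr (a, p) => cc a p.1.1 p.1.2.1 p.1.2.2

/-- THE GROUP, as a subgroup of permutations -/
noncomputable def GG : Subgroup (Perm YY) := Subgroup.closure (Set.range evP)

/-- clopen subsets of `YY` -/
def Clop (O : Set YY) : Prop := ∀ i, InB {x | (x, i) ∈ O}

lemma clop_univ : Clop Set.univ := fun _ => inB_univ
lemma Clop.inter {A B} (hA : Clop A) (hB : Clop B) : Clop (A ∩ B) :=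
  fun i => (hA i).inter (hB i)
lemma Clop.compl {A} (hA : Clop A) : Clop Aᶜ := fun i => (hA i).compl
lemma clop_prod {V} (hV : InB V) (i : Ix) : Clop {y | y.1 ∈ V ∧ y.2 = i} := by
  intro m
  by_cases h : m = i
  · have e : {x | (x, m) ∈ {y : YY | y.1 ∈ V ∧ y.2 = i}} = V := by ext x; simp [h]
    rw [e]; exact hV
  · have e : {x | (x, m) ∈ {y : YY | y.1 ∈ V ∧ y.2 = i}} = ∅ := by ext x; simp [h]
    rw [e]; exact inB_empty
lemma yy_compact (A : YY → Set YY) (h : ∀ y, Clop (A y) ∧ y ∈ A y) :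
    ∃ s : Finset YY, ∀ y, ∃ y' ∈ s, y ∈ A y' := by
  classical
  have H : ∀ i : Ix, ∃ s : Finset Om, ∀ y, ∃ x ∈ s, y ∈ {x' | (x', i) ∈ A (x, i)} := fun i =>
    om_compact (fun x => {x' | (x', i) ∈ A (x, i)}) fun x => ⟨(h (x, i)).1 i, (h (x, i)).2⟩
  choose s hs using H
  refine ⟨Finset.univ.biUnion fun i => (s i).image fun x => (x, i), ?_⟩
  rintro ⟨y, i⟩
  obtain ⟨x, hx, hy⟩ := hs i y
  refine ⟨(x, i), ?_, hy⟩
  rw [Finset.mem_biUnion]
  exact ⟨i, Finset.mem_univ _, Finset.mem_image_of_mem _ hx⟩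
/-- separation in `YY` -/
lemma sep_iff (y y' : YY) : (∃ O, Clop O ∧ y ∈ O ∧ y' ∉ O) ↔ ¬ (Eqv y.1 y'.1 ∧ y.2 = y'.2) := by
  obtain ⟨x, i⟩ := y
  obtain ⟨x', i'⟩ := y'
  constructor
  · rintro ⟨O, hO, h1, h2⟩ ⟨h3, h4⟩
    obtain rfl : i = i' := h4
    obtain ⟨k, hk⟩ := hO i
    exact h2 (hk x x' (h3 k) h1)
  · intro h
    by_cases h4 : i = i'
    · have h3 : ¬ Eqv x x' := fun e => h ⟨e, h4⟩
      obtain ⟨k, hk⟩ := not_forall.1 h3
      exact ⟨_, clop_prod (inB_cls k x) i, ⟨mem_cls k x, rfl⟩, fun e => hk e.1⟩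
    · exact ⟨_, clop_prod inB_univ i, ⟨trivial, rfl⟩, fun e => h4 e.2.symm⟩

/-- locally given by a path -/
def LocP (g : Perm YY) : Prop := ∀ (x : Om) (i : Ix), ∃ k p i', ∀ x', Sim k x x' →
    Ok p x' ∧ g (x', i) = (run p x', i')

lemma LocP.mul {g h} (hg : LocP g) (hh : LocP h) : LocP (g * h) := by
  intro x i
  obtain ⟨k1, p1, i1, H1⟩ := hh x i
  obtain ⟨k2, p2, i2, H2⟩ := hg (run p1 x) i1
  obtain ⟨k', H3⟩ := run_cont p1 k2
  refine ⟨max k1 k', p1 ++ p2, i2, fun x' hx' => ?_⟩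
  obtain ⟨h1, h2⟩ := H1 x' (hx'.mono (le_max_left _ _))
  obtain ⟨h3, h4⟩ := H2 _ (H3 x x' (H1 x (sim_refl _ _)).1 (hx'.mono (le_max_right _ _))).2
  refine ⟨by simp [h1, h3], ?_⟩
  rw [Perm.mul_apply, h2, h4, run_append]

lemma locP_bet (W : Set Lab) (σ) : LocP (bet (lab ⁻¹' W) σ) := by
  intro x i
  by_cases h : lab x ∈ W
  · refine ⟨0, [], σ i, fun x' hx' => ⟨trivial, bet_mem (V := lab ⁻¹' W) ?_ _ _⟩⟩
    show lab x' ∈ W
    rw [← hx'.lab]; exact h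
  · refine ⟨0, [], i, fun x' hx' => ⟨trivial, bet_not (V := lab ⁻¹' W) ?_ _ _⟩⟩
    show ¬ lab x' ∈ W
    rw [← hx'.lab]; exact h

lemma locP_swf (a) {i k : Ix} (hik : i ≠ k) : LocP (swf_invol a i k).toPerm := by
  intro x m
  by_cases h1 : m = i ∧ lab x ∈ a.dom
  · obtain ⟨rfl, h1⟩ := h1
    refine ⟨0, [a], k, fun x' hx' => ?_⟩
    have h2 : lab x' ∈ a.dom := hx'.lab ▸ h1
    exact ⟨⟨h2, trivial⟩, swf_1 hik h2⟩
  by_cases h2 : m = k ∧ lab x ∈ a.inv.dom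
  · obtain ⟨rfl, h2⟩ := h2
    refine ⟨0, [a.inv], i, fun x' hx' => ?_⟩
    have h3 : lab x' ∈ a.inv.dom := hx'.lab ▸ h2
    exact ⟨⟨h3, trivial⟩, swf_2 hik h3⟩
  · refine ⟨0, [], m, fun x' hx' => ⟨trivial, swf_0 ?_ ?_⟩⟩
    · rw [← hx'.lab]; exact h1
    · rw [← hx'.lab]; exact h2

/-- every element is locally given by a path -/
theorem locPath {g} (hg : g ∈ GG) (x : Om) (i : Ix) : ∃ k p i', ∀ x', Sim k x x' →
    Ok p x' ∧ g (x', i) = (run p x', i') := by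
  have H : LocP g := by
    refine Subgroup.closure_induction'' (p := fun g _ => LocP g) ?_ ?_ ?_ ?_ hg
    · rintro _ ⟨⟨W, σ⟩ | ⟨a, p⟩, rfl⟩
      · exact locP_bet W _
      · exact (locP_bet _ _).mul (locP_swf a p.2.2.1)
    · rintro _ ⟨⟨W, σ⟩ | ⟨a, p⟩, rfl⟩
      · show LocP (bet (lab ⁻¹' W) σ.1)⁻¹
        rw [← map_inv]; exact locP_bet W _
      · show LocP (bet _ _ * _)⁻¹
        rw [mul_inv_rev, ← map_inv]
        exact (locP_swf a p.2.2.1).mul (locP_bet _ _)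
    · exact fun x i => ⟨0, [], i, fun x' _ => ⟨trivial, rfl⟩⟩
    · exact fun _ _ _ _ h1 h2 => h1.mul h2
  exact H x i

lemma Clop.pre {g} (hg : g ∈ GG) {A} (hA : Clop A) : Clop (g ⁻¹' A) := by
  intro i
  refine inB_of_loc fun x => ?_
  obtain ⟨k, p, i', H⟩ := locPath hg x i
  obtain ⟨k2, H2⟩ := hA i'
  obtain ⟨k', H3⟩ := run_cont p k2
  refine ⟨max k k', fun x' hx' => ?_⟩
  have h1 := (H x' (hx'.mono (le_max_left _ _))).2
  have h2 := H x (sim_refl _ _)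
  have h3 := (H3 x x' h2.1 (hx'.mono (le_max_right _ _))).2
  show g (x', i) ∈ A ↔ g (x, i) ∈ A
  rw [h1, h2.2]
  exact ⟨H2 _ _ h3.symm, H2 _ _ h3⟩

/-- conjugating a fibre permutation -/
lemma conj_bet {g : Perm YY} {V : Set Om} {f : Om → Om} {I : Finset Ix} {τ σ : Perm Ix}
    (hσ : ∀ i ∉ I, σ i = i) (hg : ∀ x ∈ V, ∀ i ∈ I, g (x, i) = (f x, τ i)) :
    g * bet V σ * g⁻¹ = bet (f '' V) (τ * σ * τ⁻¹) := by
  rw [mul_inv_eq_iff_eq_mul]
  refine Equiv.ext ?_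
  rintro ⟨x, i⟩
  rw [Perm.mul_apply, Perm.mul_apply]
  by_cases h : x ∈ V ∧ i ∈ I
  · have h1 : σ i ∈ I := by
      by_contra h2
      exact h2 ((σ.injective (hσ _ h2)).symm ▸ h.2)
    rw [bet_mem h.1, hg x h.1 _ h1, hg x h.1 _ h.2, bet_mem (Set.mem_image_of_mem f h.1)]
    simp
  · have h1 : bet V σ (x, i) = (x, i) := by
      by_cases h2 : x ∈ V
      · rw [bet_mem h2, hσ i (fun e => h ⟨h2, e⟩)]
      · rw [bet_not h2]
    rw [h1]
    rcases e : g (x, i) with ⟨y, m⟩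
    by_cases h2 : y ∈ f '' V
    · obtain ⟨x0, h3, rfl⟩ := h2
      have h4 : τ⁻¹ m ∉ I := by
        intro h5
        have h6 : g (x0, τ⁻¹ m) = g (x, i) := by rw [hg x0 h3 _ h5, e]; simp
        have h7 := g.injective h6
        rw [Prod.mk.injEq] at h7
        exact h ⟨h7.1 ▸ h3, h7.2 ▸ h5⟩
      rw [bet_mem (Set.mem_image_of_mem f h3), Perm.mul_apply, Perm.mul_apply, hσ _ h4]
      simp
    · rw [bet_not h2]

lemma bet_lab_mem (W : Set Lab) {σ} (hσ : σ ∈ Alt Finset.univ) : bet (lab ⁻¹' W) σ ∈ GG :=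
  Subgroup.subset_closure ⟨.inl (W, ⟨σ, hσ⟩), rfl⟩

lemma bet_univ_mem {σ} (hσ : σ ∈ Alt Finset.univ) : bet Set.univ σ ∈ GG :=
  bet_lab_mem Set.univ hσ

lemma cc_mem (a) {i j k} (h : D3 i j k) : cc a i j k ∈ GG :=
  Subgroup.subset_closure ⟨.inr (a, ⟨(i, j, k), h⟩), rfl⟩

lemma cyc_univ {i j k} (h : D3 i j k) : cyc i j k ∈ Alt Finset.univ :=
  cyc_mem_Alt (Finset.mem_univ _) (Finset.mem_univ _) (Finset.mem_univ _) h

lemma bet_cyc_0 (V : Set Om) (x) {i j k a} (hi : a ≠ i) (hj : a ≠ j) (hk : a ≠ k) :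
    bet V (cyc i j k) (x, a) = (x, a) := by
  by_cases h : x ∈ V
  · rw [bet_mem h, cyc_0 hi hj hk]
  · rw [bet_not h]

/-- a path can be followed at one index, using only two auxiliary indices -/
lemma exists_mover (p : List Letter) {i j k : Ix} (h : D3 i j k) : ∃ g ∈ GG,
    (∀ x, Ok p x → g (x, i) = (run p x, i)) ∧
      ∀ x m, m ≠ i → m ≠ j → m ≠ k → g (x, m) = (x, m) := by
  induction p with
  | nil => exact ⟨1, one_mem _, fun _ _ => rfl, fun _ _ _ _ _ => rfl⟩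
  | cons a p ih =>
    obtain ⟨g, hg, h1, h2⟩ := ih
    have h' : D3 j i k := ⟨h.1.symm, h.2.2, h.2.1⟩
    refine ⟨g * (bet Set.univ (cyc j i k) * cc a i j k),
      mul_mem hg (mul_mem (bet_univ_mem (cyc_univ h')) (cc_mem a h)), fun x hx => ?_,
      fun x m e1 e2 e3 => ?_⟩
    · rw [Perm.mul_apply, Perm.mul_apply, cc_1 h hx.1, bet_mem (Set.mem_univ _), cyc_1 h',
        h1 _ hx.2, run_cons]
    · rw [Perm.mul_apply, Perm.mul_apply,
        cc_0 h (fun e => e1 e.1) (fun e => e.1.elim e2 e3), bet_cyc_0 _ _ e2 e1 e3,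
        h2 x m e1 e2 e3]

/-- a path can be followed at several indices -/
lemma exists_movers (p : List Letter) (I : Finset Ix) {j k : Ix} (hj : j ∉ I) (hk : k ∉ I)
    (hjk : j ≠ k) : ∃ g ∈ GG, (∀ x, Ok p x → ∀ i ∈ I, g (x, i) = (run p x, i)) ∧
      ∀ x m, m ∉ I → m ≠ j → m ≠ k → g (x, m) = (x, m) := by
  induction I using Finset.induction_on with
  | empty => exact ⟨1, one_mem _, by simp, fun _ _ _ _ _ => rfl⟩
  | insert i I hi ih =>
    rw [Finset.mem_insert, not_or] at hj hk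
    obtain ⟨g, hg, h1, h2⟩ := ih hj.2 hk.2
    obtain ⟨g', hg', h3, h4⟩ := exists_mover p (i := i) (j := j) (k := k)
      ⟨Ne.symm hj.1, Ne.symm hk.1, hjk⟩
    refine ⟨g' * g, mul_mem hg' hg, fun x hx m hm => ?_, fun x m e1 e2 e3 => ?_⟩
    · rcases Finset.mem_insert.1 hm with rfl | hm
      · rw [Perm.mul_apply, h2 x m hi (Ne.symm hj.1) (Ne.symm hk.1), h3 x hx]
      · rw [Perm.mul_apply, h1 x hx m hm,
          h4 _ m (fun e => hi (e ▸ hm)) (fun e => hj.2 (e ▸ hm)) (fun e => hk.2 (e ▸ hm))]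
    · rw [Finset.mem_insert, not_or] at e1
      rw [Perm.mul_apply, h2 x m e1.2 e2 e3, h4 x m e1.1 e2 e3]

lemma fresh_fun (J : Finset Ix) (n : ℕ) (h : J.card + n ≤ 1000) :
    ∃ e : Fin n → Ix, Function.Injective e ∧ ∀ a, e a ∉ J := by
  obtain ⟨F, h1, h2⟩ := fresh J n h
  let e := (F.equivFinOfCardEq h1).symm
  exact ⟨fun a => (e a).1, Subtype.val_injective.comp e.injective,
    fun a => Finset.disjoint_left.1 h2 (e a).2⟩

lemma fresh_two (J : Finset Ix) (h : J.card ≤ 998) : ∃ j k, j ∉ J ∧ k ∉ J ∧ j ≠ k := by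
  obtain ⟨e, h1, h2⟩ := fresh_fun J 2 (by omega)
  exact ⟨e 0, e 1, h2 0, h2 1, fun h => absurd (h1 h) (by decide)⟩

lemma card_three (i j k : Ix) : ({i, j, k} : Finset Ix).card ≤ 998 :=
  le_trans Finset.card_le_three (by omega)

/-- transport of a 3-cycle along a path -/
lemma exists_transport (p : List Letter) (i j k : Ix) : ∃ g ∈ GG, ∀ V : Set Om,
    (∀ x ∈ V, Ok p x) → g * bet V (cyc i j k) * g⁻¹ = bet (run p '' V) (cyc i j k) := by
  obtain ⟨f, f', h1, h2, h3⟩ := fresh_two {i, j, k} (card_three i j k)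
  obtain ⟨g, hg, h4, -⟩ := exists_movers p {i, j, k} h1 h2 h3
  refine ⟨g, hg, fun V hV => ?_⟩
  have h5 := conj_bet (g := g) (V := V) (f := run p) (I := {i, j, k}) (τ := 1) (σ := cyc i j k)
    (fun m hm => by
      simp only [Finset.mem_insert, Finset.mem_singleton, not_or] at hm
      exact cyc_0 hm.1 hm.2.1 hm.2.2)
    (fun x hx m hm => h4 x (hV x hx) m hm)
  simpa using h5

lemma bet_union {A B : Set Om} (h : Disjoint A B) (σ) : bet (A ∪ B) σ = bet A σ * bet B σ := by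
  refine Equiv.ext ?_
  rintro ⟨x, i⟩
  rw [Perm.mul_apply]
  by_cases h1 : x ∈ A
  · rw [bet_mem (Or.inl h1 : x ∈ A ∪ B), bet_not (Set.disjoint_left.1 h h1), bet_mem h1]
  by_cases h2 : x ∈ B
  · rw [bet_mem (Or.inr h2 : x ∈ A ∪ B), bet_mem h2, bet_not h1]
  · rw [bet_not (show x ∉ A ∪ B from fun e => e.elim h1 h2), bet_not h2, bet_not h1]

lemma bet_comm (A B : Set Om) (σ τ) : ⁅bet A σ, bet B τ⁆ = bet (A ∩ B) ⁅σ, τ⁆ := by
  refine Equiv.ext ?_
  rintro ⟨x, i⟩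
  rw [commutatorElement_def, ← map_inv, ← map_inv]
  simp only [Perm.mul_apply]
  by_cases h1 : x ∈ A <;> by_cases h2 : x ∈ B
  · rw [bet_mem h2, bet_mem h1, bet_mem h2, bet_mem h1, bet_mem (⟨h1, h2⟩ : x ∈ A ∩ B)]
    rfl
  · rw [bet_not h2, bet_mem h1, bet_not h2, bet_mem h1,
      bet_not (show x ∉ A ∩ B from fun e => h2 e.2)]
    simp
  · rw [bet_mem h2, bet_not h1, bet_mem h2, bet_not h1,
      bet_not (show x ∉ A ∩ B from fun e => h1 e.1)]
    simp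
  · rw [bet_not h2, bet_not h1, bet_not h2, bet_not h1,
      bet_not (show x ∉ A ∩ B from fun e => h1 e.1)]

lemma bet_of_cyc {K : Subgroup (Perm YY)} {V : Set Om} {I : Finset Ix}
    (h : ∀ i ∈ I, ∀ j ∈ I, ∀ k ∈ I, D3 i j k → bet V (cyc i j k) ∈ K) {σ} (hσ : σ ∈ Alt I) :
    bet V σ ∈ K := by
  have H : Alt I ≤ K.comap (bet V) := by
    refine (Subgroup.closure_le _).2 ?_
    rintro _ ⟨i, hi, j, hj, k, hk, hd, rfl⟩
    exact h i hi j hj k hk hd
  exact H hσ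

lemma bet_of_comm {K : Subgroup (Perm YY)} {V : Set Om} {I : Finset Ix} (hI : 5 ≤ I.card)
    (h : ∀ σ ∈ Alt I, ∀ τ ∈ Alt I, bet V ⁅σ, τ⁆ ∈ K) {σ} (hσ : σ ∈ Alt I) : bet V σ ∈ K := by
  have H : ⁅Alt I, Alt I⁆ ≤ K.comap (bet V) := Subgroup.commutator_le.2 h
  rw [Alt_perfect hI] at H
  exact H hσ

lemma bet_mem_GG {V} (hV : InB V) {σ} (hσ : σ ∈ Alt Finset.univ) : bet V σ ∈ GG := by
  refine B_ind (fun V => ∀ σ ∈ Alt Finset.univ, bet V σ ∈ GG) (fun W σ h => bet_lab_mem W h)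
    ?_ ?_ ?_ ?_ hV σ hσ
  · intro A A' _ _ hd h1 h2 σ h
    rw [bet_union hd]; exact mul_mem (h1 σ h) (h2 σ h)
  · intro A A' _ _ h1 h2 σ h
    refine bet_of_comm (by rw [Finset.card_univ, card_Ix]; omega) (fun σ hσ τ hτ => ?_) h
    rw [← bet_comm, commutatorElement_def]
    exact mul_mem (mul_mem (mul_mem (h1 σ hσ) (h2 τ hτ)) (inv_mem (h1 σ hσ))) (inv_mem (h2 τ hτ))
  · intro A _ h1 σ h
    have e : bet Aᶜ σ = (bet A σ)⁻¹ * bet Set.univ σ := by
      rw [eq_inv_mul_iff_mul_eq, ← bet_union disjoint_compl_right, Set.union_compl_self]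
    rw [e]; exact mul_mem (inv_mem (h1 σ h)) (bet_univ_mem h)
  · intro a A _ hd h1 σ h
    refine bet_of_cyc (fun i _ j _ k _ h3 => ?_) h
    obtain ⟨g, hg, H⟩ := exists_transport [a] i j k
    have e := H A fun x hx => ⟨hd x hx, trivial⟩
    have e2 : run [a] = a.act := rfl
    rw [e2] at e
    rw [← e]
    exact mul_mem (mul_mem hg (h1 _ (cyc_univ h3))) (inv_mem hg)

lemma exists_conn {x x' : Om} (h : Conn x x') (i i' : Ix) : ∃ g ∈ GG, g (x, i) = (x', i') := by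
  obtain ⟨p, h1, rfl⟩ := h
  obtain ⟨f, f', h2, h3, h4⟩ := fresh_two {i, i', i'} (card_three _ _ _)
  simp only [Finset.mem_insert, Finset.mem_singleton, not_or] at h2 h3
  obtain ⟨g, hg, h5, -⟩ := exists_mover p (i := i) (j := f) (k := f')
    ⟨Ne.symm h2.1, Ne.symm h3.1, h4⟩
  by_cases e : i = i'
  · exact ⟨g, hg, e ▸ h5 x h1⟩
  · have hd : D3 i i' f := ⟨e, Ne.symm h2.1, Ne.symm h2.2.1⟩
    refine ⟨bet Set.univ (cyc i i' f) * g, mul_mem (bet_univ_mem (cyc_univ hd)) hg, ?_⟩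
    rw [Perm.mul_apply, h5 x h1, bet_mem (Set.mem_univ _), cyc_1 hd]

lemma exists_bd {ι : Type} [Finite ι] (P : ι → ℕ → Prop) (h : ∀ a, ∃ k, P a k)
    (hm : ∀ a k k', k ≤ k' → P a k → P a k') : ∃ k, ∀ a, P a k := by
  choose f hf using h
  obtain ⟨k, hk⟩ := (Set.finite_range f).bddAbove
  exact ⟨k, fun a => hm a _ _ (hk ⟨a, rfl⟩) (hf a)⟩

/-- MULTI: at most five separated germs can be pulled back into one fibre -/
theorem multi {d : ℕ} (hd : d ≤ 5) (x : Om) (i : Ix) (g : Fin d → Perm YY) (hg : ∀ a, g a ∈ GG)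
    (hsep : ∀ a b, a ≠ b → ¬ (Eqv (g a (x, i)).1 (g b (x, i)).1 ∧ (g a (x, i)).2 = (g b (x, i)).2)) :
    ∃ h ∈ GG, ∃ (k : ℕ) (j : Fin d → Ix), Function.Injective j ∧
      ∀ a x', Sim k x x' → h (x', j a) = g a (x', i) := by
  choose k0 p ι H using fun a => locPath (hg a) x i
  have H0 : ∀ a, Ok (p a) x ∧ g a (x, i) = (run (p a) x, ι a) := fun a => H a x (sim_refl _ _)
  obtain ⟨K, hK⟩ := exists_bd (ι := Fin d × Fin d)
    (fun q K => q.1 ≠ q.2 → ι q.1 = ι q.2 → ¬ Sim K (run (p q.1) x) (run (p q.2) x))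
    (fun q => by
      by_cases h : q.1 ≠ q.2 ∧ ι q.1 = ι q.2
      · have h1 := hsep q.1 q.2 h.1
        rw [(H0 q.1).2, (H0 q.2).2] at h1
        obtain ⟨K, hK⟩ := not_forall.1 (fun e => h1 ⟨e, h.2⟩)
        exact ⟨K, fun _ _ => hK⟩
      · exact ⟨0, fun h1 h2 => absurd ⟨h1, h2⟩ h⟩)
    (fun q k k' hk h h1 h2 e => h h1 h2 (e.mono hk))
  obtain ⟨k, hk⟩ := exists_bd (ι := Fin d)
    (fun a k => ∀ x', Sim k x x' → (Ok (p a) x' ∧ g a (x', i) = (run (p a) x', ι a)) ∧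
      Sim K (run (p a) x) (run (p a) x'))
    (fun a => by
      obtain ⟨k', h⟩ := run_cont (p a) K
      exact ⟨max (k0 a) k', fun x' hx' => ⟨H a x' (hx'.mono (le_max_left _ _)),
        (h x x' (H0 a).1 (hx'.mono (le_max_right _ _))).2⟩⟩)
    (fun a k k' hk h x' e => h x' (e.mono hk))
  have hc : (Finset.univ.image ι).card ≤ 5 :=
    le_trans Finset.card_image_le (by simpa using hd)
  obtain ⟨f, f', hf, hf', hff⟩ := fresh_two (Finset.univ.image ι) (by omega)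
  obtain ⟨j, hj, hj'⟩ := fresh_fun (insert f (insert f' (Finset.univ.image ι))) d (by
    have := Finset.card_insert_le f (insert f' (Finset.univ.image ι))
    have := Finset.card_insert_le f' (Finset.univ.image ι)
    omega)
  simp only [Finset.mem_insert, Finset.mem_image, Finset.mem_univ, true_and, not_or,
    not_exists] at hf hf' hj'
  have main : ∀ s : Finset (Fin d), ∃ h ∈ GG,
      (∀ a ∈ s, ∀ x', Sim k x x' → h (x', j a) = (run (p a) x', ι a)) ∧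
      ∀ y m, (∀ a, ι a ≠ m) → (∀ a ∈ s, j a ≠ m) → m ≠ f → m ≠ f' → h (y, m) = (y, m) := by
    intro s
    induction s using Finset.induction_on with
    | empty => exact ⟨1, one_mem _, by simp, fun _ _ _ _ _ _ => rfl⟩
    | insert a s ha ih =>
      obtain ⟨h, hh, h1, h2⟩ := ih
      obtain ⟨g', hg', h3, h4⟩ := exists_mover (p a) (i := j a) (j := f) (k := f')
        ⟨(hj' a).1, (hj' a).2.1, hff⟩
      have hd3 : D3 (j a) (ι a) f := ⟨Ne.symm ((hj' a).2.2 a), (hj' a).1, hf a⟩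
      refine ⟨bet (cls K (run (p a) x)) (cyc (j a) (ι a) f) * (g' * h),
        mul_mem (bet_mem_GG (inB_cls _ _) (cyc_univ hd3)) (mul_mem hg' hh),
        fun b hb x' hx' => ?_, fun y m e1 e2 e3 e4 => ?_⟩
      · rw [Perm.mul_apply, Perm.mul_apply]
        rcases Finset.mem_insert.1 hb with rfl | hb
        · rw [h2 x' (j b) (hj' b).2.2 (fun c hc e => ha (hj e ▸ hc)) (hj' b).1 (hj' b).2.1,
            h3 x' (hk b x' hx').1.1, bet_mem (V := cls K (run (p b) x)) (hk b x' hx').2, cyc_1 hd3]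
        · rw [h1 b hb x' hx', h4 _ _ ((hj' a).2.2 b) (hf b) (hf' b)]
          by_cases e : ι b = ι a
          · refine bet_not (fun e2 => ?_) _ _
            exact hK (a, b) (fun e3 => ha ((show a = b from e3) ▸ hb)) e.symm
              (Sim.trans e2 (hk b x' hx').2.symm)
          · exact bet_cyc_0 _ _ ((hj' a).2.2 b) e (hf b)
      · have e5 : m ≠ j a := Ne.symm (e2 a (Finset.mem_insert_self _ _))
        rw [Perm.mul_apply, Perm.mul_apply,
          h2 y m e1 (fun c hc => e2 c (Finset.mem_insert_of_mem hc)) e3 e4, h4 y m e5 e3 e4,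
          bet_cyc_0 _ _ e5 (Ne.symm (e1 a)) e3]
  obtain ⟨h, hh, h1, -⟩ := main Finset.univ
  exact ⟨h, hh, k, j, hj, fun a x' hx' => by
    rw [h1 a (Finset.mem_univ _) x' hx', (hk a x' hx').1.2]⟩

/-- a reachable point of `V` separated from finitely many given points -/
lemma exists_far {V} (hV : InB V) (hne : V.Nonempty) (B : Finset Om) (x : Om) :
    ∃ x' ∈ V, Conn x x' ∧ ∀ b ∈ B, ¬ Eqv x' b := by
  obtain ⟨y, hy, -, h1⟩ := exists_reg hV hne B
  obtain ⟨k, hk⟩ := exists_bd (ι := B) (fun b k => ¬ Sim k y b.1)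
    (fun b => not_forall.1 (h1 b.1 b.2)) (fun b k k' hk h e => h (e.mono hk))
  obtain ⟨k', hk'⟩ := hV.cls_sub hy
  obtain ⟨x', h2, h3⟩ := conn_into (inB_cls (max k k') y) ⟨y, mem_cls _ _⟩ x
  refine ⟨x', hk' _ (le_max_right _ _) h2, h3, fun b hb e => hk ⟨b, hb⟩ ?_⟩
  exact Sim.trans (Sim.mono (le_max_left k k') h2) (e k)

theorem GG_infinite : Infinite GG := by
  classical
  by_contra h
  have : Finite GG := not_infinite_iff_finite.1 h
  have := Fintype.ofFinite GG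
  let x : Om := fun _ => (false, L.one)
  let i : Ix := (0 : Fin 1000)
  obtain ⟨x', -, h1, h2⟩ := exists_far inB_univ ⟨x, trivial⟩
    (Finset.univ.image fun g : GG => (g.1 (x, i)).1) x
  obtain ⟨g, hg, e⟩ := exists_conn h1 i i
  refine h2 x' (Finset.mem_image.2 ⟨⟨g, hg⟩, Finset.mem_univ _, ?_⟩) (Eqv.refl _)
  show (g (x, i)).1 = x'
  rw [e]

lemma exists_far_fun {V} (hV : InB V) (hne : V.Nonempty) (x : Om) (n : ℕ) :
    ∃ z : Fin n → Om, (∀ a, z a ∈ V ∧ Conn x (z a)) ∧ ∀ a b, a ≠ b → ¬ Eqv (z a) (z b) := by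
  classical
  induction n with
  | zero => exact ⟨Fin.elim0, fun a => a.elim0, fun a => a.elim0⟩
  | succ n ih =>
    obtain ⟨z, h1, h2⟩ := ih
    obtain ⟨w, h3, h4, h5⟩ := exists_far hV hne (Finset.univ.image z) x
    have h6 : ∀ b, ¬ Eqv w (z b) := fun b =>
      h5 _ (Finset.mem_image_of_mem _ (Finset.mem_univ _))
    refine ⟨Fin.cons w z, fun a => ?_, fun a b => ?_⟩
    · refine Fin.cases ?_ (fun a => ?_) a
      · exact ⟨h3, h4⟩
      · exact h1 a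
    · refine Fin.cases ?_ (fun a => ?_) a <;> refine Fin.cases ?_ (fun b => ?_) b
      · exact fun e => absurd rfl e
      · exact fun _ => h6 b
      · exact fun _ e => h6 a (Eqv.symm e)
      · exact fun e => h2 a b fun e' => e (congrArg Fin.succ e')

/-- `cc` is a conjugate of a fibre 3-cycle -/
lemma cc_conj (a) {i j k} (h : D3 i j k) : ∃ g ∈ GG,
    cc a i j k = g * bet (lab ⁻¹' a.inv.dom) (cyc i j k) * g⁻¹ := by
  obtain ⟨f, f', h1, h2, h3⟩ := fresh_two {i, j, k} (card_three i j k)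
  simp only [Finset.mem_insert, Finset.mem_singleton, not_or] at h1 h2
  obtain ⟨g, hg, h4, h5⟩ := exists_mover [a.inv] (i := i) (j := f) (k := f')
    ⟨Ne.symm h1.1, Ne.symm h2.1, h3⟩
  have gi : ∀ x, lab x ∈ a.inv.dom → g (x, i) = (a.inv.act x, i) := fun x hx => h4 x ⟨hx, trivial⟩
  have gj : ∀ x, g (x, j) = (x, j) := fun x => h5 x j h.1.symm (Ne.symm h1.2.1) (Ne.symm h2.2.1)
  have gk : ∀ x, g (x, k) = (x, k) := fun x => h5 x k h.2.1.symm (Ne.symm h1.2.2) (Ne.symm h2.2.2)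
  refine ⟨g, hg, ?_⟩
  rw [eq_mul_inv_iff_mul_eq]
  refine Equiv.ext ?_
  rintro ⟨x, m⟩
  rw [Perm.mul_apply, Perm.mul_apply]
  by_cases hx : lab x ∈ a.inv.dom ∧ (m = i ∨ m = j ∨ m = k)
  · obtain ⟨hx, rfl | rfl | rfl⟩ := hx
    · have h6 := act_dom hx
      have h7 := act_inv hx
      rw [Letter.inv_inv] at h6 h7
      rw [bet_mem (V := lab ⁻¹' a.inv.dom) hx, cyc_1 h, gi x hx, gj, cc_1 h h6, h7]
    · rw [bet_mem (V := lab ⁻¹' a.inv.dom) hx, cyc_2 h, gj, gk, cc_2 h hx]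
    · rw [bet_mem (V := lab ⁻¹' a.inv.dom) hx, cyc_3 h, gk, gi x hx, cc_3 h hx]
  · have e1 : bet (lab ⁻¹' a.inv.dom) (cyc i j k) (x, m) = (x, m) := by
      by_cases h6 : lab x ∈ a.inv.dom
      · exact bet_cyc_0 _ _ (fun e => hx ⟨h6, Or.inl e⟩) (fun e => hx ⟨h6, Or.inr (Or.inl e)⟩)
          (fun e => hx ⟨h6, Or.inr (Or.inr e)⟩)
      · exact bet_not h6 _ _
    rw [e1]
    rcases e : g (x, m) with ⟨y, m'⟩
    refine cc_0 h ?_ ?_
    · rintro ⟨rfl, h6⟩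
      have h7 : g (a.act y, m') = g (x, m) := by rw [gi _ (act_dom h6), act_inv h6, e]
      have h8 := g.injective h7
      rw [Prod.mk.injEq] at h8
      exact hx ⟨h8.1 ▸ act_dom h6, Or.inl h8.2.symm⟩
    · rintro ⟨rfl | rfl, h6⟩
      · have h8 := g.injective ((gj y).trans e.symm)
        rw [Prod.mk.injEq] at h8
        exact hx ⟨h8.1 ▸ h6, Or.inr (Or.inl h8.2.symm)⟩
      · have h8 := g.injective ((gk y).trans e.symm)
        rw [Prod.mk.injEq] at h8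
        exact hx ⟨h8.1 ▸ h6, Or.inr (Or.inr h8.2.symm)⟩

section Simple

variable {K : Subgroup (Perm YY)} (hK : ∀ g ∈ GG, ∀ n ∈ K, g * n * g⁻¹ ∈ K)
include hK

lemma conj_back {g n} (hg : g ∈ GG) (h : g * n * g⁻¹ ∈ K) : n ∈ K := by
  have := hK g⁻¹ (inv_mem hg) _ h
  simpa [mul_assoc] using this

/-- the double commutator trick -/
lemma comm_mem {n} (hn : n ∈ K) {O : Set YY} (hO : ∀ y ∈ O, n y ∉ O) {a b} (ha : a ∈ GG)
    (hb : b ∈ GG) (ha' : ∀ y ∉ O, a y = y) (hb' : ∀ y ∉ O, b y = y) : ⁅a, b⁆ ∈ K := by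
  have h1 : a * n * a⁻¹ * n⁻¹ ∈ K := mul_mem (hK a ha n hn) (inv_mem hn)
  have h2 := mul_mem h1 (hK b hb _ (inv_mem h1))
  have h3 : Commute (n * a⁻¹ * n⁻¹) b := by
    refine Perm.Disjoint.commute fun y => ?_
    by_cases hy : y ∈ O
    · left
      have h4 : n⁻¹ y ∉ O := fun e => hO _ e (by simpa using hy)
      have h5 : a⁻¹ (n⁻¹ y) = n⁻¹ y := by
        rw [Perm.inv_eq_iff_eq]; exact (ha' _ h4).symm
      rw [Perm.mul_apply, Perm.mul_apply, h5]; simp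
    · exact Or.inr (hb' y hy)
  have h4 : ⁅a, b⁆ = a * n * a⁻¹ * n⁻¹ * (b * (a * n * a⁻¹ * n⁻¹)⁻¹ * b⁻¹) := by
    have h5 : (n * a⁻¹ * n⁻¹) * b * (n * a⁻¹ * n⁻¹)⁻¹ = b := by rw [h3.eq]; group
    calc ⁅a, b⁆ = a * b * a⁻¹ * b⁻¹ := rfl
      _ = a * ((n * a⁻¹ * n⁻¹) * b * (n * a⁻¹ * n⁻¹)⁻¹) * a⁻¹ * b⁻¹ := by rw [h5]
      _ = _ := by group
  rw [h4]; exact h2

lemma seed {n} (hn : n ∈ K) (hnG : n ∈ GG) {x i} (hx : Reg x) (hm : n (x, i) ≠ (x, i)) :
    ∃ V0, InB V0 ∧ V0.Nonempty ∧ ∀ V ⊆ V0, InB V → ∀ σ ∈ Alt Finset.univ, bet V σ ∈ K := by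
  obtain ⟨O1, h1, h2, h3⟩ := (sep_iff (x, i) (n (x, i))).2 fun e =>
    hm (Prod.ext (hx.eq_of_eqv e.1).symm e.2.symm)
  have hO : Clop (O1 ∩ n ⁻¹' O1ᶜ) := h1.inter (Clop.pre hnG h1.compl)
  set O := O1 ∩ n ⁻¹' O1ᶜ with hOd
  have hO' : ∀ y ∈ O, n y ∉ O := fun y hy e => hy.2 e.1
  obtain ⟨z, hz, hz'⟩ := exists_far_fun (hO i) ⟨x, h2, h3⟩ x 5
  choose g hg hg' using fun a => exists_conn (hz a).2 i i
  obtain ⟨h, hh, k, j, hj, H⟩ := multi le_rfl x i g hg fun a b hab e => by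
    rw [hg' a, hg' b] at e
    exact hz' a b hab e.1
  obtain ⟨k', hk'⟩ := exists_bd (ι := Fin 5) (fun a k => ∀ x', Sim k x x' → g a (x', i) ∈ O)
    (fun a => by
      obtain ⟨k, hk⟩ := Clop.pre (hg a) hO i
      refine ⟨k, fun x' hx' => hk x x' hx' ?_⟩
      show g a (x, i) ∈ O
      rw [hg' a]; exact (hz a).1)
    (fun a k k' hk h x' e => h x' (e.mono hk))
  refine ⟨cls (max k k') x, inB_cls _ _, ⟨x, mem_cls _ _⟩, fun V hV hVB => ?_⟩
  have hI : (Finset.univ.image j).card = 5 := by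
    rw [Finset.card_image_of_injective _ hj]; simp
  have supp : ∀ σ ∈ Alt (Finset.univ.image j), ∀ y ∉ O, (h * bet V σ * h⁻¹) y = y := by
    intro σ hσ y hy
    rcases e : h⁻¹ y with ⟨x', m⟩
    have e' : h (x', m) = y := by rw [← e]; simp
    have e2 : bet V σ (x', m) = (x', m) := by
      by_cases h4 : x' ∈ V
      · rw [bet_mem h4, Alt_fix hσ]
        intro h5
        obtain ⟨a, -, rfl⟩ := Finset.mem_image.1 h5
        apply hy
        rw [← e', H a x' (Sim.mono (le_max_left _ _) (hV h4))]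
        exact hk' a x' (Sim.mono (le_max_right _ _) (hV h4))
      · exact bet_not h4 _ _
    rw [Perm.mul_apply, Perm.mul_apply, e, e2, e']
  have memG : ∀ σ ∈ Alt (Finset.univ.image j), h * bet V σ * h⁻¹ ∈ GG := fun σ hσ =>
    mul_mem (mul_mem hh (bet_mem_GG hVB (Alt_mono (Finset.subset_univ _) hσ))) (inv_mem hh)
  have step : ∀ σ ∈ Alt (Finset.univ.image j), bet V σ ∈ K := by
    intro σ hσ
    refine bet_of_comm hI.ge (fun σ hσ τ hτ => conj_back hK hh ?_) hσ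
    have h4 := comm_mem hK hn hO' (memG σ hσ) (memG τ hτ) (supp σ hσ) (supp τ hτ)
    have h5 : ⁅h * bet V σ * h⁻¹, h * bet V τ * h⁻¹⁆ = h * bet V ⁅σ, τ⁆ * h⁻¹ := by
      rw [map_commutatorElement, commutatorElement_def, commutatorElement_def]; group
    rw [← h5]; exact h4
  intro σ hσ
  refine bet_of_cyc (fun a _ b _ c _ hd => ?_) hσ
  have d0 : D3 (j 0) (j 1) (j 2) := ⟨fun e => absurd (hj e) (by decide),
    fun e => absurd (hj e) (by decide), fun e => absurd (hj e) (by decide)⟩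
  obtain ⟨ρ, hρ, hρ'⟩ := exists_alt {a, b, c} Finset.univ
    (fun m => if m = a then j 0 else if m = b then j 1 else j 2)
    (by
      intro m hm m' hm' e
      simp only [Finset.coe_insert, Finset.coe_singleton, Set.mem_insert_iff,
        Set.mem_singleton_iff] at hm hm'
      obtain ⟨d1, d2, d3⟩ := d0
      obtain ⟨d4, d5, d6⟩ := hd
      rcases hm with rfl | rfl | rfl <;> rcases hm' with rfl | rfl | rfl <;>
        simp_all [eq_comm])
    (Finset.subset_univ _) (fun _ _ => Finset.mem_univ _)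
    (by have := card_three a b c; rw [Finset.card_univ, card_Ix]; omega)
  refine conj_back hK (bet_univ_mem hρ) ?_
  have e := conj_bet (g := bet Set.univ ρ) (V := V) (f := id) (I := Finset.univ) (τ := ρ)
    (σ := cyc a b c) (fun m hm => absurd (Finset.mem_univ m) hm)
    (fun x _ m _ => bet_mem (Set.mem_univ x) _ _)
  rw [e, Set.image_id, cyc_conj, hρ' a (by simp), hρ' b (by simp), hρ' c (by simp), if_pos rfl,
    if_neg hd.1.symm, if_pos rfl, if_neg hd.2.1.symm, if_neg hd.2.2.symm]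
  have hm : ∀ a, j a ∈ Finset.univ.image j := fun a =>
    Finset.mem_image_of_mem _ (Finset.mem_univ _)
  exact step _ (cyc_mem_Alt (hm 0) (hm 1) (hm 2) d0)

lemma spread_all {V0} (h0 : InB V0) (hne : V0.Nonempty)
    (H : ∀ V ⊆ V0, InB V → ∀ σ ∈ Alt Finset.univ, bet V σ ∈ K) :
    ∀ V, InB V → ∀ σ ∈ Alt Finset.univ, bet V σ ∈ K := by
  have main := loc_ind (fun A => ∀ V ⊆ A, InB V → ∀ σ ∈ Alt Finset.univ, bet V σ ∈ K) ?_ ?_ ?_
  · exact fun V => main V (Set.subset_univ _)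
  · intro z
    obtain ⟨x', h1, p, h2, rfl⟩ := conn_into h0 hne z
    obtain ⟨k, hk⟩ := h0
    obtain ⟨k', hk'⟩ := run_cont p k
    refine ⟨k', fun V hV hVB σ hσ => bet_of_cyc (fun a _ b _ c _ hd => ?_) hσ⟩
    obtain ⟨g, hg, e⟩ := exists_transport p a b c
    have h3 : ∀ x ∈ V, Ok p x := fun x hx => (hk' z x h2 (hV hx)).1
    refine conj_back hK hg ?_
    rw [e V h3]
    refine H _ ?_ (hVB.im_run p h3) _ (cyc_univ hd)
    rintro _ ⟨x, hx, rfl⟩
    exact hk _ _ (hk' z x h2 (hV hx)).2 h1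
  · exact fun A A' _ _ h1 h2 V hV => h2 V (hV.trans h1)
  · intro A A' hA hA' hd h1 h2 V hV hVB σ hσ
    have e : V = (V ∩ A) ∪ (V ∩ A') := by
      rw [← Set.inter_union_distrib_left, Set.inter_eq_left.2 hV]
    rw [e, bet_union (hd.mono Set.inter_subset_right Set.inter_subset_right)]
    exact mul_mem (h1 _ Set.inter_subset_right (hVB.inter hA) σ hσ)
      (h2 _ Set.inter_subset_right (hVB.inter hA') σ hσ)

lemma GG_le (H : ∀ V, InB V → ∀ σ ∈ Alt Finset.univ, bet V σ ∈ K) : GG ≤ K := by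
  refine (Subgroup.closure_le _).2 ?_
  rintro _ ⟨⟨W, σ⟩ | ⟨a, p⟩, rfl⟩
  · exact H _ (inB_lab W) _ σ.2
  · obtain ⟨g, hg, e⟩ := cc_conj a p.2
    show cc a _ _ _ ∈ K
    rw [e]
    exact hK g hg _ (H _ (inB_lab _) _ (cyc_univ p.2))

end Simple

/-- simplicity; `hreg` (proved in `Nice.lean`): a nontrivial element moves a regular point -/
theorem GG_simple (hreg : ∀ g ∈ GG, (∀ y : YY, Reg y.1 → g y = y) → g = 1) : IsSimpleGroup GG := by
  have := GG_infinite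
  refine ⟨fun N hN => ?_⟩
  by_cases hb : N = ⊥
  · exact Or.inl hb
  right
  obtain ⟨⟨n, hn⟩, hn1⟩ := Subgroup.ne_bot_iff_exists_ne_one.1 hb
  have hK : ∀ g ∈ GG, ∀ m ∈ N.map GG.subtype, g * m * g⁻¹ ∈ N.map GG.subtype := by
    rintro g hg _ ⟨m, hm, rfl⟩
    exact ⟨_, hN.conj_mem m hm ⟨g, hg⟩, rfl⟩
  have h1 : ¬ ∀ y : YY, Reg y.1 → n.1 y = y := fun h =>
    hn1 (Subtype.ext (Subtype.ext (hreg n.1 n.2 h)))
  push Not at h1
  obtain ⟨⟨x, i⟩, hx, hm⟩ := h1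
  obtain ⟨V0, h2, h3, h4⟩ := seed hK ⟨n, hn, rfl⟩ n.2 hx hm
  have h5 := GG_le hK (spread_all hK h2 h3 h4)
  rw [eq_top_iff]
  rintro g -
  obtain ⟨m, hm, e⟩ := h5 g.2
  exact (Subtype.ext e : m = g) ▸ hm

end Vale.Agent.P196
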