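import Vale.Agent.P196.QL

/-! Basic lemmas on quantum logics. -/

namespace Vale.Agent.P196

open QL (orth)

variable {Q : Type} [QL Q]

namespace QL

lemma le_add' {a b : Q} (h : orth a b) : b ≤ a + b := by
  rw [QL.add_comm h]; exact le_add (orth_symm h)
lemma orth_mono2 {a a' b b' : Q} (ha : a ≤ a') (hb : b ≤ b') (h : orth a' b') : orth a b :=
  orth_symm (orth_mono hb (orth_symm (orth_mono ha h)))
lemma orth_zero (a : Q) : orth a 0 := orth_symm (zero_orth a)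
lemma add_zero' (a : Q) : a + 0 = a :=
  le_antisymm (add_le (orth_zero a) le_rfl (zero_le a)) (le_add (orth_zero a))
lemma zero_add' (a : Q) : 0 + a = a := by rw [QL.add_comm (zero_orth a), add_zero']
lemma orth_add {a b c : Q} (h : orth a b) (h1 : orth c a) (h2 : orth c b) : orth c (a + b) :=
  orth_symm (add_orth h (orth_symm h1) (orth_symm h2))
lemma add_mono {a b a' b' : Q} (h : orth a' b') (ha : a ≤ a') (hb : b ≤ b') : a + b ≤ a' + b' :=
  add_le (orth_mono2 ha hb h) (ha.trans (le_add h)) (hb.trans (le_add' h))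

lemma add4 {a a' b b' u v : Q} (huv : orth u v) (ha : a ≤ u) (ha' : a' ≤ u) (hb : b ≤ v)
    (hb' : b' ≤ v) (h1 : orth a a') (h2 : orth b b') :
    orth (a + b) (a' + b') ∧ (a + a') + (b + b') = (a + b) + (a' + b') := by
  have hab := orth_mono2 ha hb huv
  have hab' := orth_mono2 ha hb' huv
  have ha'b := orth_mono2 ha' hb huv
  have ha'b' := orth_mono2 ha' hb' huv
  have o1 : orth (a + b) (a' + b') :=
    add_orth hab (orth_add ha'b' h1 hab') (orth_add ha'b' (orth_symm ha'b) h2)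
  have o2 : orth (a + a') (b + b') := orth_mono2 (add_le h1 ha ha') (add_le h2 hb hb') huv
  refine ⟨o1, le_antisymm (add_le o2 (add_mono o1 (le_add hab) (le_add ha'b'))
    (add_mono o1 (le_add' hab) (le_add' ha'b'))) (add_le o1 (add_mono o2 (le_add h1) (le_add h2))
    (add_mono o2 (le_add' h1) (le_add' h2)))⟩

end QL

open QL

/-- families of sets closed under intersection and difference -/
structure Cl {A : Type} (𝒜 : Set A → Prop) : Prop where
  inter : ∀ {V V'}, 𝒜 V → 𝒜 V' → 𝒜 (V ∩ V')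
  diff : ∀ {V V'}, 𝒜 V → 𝒜 V' → 𝒜 (V \ V')

lemma cl_true {A : Type} : Cl (fun _ : Set A => True) := ⟨fun _ _ => trivial, fun _ _ => trivial⟩

namespace IsBH

variable {A B : Type} {𝒜 : Set A → Prop} {ℬ : Set B → Prop} {f : Set A → Q} {g : Set B → Q}

lemma split (hf : IsBH 𝒜 f) (c : Cl 𝒜) {V W} (hV : 𝒜 V) (hW : 𝒜 W) :
    QL.orth (f (V ∩ W)) (f (V \ W)) ∧ f V = f (V ∩ W) + f (V \ W) := by
  have hd : Disjoint (V ∩ W) (V \ W) := Set.disjoint_left.2 fun x h1 h2 => h2.2 h1.2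
  refine ⟨hf.orth _ _ (c.inter hV hW) (c.diff hV hW) hd, ?_⟩
  rw [← hf.add _ _ (c.inter hV hW) (c.diff hV hW) hd, Set.inter_union_sdiff]

lemma mono (hf : IsBH 𝒜 f) (c : Cl 𝒜) {V W} (hV : 𝒜 V) (hW : 𝒜 W) (h : V ⊆ W) : f V ≤ f W := by
  obtain ⟨h1, h2⟩ := hf.split c hW hV
  rw [Set.inter_eq_right.2 h] at h1 h2
  rw [h2]; exact le_add h1

lemma le_inter (hf : IsBH 𝒜 f) (c : Cl 𝒜) {V W} (hV : 𝒜 V) (hW : 𝒜 W) {q : Q} (h1 : q ≤ f V)
    (h2 : q ≤ f W) : q ≤ f (V ∩ W) := by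
  obtain ⟨o, e⟩ := hf.split c hV hW
  rw [e, QL.add_comm o] at h1
  exact le_of_orth (orth_symm o) h1
    (orth_mono h2 (hf.orth _ _ hW (c.diff hV hW) Set.disjoint_sdiff_right))

lemma le_diff (hf : IsBH 𝒜 f) (c : Cl 𝒜) {V W} (hV : 𝒜 V) (hW : 𝒜 W) {q : Q} (h1 : q ≤ f V)
    (h2 : QL.orth q (f W)) : q ≤ f (V \ W) := by
  obtain ⟨o, e⟩ := hf.split c hV hW
  rw [e] at h1
  exact le_of_orth o h1 (orth_mono2 le_rfl (hf.mono c (c.inter hV hW) hW Set.inter_subset_right) h2)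

lemma inter_eq (hf : IsBH 𝒜 f) (c : Cl 𝒜) (hg : IsBH ℬ g) (d : Cl ℬ) {V W V' W'} (hV : 𝒜 V)
    (hW : 𝒜 W) (hV' : ℬ V') (hW' : ℬ W') (h1 : f V = g V') (h2 : f W = g W') :
    f (V ∩ W) = g (V' ∩ W') :=
  le_antisymm
    (hg.le_inter d hV' hW' (h1 ▸ hf.mono c (c.inter hV hW) hV Set.inter_subset_left)
      (h2 ▸ hf.mono c (c.inter hV hW) hW Set.inter_subset_right))
    (hf.le_inter c hV hW (h1 ▸ hg.mono d (d.inter hV' hW') hV' Set.inter_subset_left)
      (h2 ▸ hg.mono d (d.inter hV' hW') hW' Set.inter_subset_right))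

lemma diff_eq (hf : IsBH 𝒜 f) (c : Cl 𝒜) (hg : IsBH ℬ g) (d : Cl ℬ) {V W V' W'} (hV : 𝒜 V)
    (hW : 𝒜 W) (hV' : ℬ V') (hW' : ℬ W') (h1 : f V = g V') (h2 : f W = g W') :
    f (V \ W) = g (V' \ W') :=
  le_antisymm
    (hg.le_diff d hV' hW' (h1 ▸ hf.mono c (c.diff hV hW) hV Set.sdiff_subset)
      (h2 ▸ hf.orth _ _ (c.diff hV hW) hW Set.disjoint_sdiff_left))
    (hf.le_diff c hV hW (h1 ▸ hg.mono d (d.diff hV' hW') hV' Set.sdiff_subset)
      (h2 ▸ hg.orth _ _ (d.diff hV' hW') hW' Set.disjoint_sdiff_left))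

/-- precomposition with a map of set algebras -/
lemma comp (hg : IsBH ℬ g) (F : Set A → Set B) (h0 : F ∅ = ∅) (h1 : ∀ V, 𝒜 V → ℬ (F V))
    (h2 : ∀ V V', Disjoint V V' → Disjoint (F V) (F V')) (h3 : ∀ V V', F (V ∪ V') = F V ∪ F V') :
    IsBH 𝒜 fun V => g (F V) :=
  ⟨by rw [h0, hg.empty], fun V V' a b c => hg.orth _ _ (h1 V a) (h1 V' b) (h2 V V' c),
    fun V V' a b c => by rw [h3, hg.add _ _ (h1 V a) (h1 V' b) (h2 V V' c)]⟩

lemma sum {f' : Set A → Q} (hf : IsBH 𝒜 f) (hf' : IsBH 𝒜 f') {u v : Q} (huv : QL.orth u v)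
    (h1 : ∀ V, 𝒜 V → f V ≤ u) (h2 : ∀ V, 𝒜 V → f' V ≤ v) : IsBH 𝒜 fun V => f V + f' V :=
  ⟨by rw [hf.empty, hf'.empty, add_zero'], fun V V' a b c =>
    (add4 huv (h1 V a) (h1 V' b) (h2 V a) (h2 V' b) (hf.orth _ _ a b c) (hf'.orth _ _ a b c)).1,
    fun V V' a b c => by
      rw [hf.add _ _ a b c, hf'.add _ _ a b c]
      exact (add4 huv (h1 V a) (h1 V' b) (h2 V a) (h2 V' b) (hf.orth _ _ a b c)
        (hf'.orth _ _ a b c)).2⟩

end IsBH

/-- restriction and relabelling of a label assignment -/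
lemma bh_lab {A B : Type} {g : Set B → Q} (hg : IsBH (fun _ => True) g) (P : B → Prop)
    (π : B → A) : IsBH (fun _ => True) fun W : Set A => g {l | P l ∧ π l ∈ W} :=
  hg.comp (fun W => {l | P l ∧ π l ∈ W}) (by ext; simp) (fun _ _ => trivial)
    (fun _ _ h => Set.disjoint_left.2 fun _ h1 h2 => Set.disjoint_left.1 h h1.2 h2.2)
    (fun _ _ => by ext; simp [and_or_left])

/-- a class of subsets of a finite type closed under the Boolean operations and containing a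
separating family is everything -/
lemma gen_ind {A : Type} [Finite A] (C : Set A → Prop) (hu : C Set.univ)
    (hi : ∀ V W, C V → C W → C (V ∩ W)) (hc : ∀ V, C V → C Vᶜ)
    (hs : ∀ a a' : A, a ≠ a' → ∃ G, C G ∧ ¬ (a ∈ G ↔ a' ∈ G)) (W : Set A) : C W := by
  have hI : ∀ (s : Set A), s.Finite → ∀ F : A → Set A, (∀ a ∈ s, C (F a)) → C (⋂ a ∈ s, F a) := by
    intro s hs F
    induction s, hs using Set.Finite.induction_on with
    | empty => intro _; simpa using hu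
    | insert _ _ ih =>
      intro h
      rw [Set.biInter_insert]
      exact hi _ _ (h _ (Set.mem_insert _ _)) (ih fun a ha => h a (Set.mem_insert_of_mem _ ha))
  have h1 : ∀ a : A, C {a} := by
    intro a
    have : ∀ a', ∃ G, a' ≠ a → C G ∧ a ∈ G ∧ a' ∉ G := by
      intro a'
      by_cases h : a' = a
      · exact ⟨∅, fun h' => absurd h h'⟩
      obtain ⟨G, h1, h2⟩ := hs a a' (Ne.symm h)
      by_cases h3 : a ∈ G
      · exact ⟨G, fun _ => ⟨h1, h3, by tauto⟩⟩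
      · exact ⟨Gᶜ, fun _ => ⟨hc G h1, h3, by simp; tauto⟩⟩
    choose F hF using this
    have e : ({a} : Set A) = ⋂ a' ∈ {a' | a' ≠ a}, F a' := by
      ext x
      simp only [Set.mem_singleton_iff, Set.mem_iInter, Set.mem_ofPred_eq]
      exact ⟨fun h a' h' => h ▸ (hF a' h').2.1, fun h => by_contra fun h' => (hF x h').2.2 (h x h')⟩
    rw [e]
    exact hI _ (Set.toFinite _) F fun a' h => (hF a' h).1
  have e : W = ⋂ a ∈ Wᶜ, ({a} : Set A)ᶜ := by
    ext x
    simp only [Set.mem_iInter, Set.mem_compl_iff, Set.mem_singleton_iff]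
    exact ⟨fun h a ha e => ha (e ▸ h), fun h => by_contra fun h' => h x h' rfl⟩
  rw [e]
  exact hI _ (Set.toFinite _) _ fun a _ => hc _ (h1 a)

lemma lab_ind (C : Set Lab → Prop) (hu : C Set.univ) (hi : ∀ V W, C V → C W → C (V ∩ W))
    (hc : ∀ V, C V → C Vᶜ) (g1 : C {l | l.e0 = true}) (g2 : C {l | l.h = .ut})
    (g3 : C {l | l.e1 = true}) (g4 : C {l | l.e2 = true}) (g5 : C {l | l.b = true})
    (g6 : C {l | l.s = true}) (W : Set Lab) : C W := by
  refine gen_ind C hu hi hc (fun a a' h => ?_) W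
  by_contra hn
  push Not at hn
  have e1 := hn _ g1
  have e2 := hn _ g2
  have e3 := hn _ g3
  have e4 := hn _ g4
  have e5 := hn _ g5
  have e6 := hn _ g6
  clear hn
  obtain ⟨h1, a1, a2, a3, a4⟩ := a
  obtain ⟨h2, b1, b2, b3, b4⟩ := a'
  cases h1 <;> cases h2 <;> simp_all [Lab.e0]

/-- two assignments on labels agreeing on generators agree -/
lemma lab_ext {f g : Set Lab → Q} (hf : IsBH (fun _ => True) f) (hg : IsBH (fun _ => True) g)
    (hu : f Set.univ = g Set.univ) (g1 : f {l | l.e0 = true} = g {l | l.e0 = true})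
    (g2 : f {l | l.h = .ut} = g {l | l.h = .ut}) (g3 : f {l | l.e1 = true} = g {l | l.e1 = true})
    (g4 : f {l | l.e2 = true} = g {l | l.e2 = true}) (g5 : f {l | l.b = true} = g {l | l.b = true})
    (g6 : f {l | l.s = true} = g {l | l.s = true}) (W : Set Lab) : f W = g W := by
  refine lab_ind (fun W => f W = g W) hu (fun V W h1 h2 => ?_) (fun V h => ?_) g1 g2 g3 g4 g5 g6 W
  · exact hf.inter_eq cl_true hg cl_true trivial trivial trivial trivial h1 h2
  · rw [Set.compl_eq_univ_sdiff]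
    exact hf.diff_eq cl_true hg cl_true trivial trivial trivial trivial hu h

/-- mutually inverse isomorphisms between the intervals below `a` and `b` -/
structure IsIso (F G : Q → Q) (a b : Q) : Prop where
  le : ∀ q, q ≤ a → F q ≤ b
  le' : ∀ q, q ≤ b → G q ≤ a
  inv : ∀ q, q ≤ a → G (F q) = q
  inv' : ∀ q, q ≤ b → F (G q) = q
  mono : ∀ q q', q ≤ q' → q' ≤ a → F q ≤ F q'
  mono' : ∀ q q', q ≤ q' → q' ≤ b → G q ≤ G q'
  orth : ∀ q q', orth q q' → q ≤ a → q' ≤ a → orth (F q) (F q')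
  orth' : ∀ q q', QL.orth q q' → q ≤ b → q' ≤ b → QL.orth (G q) (G q')

namespace IsIso

variable {F G F' G' : Q → Q} {a b c : Q}

lemma symm (h : IsIso F G a b) : IsIso G F b a :=
  ⟨h.le', h.le, h.inv', h.inv, h.mono', h.mono, h.orth', h.orth⟩

lemma restrict (h : IsIso F G a b) {a' b' : Q} (ha : a' ≤ a) (e : F a' = b') : IsIso F G a' b' := by
  subst e
  have hb := h.le _ ha
  exact ⟨fun q hq => h.mono _ _ hq ha, fun q hq => (h.mono' _ _ hq hb).trans_eq (h.inv _ ha),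
    fun q hq => h.inv _ (hq.trans ha), fun q hq => h.inv' _ (hq.trans hb),
    fun q q' h1 h2 => h.mono _ _ h1 (h2.trans ha), fun q q' h1 h2 => h.mono' _ _ h1 (h2.trans hb),
    fun q q' h0 h1 h2 => h.orth _ _ h0 (h1.trans ha) (h2.trans ha),
    fun q q' h0 h1 h2 => h.orth' _ _ h0 (h1.trans hb) (h2.trans hb)⟩

lemma trans (h : IsIso F G a b) (h' : IsIso F' G' b c) :
    IsIso (fun q => F' (F q)) (fun q => G (G' q)) a c :=
  ⟨fun q hq => h'.le _ (h.le _ hq), fun q hq => h.le' _ (h'.le' _ hq),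
    fun q hq => by rw [h'.inv _ (h.le _ hq), h.inv _ hq],
    fun q hq => by rw [h.inv' _ (h'.le' _ hq), h'.inv' _ hq],
    fun q q' h1 h2 => h'.mono _ _ (h.mono _ _ h1 h2) (h.le _ h2),
    fun q q' h1 h2 => h.mono' _ _ (h'.mono' _ _ h1 h2) (h'.le' _ h2),
    fun q q' h0 h1 h2 => h'.orth _ _ (h.orth _ _ h0 h1 h2) (h.le _ h1) (h.le _ h2),
    fun q q' h0 h1 h2 => h.orth' _ _ (h'.orth' _ _ h0 h1 h2) (h'.le' _ h1) (h'.le' _ h2)⟩

lemma zero (h : IsIso F G a b) : F 0 = 0 :=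
  orth_self (h.orth _ _ (zero_orth 0) (QL.zero_le a) (QL.zero_le a))

lemma add (h : IsIso F G a b) {q q' : Q} (o : QL.orth q q') (h1 : q ≤ a) (h2 : q' ≤ a) :
    F (q + q') = F q + F q' := by
  have o' := h.orth _ _ o h1 h2
  have s1 := add_le o h1 h2
  have s2 := add_le o' (h.le _ h1) (h.le _ h2)
  refine le_antisymm ?_ (add_le o' (h.mono _ _ (le_add o) s1) (h.mono _ _ (le_add' o) s1))
  rw [← h.inv' _ s2]
  refine h.mono _ _ (add_le o ?_ ?_) (h.le' _ s2)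
  · exact (h.inv _ h1).ge.trans (h.mono' _ _ (le_add o') s2)
  · exact (h.inv _ h2).ge.trans (h.mono' _ _ (le_add' o') s2)

lemma inj (h : IsIso F G a b) {q q' : Q} (h1 : q ≤ a) (h2 : q' ≤ a) (e : F q = F q') : q = q' := by
  rw [← h.inv _ h1, e, h.inv _ h2]

lemma bh {A : Type} {𝒜 : Set A → Prop} {f : Set A → Q} (h : IsIso F G a b) (hf : IsBH 𝒜 f)
    (hle : ∀ V, 𝒜 V → f V ≤ a) : IsBH 𝒜 fun V => F (f V) :=
  ⟨by rw [hf.empty, h.zero], fun V V' x y z => h.orth _ _ (hf.orth _ _ x y z) (hle _ x) (hle _ y),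
    fun V V' x y z => by rw [hf.add _ _ x y z, h.add (hf.orth _ _ x y z) (hle _ x) (hle _ y)]⟩

end IsIso

/-- `p` splits `x` -/
def Spl (p x : Q) : Prop := ∃ e : Q × Q, e.1 ≤ p ∧ orth e.2 p ∧ e.1 + e.2 = x

lemma spl_uniq {p e e' f f' : Q} (h1 : e ≤ p) (h2 : orth e' p) (h3 : f ≤ p) (h4 : orth f' p)
    (h : e + e' = f + f') : e = f ∧ e' = f' := by
  have key : ∀ {e e' f f' : Q}, e ≤ p → orth e' p → f ≤ p → orth f' p → e + e' = f + f' →
      e ≤ f ∧ e' ≤ f' := by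
    intro e e' f f' h1 h2 h3 h4 h
    have o1 : orth e e' := orth_mono h1 (orth_symm h2)
    have o2 : orth f f' := orth_mono h3 (orth_symm h4)
    refine ⟨le_of_orth (orth_symm o2) ?_ (orth_mono h1 (orth_symm h4)),
      le_of_orth o2 (h ▸ le_add' o1) (orth_symm (orth_mono h3 (orth_symm h2)))⟩
    rw [← QL.add_comm o2, ← h]; exact le_add o1
  have a := key h1 h2 h3 h4 h
  have b := key h3 h4 h1 h2 h.symm
  exact ⟨le_antisymm a.1 b.1, le_antisymm a.2 b.2⟩

open Classical in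
/-- the two parts of a split element -/
noncomputable def parts (p x : Q) : Q × Q := if h : Spl p x then h.choose else (0, 0)

lemma parts_spec {p x : Q} (h : Spl p x) :
    (parts p x).1 ≤ p ∧ orth (parts p x).2 p ∧ (parts p x).1 + (parts p x).2 = x := by
  unfold parts; rw [dif_pos h]; exact h.choose_spec

lemma parts_eq {p e e' : Q} (h1 : e ≤ p) (h2 : orth e' p) : parts p (e + e') = (e, e') := by
  obtain ⟨a, b, c⟩ := parts_spec (p := p) (x := e + e') ⟨(e, e'), h1, h2, rfl⟩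
  obtain ⟨d, f⟩ := spl_uniq a b h1 h2 c
  exact Prod.ext d f

lemma parts_le {p x : Q} (h : Spl p x) : (parts p x).1 ≤ x ∧ (parts p x).2 ≤ x := by
  obtain ⟨a, b, c⟩ := parts_spec h
  have o := orth_mono a (orth_symm b)
  exact ⟨(le_add o).trans_eq c, (le_add' o).trans_eq c⟩

lemma spl_compl {p x x' : Q} (h : Spl p x) (o : orth x x') (hp : p ≤ x + x') : Spl p x' := by
  obtain ⟨⟨e, e'⟩, h1, h2, rfl⟩ := h
  obtain ⟨d, od, rfl⟩ := exists_sub h1
  have oe : orth e e' := orth_mono h1 (orth_symm h2)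
  have hd : d ≤ x' := le_of_orth o ((le_add' od).trans hp)
    (orth_add oe (orth_symm od) (orth_mono (le_add' od) (orth_symm h2)))
  obtain ⟨d', od', rfl⟩ := exists_sub hd
  exact ⟨(d, d'), le_add' od, orth_add od
    (orth_symm (orth_mono2 (le_add oe) (le_add' od') o)) (orth_symm od'), rfl⟩

lemma bh_parts {A : Type} {𝒜 : Set A → Prop} {f : Set A → Q} (hf : IsBH 𝒜 f) {p : Q}
    (hs : ∀ V, 𝒜 V → Spl p (f V)) :
    IsBH 𝒜 (fun V => (parts p (f V)).1) ∧ IsBH 𝒜 fun V => (parts p (f V)).2 := by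
  have h0 : parts p (f ∅) = (0, 0) := by
    rw [hf.empty, ← parts_eq (QL.zero_le p) (zero_orth p), add_zero']
  have ha : ∀ V V', 𝒜 V → 𝒜 V' → Disjoint V V' → parts p (f (V ∪ V')) =
      ((parts p (f V)).1 + (parts p (f V')).1, (parts p (f V)).2 + (parts p (f V')).2) := by
    intro V V' a b c
    obtain ⟨a1, a2, a3⟩ := parts_spec (hs V a)
    obtain ⟨b1, b2, b3⟩ := parts_spec (hs V' b)
    have o := hf.orth _ _ a b c
    have p1 := parts_le (hs V a)
    have p2 := parts_le (hs V' b)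
    rw [← parts_eq (add_le (orth_mono2 p1.1 p2.1 o) a1 b1)
      (add_orth (orth_mono2 p1.2 p2.2 o) a2 b2), hf.add _ _ a b c, ← (add4 o p1.1 p1.2 p2.1 p2.2
        (orth_mono a1 (orth_symm a2)) (orth_mono b1 (orth_symm b2))).2, a3, b3]
  exact ⟨⟨by rw [h0], fun V V' a b c => orth_mono2 (parts_le (hs V a)).1 (parts_le (hs V' b)).1
      (hf.orth _ _ a b c), fun V V' a b c => by rw [ha V V' a b c]⟩,
    ⟨by rw [h0], fun V V' a b c => orth_mono2 (parts_le (hs V a)).2 (parts_le (hs V' b)).2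
      (hf.orth _ _ a b c), fun V V' a b c => by rw [ha V V' a b c]⟩⟩

lemma spl_inter {A : Type} {f : Set A → Q} (hf : IsBH (fun _ => True) f) {p : Q} {V W}
    (h1 : Spl p (f V)) (h2 : Spl p (f W)) : Spl p (f (V ∩ W)) := by
  obtain ⟨⟨a, a'⟩, a1, a2, a3⟩ := h1
  obtain ⟨⟨b, b'⟩, b1, b2, b3⟩ := h2
  obtain ⟨o1, e1⟩ := hf.split cl_true (V := V) (W := W) trivial trivial
  obtain ⟨o2, e2⟩ := hf.split cl_true (V := W) (W := V) trivial trivial
  rw [Set.inter_comm] at o2 e2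
  obtain ⟨e, e', h⟩ := fh a1 b1 a2 b2 (orth_symm o1) (orth_symm o2)
    (hf.orth _ _ trivial trivial (Set.disjoint_left.2 fun x h1 h2 => h1.2 h2.1))
    (by rw [← QL.add_comm o1, ← e1]; exact a3) (by rw [← QL.add_comm o2, ← e2]; exact b3)
  exact ⟨(e, e'), h⟩

end Vale.Agent.P196
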