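import Vale.Agent.P196.Proj
import Vale.Agent.P196.QLB

/-! Located elements and the locality lemma. -/

namespace Vale.Agent.P196

open Equiv QL

lemma comm_bet {g : Perm YY} {V : Set Om} {K : Finset Ix} {σ : Perm Ix} (hσ : ∀ i ∉ K, σ i = i)
    (hg : ∀ x ∈ V, ∀ i ∈ K, g (x, i) = (x, i)) : g * bet V σ = bet V σ * g := by
  have := conj_bet (f := id) (τ := 1) hσ hg
  rw [Set.image_id, one_mul, inv_one, mul_one] at this
  exact mul_inv_eq_iff_eq_mul.1 this

lemma piG_al (u : UU) (x : Om) (i : Ix) : piG (al u) (x, i) = (x, qq u i) := by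
  rw [piG_wu]; exact bet_mem (Set.mem_univ _) _ _

lemma Proj.orth_compl' {β γ : Proj} (h : orth γ β) : γ ≤ β.compl := by
  rw [Proj.le_iff, Proj.compl_compl]; exact h

lemma al_eq (β : Proj) (u : UU) : al u = β.f u * β.compl.f u := by simp [Proj.compl]

/-- `x` lives on the active indices `A` over `β` and on the passive indices `P` -/
def Located (x : Gam) (A P : Finset Ix) (β : Proj) : Prop :=
  (∀ J, A ∪ P ⊆ J → 15 ≤ J.card → x ∈ GJ J) ∧ ∀ γ : Proj, orth γ β → ∀ K : Finset Ix,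
    K.card = 5 → Disjoint K P → ∀ u ∈ UI K, Commute x (γ.f u)

lemma located_of_compl {x : Gam} {A P : Finset Ix} {β : Proj} (hc : (A ∪ P).card ≤ 10)
    (h1 : ∀ J, A ∪ P ⊆ J → 15 ≤ J.card → x ∈ GJ J)
    (h2 : ∀ K : Finset Ix, K.card = 5 → Disjoint K P → ∀ u ∈ UI K, Commute x (β.compl.f u)) :
    Located x A P β := by
  refine ⟨h1, fun γ hγ K hK hd u hu => ?_⟩
  obtain ⟨J, j1, j2, j3, -⟩ := exists_sup (A ∪ P) ∅ (by simp) (by simp only [Finset.card_empty]; omega)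
  obtain ⟨F, v, f1, f2, f3, f4⟩ := exists_away K J (by omega)
  have hP : P ⊆ J := Finset.subset_union_right.trans j1
  have c1 : Commute x (β.compl.f v) :=
    comm_UI _ _ (hK ▸ Finset.card_le_card Finset.subset_union_left) (fun I hI h5 =>
      h2 I h5 ((Finset.disjoint_union_left.2 ⟨hd, f1.mono_right
        (hP.trans Finset.subset_union_right)⟩).mono_left hI)) f3
  refine comm_of_conj c1 ?_
  rw [Proj.Le.conj (Proj.orth_compl' hγ)]
  have hc' : (K.image (qq v)).card = 5 := by rw [Finset.card_image_of_injective _ (qq v).injective, hK]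
  obtain ⟨J', k1, k2, -, k4⟩ := exists_sup (K.image (qq v)) J
    ((f1.mono_right Finset.subset_union_right).mono_left (Finset.image_subset_iff.2 f4)) (by omega)
  exact (GJ_comm k4 (γ.loc _ _ hc' k1 k2 _ (UI_conj v hu)) (h1 J j1 j2)).symm

lemma located_proj (β : Proj) {A P : Finset Ix} (hc : (A ∪ P).card = 5) {u} (hu : u ∈ UI (A ∪ P)) :
    Located (β.f u) A P β :=
  ⟨fun _ h1 h2 => β.loc _ _ hc h1 h2 u hu, fun _ h _ _ _ v _ => (h v u).symm⟩

lemma Located.mono {x A P β β'} (h : Located x A P β) (hb : β ≤ β') : Located x A P β' :=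
  ⟨h.1, fun γ hγ => h.2 γ (orth_mono2 le_rfl hb hγ)⟩

/-- short words with small index support avoiding `P` -/
def Sm (n : ℕ) (P : Finset Ix) (γ : Gam) : Prop :=
  Short n γ ∧ ∃ J : Finset Ix, J.card ≤ n ∧ Disjoint J P ∧ γ ∈ GJ J

lemma Sm.mono {n m P γ} (h : Sm n P γ) (hn : n ≤ m) : Sm m P γ :=
  let ⟨a, J, b, c⟩ := h; ⟨a.mono hn, J, b.trans hn, c⟩
lemma Sm.empty {n P γ} (h : Sm n P γ) : Sm n ∅ γ :=
  let ⟨a, J, b, _, c⟩ := h; ⟨a, J, b, by simp, c⟩
lemma Sm.inv {n P γ} (h : Sm n P γ) : Sm n P γ⁻¹ :=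
  let ⟨a, J, b, c, d⟩ := h; ⟨a.inv, J, b, c, inv_mem d⟩
lemma Sm.mul {n m P γ γ'} (h : Sm n P γ) (h' : Sm m P γ') : Sm (n + m) P (γ * γ') :=
  let ⟨a, J, b, c, d⟩ := h
  let ⟨a', J', b', c', d'⟩ := h'
  ⟨a.mul a', J ∪ J', (Finset.card_union_le _ _).trans (by omega),
    Finset.disjoint_union_left.2 ⟨c, c'⟩,
    mul_mem (GJ_mono Finset.subset_union_left d) (GJ_mono Finset.subset_union_right d')⟩
lemma sm_one (P) : Sm 0 P 1 := ⟨short_one, ∅, le_rfl, by simp, one_mem _⟩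
lemma sm_wu (W) {K P : Finset Ix} {u} (hK : K.card = 5) (hd : Disjoint K P) (hu : u ∈ UI K) :
    Sm 5 P (wu W u) := ⟨(short_wu W u).mono (by omega), K, hK.le, hd, wu_mem (UI_q hu)⟩

/-- the locality lemma -/
theorem LL {x δ : Gam} {A P : Finset Ix} {β : Proj} {W : Set Lab} (hc : (A ∪ P).card ≤ 10)
    (hAP : Disjoint A P) (hx : Located x A P β) (hβ : β ≤ pl W) (hδ : Sm 900 P δ)
    (hf : ∀ y, lab y ∈ W → ∀ i ∈ A, piG δ (y, i) = (y, i)) : Commute δ x := by
  obtain ⟨s, J, j1, j2, j3⟩ := hδ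
  have hA : A.card ≤ 10 := (Finset.card_le_card Finset.subset_union_left).trans hc
  have hP : P.card ≤ 10 := (Finset.card_le_card Finset.subset_union_right).trans hc
  obtain ⟨F, v, f1, f2, f3, f4⟩ := exists_away A (J ∪ P)
    (by have := Finset.card_union_le J P; omega)
  simp only [Finset.disjoint_union_right] at f1
  have c1 : Commute δ (wu W v) :=
    short_eq (s.mul (short_wu W v)) ((short_wu W v).mul s) (by omega) (by
      rw [map_mul, map_mul, piG_wu]
      refine comm_bet (K := A ∪ F) (fun i hi => Alt_fix (UI_q f3) hi) fun y hy i hi => ?_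
      rcases Finset.mem_union.1 hi with h | h
      · exact hf y hy i h
      · exact GJ_fix j3 y (Finset.disjoint_left.1 f1.2.1 h))
  have hK : Disjoint (A ∪ F) P := Finset.disjoint_union_left.2 ⟨hAP, f1.2.2⟩
  have c2 : Commute x ((pl W).compl.f v) :=
    comm_UI _ _ ((by omega : 5 ≤ F.card).trans (Finset.card_le_card Finset.subset_union_right))
      (fun I hI h5 => hx.2 _ (orth_symm (Proj.le_iff.1 hβ)) I h5 (hK.mono_left hI)) f3
  refine comm_of_conj c1 ?_
  have e : wu W v * x * (wu W v)⁻¹ = al v * x * (al v)⁻¹ := by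
    rw [al_eq (pl W) v, mul_assoc ((pl W).f v), ← c2.eq]
    change _ = wu W v * _ * _
    group
    rfl
  obtain ⟨J', k1, k2, k3, k4⟩ := exists_sup ∅ (A ∪ F ∪ J) (by simp) (by
    have := Finset.card_union_le (A ∪ F) J
    have := Finset.card_union_le A F
    simp only [Finset.card_empty]; omega)
  simp only [Finset.disjoint_union_right] at k4
  rw [e]
  refine GJ_comm ?_ j3 (GJ_conj v (hx.1 (A ∪ P ∪ J') Finset.subset_union_left
    (k2.trans (Finset.card_le_card Finset.subset_union_right))))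
  refine Finset.disjoint_right.2 fun i hi hJ => ?_
  obtain ⟨j, hj, rfl⟩ := Finset.mem_image.1 hi
  by_cases h : j ∈ A
  · exact Finset.disjoint_left.1 f1.2.1 (f4 j h) hJ
  simp only [Finset.mem_union, h, false_or] at hj
  have hF : j ∉ F := fun h' => hj.elim (Finset.disjoint_left.1 f1.2.2 h')
    fun h'' => Finset.disjoint_left.1 k4.1.2 h'' h'
  rw [Alt_fix (UI_q f3) (by simp [h, hF])] at hJ
  exact hj.elim (Finset.disjoint_left.1 j2 hJ) fun h'' => Finset.disjoint_left.1 k4.2 h'' hJ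

/-- independence of the conjugating word -/
lemma conj_indep {x M M' : Gam} {A P : Finset Ix} {β : Proj} {W : Set Lab} {n n' : ℕ}
    (hc : (A ∪ P).card ≤ 10) (hAP : Disjoint A P) (hx : Located x A P β) (hβ : β ≤ pl W)
    (h1 : Sm n P M) (h2 : Sm n' P M') (hn : n + n' ≤ 900)
    (hf : ∀ y, lab y ∈ W → ∀ i ∈ A, piG M (y, i) = piG M' (y, i)) :
    M * x * M⁻¹ = M' * x * M'⁻¹ := by
  have := LL hc hAP hx hβ ((h2.inv.mul h1).mono (by omega)) fun y hy i hi => by
    rw [map_mul, map_inv, Perm.mul_apply, hf y hy i hi]; simp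
  calc M * x * M⁻¹ = M' * (M'⁻¹ * M * x) * M⁻¹ := by group
    _ = M' * x * M'⁻¹ := by rw [this.eq]; group

/-- movers -/
def Mov (a : Letter) (I P : Finset Ix) (n : ℕ) (M : Gam) : Prop :=
  Sm n P M ∧ ∀ x, lab x ∈ a.dom → ∀ i ∈ I, piG M (x, i) = (a.act x, i)

lemma exists_mov_in (a : Letter) {I P J : Finset Ix} (hd : Disjoint I P) (hI : I ∪ P ⊆ J)
    (h : 3 * I.card + P.card ≤ J.card) : ∃ M ∈ GJ J, Mov a I P (3 * I.card) M := by
  obtain ⟨F, f1, f2⟩ := Finset.exists_subset_card_eq (s := J \ (I ∪ P)) (n := 2 * I.card) (by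
    have := Finset.card_union_le I P
    rw [Finset.card_sdiff_of_subset hI]; omega)
  have f3 : Disjoint F (I ∪ P) := Finset.sdiff_disjoint.mono_left f1
  rw [Finset.disjoint_union_right] at f3
  obtain ⟨M, m1, m2, m3⟩ := exists_mv a I F f3.1.symm f2.ge
  exact ⟨M, GJ_mono (Finset.union_subset (Finset.subset_union_left.trans hI)
    (f1.trans Finset.sdiff_subset)) m1, ⟨m2.mono (by omega), I ∪ F,
    (Finset.card_union_le _ _).trans (by omega), Finset.disjoint_union_left.2 ⟨hd, f3.2⟩, m1⟩, m3⟩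

lemma exists_mov (a : Letter) {I P : Finset Ix} (hd : Disjoint I P) (hI : I.card ≤ 10)
    (hP : P.card ≤ 10) : ∃ M, Mov a I P 30 M := by
  obtain ⟨M, -, h1, h2⟩ := exists_mov_in a hd (Finset.subset_univ _)
    (by rw [Finset.card_univ, card_Ix]; omega)
  exact ⟨M, h1.mono (by omega), h2⟩

lemma Mov.sub {a I I' P n M} (h : Mov a I P n M) (hI : I' ⊆ I) : Mov a I' P n M :=
  ⟨h.1, fun x hx i hi => h.2 x hx i (hI hi)⟩

lemma card_u5 {I I' : Finset Ix} (h : I.card = 5) (h' : I'.card = 5) : (I ∪ I').card ≤ 10 :=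
  (Finset.card_union_le _ _).trans (by omega)

lemma conj_indep0 {β : Proj} {W : Set Lab} (hβ : β ≤ pl W) {I : Finset Ix} (hI : I.card = 5) {u}
    (hu : u ∈ UI I) {M M' n n'} (h1 : Sm n ∅ M) (h2 : Sm n' ∅ M') (hn : n + n' ≤ 900)
    (hf : ∀ y, lab y ∈ W → ∀ i ∈ I, piG M (y, i) = piG M' (y, i)) :
    M * β.f u * M⁻¹ = M' * β.f u * M'⁻¹ :=
  conj_indep (A := I) (by simp; omega) (by simp) (located_proj β (by simpa) (by simpa)) hβ h1 h2 hn hf

lemma exists_trf (a : Letter) {β : Proj} (hβ : β ≤ pl a.dom) : ∃ γ : Proj,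
    ∀ (I : Finset Ix) (n : ℕ) (M : Gam), I.card = 5 → n ≤ 800 → Mov a I ∅ n M → ∀ u ∈ UI I,
      γ.f u = M * β.f u * M⁻¹ := by
  have key : ∀ {I : Finset Ix} {u M M' n n'}, I.card = 5 → u ∈ UI I → Mov a I ∅ n M →
      Mov a I ∅ n' M' → n + n' ≤ 900 → M * β.f u * M⁻¹ = M' * β.f u * M'⁻¹ :=
    fun hI hu h1 h2 hn => conj_indep0 hβ hI hu h1.1 h2.1 hn fun y hy i hi => by
      rw [h1.2 y hy i hi, h2.2 y hy i hi]
  have ex : ∀ {I I' : Finset Ix}, I.card = 5 → I'.card = 5 → ∃ M, Mov a (I ∪ I') ∅ 30 M :=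
    fun h h' => exists_mov a (by simp) (card_u5 h h') (by simp)
  have L : ∀ {I I' M}, Mov a (I ∪ I') ∅ 30 M → Mov a I ∅ 30 M :=
    fun h => h.sub Finset.subset_union_left
  have R : ∀ {I I' M}, Mov a (I ∪ I') ∅ 30 M → Mov a I' ∅ 30 M :=
    fun h => h.sub Finset.subset_union_right
  obtain ⟨f, hf⟩ := glue (fun u x => ∃ (I : Finset Ix) (M : Gam), I.card = 5 ∧ u ∈ UI I ∧
      Mov a I ∅ 30 M ∧ x = M * β.f u * M⁻¹)
    (fun I hI u hu => let ⟨M, h⟩ := ex hI hI; ⟨_, I, M, hI, hu, L h, rfl⟩)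
    (fun u x ⟨I, _, h1, h2, _⟩ => ⟨I, h1, h2⟩)
    (by
      rintro u _ _ ⟨I, M, a1, a2, a3, rfl⟩ ⟨I', M', b1, b2, b3, rfl⟩
      obtain ⟨N, hN⟩ := ex a1 b1
      rw [key a1 a2 a3 (L hN) (by omega), key b1 b2 b3 (R hN) (by omega)])
    (by
      rintro I hI u hu v hv _ _ ⟨I1, M, a1, a2, a3, rfl⟩ ⟨I2, M', b1, b2, b3, rfl⟩
      obtain ⟨N, hN⟩ := ex a1 hI
      obtain ⟨N', hN'⟩ := ex b1 hI
      refine ⟨I, N, hI, mul_mem hu hv, R hN, ?_⟩
      rw [key a1 a2 a3 (L hN) (by omega), key b1 b2 b3 (L hN') (by omega),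
        key hI hv (R hN') (R hN) (by omega), map_mul]
      group)
    (by
      rintro u _ v _ ⟨I, M, a1, a2, a3, rfl⟩ ⟨I', M', b1, b2, b3, rfl⟩
      obtain ⟨N, hN⟩ := ex a1 b1
      refine ⟨I'.image (qq u), N, by rw [Finset.card_image_of_injective _ (qq u).injective, b1],
        UI_conj u b2, hN.sub (Finset.image_subset_iff.2 fun i hi => ?_), ?_⟩
      · by_cases h : i ∈ I
        · exact Finset.mem_union_left _ (Alt_maps (UI_q a2) h)
        · rw [Alt_fix (UI_q a2) h]; exact Finset.mem_union_right _ hi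
      · rw [key a1 a2 a3 (L hN) (by omega), key b1 b2 b3 (R hN) (by omega), map_mul, map_mul,
          map_inv]
        group)
  have spec : ∀ (I : Finset Ix) (n : ℕ) (M : Gam), I.card = 5 → n ≤ 800 → Mov a I ∅ n M →
      ∀ u ∈ UI I, f u = M * β.f u * M⁻¹ := fun I n M h1 h2 h3 u hu => by
    obtain ⟨N, hN⟩ := ex h1 h1
    rw [hf u _ ⟨I, N, h1, hu, L hN, rfl⟩, key h1 hu (L hN) h3 (by omega)]
  refine ⟨⟨f, fun u v => ?_, fun I J h1 h2 h3 u hu => ?_⟩, spec⟩
  · refine DFunLike.congr_fun (hom_ext5 (f := (MulAut.conj (al u)).toMonoidHom.comp f)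
      (g := f.comp (MulAut.conj u).toMonoidHom) fun I hI v hv => ?_) v
    obtain ⟨N, ⟨s, J, j1, -, j3⟩, m⟩ := ex hI hI
    have hN : Mov a (I.image (qq u)) ∅ 32 (al u * N * (al u)⁻¹) := by
      refine ⟨⟨((short_wu _ u).mul s).mul (short_wu _ u).inv, J.image (qq u),
        Finset.card_image_le.trans (by omega), by simp, GJ_conj u j3⟩, fun x hx i hi => ?_⟩
      obtain ⟨j, hj, rfl⟩ := Finset.mem_image.1 hi
      rw [← map_inv, map_mul, map_mul, Perm.mul_apply, Perm.mul_apply, piG_al u⁻¹, map_inv,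
        Perm.coe_inv, symm_apply_apply, m x hx j (by simp [hj]), piG_al]
    change al u * f v * (al u)⁻¹ = f (u * v * u⁻¹)
    rw [spec I 30 N hI (by omega) (L ⟨⟨s, J, j1, by simp, j3⟩, m⟩) v hv,
      spec _ 32 _ (by rw [Finset.card_image_of_injective _ (qq u).injective, hI]) (by omega) hN _
        (UI_conj u hv), ← β.eqv]
    group
  · obtain ⟨M, m1, m2⟩ := exists_mov_in a (I := I) (P := ∅) (J := J) (by simp) (by simpa)
      (by simp; omega)
    rw [spec I _ M h1 (by omega) m2 u hu]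
    exact mul_mem (mul_mem m1 (β.loc I J h1 h2 h3 u hu)) (inv_mem m1)

open Classical in
/-- transport of projections -/
noncomputable def trP (a : Letter) (β : Proj) : Proj :=
  if h : β ≤ pl a.dom then (exists_trf a h).choose else 0

lemma trP_spec {a : Letter} {β : Proj} (hβ : β ≤ pl a.dom) {I : Finset Ix} {n : ℕ} {M : Gam}
    (hI : I.card = 5) (hn : n ≤ 800) (hM : Mov a I ∅ n M) {u} (hu : u ∈ UI I) :
    (trP a β).f u = M * β.f u * M⁻¹ := by
  rw [trP, dif_pos hβ]; exact (exists_trf a hβ).choose_spec I n M hI hn hM u hu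

end Vale.Agent.P196
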