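import Vale.Agent.P196.RigB

/-! Loops act trivially on states near the base point. -/

namespace Vale.Agent.P196

open QL

variable {Q H : Type} [QL Q]

lemma St.loc_run {M : Model Q} (S : St M.toPreModel H) (p : List Letter) {V} (hV : InB V)
    (ho : ∀ x ∈ V, Ok p x) {h} (hh : S.loc h (M.r V)) : 
    S.loc (S.run p h) (M.r (P196.run p '' V)) := by
  induction p generalizing V h with
  | nil => rwa [show P196.run [] '' V = V from Set.image_id V]
  | cons a p ih =>
    have hd : ∀ x ∈ V, lab x ∈ a.dom := fun x hx => (ho x hx).1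
    have := ih (hV.im_act a hd) (by rintro _ ⟨x, hx, rfl⟩; exact (ho x hx).2)
      (S.step a hh (M.r_le hV hd) (eqA a M V hV hd))
    rwa [← Set.image_comp] at this

variable (Q H) in
/-- two paths agree at `x` and act in the same way on all states near `x` -/
def Ge (x : Om) (p q : List Letter) : Prop :=
  Ok p x ∧ Ok q x ∧ run p x = run q x ∧ ∃ k, ∀ (M : Model Q) (S : St M.toPreModel H), S.OK →
    ∀ h, S.loc h (M.r (cls k x)) → S.run p h = S.run q h

lemma St.loc_cls {M : Model Q} (S : St M.toPreModel H) {k k' x h} (hk : k ≤ k')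
    (hh : S.loc h (M.r (cls k' x))) : S.loc h (M.r (cls k x)) :=
  S.mono _ _ _ hh (M.r_mono (inB_cls _ _) (inB_cls _ _) fun _ h => Sim.mono hk h)

namespace Ge

variable {x : Om} {p q t : List Letter}

lemma refl (h : Ok p x) : Ge Q H x p p := ⟨h, h, rfl, 0, fun _ _ _ _ _ => rfl⟩
lemma symm (h : Ge Q H x p q) : Ge Q H x q p :=
  let ⟨a, b, c, k, d⟩ := h; ⟨b, a, c.symm, k, fun M S o h l => (d M S o h l).symm⟩
lemma trans (h : Ge Q H x p q) (h' : Ge Q H x q t) : Ge Q H x p t :=
  let ⟨a, _, c, k, d⟩ := h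
  let ⟨_, b, c', k', d'⟩ := h'
  ⟨a, b, c.trans c', max k k', fun M S o h l => (d M S o h (S.loc_cls (le_max_left _ _) l)).trans
    (d' M S o h (S.loc_cls (le_max_right _ _) l))⟩

lemma right (h : Ge Q H x p q) (ht : Ok t (run p x)) : Ge Q H x (p ++ t) (q ++ t) :=
  let ⟨a, b, c, k, d⟩ := h
  ⟨by simp [a, ht], by simp [b, ← c, ht], by simp [c], k, fun M S o h l => by
    rw [S.run_append, S.run_append, d M S o h l]⟩

lemma left (ht : Ok t x) (h : Ge Q H (run t x) p q) : Ge Q H x (t ++ p) (t ++ q) := by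
  obtain ⟨a, b, c, k, d⟩ := h
  obtain ⟨k', e⟩ := run_cont t k
  refine ⟨by simp [a, ht], by simp [b, ht], by simp [c], k', fun M S o h l => ?_⟩
  have ho : ∀ y ∈ cls k' x, Ok t y := fun y hy => (e x y ht hy).1
  rw [S.run_append, S.run_append]
  refine d M S o _ (S.mono _ _ _ (S.loc_run t (inB_cls _ _) ho l)
    (M.r_mono ((inB_cls _ _).im_run t ho) (inB_cls _ _) ?_))
  rintro _ ⟨y, hy, rfl⟩
  exact (e x y ht hy).2

lemma cancel {a : Letter} (h : lab x ∈ a.dom) : Ge Q H x [a, a.inv] [] :=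
  ⟨⟨h, act_dom h, trivial⟩, trivial, act_inv h, 0, fun M S _ h' l => S.act_inv a h'
    (S.mono _ _ _ l (M.r_le (inB_cls _ _) fun y hy => by rw [← Sim.lab hy]; exact h))⟩

lemma rel {W} (hr : Rel W p q) (h : lab x ∈ W) : Ge Q H x p q :=
  let ⟨a, b, c⟩ := hr.classical h
  ⟨a, b, c, 0, fun M S o h' l => o _ _ _ hr h'
    (S.mono _ _ _ l (M.r_le (inB_cls _ _) fun y hy => by rw [← Sim.lab hy]; exact h))⟩

lemma phi (h : Ge Q H x p q) : Ge Q H (i0 x) (phi p) (phi q) := by
  obtain ⟨a, b, c, k, d⟩ := h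
  obtain ⟨k', e⟩ := (inB_cls k x).im_i0.cls_sub ⟨x, mem_cls k x, rfl⟩
  refine ⟨(phi_ok a).1, (phi_ok b).1, by rw [(phi_ok a).2, (phi_ok b).2, c], k',
    fun M S o h l => ?_⟩
  rw [← S.phi_run, ← S.phi_run]
  refine d M.phi S.phi (S.phi_ok o) h ?_
  rw [M.lv (inB_cls _ _)]
  exact S.mono _ _ _ l (M.r_mono (inB_cls _ _) (inB_cls k x).im_i0 (e k' le_rfl))

lemma pinv (h : Ok p x) : Ge Q H x (p ++ pinv p) [] := by
  induction p generalizing x with
  | nil => exact refl trivial
  | cons a p ih =>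
    have h1 := left (t := [a]) ⟨h.1, trivial⟩ ((ih h.2).right (t := [a.inv])
      (by simpa [(ok_pinv h.2).2] using act_dom h.1))
    rw [pinv_cons]
    exact (by simpa using h1 : Ge Q H x (a :: p ++ (P196.pinv p ++ [a.inv])) [a, a.inv]).trans
      (cancel h.1)

/-- inverting a square -/
lemma flip {a : Letter} {τ τ' c : List Letter} (h : Ge Q H x (a :: τ') (τ ++ c)) :
    Ge Q H (a.act x) (a.inv :: τ) (τ' ++ P196.pinv c) := by
  have ha : lab x ∈ a.dom := h.1.1
  have h2 := (ok_append _ _ _).1 h.2.1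
  have o : Ok [a.inv] (a.act x) := ⟨act_dom ha, trivial⟩
  have e : run [a.inv] (a.act x) = x := act_inv ha
  have o2 : Ok (P196.pinv c) (run (a :: τ') x) := by
    rw [h.2.2.1, run_append]; exact (ok_pinv h2.2).1
  have s1 := left o (e.symm ▸ (left h2.1 (pinv (Q := Q) (H := H) h2.2)).symm)
  have s2 := left o (e.symm ▸ (h.right o2).symm)
  have s3 := (cancel (Q := Q) (H := H) (act_dom ha)).right (t := τ' ++ P196.pinv c)
    (by simpa [act_inv ha] using ⟨h.1.2, o2⟩)
  simp only [Letter.inv_inv, List.append_nil, List.cons_append, List.nil_append,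
    List.append_assoc] at s1 s2 s3
  exact (s1.trans s2).trans s3

/-- transporting a path along squares -/
lemma ladder (A : Letter → Prop) (τ : Om → List Letter) (I : Om → Prop) (hτ : ∀ x, Ok (τ x) x)
    (C : Om → List Letter → List Letter → Prop) (F : List Letter → List Letter)
    (hF0 : F [] = []) (hF : ∀ p q, F (p ++ q) = F p ++ F q) (hC0 : ∀ x, C x [] [])
    (hC : ∀ x a c p p', C x [a] c → C (a.act x) p p' → C x (a :: p) (c ++ p'))
    (h1 : ∀ x a, I x → A a → lab x ∈ a.dom → I (a.act x) ∧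
      ∃ c, C x [a] c ∧ Ge Q H x (a :: τ (a.act x)) (τ x ++ F c))
    (hp : ∀ a ∈ p, A a) (hI : I x) (ho : Ok p x) :
    ∃ p', C x p p' ∧ Ge Q H x (p ++ τ (run p x)) (τ x ++ F p') := by
  induction p generalizing x with
  | nil => exact ⟨[], hC0 x, by simpa [hF0] using refl (hτ x)⟩
  | cons a p ih =>
    obtain ⟨i, c, c1, c2⟩ := h1 x a hI (hp a (by simp)) ho.1
    obtain ⟨p', d1, d2⟩ := ih (fun b hb => hp b (by simp [hb])) i ho.2
    refine ⟨c ++ p', hC _ _ _ _ _ c1 d1, ?_⟩
    have s1 := left (t := [a]) ⟨ho.1, trivial⟩ d2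
    have s2 := c2.right (t := F p') ((ok_append _ _ _).1 d2.2.1).2
    simp only [List.cons_append, List.nil_append, List.append_assoc] at s1 s2
    rw [hF]
    exact s1.trans s2

lemma of_conj {τ c : List Letter} (h : Ge Q H x (p ++ τ) (τ ++ c)) (hp : run p x = x)
    (hc : Ge Q H (run τ x) c []) : Ge Q H x p [] := by
  have h1 := (ok_append _ _ _).1 h.1
  rw [hp] at h1
  have s1 := left h1.1 (hp.symm ▸ (pinv (Q := Q) (H := H) h1.2).symm)
  have s2 := (h.trans (left h1.2 hc)).right (t := P196.pinv τ)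
    (by simpa [hp] using (ok_pinv h1.2).1)
  simp only [List.append_nil, List.append_assoc] at s1 s2
  exact (s1.trans s2).trans (pinv h1.2)

end Ge

/-- moves along the line -/
def mv (σ : Bool) (x : Om) : Letter :=
  if (x 1).2.inf || (x 1).1 then (if σ then .Ti else if (lab x).s then .E else .T)
  else (if σ then (if (lab x).s then .E else .T) else .Ti)

/-- coordinate on the line -/
def crd (x : Om) : ℤ := if (x 1).2.inf || (x 1).1 then (x 1).2.v - 1 else -(x 1).2.v

/-- monotone paths -/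
def pth (σ : Bool) : ℕ → Om → List Letter
  | 0, _ => []
  | n + 1, x => mv σ x :: pth σ n ((mv σ x).act x)

lemma inf_ne {g : L} (h : g.inf = true) : g ≠ L.one := fun e => by simp [e] at h

lemma mv_spec (σ : Bool) {x : Om} (h : (x 0).2.inf = true) : lab x ∈ (mv σ x).dom ∧
    (((mv σ x).act x) 0).2.inf = true ∧ mv (!σ) ((mv σ x).act x) = (mv σ x).inv ∧
    crd ((mv σ x).act x) = crd x + if σ then 1 else -1 := by
  obtain ⟨e0, g0, e1, g1, e2, g2, z, rfl⟩ := om_cases x
  have h0 := inf_ne h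
  by_cases h1 : g1 = L.one
  · subst h1
    cases σ <;> cases e1 <;> simp_all [mv, crd, act_cons, lab_cons, Letter.dom, Letter.inv]
  · have h2 := L.pred_v h1
    cases σ <;> cases e1 <;> cases hi : g1.inf <;>
      simp_all [mv, crd, act_cons, lab_cons, Letter.dom, Letter.inv] <;> omega

lemma mv_surj {x : Om} {a : Letter} (ha : a = .T ∨ a = .Ti ∨ a = .E) (h : lab x ∈ a.dom) :
    ∃ σ, a = mv σ x := by
  rcases ha with rfl | rfl | rfl <;> cases hi : ((x 1).2.inf || (x 1).1) <;>
    simp_all [mv, Letter.dom]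

lemma crd_pth (σ n) {x : Om} (h : (x 0).2.inf = true) :
    crd (run (pth σ n x) x) = crd x + n * if σ then 1 else -1 := by
  induction n generalizing x with
  | zero => simp [pth]
  | succ n ih => rw [pth, run_cons, ih (mv_spec σ h).2.1, (mv_spec σ h).2.2.2]; push_cast; ring

lemma line_nf {p : List Letter} (hp : ∀ a ∈ p, a = .T ∨ a = .Ti ∨ a = .E) {x : Om}
    (h : (x 0).2.inf = true) (ho : Ok p x) : ∃ σ n, Ge Q H x p (pth σ n x) := by
  induction p generalizing x with
  | nil => exact ⟨true, 0, Ge.refl trivial⟩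
  | cons a p ih =>
    obtain ⟨σ, rfl⟩ := mv_surj (hp a (by simp)) ho.1
    obtain ⟨m1, m2, m3, -⟩ := mv_spec σ h
    obtain ⟨σ', n, g⟩ := ih (fun b hb => hp b (by simp [hb])) m2 ho.2
    have s1 := Ge.left (t := [mv σ x]) ⟨m1, trivial⟩ g
    by_cases e : σ' = σ
    · exact ⟨σ, n + 1, e ▸ s1⟩
    obtain rfl : σ' = !σ := by cases σ <;> simp_all
    cases n with
    | zero => exact ⟨σ, 1, s1⟩
    | succ n =>
      refine ⟨!σ, n, s1.trans ?_⟩
      have o := s1.2.1
      simp only [pth, m3, act_inv m1, List.cons_append, List.nil_append] at o ⊢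
      exact (Ge.cancel m1).right (by simpa [act_inv m1] using o.2.2)

lemma line_loop {p : List Letter} (hp : ∀ a ∈ p, a = .T ∨ a = .Ti ∨ a = .E) {x : Om}
    (h : (x 0).2.inf = true) (ho : Ok p x) (hl : run p x = x) : Ge Q H x p [] := by
  obtain ⟨σ, n, g⟩ := line_nf (Q := Q) (H := H) hp h ho
  have := crd_pth σ n h
  rw [← g.2.2.1, hl] at this
  obtain rfl : n = 0 := by cases σ <;> simp at this <;> omega
  exact g

/-- letters other than `P` -/
def NoP : Letter → Prop
  | .P _ => False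
  | .Pi _ => False
  | _ => True

/-- rungs of the ladder -/
def rung (x : Om) : List Letter :=
  if (lab x).h = .un then [.S] else if (lab x).h = .ut ∧ (lab x).e2 = true then [.Q] else []

lemma rung_ok (x) : Ok (rung x) x := by
  unfold rung
  split_ifs with h1 h2
  exacts [⟨h1, trivial⟩, ⟨h2.1, trivial⟩, trivial]

lemma rung_sq {x : Om} {a : Letter} (ha : a = .T ∨ a = .E ∨ a = .S ∨ a = .Q) (h : lab x ∈ a.dom) :
    ∃ c, (∀ b ∈ c, b = .T ∨ b = .Ti ∨ b = .E) ∧ Ge Q H x (a :: rung (a.act x)) (rung x ++ c) := by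
  have r1 : Ge Q H x [a] [a] := Ge.refl ⟨h, trivial⟩
  rcases ha with rfl | rfl | rfl | rfl
  · have e : rung (Letter.T.act x) = rung x := by simp [rung, lab, Letter.act, i0, d1, d0]
    refine ⟨[.T], by simp, ?_⟩
    rw [e, rung]
    split_ifs with h1 h2
    exacts [Ge.rel .R4 ⟨h1, h⟩, Ge.rel .R5 ⟨h2.1, h⟩, r1]
  · have e : rung (Letter.E.act x) = rung x := by simp [rung, lab_E, Lab.f1]
    rw [e, rung]
    split_ifs with h1 h2
    exacts [⟨[.T, .E, .Ti], by simp, Ge.rel .R7 ⟨h1, h⟩⟩, ⟨[.E], by simp, Ge.rel .R6 ⟨h2.1, h⟩⟩,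
      ⟨[.E], by simp, r1⟩]
  · have e : rung (Letter.S.act x) = [] := by simp [rung, lab, Letter.act]
    rw [e, rung, if_pos (show (lab x).h = .un from h)]
    exact ⟨[], by simp, r1⟩
  · have h' : (lab x).h = .ut := h
    refine ⟨[], by simp, ?_⟩
    cases h2 : (lab x).e2 <;> simp only [rung, lab_Q, Lab.f2, h', h2] <;> simp
    exacts [Ge.cancel (a := .Q) h, r1]

lemma pers_loop {p : List Letter} (hp : ∀ a ∈ p, NoP a) {x : Om} (h : (x 0).2.inf = true)
    (ho : Ok p x) (hl : run p x = x) : Ge Q H x p [] := by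
  have inv : ∀ {c : List Letter}, (∀ b ∈ c, b = .T ∨ b = .Ti ∨ b = .E) →
      ∀ b ∈ pinv c, b = .T ∨ b = .Ti ∨ b = .E := by
    intro c hc b hb
    simp only [pinv, List.mem_reverse, List.mem_map] at hb
    obtain ⟨a, ha, rfl⟩ := hb
    rcases hc a ha with rfl | rfl | rfl <;> simp [Letter.inv]
  obtain ⟨p', h1, h2⟩ := Ge.ladder (Q := Q) (H := H) NoP rung (fun _ => True) rung_ok
    (fun _ _ c => ∀ b ∈ c, b = .T ∨ b = .Ti ∨ b = .E) id rfl (fun _ _ => rfl) (by simp)
    (fun _ _ _ _ _ h h' b hb => (List.mem_append.1 hb).elim (h b) (h' b))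
    (fun x a _ ha hd => ⟨trivial, by
      have fl : ∀ a : Letter, (a.inv = .T ∨ a.inv = .E ∨ a.inv = .S ∨ a.inv = .Q) → lab x ∈ a.dom →
          ∃ c, (∀ b ∈ c, b = .T ∨ b = .Ti ∨ b = .E) ∧
            Ge Q H x (a :: rung (a.act x)) (rung x ++ c) := fun a h1 h2 => by
        obtain ⟨c, c1, c2⟩ := rung_sq (Q := Q) (H := H) h1 (act_dom h2)
        have := c2.flip
        rw [act_inv h2, Letter.inv_inv] at this
        exact ⟨_, inv c1, this⟩
      cases a
      exacts [rung_sq (by simp) hd, fl _ (by simp [Letter.inv]) hd, rung_sq (by simp) hd,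
        rung_sq (by simp) hd, fl _ (by simp [Letter.inv]) hd, rung_sq (by simp) hd, ha.elim,
        ha.elim]⟩) hp trivial ho
  rw [hl] at h2
  have o := (ok_append _ _ _).1 h2.2.1
  refine h2.of_conj hl (line_loop h1 ?_ o.2 ?_)
  · unfold rung
    split_ifs <;> simpa [Letter.act] using h
  · have := h2.2.2.1
    simp only [run_append, hl] at this
    exact this.symm

/-- weights -/
def wt : Letter → ℕ
  | .P _ => 1 | .Pi _ => 1 | .T => 2 | .Ti => 2 | .E => 3 | .S => 3 | .Si => 3 | .Q => 4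

/-- weight of a path -/
def wtp (p : List Letter) : ℕ := (p.map wt).sum

/-- the canonical path to `i0` of the tail -/
def tau (x : Om) : List Letter := if (lab x).b then [.P (lab x).e0] else []

/-- removing the first digit -/
def tail (x : Om) : Om := if (lab x).b then tl x else d0 x

lemma tau_ok (x) : Ok (tau x) x ∧ run (tau x) x = i0 (tail x) := by
  unfold tau tail
  cases h : (lab x).b
  · simp [i0_d0 h]
  · simp [Letter.dom, h, Letter.act]

/-- the relation between a path and its image one level down -/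
def Down (x : Om) (p p' : List Letter) : Prop :=
  Ok p' (tail x) ∧ run p' (tail x) = tail (run p x) ∧ (wtp p' < wtp p ∨
    (p' = p ∧ (∀ a ∈ p, NoP a) ∧ (p = [] ∨ ((lab x).b = false ∧ (lab (run p x)).b = false))))

lemma down_sq {x : Om} {a : Letter} (ha : a = .T ∨ a = .E ∨ a = .S ∨ a = .Q ∨ ∃ ε, a = .P ε)
    (h : lab x ∈ a.dom) :
    ∃ c, Down x [a] c ∧ Ge Q H x (a :: tau (a.act x)) (tau x ++ phi c) := by
  have r1 : Ge Q H x [a] [a] := Ge.refl ⟨h, trivial⟩
  obtain ⟨e0, g0, e1, g1, e2, g2, z, rfl⟩ := om_cases x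
  by_cases hb : g0 = L.one
  · subst hb
    rcases ha with rfl | rfl | rfl | rfl | ⟨ε, rfl⟩
    · refine ⟨[.Pi e0], ?_, ?_⟩
      · simp_all [Down, tail, wtp, wt, lab, Letter.act, Letter.dom, i0, d0, d1, ie]
      · have := ((Ge.cancel (Q := Q) (H := H) (a := .P e0)
          (x := cons (e0, L.one) (cons (e1, g1) (cons (e2, g2) z)))
          (by simp [Letter.dom, lab_cons])).right
          (t := [.T]) (by simpa [Letter.act, Letter.inv, ie, d0_i0R] using h)).symm
        simpa [tau, lab, Letter.act, i0, phi, phiL, Letter.inv] using this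
    · obtain rfl : g1 = L.one := by simpa [Letter.dom, lab] using h
      refine ⟨[.P e1, .Pi (!e1)], ?_, ?_⟩
      · simp [Down, tail, wtp, wt, lab, Letter.act, Letter.dom, i0, d0, ie, fl]
      · have := Ge.rel (Q := Q) (H := H) (.R3 e0 e1)
          (x := cons (e0, L.one) (cons (e1, L.one) (cons (e2, g2) z))) (by simp [lab_cons])
        simpa [tau, lab, Letter.act, phi, phiL] using this
    · obtain ⟨rfl, h2⟩ : e0 = true ∧ g2 ≠ L.one := by simpa [Letter.dom, lab] using h
      refine ⟨[.T], ?_, ?_⟩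
      · simp [Down, tail, wtp, wt, lab, Letter.act, Letter.dom, h2]
      · have := (Ge.rel (Q := Q) (H := H) .R1 ⟨by simp [lab_cons], h⟩).symm
        simpa [tau, lab, Letter.act, phi, phiL] using this
    · obtain ⟨rfl, rfl⟩ : e0 = true ∧ g2 = L.one := by simpa [Letter.dom, lab] using h
      refine ⟨[.E], ?_, ?_⟩
      · simp [Down, tail, wtp, wt, lab, Letter.act, Letter.dom]
      · have := (Ge.rel (Q := Q) (H := H) .R2 ⟨by simp [lab_cons], h⟩).symm
        simpa [tau, lab, Letter.act, phi, phiL] using this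
    · obtain rfl : e0 = ε := by simpa [Letter.dom, lab] using h
      refine ⟨[], ?_, ?_⟩
      · simp [Down, tail, wtp, wt, lab, Letter.act, i0, d0]
      · simpa [tau, lab, Letter.act, i0, phi] using r1
  · refine ⟨[a], ?_, ?_⟩
    · rcases ha with rfl | rfl | rfl | rfl | ⟨ε, rfl⟩ <;>
        simp_all [Down, tail, lab, Letter.act, Letter.dom, i0, d0, d1, NoP, L.succ_pred]
    · rcases ha with rfl | rfl | rfl | rfl | ⟨ε, rfl⟩
      all_goals first
        | simpa [tau, lab, Letter.act, i0, phi, phiL, hb] using r1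
        | simp [Letter.dom, lab, hb] at h

lemma wt_inv (a : Letter) : wt a.inv = wt a := by cases a <;> rfl
lemma wtp_pinv (p) : wtp (pinv p) = wtp p := by
  simp [wtp, pinv, List.sum_reverse, Function.comp_def, wt_inv]
lemma phi_pinv (p) : pinv (phi p) = phi (pinv p) := by
  induction p with
  | nil => rfl
  | cons a p ih =>
    have : pinv (phiL a) = phiL a.inv := by cases a <;> rfl
    simp only [phi, pinv, List.flatMap_cons, List.map_append, List.reverse_append, List.map_cons,
      List.reverse_cons, List.flatMap_append, List.flatMap_nil, List.append_nil] at *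
    rw [ih, this]

lemma down_path {p : List Letter} {x : Om} (ho : Ok p x) :
    ∃ p', Down x p p' ∧ Ge Q H x (p ++ tau (run p x)) (tau x ++ phi p') := by
  refine Ge.ladder (fun _ => True) tau (fun _ => True) (fun x => (tau_ok x).1) Down phi rfl
    (fun _ _ => List.flatMap_append) (fun x => ⟨trivial, rfl, Or.inr ⟨rfl, by simp, Or.inl rfl⟩⟩)
    ?_ (fun x a _ _ hd => ⟨trivial, ?_⟩) (fun _ _ => trivial) trivial ho
  · rintro x a c p p' ⟨a1, a2, a3⟩ ⟨b1, b2, b3⟩
    refine ⟨by simpa [a1, a2] using b1, by simpa [a2] using b2, ?_⟩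
    have w1 : wtp (c ++ p') = wtp c + wtp p' := by simp [wtp]
    have w2 : wtp (a :: p) = wtp [a] + wtp p := by simp [wtp]
    rcases a3 with a3 | ⟨rfl, a4, a5⟩
    · left
      rcases b3 with b3 | ⟨rfl, -⟩ <;> omega
    rcases b3 with b3 | ⟨rfl, b4, b5⟩
    · left; omega
    refine Or.inr ⟨rfl, by simpa using ⟨by simpa using a4, b4⟩, Or.inr ?_⟩
    obtain ⟨a6, a7⟩ := a5.resolve_left (by simp)
    rcases b5 with rfl | b5
    exacts [⟨a6, a7⟩, ⟨a6, b5.2⟩]
  · have fl : ∀ a : Letter, (a.inv = .T ∨ a.inv = .E ∨ a.inv = .S ∨ a.inv = .Q ∨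
        ∃ ε, a.inv = .P ε) → lab x ∈ a.dom →
        ∃ c, Down x [a] c ∧ Ge Q H x (a :: tau (a.act x)) (tau x ++ phi c) := fun a h1 h2 => by
      obtain ⟨c, ⟨c1, c2, c3⟩, c4⟩ := down_sq (Q := Q) (H := H) h1 (act_dom h2)
      have := c4.flip
      rw [act_inv h2, Letter.inv_inv, phi_pinv] at this
      have e : run [a.inv] (a.act x) = x := act_inv h2
      rw [e] at c2 c3
      have := ok_pinv c1
      refine ⟨pinv c, ⟨c2 ▸ this.1, c2 ▸ this.2, ?_⟩, ‹_›⟩
      rcases c3 with c3 | ⟨rfl, c5, c6⟩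
      · left; rw [wtp_pinv]; simpa [wtp, wt_inv] using c3
      · refine Or.inr ⟨by simp [pinv], ?_, Or.inr (c6.resolve_left (by simp)).symm⟩
        cases a <;> simp_all [NoP, Letter.inv]
    cases a
    exacts [down_sq (by simp) hd, fl _ (by simp [Letter.inv]) hd, down_sq (by simp) hd,
      down_sq (by simp) hd, fl _ (by simp [Letter.inv]) hd, down_sq (by simp) hd,
      down_sq (by simp) hd, fl _ (by simp [Letter.inv]) hd]

theorem loop_triv (n : ℕ) : ∀ (p : List Letter) (x : Om), wtp p ≤ n → Ok p x → run p x = x →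
    Ge Q H x p [] := by
  induction n using Nat.strong_induction_on with
  | _ n ih =>
  intro p x hn
  have step : ∀ x p', Down x p p' → Ge Q H x (p ++ tau (run p x)) (tau x ++ phi p') →
      run p x = x → Ge Q H (tail x) p' [] → Ge Q H x p [] := fun x p' _ g hl h => by
    rw [hl] at g
    exact g.of_conj hl ((tau_ok x).2 ▸ h.phi)
  suffices ∀ (m : ℕ) (x : Om), ((x 0).2.inf = false → (x 0).2.v ≤ m) → Ok p x → run p x = x →
      Ge Q H x p [] from this (x 0).2.v.toNat x fun _ => Int.self_le_toNat _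
  intro m
  induction m with
  | zero =>
    intro x hm ho hl
    obtain ⟨p', d, g⟩ := down_path (Q := Q) (H := H) ho
    obtain ⟨d1, d2, d3 | ⟨rfl, d4, -⟩⟩ := id d
    · exact step x p' d g hl (ih _ (d3.trans_le hn) p' _ le_rfl d1 (by rw [d2, hl]))
    · refine pers_loop d4 ?_ ho hl
      by_contra h
      have h' : (x 0).2.inf = false := by simpa using h
      have := hm h'
      have := (x 0).2.pos h'
      omega
  | succ m ihm =>
    intro x hm ho hl
    obtain ⟨p', d, g⟩ := down_path (Q := Q) (H := H) ho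
    obtain ⟨d1, d2, d3 | ⟨rfl, d4, rfl | d5⟩⟩ := id d
    · exact step x p' d g hl (ih _ (d3.trans_le hn) p' _ le_rfl d1 (by rw [d2, hl]))
    · exact Ge.refl trivial
    · refine step x p' d g hl (ihm _ (fun h => ?_) d1 (by rw [d2, hl]))
      have h1 : (x 0).2 ≠ L.one := by simpa [lab] using d5.1
      simp only [tail, d5.1, d0, Bool.false_eq_true, if_false, cons_zero, L.pred_inf,
        L.pred_v h1] at h ⊢
      have := hm h
      push_cast at this
      omega

end Vale.Agent.P196
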