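import Vale.Agent.P196.LocA
import Vale.Agent.P196.PI

/-! The base model. -/

namespace Vale.Agent.P196

open Equiv QL

/-- `γ` is the image of `β` under short words realising `F` over `W` -/
def Img (n : ℕ) (W : Set Lab) (F : Om → Om) (β γ : Proj) : Prop :=
  ∀ I' : Finset Ix, I'.card ≤ 10 → ∃ M, Sm n ∅ M ∧
    (∀ x, lab x ∈ W → ∀ i ∈ I', piG M (x, i) = (F x, i)) ∧
    ∀ I ⊆ I', I.card = 5 → ∀ u ∈ UI I, γ.f u = M * β.f u * M⁻¹

lemma conj_wu_fix {M : Gam} {W : Set Lab} {v : UU} {x y : Om} {i : Ix} (h : piG M (x, i) = (y, i))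
    (hy : lab y ∉ W) : piG (M⁻¹ * wu W v * M) (x, i) = (x, i) := by
  rw [map_mul, map_mul, Perm.mul_apply, Perm.mul_apply, h, piG_wu, bet_not hy, ← h, map_inv]
  simp

lemma Img.le {n W F β γ W'} (h : Img n W F β γ) (hβ : β ≤ pl W) (hn : n ≤ 400)
    (hF : ∀ x, lab x ∈ W → lab (F x) ∈ W') : γ ≤ pl W' := by
  rw [Proj.le_iff, pl_compl]
  refine comm_all _ _ fun I I' hI hI' u hu v hv => ?_
  obtain ⟨M, m1, m2, m3⟩ := h I (by omega)
  have := LL (A := I) (P := ∅) (by simp; omega) (by simp)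
    (located_proj β (by simpa) (by simpa using hu)) hβ
    (((m1.inv.mul (sm_wu W'ᶜ hI' (by simp) hv)).mul m1).mono (by omega))
    fun y hy i hi => conj_wu_fix (m2 y hy i hi) fun h => h (hF y hy)
  rw [m3 I le_rfl hI u hu]
  have e : (pl W'ᶜ).f v = M * (M⁻¹ * wu W'ᶜ v * M) * M⁻¹ := by change wu _ _ = _; group
  rw [e]
  exact this.symm.map (MulAut.conj M)

lemma Img.uniq {n n' W F F' β γ γ'} (h : Img n W F β γ) (h' : Img n' W F' β γ') (hβ : β ≤ pl W)
    (hn : n + n' ≤ 900) (hF : ∀ x, lab x ∈ W → F x = F' x) : γ = γ' := by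
  refine Proj.ext (hom_ext5 fun I hI u hu => ?_)
  obtain ⟨M, m1, m2, m3⟩ := h I (by omega)
  obtain ⟨M', n1, n2, n3⟩ := h' I (by omega)
  rw [m3 I le_rfl hI u hu, n3 I le_rfl hI u hu]
  exact conj_indep0 hβ hI hu m1 n1 hn fun y hy i hi => by rw [m2 y hy i hi, n2 y hy i hi, hF y hy]

lemma Img.lab {n n' W W' F F' γ γ'} (h : Img n W F (pl W) γ) (h' : Img n' W' F' (pl W') γ')
    (hn : n + n' ≤ 900) (hF : F '' (lab ⁻¹' W) = F' '' (lab ⁻¹' W')) : γ = γ' := by
  refine Proj.ext (hom_ext5 fun I hI u hu => ?_)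
  obtain ⟨M, m1, m2, m3⟩ := h I (by omega)
  obtain ⟨M', n1, n2, n3⟩ := h' I (by omega)
  rw [m3 I le_rfl hI u hu, n3 I le_rfl hI u hu]
  refine short_eq ((m1.1.mul (short_wu W u)).mul m1.1.inv)
    ((n1.1.mul (short_wu W' u)).mul n1.1.inv) (by omega) ?_
  simp only [map_mul, map_inv]
  change piG M * piG (wu W u) * _ = piG M' * piG (wu W' u) * _
  rw [piG_wu, piG_wu,
    conj_bet (V := P196.lab ⁻¹' W) (τ := 1) (fun i hi => Alt_fix (UI_q hu) hi) m2,
    conj_bet (V := P196.lab ⁻¹' W') (τ := 1) (fun i hi => Alt_fix (UI_q hu) hi) n2, hF]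

lemma Img.refl (W β) : Img 0 W id β β := fun _ _ =>
  ⟨1, sm_one _, fun _ _ _ _ => by simp, fun _ _ _ _ _ => by simp⟩

lemma Img.step {n W F β γ} (h : Img n W F β γ) (hβ : β ≤ pl W) (hn : n ≤ 400) (a : Letter)
    (hF : ∀ x, P196.lab x ∈ W → P196.lab (F x) ∈ a.dom) :
    Img (30 + n) W (a.act ∘ F) β (trP a γ) := by
  intro I' hI'
  obtain ⟨M, m1, m2, m3⟩ := h I' hI'
  obtain ⟨N, hN⟩ := exists_mov a (P := ∅) (by simp) hI' (by simp)
  refine ⟨N * M, hN.1.mul m1, fun x hx i hi => ?_, fun I hI h5 u hu => ?_⟩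
  · rw [map_mul, Perm.mul_apply, m2 x hx i hi, hN.2 _ (hF x hx) i hi]; rfl
  · rw [trP_spec (h.le hβ hn hF) h5 (by omega) (hN.sub hI) hu, m3 I hI h5 u hu]; group

/-- transport along a path -/
noncomputable def runP : List Letter → Proj → Proj
  | [], q => q
  | a :: p, q => runP p (trP a q)

lemma Img.run {W β} (hβ : β ≤ pl W) (p : List Letter) : ∀ {n F γ}, Img n W F β γ →
    n + 30 * p.length ≤ 400 → (∀ x, P196.lab x ∈ W → Ok p (F x)) →
    Img (n + 30 * p.length) W (P196.run p ∘ F) β (runP p γ) := by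
  induction p with
  | nil => intro n F γ h _ _; exact h
  | cons a p ih =>
    intro n F γ h hn ho
    simp only [List.length_cons] at hn ⊢
    have := ih (h.step hβ (by omega) a fun x hx => (ho x hx).1) (by omega) fun x hx => (ho x hx).2
    rwa [show 30 + n + 30 * p.length = n + 30 * (p.length + 1) by omega] at this

lemma img_run {W β} (hβ : β ≤ pl W) {p : List Letter} (hp : p.length ≤ 5)
    (ho : ∀ x, lab x ∈ W → Ok p x) : Img (0 + 30 * p.length) W (run p) β (runP p β) :=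
  (Img.refl W β).run hβ p (by omega) ho

lemma lab_ax {p q : List Letter} {W W' : Set Lab} (hp : p.length ≤ 5) (hq : q.length ≤ 5)
    (ho : ∀ x, lab x ∈ W → Ok p x) (ho' : ∀ x, lab x ∈ W' → Ok q x)
    (h : run p '' (lab ⁻¹' W) = run q '' (lab ⁻¹' W')) : runP p (pl W) = runP q (pl W') :=
  (img_run le_rfl hp ho).lab (img_run le_rfl hq ho') (by omega) h

lemma lab_ax1 {a : Letter} {A B : Set Lab}
    (h1 : ∀ x, lab x ∈ A → lab x ∈ a.dom ∧ lab (a.act x) ∈ B)
    (h2 : ∀ x, lab x ∈ B → lab x ∈ a.inv.dom ∧ lab (a.inv.act x) ∈ A) : trP a (pl A) = pl B :=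
  lab_ax (p := [a]) (q := []) (by simp) (by simp) (fun x hx => ⟨(h1 x hx).1, trivial⟩)
    (fun _ _ => trivial) ((im_lab h1 h2).trans (Set.image_id _).symm)

lemma trP_orth (a : Letter) {q q' : Proj} (o : orth q q') (h : q ≤ pl a.dom) (h' : q' ≤ pl a.dom) :
    orth (trP a q) (trP a q') := by
  refine comm_all _ _ fun I I' hI hI' u hu v hv => ?_
  obtain ⟨N, hN⟩ := exists_mov a (P := ∅) (by simp) (card_u5 hI hI') (by simp)
  rw [trP_spec h hI (by omega) (hN.sub Finset.subset_union_left) hu,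
    trP_spec h' hI' (by omega) (hN.sub Finset.subset_union_right) hv]
  exact (o u v).map (MulAut.conj N)

lemma trP_add (a : Letter) {q q' : Proj} (o : orth q q') (h : q ≤ pl a.dom) (h' : q' ≤ pl a.dom) :
    trP a (q + q') = trP a q + trP a q' := by
  refine Proj.ext (hom_ext5 fun I hI u hu => ?_)
  obtain ⟨N, hN⟩ := exists_mov a (I := I) (P := ∅) (by simp) (by omega) (by simp)
  rw [Proj.add_f (trP_orth a o h h'), trP_spec h hI (by omega) hN hu,
    trP_spec h' hI (by omega) hN hu, trP_spec (add_le o h h') hI (by omega) hN hu, Proj.add_f o]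
  group

/-- the base premodel -/
noncomputable def baseP : PreModel Proj where
  l := pl
  bh := pl_bh
  tr := trP
  tr_le a q h := (img_run h (p := [a]) (by simp) fun _ hx => ⟨hx, trivial⟩).le h (by simp)
    fun _ hx => act_dom hx
  tr_inv a q h := (img_run h (p := [a, a.inv]) (by simp) fun _ hx => ⟨hx, act_dom hx, trivial⟩).uniq
    (Img.refl _ _) h (by simp) fun _ hx => act_inv hx
  tr_mono a q q' h h' := by
    obtain ⟨c, o, rfl⟩ := exists_sub h
    have h1 := h.trans h'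
    have h2 := (le_add' o).trans h'
    rw [trP_add a o h1 h2]
    exact le_add (trP_orth a o h1 h2)
  tr_orth a q q' := trP_orth a
  T1 Z := lab_ax1 (fun x hx => by simp_all [lab, Letter.dom, Letter.act, i0, d1, d0])
    fun x hx => by simp_all [lab, Letter.dom, Letter.act, Letter.inv, i0, s1, d0]
  E1 W := lab_ax1 (fun x hx => ⟨hx.1, by rw [lab_E]; exact ⟨hx.1, by rw [f1_f1]; exact hx.2⟩⟩)
    fun x hx => ⟨hx.1, by rw [Letter.inv, lab_E]; exact hx⟩
  Q1 W := lab_ax1 (fun x hx => ⟨hx.1, by rw [lab_Q]; exact ⟨hx.1, by rw [f2_f2]; exact hx.2⟩⟩)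
    fun x hx => ⟨hx.1, by rw [Letter.inv, lab_Q]; exact hx⟩
  S1 Z := lab_ax1 (fun x hx => by simp_all [lab, Letter.dom, Letter.act, i0, d1, d0])
    fun x hx => by simp_all [lab, Letter.dom, Letter.act, Letter.inv, i0, s1, d0]
  S2 := lab_ax (p := [.S, .T]) (q := []) (by simp) (by simp)
    (fun x hx => ⟨hx.1, (act_dom (a := .S) hx.1).2, trivial⟩) (fun _ _ => trivial) (by
      ext x
      constructor
      · rintro ⟨x, hx, rfl⟩
        obtain ⟨e0, g0, e1, g1, e2, g2, z, rfl⟩ := om_cases x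
        simp_all [act_cons, lab_cons]
      · rintro ⟨x, hx, rfl⟩
        obtain ⟨e0, g0, e1, g1, e2, g2, z, rfl⟩ := om_cases x
        refine ⟨cons (true, g0.pred) (cons (e1, g1) (cons (e2, g2.succ) z)), ?_, ?_⟩ <;>
          simp_all [act_cons, lab_cons, L.succ_pred])
  P1 ε Z := lab_ax1 (fun x hx => by simp_all [lab, Letter.dom, Letter.act, i0])
    fun x hx => by simp_all [lab, Letter.dom, Letter.act, Letter.inv, ie, d0]
  P2 := lab_ax1 (fun x hx => by simp_all [lab, Letter.dom, Letter.act, i0])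
    fun x hx => by simp_all [lab, Letter.dom, Letter.act, Letter.inv, ie, d0]
  P3 ε := lab_ax (p := [.P ε]) (q := [.T]) (by simp) (by simp)
    (fun x hx => ⟨⟨hx.1, hx.2.1⟩, trivial⟩) (fun x hx => ⟨hx.2, trivial⟩) (by
      ext x
      constructor
      · rintro ⟨x, hx, rfl⟩
        obtain ⟨e0, g0, e1, g1, e2, g2, z, rfl⟩ := om_cases x
        refine ⟨cons (e1, g1) (cons (e2, g2.succ) z), ?_, ?_⟩ <;>
          simp_all [Letter.act, lab, i0, d1, d0]
      · rintro ⟨x, hx, rfl⟩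
        obtain ⟨e0, g0, e1, g1, e2, g2, z, rfl⟩ := om_cases x
        refine ⟨cons (ε, g0) (cons (e0, g0) (cons (e1, g1.pred) (cons (e2, g2) z))), ?_, ?_⟩ <;>
          simp_all [Letter.act, lab, i0, d1, d0])

lemma baseP_run (p q) : baseP.self.run p q = runP p q := by
  induction p generalizing q with
  | nil => rfl
  | cons a p ih => exact ih _

/-- the base model -/
noncomputable def base : Model Proj := ⟨baseP, fun W p p' hr q hq => by
  rw [baseP_run, baseP_run]
  exact (img_run hq hr.length.1 fun _ hx => (hr.classical hx).1).uniq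
    (img_run hq hr.length.2 fun _ hx => (hr.classical hx).2.1) hq
    (by have := hr.length; omega) fun _ hx => (hr.classical hx).2.2⟩

end Vale.Agent.P196
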