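import Vale.Agent.P196.LocB

/-! One-spread states. -/

namespace Vale.Agent.P196

open Equiv QL

lemma card_sing {i : Ix} {P : Finset Ix} (hP : P.card = 4) : ({i} ∪ P).card ≤ 10 :=
  (Finset.card_union_le _ _).trans (by simp; omega)

lemma located_act {a : Letter} {i : Ix} {P : Finset Ix} (hP : P.card = 4) (hi : i ∉ P) {M y β}
    (hM : Mov a {i} P 30 M) (hy : Located y {i} P β) (hβ : β ≤ pl a.dom) :
    Located (M * y * M⁻¹) {i} P (trP a β) := by
  have hd : Disjoint {i} P := by simpa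
  have ind : ∀ {M'}, Mov a {i} P 30 M' → M * y * M⁻¹ = M' * y * M'⁻¹ := fun h =>
    conj_indep (card_sing hP) hd hy hβ hM.1 h.1 (by omega) fun x hx j hj => by
      rw [hM.2 x hx j hj, h.2 x hx j hj]
  refine located_of_compl (card_sing hP) (fun J h1 h2 => ?_) fun K hK hKP u hu => ?_
  · obtain ⟨M', m1, m2⟩ := exists_mov_in a hd h1 (by simp; omega)
    rw [ind ⟨m2.1.mono (by simp), m2.2⟩]
    exact mul_mem (mul_mem m1 (hy.1 J h1 h2)) (inv_mem m1)
  obtain ⟨N, hN⟩ := exists_mov a (I := {i} ∪ K) (P := P) (Finset.disjoint_union_left.2 ⟨hd, hKP⟩)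
    ((Finset.card_union_le _ _).trans (by simp; omega)) (by omega)
  obtain ⟨δ, o, e⟩ := exists_sub hβ
  have hδ : δ ≤ pl a.dom := (le_add' o).trans_eq e
  have e1 : pl a.inv.dom = trP a β + trP a δ := by
    rw [← trP_add a o hβ hδ, e]
    exact (lab_ax1 (fun x hx => ⟨hx, act_dom hx⟩) fun x hx => ⟨hx, by simpa using act_dom hx⟩).symm
  have e2 : (trP a β).compl.f u = (trP a δ).f u * wu a.inv.domᶜ u := by
    have h1 := al_eq (trP a β) u
    rw [al_eq (pl a.inv.dom) u, pl_compl, e1, Proj.add_f (trP_orth a o hβ hδ), mul_assoc] at h1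
    exact (mul_left_cancel h1).symm
  have hN' : Mov a K ∅ 30 N := ⟨hN.1.empty, (hN.sub Finset.subset_union_right).2⟩
  rw [e2, ind (hN.sub Finset.subset_union_left), trP_spec hδ hK (by omega) hN' hu]
  refine Commute.mul_right ((hy.2 δ (orth_symm o) K hK hKP u hu).map (MulAut.conj N)) ?_
  have := LL (card_sing hP) hd hy hβ
    (((hN.1.inv.mul (sm_wu a.inv.domᶜ hK hKP hu)).mul hN.1).mono (by omega))
    fun x hx j hj => conj_wu_fix (hN.2 x hx j (Finset.mem_union_left _ hj)) fun h => h (act_dom hx)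
  have e3 : wu a.inv.domᶜ u = N * (N⁻¹ * wu a.inv.domᶜ u * N) * N⁻¹ := by group
  rw [e3]
  exact this.symm.map (MulAut.conj N)

/-- passive set and base index -/
structure PI where
  P : Finset Ix
  i : Ix
  hP : P.card = 4
  hi : i ∉ P

namespace PI

variable (c : PI)

lemma dj : Disjoint {c.i} c.P := by simpa using c.hi

/-- the chosen movers -/
noncomputable def mv (a : Letter) : Gam :=
  (exists_mov a c.dj (by simp) (by rw [c.hP]; omega)).choose

lemma mv_spec (a : Letter) : Mov a {c.i} c.P 30 (c.mv a) :=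
  (exists_mov a c.dj (by simp) (by rw [c.hP]; omega)).choose_spec

/-- the state space -/
noncomputable def st : St base.toPreModel Gam where
  loc y β := Located y {c.i} c.P β
  mono _ _ _ h h' := h.mono h'
  act a y := c.mv a * y * (c.mv a)⁻¹
  act_loc a _ _ h h' := located_act c.hP c.hi (c.mv_spec a) h h'
  act_inv a y h := by
    have := conj_indep (card_sing c.hP) c.dj h le_rfl ((c.mv_spec a.inv).1.mul (c.mv_spec a).1)
      (sm_one _) (by omega) fun x hx j hj => by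
        rw [map_mul, Perm.mul_apply, (c.mv_spec a).2 x hx j hj,
          (c.mv_spec a.inv).2 _ (act_dom hx) j hj, act_inv hx]; simp
    simpa [mul_assoc] using this

lemma st_run (p : List Letter) : ∃ M, Sm (30 * p.length) c.P M ∧
    (∀ x, Ok p x → piG M (x, c.i) = (run p x, c.i)) ∧ ∀ y, c.st.run p y = M * y * M⁻¹ := by
  induction p with
  | nil => exact ⟨1, sm_one _, fun _ _ => by simp, fun _ => by simp⟩
  | cons a p ih =>
    obtain ⟨M, m1, m2, m3⟩ := ih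
    refine ⟨M * c.mv a, (m1.mul (c.mv_spec a).1).mono (by simp; omega), fun x hx => ?_, fun y => ?_⟩
    · rw [map_mul, Perm.mul_apply, (c.mv_spec a).2 x hx.1 _ (by simp), m2 _ hx.2]; rfl
    · rw [St.run_cons, m3]
      change M * (c.mv a * y * (c.mv a)⁻¹) * M⁻¹ = _
      group

lemma st_ok : c.st.OK := fun W p p' hr y hy => by
  obtain ⟨M, m1, m2, m3⟩ := c.st_run p
  obtain ⟨M', n1, n2, n3⟩ := c.st_run p'
  rw [m3, n3]
  refine conj_indep (card_sing c.hP) c.dj hy le_rfl m1 n1 (by have := hr.length; omega)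
    fun x hx j hj => ?_
  obtain ⟨a, b, e⟩ := hr.classical hx
  rw [Finset.mem_singleton.1 hj, m2 x a, n2 x b, e]

lemma exists_nm (i : Ix) : ∃ v : UU, i ∉ c.P → Sm 3 c.P (al v) ∧ qq v c.i = i ∧
    ∀ j ∈ c.P, qq v j = j := by
  by_cases hi : i ∈ c.P
  · exact ⟨1, fun h => absurd hi h⟩
  by_cases e : i = c.i
  · exact ⟨1, fun _ => ⟨by simpa using (sm_one _).mono (by omega), by simp [e], by simp⟩⟩
  obtain ⟨F, f1, f2⟩ := fresh (insert i (insert c.i c.P)) 1 (by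
    have := Finset.card_insert_le i (insert c.i c.P)
    have := Finset.card_insert_le c.i c.P
    have := c.hP; omega)
  obtain ⟨f, rfl⟩ := Finset.card_eq_one.1 f1
  simp only [Finset.disjoint_singleton_left, Finset.mem_insert, not_or] at f2
  have d : D3 c.i i f := ⟨Ne.symm e, Ne.symm f2.2.1, Ne.symm f2.1⟩
  obtain ⟨v, hv⟩ := qq_surj (cyc_mem_Alt (Finset.mem_univ _) (Finset.mem_univ _)
    (Finset.mem_univ _) d)
  refine ⟨v, fun _ => ⟨⟨(short_wu _ v).mono (by omega), {c.i, i, f}, Finset.card_le_three, ?_,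
    wu_mem (hv ▸ cyc_mem_Alt (by simp) (by simp) (by simp) d)⟩, hv ▸ cyc_1 d, fun j hj => ?_⟩⟩
  · simp [c.hi, hi, f2.2.2]
  · rw [hv]
    exact cyc_0 (fun h => c.hi (h ▸ hj)) (fun h => hi (h ▸ hj)) fun h => f2.2.2 (h ▸ hj)

/-- index normalisers -/
noncomputable def nm (i : Ix) : Gam := al (c.exists_nm i).choose

lemma nm_sm {i} (hi : i ∉ c.P) : Sm 3 c.P (c.nm i) := ((c.exists_nm i).choose_spec hi).1
lemma nm_act {i} (hi : i ∉ c.P) (x : Om) : piG (c.nm i) (x, c.i) = (x, i) := by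
  rw [nm, piG_al, ((c.exists_nm i).choose_spec hi).2.1]

lemma nm_loc {i} (hi : i ∉ c.P) {y β} (hy : Located y {c.i} c.P β) :
    Located (c.nm i * y * (c.nm i)⁻¹) {i} c.P β := by
  obtain ⟨-, h1, h2⟩ := (c.exists_nm i).choose_spec hi
  rw [nm]
  generalize (c.exists_nm i).choose = v at h1 h2
  have inj := (qq v⁻¹).injective
  have back : ∀ j, qq v (qq v⁻¹ j) = j := fun j => by simp
  refine ⟨fun J j1 j2 => GJ_mono ?_ (GJ_conj v (hy.1 (J.image (qq v⁻¹)) ?_ ?_)),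
    fun γ hγ K hK hd u hu => ?_⟩
  · intro j hj
    simp only [Finset.mem_image] at hj
    obtain ⟨_, ⟨k, hk, rfl⟩, rfl⟩ := hj
    rwa [back]
  · intro j hj
    refine Finset.mem_image.2 ⟨qq v j, j1 ?_, by simp⟩
    rcases Finset.mem_union.1 hj with h | h
    · rw [Finset.mem_singleton.1 h, h1]; simp
    · rw [h2 j h]; exact Finset.mem_union_right _ h
  · rwa [Finset.card_image_of_injective _ inj]
  · have := hy.2 γ hγ _ (by rw [Finset.card_image_of_injective _ inj, hK])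
      (Finset.disjoint_left.2 fun j hj hj' => by
        obtain ⟨k, hk, rfl⟩ := Finset.mem_image.1 hj
        have := h2 _ hj'
        rw [back] at this
        exact Finset.disjoint_left.1 hd hk (this ▸ hj')) _ (UI_conj v⁻¹ hu)
    have e : γ.f u = al v * γ.f (v⁻¹ * u * v⁻¹⁻¹) * (al v)⁻¹ := by rw [γ.eqv]; congr 1; group
    rw [e]
    exact this.map (MulAut.conj (al v))

lemma nm_self {y β} (hy : Located y {c.i} c.P β) : c.nm c.i * y * (c.nm c.i)⁻¹ = y := by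
  have h : β ≤ pl Set.univ := by
    rw [Proj.le_iff, pl_compl, Set.compl_univ, pl_bh.empty]; exact orth_zero β
  simpa using conj_indep (card_sing c.hP) c.dj hy h (c.nm_sm c.hi) (sm_one _) (by omega)
    fun x _ j hj => by rw [Finset.mem_singleton.1 hj, c.nm_act c.hi]; simp

end PI

/-- conjugation by `m` acts on states by paths -/
def SP (J : Finset Ix) (m : Gam) : Prop :=
  ∀ x₀ i, ∃ k p i', (∀ x, Sim k x₀ x → Ok p x ∧ piG m (x, i) = (run p x, i')) ∧
    ∀ c : PI, Disjoint c.P J → i ∉ c.P → i' ∉ c.P ∧ ∀ V, InB V → V ⊆ cls k x₀ →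
      ∀ y, Located y {c.i} c.P (base.r V) →
        m * (c.nm i * y * (c.nm i)⁻¹) * m⁻¹ = c.nm i' * c.st.run p y * (c.nm i')⁻¹

lemma SP.mul {J m m'} (h : SP J m) (h' : SP J m') : SP J (m * m') := by
  intro x₀ i
  obtain ⟨k1, p1, i1, a1, a2⟩ := h' x₀ i
  obtain ⟨k2, p2, i2, b1, b2⟩ := h (run p1 x₀) i1
  obtain ⟨k3, e⟩ := run_cont p1 k2
  have o := (a1 x₀ (sim_refl _ _)).1
  refine ⟨max k1 k3, p1 ++ p2, i2, fun x hx => ?_, fun c hc hi => ?_⟩
  · obtain ⟨c1, c2⟩ := a1 x (hx.mono (le_max_left _ _))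
    obtain ⟨d1, d2⟩ := b1 _ (e x₀ x o (hx.mono (le_max_right _ _))).2
    exact ⟨by simp [c1, d1], by rw [map_mul, Perm.mul_apply, c2, d2, run_append]⟩
  obtain ⟨c1, c2⟩ := a2 c hc hi
  obtain ⟨d1, d2⟩ := b2 c hc c1
  refine ⟨d1, fun V hV hs y hy => ?_⟩
  have hs1 : V ⊆ cls k1 x₀ := fun x hx => Sim.mono (le_max_left _ _) (hs hx)
  have ho : ∀ x ∈ V, Ok p1 x := fun x hx => (a1 x (hs1 hx)).1
  rw [St.run_append, ← d2 _ (hV.im_run p1 ho) (by
    rintro _ ⟨x, hx, rfl⟩; exact (e x₀ x o (Sim.mono (le_max_right _ _) (hs hx))).2) _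
    (c.st.loc_run p1 hV ho hy), ← c2 V hV hs1 y hy]
  group

lemma sp_of_step {J J' : Finset Ix} {m : Gam} (hs : Short 3 m) (hJ : J'.card ≤ 3) (hJ' : J' ⊆ J)
    (hm : m ∈ GJ J') (h : ∀ (l : Lab) (i : Ix), ∃ p i', p.length ≤ 1 ∧
      ∀ x, lab x = l → Ok p x ∧ piG m (x, i) = (run p x, i')) : SP J m := by
  intro x₀ i
  obtain ⟨p, i', h1, h2⟩ := h (lab x₀) i
  refine ⟨0, p, i', fun x hx => h2 x hx.lab.symm, fun c hc hi => ?_⟩
  have hd : Disjoint J' c.P := (hc.mono_right hJ').symm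
  have hi' : i' ∉ c.P := fun h => by
    have e := (h2 x₀ rfl).2
    rw [← GJ_fix hm (run p x₀) (Finset.disjoint_right.1 hd h)] at e
    have e2 : i = i' := (Prod.ext_iff.1 ((piG m).injective e)).2
    exact hi (e2 ▸ h)
  refine ⟨hi', fun V hV hs' y hy => ?_⟩
  obtain ⟨M, m1, m2, m3⟩ := c.st_run p
  have := conj_indep (W := {lab x₀}) (card_sing c.hP) c.dj hy
    (base.r_le hV fun x hx => (Sim.lab (hs' hx)).symm)
    (Sm.mul ⟨hs, J', hJ, hd, hm⟩ (c.nm_sm hi)) ((c.nm_sm hi').mul m1) (by omega)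
    fun x hx j hj => by
      rw [Finset.mem_singleton.1 hj, map_mul, map_mul, Perm.mul_apply, Perm.mul_apply, c.nm_act hi,
        (h2 x hx).2, m2 x (h2 x hx).1, c.nm_act hi']
  rw [m3]
  simpa [mul_assoc] using this

lemma cc_loc (a : Letter) {i j k : Ix} (d : D3 i j k) (l : Lab) (m : Ix) :
    (∃ p i', p.length ≤ 1 ∧ ∀ x, lab x = l → Ok p x ∧ cc a i j k (x, m) = (run p x, i')) ∧
    ∃ p i', p.length ≤ 1 ∧ ∀ x, lab x = l → Ok p x ∧ (cc a i j k)⁻¹ (x, m) = (run p x, i') := by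
  simp only [Perm.inv_eq_iff_eq]
  by_cases h1 : m = i ∧ l ∈ a.dom
  · obtain ⟨rfl, h1⟩ := h1
    exact ⟨⟨[a], j, le_rfl, fun x e => ⟨⟨e ▸ h1, trivial⟩, cc_1 d (e ▸ h1)⟩⟩,
      [a], k, le_rfl, fun x e => ⟨⟨e ▸ h1, trivial⟩, by
        rw [run_cons, run_nil, cc_3 d (act_dom (e ▸ h1)), act_inv (e ▸ h1)]⟩⟩
  by_cases h2 : m = j ∧ l ∈ a.inv.dom
  · obtain ⟨rfl, h2⟩ := h2
    refine ⟨⟨[], k, by simp, fun x e => ⟨trivial, cc_2 d (e ▸ h2)⟩⟩,
      [a.inv], i, le_rfl, fun x e => ⟨⟨e ▸ h2, trivial⟩, ?_⟩⟩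
    have h3 := act_dom (e ▸ h2 : lab x ∈ a.inv.dom)
    have h4 := act_inv (e ▸ h2 : lab x ∈ a.inv.dom)
    rw [Letter.inv_inv] at h3 h4
    rw [run_cons, run_nil, cc_1 d h3, h4]
  by_cases h3 : m = k ∧ l ∈ a.inv.dom
  · obtain ⟨rfl, h3⟩ := h3
    exact ⟨⟨[a.inv], i, le_rfl, fun x e => ⟨⟨e ▸ h3, trivial⟩, cc_3 d (e ▸ h3)⟩⟩,
      [], j, by simp, fun x e => ⟨trivial, (cc_2 d (e ▸ h3)).symm⟩⟩
  have : ∀ x, lab x = l → cc a i j k (x, m) = (x, m) := fun x e =>
    cc_0 d (e ▸ h1) fun h => h.1.elim (fun h' => h2 ⟨h', e ▸ h.2⟩) fun h' => h3 ⟨h', e ▸ h.2⟩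
  exact ⟨⟨[], m, by simp, fun x e => ⟨trivial, this x e⟩⟩,
    [], m, by simp, fun x e => ⟨trivial, (this x e).symm⟩⟩

lemma bet_loc (W : Set Lab) (σ : Perm Ix) (l : Lab) (m : Ix) :
    ∃ p i', p.length ≤ 1 ∧ ∀ x, lab x = l → Ok p x ∧ bet (lab ⁻¹' W) σ (x, m) = (run p x, i') := by
  by_cases h : l ∈ W
  · exact ⟨[], σ m, by simp, fun x e => ⟨trivial, bet_mem (by rwa [Set.mem_preimage, e]) _ _⟩⟩
  · exact ⟨[], m, by simp, fun x e => ⟨trivial, bet_not (by rwa [Set.mem_preimage, e]) _ _⟩⟩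

theorem sp_all {J : Finset Ix} {m : Gam} (hm : m ∈ GJ J) : SP J m := by
  have key : ∀ s ∈ ({γ | ∃ W σ, γ = gen (.inl (W, σ)) ∧
      ∃ i ∈ J, ∃ j ∈ J, ∃ k ∈ J, D3 i j k ∧ σ.1 = cyc i j k} ∪
      {γ | ∃ a p, γ = gen (.inr (a, p)) ∧ p.1.1 ∈ J ∧ p.1.2.1 ∈ J ∧ p.1.2.2 ∈ J} : Set Gam),
      SP J s ∧ SP J s⁻¹ := by
    rintro s (⟨W, σ, rfl, i, hi, j, hj, k, hk, d, e⟩ | ⟨a, ⟨⟨i, j, k⟩, d⟩, rfl, hi, hj, hk⟩)
    · have hs : ({i, j, k} : Finset Ix) ⊆ J := by simp [Finset.insert_subset_iff, hi, hj, hk]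
      have hm : gen (.inl (W, σ)) ∈ GJ {i, j, k} := Subgroup.subset_closure
        (Or.inl ⟨W, σ, rfl, i, by simp, j, by simp, k, by simp, d, e⟩)
      exact ⟨sp_of_step ((short_gen _).mono (by omega)) Finset.card_le_three hs hm fun l m => by
          rw [piG_gen]; exact bet_loc W _ l m,
        sp_of_step ((short_gen _).inv.mono (by omega)) Finset.card_le_three hs (inv_mem hm)
          fun l m => by rw [map_inv, piG_gen, evP, ← map_inv]; exact bet_loc W _ l m⟩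
    · have hs : ({i, j, k} : Finset Ix) ⊆ J := by
        simp only [Finset.insert_subset_iff, Finset.singleton_subset_iff]; exact ⟨hi, hj, hk⟩
      have hm : gen (.inr (a, ⟨(i, j, k), d⟩)) ∈ GJ {i, j, k} := Subgroup.subset_closure
        (Or.inr ⟨a, _, rfl, by simp, by simp, by simp⟩)
      exact ⟨sp_of_step ((short_gen _).mono (by omega)) Finset.card_le_three hs hm fun l m => by
          rw [piG_gen]; exact (cc_loc a d l m).1,
        sp_of_step ((short_gen _).inv.mono (by omega)) Finset.card_le_three hs (inv_mem hm)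
          fun l m => by rw [map_inv, piG_gen]; exact (cc_loc a d l m).2⟩
  induction hm using Subgroup.closure_induction'' with
  | mem s hs => exact (key s hs).1
  | inv_mem s hs => exact (key s hs).2
  | one =>
    exact sp_of_step (J' := ∅) (short_one.mono (by omega)) (by simp) (by simp) (one_mem _)
      fun l i => ⟨[], i, by simp, fun x _ => ⟨trivial, by simp⟩⟩
  | mul a b _ _ ha hb => exact ha.mul hb

end Vale.Agent.P196
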