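import Vale.Agent.P196.Grp

/-! Job N: the local form of group elements and the singular points.
See notes/P196.md, part N. -/

namespace Vale.Agent.P196

open Equiv

/-- changes of the first three cells -/
@[ext] structure Dl where
  f0 : Bool
  f1 : Bool
  f2 : Bool
  n0 : ℤ
  n1 : ℤ
  n2 : ℤ

/-- no change -/
def Dl.zero : Dl := ⟨false, false, false, 0, 0, 0⟩

/-- change of one cell -/
def ShC (f : Bool) (n : ℤ) (c c' : Cell) : Prop :=
  c'.1 = xor c.1 f ∧ c'.2.inf = c.2.inf ∧ c'.2.v = c.2.v + n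

/-- `1` for `u`, `0` for `d` -/
def chi (b : Bool) : ℤ := if b then 1 else 0

/-- `z'` arises from `z` by an admissible change `Δ` -/
def DR (Δ : Dl) (z z' : Om) : Prop :=
  ShC Δ.f0 Δ.n0 (z 0) (z' 0) ∧ ShC Δ.f1 Δ.n1 (z 1) (z' 1) ∧ ShC Δ.f2 Δ.n2 (z 2) (z' 2) ∧
    (∀ n, z' (n + 3) = z (n + 3)) ∧ (Δ.f1 = true → (z 1).2.inf = false) ∧
    (Δ.f2 = true → (z 2).2.inf = false) ∧
    ((z 0).2.inf = true → Δ.n2 = chi (z' 0).1 - chi (z 0).1) ∧
    ((z 0).2.inf = true → Δ.f2 = true → (z 0).1 = true ∧ (z 2).2 = L.one)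

/-- the local form -/
def Basic (c c' : List Cell) (Δ : Dl) (x x' : Om) : Prop :=
  FinC c ∧ FinC c' ∧ lvl c = lvl c' + Δ.n0 + Δ.n1 + Δ.n2 ∧
    ∃ z z', x = app c z ∧ x' = app c' z' ∧ DR Δ z z'

/-- some gap is infinite -/
def Sing (x : Om) : Prop := ∃ n, (x n).2.inf = true

open Classical in
/-- position of the first infinite gap -/
noncomputable def mm (x : Om) : ℕ := if h : Sing x then Nat.find h else 0
/-- the part from the first infinite gap on -/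
noncomputable def zz (x : Om) : Om := fun n => x (n + mm x)
/-- the part before the first infinite gap -/
noncomputable def pre (x : Om) : List Cell := List.ofFn fun i : Fin (mm x) => x i
/-- level of the finite part -/
noncomputable def ht (x : Om) : ℕ := (lvl (pre x)).toNat
/-- height of the first digit beyond infinity -/
noncomputable def hh (x : Om) : ℤ := lvl (pre x) + (zz x 0).2.v
/-- the flag `t` of the infinite part -/
noncomputable def tt (x : Om) : Bool := decide ((lab (zz x)).h = .ut)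
/-- side -/
noncomputable def side (x : Om) : Bool := if tt x then (zz x 2).1 else (zz x 0).1
/-- two infinite gaps in a row -/
def IsOm (x : Om) : Prop := Sing x ∧ (zz x 1).2.inf = true
/-- an infinite gap followed by a finite one -/
def IsC (x : Om) : Prop := Sing x ∧ (zz x 1).2.inf = false
open Classical in
/-- the invariant type of a point -/
noncomputable def kind (x : Om) : Option (Bool × Bool × Bool × Bool) :=
  if Sing x then some ((zz x 1).2.inf, tt x, (zz x 1).2.inf && (zz x 1).1, !tt x && (zz x 2).1)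
  else none

lemma app_add (c : List Cell) (z : Om) (n : ℕ) : app c z (n + c.length) = z n := by
  induction c with
  | nil => rfl
  | cons a c ih => exact ih

lemma app_len (c : List Cell) (z : Om) : app c z c.length = z 0 := by
  simpa using app_add c z 0

lemma FinC.app_lt {c} (hc : FinC c) (z : Om) {n} (h : n < c.length) :
    (app c z n).2.inf = false := by
  induction c generalizing n with
  | nil => cases h
  | cons a c ih =>
    cases n with
    | zero => exact hc a (.head _)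
    | succ n => exact ih hc.tail (Nat.lt_of_succ_lt_succ h)

lemma FinC.le {c} (hc : FinC c) {z : Om} {n} (h : (app c z n).2.inf = true) : c.length ≤ n :=
  not_lt.1 fun h' => by simp [hc.app_lt z h'] at h

lemma app_inj2 {c c' : List Cell} {z z'} (h : c.length = c'.length) (e : app c z = app c' z') :
    c = c' ∧ z = z' := by
  induction c generalizing c' with
  | nil => obtain rfl := List.length_eq_zero_iff.1 h.symm; exact ⟨rfl, e⟩
  | cons a c ih =>
    cases c' with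
    | nil => cases h
    | cons a' c' =>
      obtain ⟨rfl, e'⟩ := cons_inj.1 e
      obtain ⟨rfl, rfl⟩ := ih (Nat.succ_injective h) e'
      exact ⟨rfl, rfl⟩

lemma app_snoc (c : List Cell) (z : Om) : app (c ++ [z 0]) (tl z) = app c z := by
  induction c with
  | nil => exact cons_tl z
  | cons a c ih => exact congrArg (cons a) ih

lemma lvl_cons2 (a : Cell) (c) : lvl (a :: c) = a.2.v + lvl c := by simp [lvl]

lemma FinC.lvl_nonneg {c} (hc : FinC c) : 0 ≤ lvl c := by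
  induction c with
  | nil => exact le_rfl
  | cons a c ih =>
    have := a.2.pos (hc a (.head _))
    have := ih hc.tail
    rw [lvl_cons2]; omega

lemma app_inj_lvl {c c' : List Cell} {z z'} (hc : FinC c) (hc' : FinC c') (h : lvl c = lvl c')
    (e : app c z = app c' z') : c = c' := by
  have key : ∀ {a : Cell} {c}, FinC (a :: c) → lvl [] ≠ lvl (a :: c) := fun {a c} hc h => by
    have := a.2.pos (hc a (.head _))
    have := hc.tail.lvl_nonneg
    rw [lvl_cons2] at h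
    change (0 : ℤ) = _ at h
    omega
  induction c generalizing c' with
  | nil =>
    cases c' with
    | nil => rfl
    | cons a' c' => exact (key hc' h).elim
  | cons a c ih =>
    cases c' with
    | nil => exact (key hc h.symm).elim
    | cons a' c' =>
      obtain ⟨rfl, e'⟩ := cons_inj.1 e
      rw [ih hc.tail hc'.tail (by simpa [lvl_cons2] using h) e']

lemma app_ofFn2 (m : ℕ) (x : Om) : app (List.ofFn fun i : Fin m => x i) (fun n => x (n + m)) = x := by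
  induction m generalizing x with
  | zero => rfl
  | succ m ih =>
    rw [List.ofFn_succ]
    exact (congrArg (cons (x 0)) (ih (tl x))).trans (cons_tl x)

lemma app_pre (x : Om) : app (pre x) (zz x) = x := app_ofFn2 _ x
lemma len_pre (x : Om) : (pre x).length = mm x := List.length_ofFn
lemma lt_mm {x : Om} {n} (h : n < mm x) : (x n).2.inf = false := by
  unfold mm at h
  split_ifs at h with hs
  · simpa using Nat.find_min hs h
  · cases h
lemma finC_pre (x : Om) : FinC (pre x) := fun a ha => by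
  obtain ⟨i, rfl⟩ := List.mem_ofFn.1 ha
  exact lt_mm i.2
lemma Sing.zz_inf {x} (h : Sing x) : (zz x 0).2.inf = true := by
  simp only [zz, mm, dif_pos h, zero_add]
  exact Nat.find_spec h
lemma sing_app {c z} (hc : FinC c) (hz : (z 0).2.inf = true) :
    Sing (app c z) ∧ pre (app c z) = c ∧ zz (app c z) = z := by
  have h : (app c z c.length).2.inf = true := by rw [app_len, hz]
  have hs : Sing (app c z) := ⟨_, h⟩
  refine ⟨hs, app_inj2 (le_antisymm ((finC_pre _).le (z := zz _) (by rwa [app_pre])) (hc.le (z := z) ?_))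
    (app_pre _)⟩
  simpa [zz, len_pre] using hs.zz_inf
lemma reg_iff (x) : Reg x ↔ ¬ Sing x := by simp [Reg, Sing]

/-- shifted change -/
def Dl.down (Δ : Dl) : Dl := ⟨Δ.f1, Δ.f2, false, Δ.n1, Δ.n2, 0⟩

/-- composed change -/
def Dl.comp (Δ Δ' : Dl) : Dl := ⟨xor Δ.f0 Δ'.f0, xor Δ.f1 Δ'.f1, xor Δ.f2 Δ'.f2,
  Δ.n0 + Δ'.n0, Δ.n1 + Δ'.n1, Δ.n2 + Δ'.n2⟩

lemma ShC.comp {f n a a' f' n' a''} (h : ShC f n a a') (h' : ShC f' n' a' a'') :
    ShC (xor f f') (n + n') a a'' :=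
  ⟨by rw [h'.1, h.1, Bool.xor_assoc], h'.2.1.trans h.2.1, by rw [h'.2.2, h.2.2, add_assoc]⟩

lemma ShC.uniq {f n a a' a''} (h : ShC f n a a') (h' : ShC f n a a'') : a' = a'' :=
  Prod.ext (h.1.trans h'.1.symm) (L.ext (h.2.1.trans h'.2.1.symm) (h.2.2.trans h'.2.2.symm))

lemma ShC.refl (a) : ShC false 0 a a := ⟨by simp, rfl, by simp⟩

lemma xor_fix {a f : Bool} (h : a = xor a f) : f = false := by revert a f; decide

lemma ShC.self {f n a} (h : ShC f n a a) : f = false ∧ n = 0 := ⟨xor_fix h.1, by simpa using h.2.2⟩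

lemma DR.inf {Δ z z'} (h : DR Δ z z') (n) : (z' n).2.inf = (z n).2.inf := by
  rcases n with _ | _ | _ | n
  exacts [h.1.2.1, h.2.1.2.1, h.2.2.1.2.1, by rw [h.2.2.2.1 n]]

lemma DR.zero {z z'} (h : DR Dl.zero z z') : z' = z := by
  funext n
  rcases n with _ | _ | _ | n
  exacts [h.1.uniq (.refl _), h.2.1.uniq (.refl _), h.2.2.1.uniq (.refl _), h.2.2.2.1 n]

lemma DR.down {Δ z z'} (h : DR Δ z z') : DR Δ.down (tl z) (tl z') := by
  obtain ⟨-, h1, h2, h3, h4, h5, -⟩ := h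
  refine ⟨h1, h2, (show tl z 2 = tl z' 2 from (h3 0).symm) ▸ ShC.refl _, fun n => h3 (n + 1), h5, nofun, fun h => ?_, nofun⟩
  have : Δ.f1 = false := Bool.eq_false_iff.2 fun e => by simp [h4 e] at h
  simp [Dl.down, h1.1, this]

lemma DR.comp {Δ Δ' z z' z''} (h : DR Δ z z') (h' : DR Δ' z' z'') : DR (Δ.comp Δ') z z'' := by
  have hi := h.inf
  obtain ⟨h0, h1, h2, h3, h4, h5, h6, h7⟩ := h
  obtain ⟨k0, k1, k2, k3, k4, k5, k6, k7⟩ := h'
  simp only [hi] at k4 k5 k6 k7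
  have hx : ∀ {a b : Bool}, xor a b = true → a = true ∨ b = true := by decide
  refine ⟨h0.comp k0, h1.comp k1, h2.comp k2, fun n => (k3 n).trans (h3 n),
    fun e => (hx e).elim h4 k4, fun e => (hx e).elim h5 k5, fun e => ?_, fun e e' =>
      (hx e').elim (h7 e) fun e'' => ?_⟩
  · simp only [Dl.comp, h6 e, k6 e]; ring
  · obtain ⟨q1, q2⟩ := k7 e e''
    have q3 := h2.2.2
    have q4 := (z 2).2.pos (k5 e'')
    rw [q2, h6 e, q1] at q3
    rw [L.eq_one_iff, k5 e'']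
    cases hz : (z 0).1 <;> simp [hz, chi] at q3 ⊢ <;> omega

namespace Basic

variable {c c' : List Cell} {Δ : Dl} {x x' : Om}

lemma inf (h : Basic c c' Δ x x') (n) :
    (x' (n + c'.length)).2.inf = (x (n + c.length)).2.inf := by
  obtain ⟨-, -, -, z, z', rfl, rfl, h⟩ := h
  rw [app_add, app_add, h.inf]

lemma le (h : Basic c c' Δ x x') {n} (hn : (x n).2.inf = true) : c.length ≤ n := by
  obtain ⟨h, -, -, z, z', rfl, -⟩ := h
  exact h.le hn

lemma le' (h : Basic c c' Δ x x') {n} (hn : (x' n).2.inf = true) : c'.length ≤ n := by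
  obtain ⟨-, h, -, z, z', -, rfl, -⟩ := h
  exact h.le hn

lemma sing_iff (h : Basic c c' Δ x x') : Sing x' ↔ Sing x :=
  ⟨fun ⟨n, hn⟩ => ⟨_, by rw [← h.inf (n - c'.length), Nat.sub_add_cancel (h.le' hn), hn]⟩,
    fun ⟨n, hn⟩ => ⟨_, by rw [h.inf (n - c.length), Nat.sub_add_cancel (h.le hn), hn]⟩⟩

lemma sh (h : Basic c c' Δ x x') : ShC Δ.f0 Δ.n0 (x c.length) (x' c'.length) := by
  obtain ⟨-, -, -, z, z', rfl, rfl, h⟩ := h
  rw [app_len, app_len]; exact h.1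

lemma step (h : Basic c c' Δ x x') (hx : (x c.length).2.inf = false) :
    Basic (c ++ [x c.length]) (c' ++ [x' c'.length]) Δ.down x x' := by
  obtain ⟨h1, h2, h3, z, z', rfl, rfl, h⟩ := h
  rw [app_len] at hx ⊢
  rw [app_len]
  refine ⟨fun a ha => ?_, fun a ha => ?_, ?_, _, _, (app_snoc c z).symm, (app_snoc c' z').symm,
    h.down⟩
  · exact (List.mem_append.1 ha).elim (h1 a) fun e => by rw [List.mem_singleton.1 e, hx]
  · exact (List.mem_append.1 ha).elim (h2 a) fun e => by rw [List.mem_singleton.1 e, h.inf, hx]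
  · simp only [lvl, List.map_append, List.sum_append, Dl.down] at h3 ⊢
    simp [h3, h.1.2.2]; ring

lemma steps (h : Basic c c' Δ x x') (n : ℕ) (hx : ∀ i < n, (x (i + c.length)).2.inf = false) :
    ∃ d d', d.length = n + c.length ∧ d'.length = n + c'.length ∧
      Basic d d' (Dl.down^[n] Δ) x x' := by
  induction n with
  | zero => exact ⟨c, c', by simp, by simp, h⟩
  | succ n ih =>
    obtain ⟨d, d', e, e', h'⟩ := ih fun i hi => hx i (by omega)
    rw [Function.iterate_succ_apply']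
    refine ⟨_, _, ?_, ?_, h'.step (e ▸ hx n n.lt_succ_self)⟩ <;> simp [e, e'] <;> omega

lemma zero (h : Basic c c Dl.zero x x') : x' = x := by
  obtain ⟨-, -, -, z, z', rfl, rfl, h⟩ := h
  rw [h.zero]

lemma comp {c'' Δ' x''} (h : Basic c c' Δ x x') (h' : Basic c' c'' Δ' x' x'') :
    Basic c c'' (Δ.comp Δ') x x'' := by
  obtain ⟨h1, -, h3, z, z', rfl, rfl, h⟩ := h
  obtain ⟨-, k2, k3, w, w', e, rfl, k⟩ := h'
  obtain rfl := (app_inj2 rfl e).2
  exact ⟨h1, k2, by simp only [Dl.comp]; omega, _, _, rfl, rfl, h.comp k⟩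

lemma at_pre (h : Basic c c' Δ x x') (hs : Sing x) (hc : c.length = mm x) :
    c = pre x ∧ c' = pre x' ∧ DR Δ (zz x) (zz x') := by
  obtain ⟨-, h2, -, z, z', e, rfl, h⟩ := h
  obtain ⟨rfl, rfl⟩ := app_inj2 (hc.trans (len_pre x).symm) (e.symm.trans (app_pre x).symm)
  obtain ⟨-, e1, e2⟩ := sing_app h2 ((h.inf 0).trans hs.zz_inf)
  exact ⟨rfl, e1.symm, e2.symm ▸ h⟩

lemma le_mm (h : Basic c c' Δ x x') (hs : Sing x) : c.length ≤ mm x :=
  h.le (by simpa [zz] using hs.zz_inf)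

end Basic

/-- the data at a singular point -/
structure SD (D : Dl) (x x' : Om) : Prop where
  sing : Sing x
  sing' : Sing x'
  dr : DR D (zz x) (zz x')
  lv : lvl (pre x) = lvl (pre x') + D.n0 + D.n1 + D.n2

lemma Basic.sd {c c' Δ x x'} (h : Basic c c' Δ x x') (hs : Sing x) :
    SD (Dl.down^[mm x - c.length] Δ) x x' := by
  have := h.le_mm hs
  obtain ⟨d, d', e, -, h'⟩ := h.steps (mm x - c.length) fun i hi => lt_mm (by omega)
  obtain ⟨rfl, rfl, h3⟩ := h'.at_pre hs (by omega)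
  exact ⟨hs, h.sing_iff.2 hs, h3, h'.2.2.1⟩

lemma Basic.sd0 {c c' Δ x x'} (h : Basic c c' Δ x x') (hs : Sing x) (e : c.length = mm x) :
    SD Δ x x' := by simpa [e] using h.sd hs

lemma tt_iff (x) : tt x = true ↔ (zz x 0).1 = true ∧ (zz x 2).2 = L.one := by simp [tt, lab]

namespace SD

variable {D : Dl} {x x' : Om}

lemma hh_eq (h : SD D x x') : hh x' - hh x = -(D.n1 + D.n2) := by
  have := h.lv
  have := h.dr.1.2.2
  unfold hh; omega

lemma tt_eq (h : SD D x x') : tt x' = tt x := by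
  obtain ⟨-, -, h2, -, -, -, h6, -⟩ := h.dr
  have q := h2.2.2
  have q1 := (zz x 2).2.pos
  have q2 := (zz x' 2).2.pos
  rw [h6 h.sing.zz_inf] at q
  rw [Bool.eq_iff_iff, tt_iff, tt_iff, L.eq_one_iff, L.eq_one_iff]
  rw [h2.2.1] at q2 ⊢
  cases h0 : (zz x 0).1 <;> cases h0' : (zz x' 0).1 <;> cases h1 : (zz x 2).2.inf <;>
    simp [h0, h0', h1, chi] at q q1 q2 ⊢ <;> omega

lemma side_eq (h : SD D x x') : side x' = xor (side x) (if tt x then D.f2 else D.f0) := by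
  unfold side
  rw [h.tt_eq]
  split_ifs
  exacts [h.dr.2.2.1.1, h.dr.1.1]

lemma kind_eq (h : SD D x x') : kind x' = kind x := by
  obtain ⟨-, h1, h2, -, h4, -, -, h7⟩ := h.dr
  unfold kind
  rw [if_pos h.sing, if_pos h.sing', h.tt_eq, h1.2.1, h1.1, h2.1]
  have := h7 h.sing.zz_inf
  rw [← tt_iff] at this
  revert h4 this
  cases D.f1 <;> cases D.f2 <;> cases tt x <;> cases (zz x 1).2.inf <;> simp

lemma f0_iff (h : SD D x x') : D.n2 = 0 ↔ D.f0 = false := by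
  rw [h.dr.2.2.2.2.2.2.1 h.sing.zz_inf, h.dr.1.1]
  cases (zz x 0).1 <;> cases D.f0 <;> simp [chi]

lemma n2_eq (h : SD D x x') (hs : side x' = side x) : D.n2 = 0 := by
  rw [h.f0_iff]
  have h1 := h.side_eq
  by_cases ht : tt x = true
  · have h2 := h.dr.1.1
    rw [((tt_iff _).1 ht).1, ((tt_iff _).1 (h.tt_eq.trans ht)).1] at h2
    simpa using h2
  · rw [hs, if_neg ht] at h1
    exact xor_fix h1

lemma gap1 (h : SD D x x') (hn : D.n1 = 0) : (zz x' 1).2 = (zz x 1).2 :=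
  L.ext h.dr.2.1.2.1 (by simpa [hn] using h.dr.2.1.2.2)

lemma fix (h : SD D x x') (h2 : D.f2 = false) (hn : D.n2 = 0) : side x' = side x := by
  simp [h.side_eq, h2, h.f0_iff.1 hn]

end SD

/-- the local form near a point -/
def NLoc (F : Om → Om) (x : Om) (c c' : List Cell) (Δ : Dl) : Prop :=
  ∃ k, ∀ x₁, Sim k x x₁ → Basic c c' Δ x₁ (F x₁)

lemma NLoc.self {F x c c' Δ} (h : NLoc F x c c' Δ) : Basic c c' Δ x (F x) :=
  h.elim fun k h => h x (sim_refl k x)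

lemma NLoc.step {F x c c' Δ} (h : NLoc F x c c' Δ) (hx : (x c.length).2.inf = false) :
    NLoc F x (c ++ [x c.length]) (c' ++ [F x c'.length]) Δ.down := by
  obtain ⟨hc, -, -, z, -, e, -⟩ := h.self
  obtain ⟨k0, h0⟩ := g0_vis (z := z) (by rwa [e, app_len] at hx)
  obtain ⟨k1, h1⟩ := app_vis hc k0
  have hs := h.self.sh
  obtain ⟨k, h⟩ := h
  refine ⟨max k k1, fun x₁ h2 => ?_⟩
  have h3 := h x₁ (h2.mono (le_max_left _ _))
  obtain ⟨z₁, e1, h4⟩ := h1 z x₁ (e ▸ h2.mono (le_max_right _ _))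
  have e2 : x c.length = x₁ c.length := by rw [e, e1, app_len, app_len, h0 _ h4]
  rw [e2] at hs hx ⊢
  rw [hs.uniq h3.sh]
  exact h3.step hx

lemma NLoc.steps {F x c c' Δ} (h : NLoc F x c c' Δ) (n : ℕ)
    (hx : ∀ i < n, (x (i + c.length)).2.inf = false) :
    ∃ d d', d.length = n + c.length ∧ d'.length = n + c'.length ∧
      NLoc F x d d' (Dl.down^[n] Δ) := by
  induction n with
  | zero => exact ⟨c, c', by simp, by simp, h⟩
  | succ n ih =>
    obtain ⟨d, d', e, e', h'⟩ := ih fun i hi => hx i (by omega)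
    rw [Function.iterate_succ_apply']
    refine ⟨_, _, ?_, ?_, h'.step (e ▸ hx n n.lt_succ_self)⟩ <;> simp [e, e'] <;> omega

lemma dr_cons {Δ : Dl} {a0 a1 a2 b0 b1 b2 : Cell} {z : Om} (h0 : ShC Δ.f0 Δ.n0 a0 b0)
    (h1 : ShC Δ.f1 Δ.n1 a1 b1) (h2 : ShC Δ.f2 Δ.n2 a2 b2) (h3 : Δ.f1 = true → a1.2 = L.one)
    (h4 : Δ.n2 = chi b0.1 - chi a0.1) (h5 : Δ.f2 = true → a0.1 = true ∧ a2.2 = L.one) :
    DR Δ (cons a0 (cons a1 (cons a2 z))) (cons b0 (cons b1 (cons b2 z))) :=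
  ⟨h0, h1, h2, fun _ => rfl, fun e => congrArg L.inf (h3 e), fun e => congrArg L.inf (h5 e).2,
    fun _ => h4, fun _ => h5⟩

lemma loc_act (a : Letter) : ∃ c c' Δ, ∀ x, lab x ∈ a.dom → Basic c c' Δ x (a.act x) := by
  have h0 : FinC [] := nofun
  have h1 : ∀ ε, FinC [(ε, L.one)] := fun ε a ha => by rw [List.mem_singleton.1 ha]; rfl
  have key : ∀ (Δ : Dl), Δ.n0 + Δ.n1 + Δ.n2 = 0 → (∀ x, lab x ∈ a.dom → DR Δ x (a.act x)) →
      ∃ c c' Δ, ∀ x, lab x ∈ a.dom → Basic c c' Δ x (a.act x) := fun Δ e h =>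
    ⟨[], [], Δ, fun x hx => ⟨h0, h0, by omega, x, _, rfl, rfl, h x hx⟩⟩
  have hs : ∀ e (g : L), ShC false 1 (e, g) (e, g.succ) := fun e g => ⟨by simp, rfl, rfl⟩
  have hp : ∀ e {g : L}, g.o = false → ShC false (-1) (e, g) (e, g.pred) := fun e g h =>
    ⟨by simp, by simp, L.pred_v ((L.o_false g).1 h)⟩
  have hf : ∀ e (g : L), ShC true 0 (e, g) (!e, g) := fun e g => ⟨by simp, rfl, by simp⟩
  cases a
  case P ε =>
    refine ⟨[(ε, L.one)], [], ⟨false, false, false, 1, 0, 0⟩, fun x hx =>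
      ⟨h1 ε, h0, rfl, tl x, _, ?_, rfl, hs _ _, .refl _, .refl _, fun _ => rfl, nofun, nofun,
        fun _ => (sub_self _).symm, nofun⟩⟩
    rw [← hx.2, lab_e0, ← (L.o_true _).1 hx.1]
    exact (cons_tl x).symm
  case Pi ε =>
    exact ⟨[], [(ε, L.one)], ⟨false, false, false, -1, 0, 0⟩, fun x hx =>
      ⟨h0, h1 ε, rfl, x, d0 x, rfl, rfl, hp _ hx, .refl _, .refl _, fun _ => rfl, nofun, nofun,
        fun _ => (sub_self _).symm, nofun⟩⟩
  on_goal 1 => refine key ⟨false, false, false, 1, -1, 0⟩ rfl fun x hx => ?_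
  on_goal 2 => refine key ⟨false, false, false, -1, 1, 0⟩ rfl fun x hx => ?_
  on_goal 3 => refine key ⟨false, true, false, 0, 0, 0⟩ rfl fun x hx => ?_
  on_goal 4 => refine key ⟨true, false, false, 0, 1, -1⟩ rfl fun x hx => ?_
  on_goal 5 => refine key ⟨true, false, false, 0, -1, 1⟩ rfl fun x hx => ?_
  on_goal 6 => refine key ⟨false, false, true, 0, 0, 0⟩ rfl fun x hx => ?_
  all_goals obtain ⟨e0, g0, e1, g1, e2, g2, z, rfl⟩ := om_cases x
  · exact dr_cons (hs _ _) (hp _ hx) (.refl _) nofun (sub_self _).symm nofun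
  · exact dr_cons (hp _ hx) (hs _ _) (.refl _) nofun (sub_self _).symm nofun
  · exact dr_cons (.refl _) (hf _ _) (.refl _) (fun _ => (L.o_true _).1 hx) (sub_self _).symm nofun
  · obtain ⟨rfl, h⟩ := (hd_un e0 g2.o).1 hx
    exact dr_cons (hf _ _) (hs _ _) (hp _ h) nofun rfl nofun
  · obtain rfl := (hd_d e0 g2.o).1 hx.1
    exact dr_cons (hf _ _) (hp _ hx.2) (hs _ _) nofun rfl nofun
  · obtain ⟨rfl, h⟩ := (hd_ut e0 g2.o).1 hx
    exact dr_cons (.refl _) (.refl _) (hf _ _) nofun rfl fun _ => ⟨rfl, (L.o_true _).1 h⟩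

lemma loc_run (p : List Letter) (x : Om) (h : Ok p x) : ∃ c c' Δ, NLoc (run p) x c c' Δ := by
  induction p generalizing x with
  | nil => exact ⟨[], [], Dl.zero, 0, fun x _ => ⟨nofun, nofun, rfl, x, x, rfl, rfl,
      .refl _, .refl _, .refl _, fun _ => rfl, nofun, nofun, fun _ => (sub_self _).symm, nofun⟩⟩
  | cons a p ih =>
    obtain ⟨c, c', Δ, h1⟩ := loc_act a
    replace h1 : NLoc a.act x c c' Δ := ⟨0, fun x₁ hx => h1 x₁ (hx.lab ▸ h.1)⟩
    obtain ⟨d, d', Δ', h2⟩ := ih _ h.2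
    obtain ⟨c₁, c₁', -, e1, k1, h3⟩ := h1.steps (d.length - c'.length) fun i hi =>
      Bool.eq_false_iff.2 fun e => by
        have := h2.self.le ((h1.self.inf i).trans e); omega
    obtain ⟨d₁, d₁', e2, -, h4⟩ := h2.steps (c'.length - d.length) fun i hi =>
      Bool.eq_false_iff.2 fun e => by have := h1.self.le' e; omega
    obtain ⟨-, -, -, -, z, -, e3, -⟩ := h3 x (sim_refl _ _)
    obtain ⟨-, -, -, z', -, e4, -⟩ := h4.self
    obtain rfl := (app_inj2 (by omega) (e3.symm.trans e4)).1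
    obtain ⟨k2, h4⟩ := h4
    obtain ⟨k3, h5⟩ := act_cont a k2
    exact ⟨_, _, _, max k1 k3, fun x₁ hx => (h3 x₁ (hx.mono (le_max_left _ _))).comp
      (h4 _ (h5 _ _ h.1 (hx.mono (le_max_right _ _))))⟩

/-- NICE -/
theorem nice {g} (hg : g ∈ GG) (x : Om) (i : Ix) : ∃ k c c' Δ i',
    (∀ x₁, Sim k x x₁ → (g (x₁, i)).2 = i' ∧ Basic c c' Δ x₁ (g (x₁, i)).1) ∧
      (Reg x → Δ = Dl.zero) ∧ (Sing x → c = pre x) := by
  obtain ⟨k, p, i', h⟩ := locPath hg x i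
  obtain ⟨c, c', Δ, h1⟩ := loc_run p x (h x (sim_refl _ _)).1
  obtain ⟨c, c', Δ, ⟨k1, h1⟩, h2⟩ : ∃ c c' Δ, NLoc (run p) x c c' Δ ∧
      (Reg x → Δ = Dl.zero) ∧ (Sing x → c = pre x) := by
    by_cases hs : Sing x
    · have := h1.self.le_mm hs
      obtain ⟨d, d', e, -, h2⟩ := h1.steps (mm x - c.length) fun i hi => lt_mm (by omega)
      exact ⟨_, _, _, h2, fun hr => ((reg_iff x).1 hr hs).elim,
        fun _ => (h2.self.at_pre hs (by omega)).1⟩
    · obtain ⟨d, d', -, -, h2⟩ := h1.steps 3 fun i _ => (reg_iff x).2 hs _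
      exact ⟨_, _, _, h2, fun _ => rfl, fun h => (hs h).elim⟩
  refine ⟨max k k1, c, c', Δ, i', fun x₁ hx => ?_, h2⟩
  rw [(h x₁ (hx.mono (le_max_left _ _))).2]
  exact ⟨rfl, h1 x₁ (hx.mono (le_max_right _ _))⟩

lemma kind_inv {g} (hg : g ∈ GG) (y : YY) : kind (g y).1 = kind y.1 := by
  obtain ⟨k, c, c', Δ, i', h, -⟩ := nice hg y.1 y.2
  have h1 : Basic c c' Δ y.1 (g y).1 := (h _ (sim_refl _ _)).2
  by_cases hs : Sing y.1
  · exact (h1.sd hs).kind_eq
  · unfold kind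
    rw [if_neg hs, if_neg (mt h1.sing_iff.1 hs)]

lemma kind_sing2 {x x'} (h : kind x' = kind x) (hs : Sing x) : Sing x' ∧
    (zz x' 1).2.inf = (zz x 1).2.inf ∧ tt x' = tt x ∧
      ((zz x 1).2.inf = true → (zz x' 1).1 = (zz x 1).1) ∧
      (tt x = false → (zz x' 2).1 = (zz x 2).1) := by
  unfold kind at h
  rw [if_pos hs] at h
  split_ifs at h with hs'
  simp only [Option.some.injEq, Prod.mk.injEq] at h
  obtain ⟨h1, h2, h3, h4⟩ := h
  exact ⟨hs', h1, h2, fun e => by simpa [h1, e] using h3, fun e => by simpa [h2, e] using h4⟩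

lemma kind_isOm {x x'} (h : kind x' = kind x) : (IsOm x' ↔ IsOm x) ∧ (IsC x' ↔ IsC x) :=
  ⟨⟨fun k => ⟨(kind_sing2 h.symm k.1).1, (kind_sing2 h.symm k.1).2.1.trans k.2⟩,
    fun k => ⟨(kind_sing2 h k.1).1, (kind_sing2 h k.1).2.1.trans k.2⟩⟩,
   ⟨fun k => ⟨(kind_sing2 h.symm k.1).1, (kind_sing2 h.symm k.1).2.1.trans k.2⟩,
    fun k => ⟨(kind_sing2 h k.1).1, (kind_sing2 h k.1).2.1.trans k.2⟩⟩⟩

lemma lab_vis {z z' : Om} (h : lab z' = lab z) :
    (z' 0).1 = (z 0).1 ∧ (z' 1).1 = (z 1).1 ∧ (z' 2).1 = (z 2).1 :=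
  ⟨by rw [← lab_e0, h, lab_e0], congrArg Lab.e1 h, congrArg Lab.e2 h⟩

lemma Eqv.vis {x x'} (h : Eqv x x') (hs : Sing x) : Sing x' ∧ pre x' = pre x ∧
    lab (zz x') = lab (zz x) ∧ (zz x' 1).2.inf = (zz x 1).2.inf ∧
      (IsC x → (zz x' 1).2 = (zz x 1).2) ∧ kind x' = kind x ∧ side x' = side x := by
  have h1 : ∀ k, ∃ z', x' = app (pre x) z' ∧ Sim k (zz x) z' := fun k =>
    (app_vis (finC_pre x) k).elim fun k' hk => hk _ _ ((app_pre x).symm ▸ h k')
  obtain ⟨z', rfl, -⟩ := h1 0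
  have h2 : Eqv (zz x) z' := fun k => by
    obtain ⟨z'', e, hk⟩ := h1 k
    rwa [(app_inj2 rfl e).2]
  have h3 : (z' 0).2.inf = true := by
    by_contra h0
    obtain ⟨k, hk⟩ := g0_vis (Bool.eq_false_iff.2 h0)
    exact h0 (hk _ (h2 k).symm ▸ hs.zz_inf)
  obtain ⟨q1, q2, q3⟩ := sing_app (finC_pre x) h3
  have h4 : IsC x → (z' 1).2 = (zz x 1).2 := fun hc => (g1_vis hc.2).elim fun k hk => hk _ (h2 k)
  have h5 : (z' 1).2.inf = (zz x 1).2.inf := by
    cases e : (zz x 1).2.inf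
    · rw [h4 ⟨hs, e⟩, e]
    · by_contra h0
      obtain ⟨k, hk⟩ := g1_vis (Bool.eq_false_iff.2 h0)
      exact h0 (hk _ (h2 k).symm ▸ e)
  have h6 := (h2 0).lab.symm
  have h7 : tt (app (pre x) z') = tt x := by unfold tt; rw [q3, h6]
  obtain ⟨r0, r1, r2⟩ := lab_vis h6
  refine ⟨q1, q2, q3.symm ▸ h6, q3.symm ▸ h5, q3.symm ▸ h4, ?_, ?_⟩
  · unfold kind; rw [if_pos hs, if_pos q1, h7, q3, h5, r1, r2]
  · unfold side; rw [h7, q3, r0, r2]

lemma eqv_of_vis {x x'} (hs : Sing x) (hs' : Sing x') (h1 : pre x' = pre x)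
    (h2 : lab (zz x') = lab (zz x))
    (h3 : (zz x' 1).2 = (zz x 1).2 ∨ (IsOm x ∧ IsOm x')) : Eqv x x' := fun k => by
  obtain ⟨k', hk⟩ := app_cont (finC_pre x) k
  have := hk _ _ (vis_inf hs.zz_inf hs'.zz_inf h2.symm
    (h3.imp Eq.symm fun h => ⟨h.1.2, h.2.2⟩) k')
  rwa [app_pre, ← h1, app_pre] at this

lemma eqv_smul {g} (hg : g ∈ GG) {x x'} (h : Eqv x x') (i : Ix) :
    Eqv (g (x, i)).1 (g (x', i)).1 ∧ (g (x, i)).2 = (g (x', i)).2 := by
  obtain ⟨k, p, i', hp⟩ := locPath hg x i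
  obtain ⟨h1, h2⟩ := hp x (sim_refl _ _)
  rw [h2, (hp x' (h k)).2]
  exact ⟨fun k => (run_cont p k).elim fun k' hk => (hk _ _ h1 (h k')).2, rfl⟩

lemma hh_eqv {g} (hg : g ∈ GG) {x x'} (hs : Sing x) (h : Eqv x x') (i : Ix) :
    hh (g (x', i)).1 - hh x' = hh (g (x, i)).1 - hh x := by
  obtain ⟨k, c, c', Δ, i', h1, -, h2⟩ := nice hg x i
  obtain rfl := h2 hs
  obtain ⟨q1, q2, -⟩ := h.vis hs
  rw [((h1 x (sim_refl _ _)).2.sd0 hs (len_pre x)).hh_eq,
    ((h1 x' (h k)).2.sd0 q1 (q2 ▸ len_pre x')).hh_eq]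

lemma down_zero (n : ℕ) : Dl.down^[n] Dl.zero = Dl.zero := Function.iterate_fixed rfl n

/-- LOC -/
theorem locA {g} (hg : g ∈ GG) (x : Om) (i : Ix) : ∃ k, ∀ x₁, Sim k x x₁ → ¬ Eqv x₁ x → Sing x₁ →
    (IsOm x₁ → side (g (x₁, i)).1 = side x₁) ∧
    ((IsOm x → side (g (x, i)).1 = side x) →
      side (g (x₁, i)).1 = side x₁ ∧ (IsOm x₁ → hh (g (x₁, i)).1 = hh x₁)) ∧
    ((IsOm x → side (g (x, i)).1 = side x ∧ hh (g (x, i)).1 = hh x) → IsC x₁ →
      (zz (g (x₁, i)).1 1).2 = (zz x₁ 1).2) := by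
  obtain ⟨k, c, c', Δ, i', h1, h2, h3⟩ := nice hg x i
  have fin : ∀ {D x₁}, SD D x₁ (g (x₁, i)).1 → D.f2 = false → D.n2 = 0 →
      ((IsOm x → side (g (x, i)).1 = side x) → D.n1 = 0) →
      (IsOm x₁ → side (g (x₁, i)).1 = side x₁) ∧
      ((IsOm x → side (g (x, i)).1 = side x) →
        side (g (x₁, i)).1 = side x₁ ∧ (IsOm x₁ → hh (g (x₁, i)).1 = hh x₁)) ∧
      ((IsOm x → side (g (x, i)).1 = side x ∧ hh (g (x, i)).1 = hh x) → IsC x₁ →
        (zz (g (x₁, i)).1 1).2 = (zz x₁ 1).2) := fun h q1 q2 q3 =>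
    ⟨fun _ => h.fix q1 q2, fun q => ⟨h.fix q1 q2, fun _ => by
      have := h.hh_eq; have := q3 q; omega⟩, fun q _ => h.gap1 (q3 fun o => (q o).1)⟩
  by_cases hs : Sing x
  swap
  · obtain rfl := h2 ((reg_iff x).2 hs)
    exact ⟨k, fun x₁ hx _ hs₁ => fin (down_zero _ ▸ (h1 x₁ hx).2.sd hs₁) rfl rfl fun _ => rfl⟩
  obtain rfl := h3 hs
  have h4 := (h1 x (sim_refl _ _)).2.sd0 hs (len_pre x)
  obtain ⟨k0, h0⟩ : ∃ k0, ∀ z, Sim k0 (zz x) z → IsOm x ∨ (IsC x ∧ (z 1).2 = (zz x 1).2) := by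
    cases e : (zz x 1).2.inf
    · exact (g1_vis e).imp fun k hk z hz => .inr ⟨⟨hs, e⟩, hk z hz⟩
    · exact ⟨0, fun _ _ => .inl ⟨hs, e⟩⟩
  obtain ⟨k1, h5⟩ := app_vis (finC_pre x) k0
  refine ⟨max k k1, fun x₁ hx hne hs₁ => ?_⟩
  have h6 := (h1 x₁ (hx.mono (le_max_left _ _))).2
  obtain ⟨z, e, hz⟩ := h5 _ x₁ ((app_pre x).symm ▸ hx.mono (le_max_right _ _))
  have h7 := h6.sd hs₁
  have h8 := h6.le_mm hs₁
  obtain ⟨j, hj⟩ : ∃ j, mm x₁ = j + (pre x).length := ⟨_, (Nat.sub_add_cancel h8).symm⟩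
  rw [hj, Nat.add_sub_cancel] at h7
  rcases j with _ | _ | j
  · obtain ⟨e1, rfl⟩ := app_inj2 (by rw [len_pre x₁, hj, zero_add]) ((app_pre x₁).trans e)
    have hv := fun h => hne (eqv_of_vis hs hs₁ e1 hz.lab.symm h).symm
    have ho : IsOm x := (h0 _ hz).elim id fun h => (hv (.inl h.2)).elim
    have ho' : ¬ IsOm x₁ := fun h => hv (.inr ⟨ho, h⟩)
    refine ⟨fun h => (ho' h).elim, fun q => ⟨?_, fun h => (ho' h).elim⟩, fun q _ => h7.gap1 ?_⟩
    · have q1 := h4.side_eq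
      have q2 : tt x₁ = tt x := by unfold tt; rw [hz.lab]
      rw [q ho] at q1
      rw [h7.side_eq, q2, Function.iterate_zero_apply, xor_fix q1, Bool.xor_false]
    · have := h4.hh_eq
      have := h4.n2_eq (q ho).1
      have := (q ho).2
      change Δ.n1 = 0
      omega
  · refine fin h7 rfl rfl fun q => h4.n2_eq (q ((h0 z hz).elim id fun h => ?_))
    have q1 := hs₁.zz_inf
    rw [zz, hj, e, zero_add, zero_add, app_add, h.2, h.1.2] at q1
    cases q1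
  · simp only [Function.iterate_succ_apply'] at h7
    exact fin h7 rfl rfl fun _ => rfl

/-- UNIQ -/
theorem uniq {g} (hg : g ∈ GG) (x : Om) (i : Ix) (h1 : Eqv (g (x, i)).1 x) (h2 : (g (x, i)).2 = i)
    (h3 : IsOm x → hh (g (x, i)).1 = hh x) : ∃ k, ∀ x₁, Sim k x x₁ → g (x₁, i) = (x₁, i) := by
  obtain ⟨k, c, c', Δ, i', q1, q2, q3⟩ := nice hg x i
  obtain ⟨q4, q5⟩ := q1 x (sim_refl _ _)
  obtain ⟨rfl, rfl⟩ : c' = c ∧ Δ = Dl.zero := by
    by_cases hs : Sing x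
    · obtain rfl := q3 hs
      obtain ⟨-, r1, r2, -, r3, -, r4⟩ := h1.symm.vis hs
      obtain ⟨s0, s1, s2⟩ := lab_vis r2
      have h := q5.sd0 hs (len_pre x)
      have t2 := h.n2_eq r4
      have t1 : Δ.n1 = 0 := by
        cases e : (zz x 1).2.inf
        · simpa [r3 ⟨hs, e⟩] using h.dr.2.1.2.2
        · have := h.hh_eq; have := h3 ⟨hs, e⟩; omega
      refine ⟨(q5.at_pre hs (len_pre x)).2.1.trans r1, Dl.ext (xor_fix (s0.symm.trans h.dr.1.1))
        (xor_fix (s1.symm.trans h.dr.2.1.1)) (xor_fix (s2.symm.trans h.dr.2.2.1.1)) ?_ t1 t2⟩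
      simpa [r1, t1, t2, Dl.zero] using h.lv
    · obtain rfl := q2 ((reg_iff x).2 hs)
      obtain ⟨r1, r2, r3, z, z', r4, r5, -⟩ := q5
      exact ⟨app_inj_lvl r2 r1 (by simpa [Dl.zero] using r3.symm) (r5.symm.trans
        ((((reg_iff x).2 hs).eq_of_eqv h1.symm).symm.trans r4)), rfl⟩
  exact ⟨k, fun x₁ hx => Prod.ext (q1 x₁ hx).2.zero ((q1 x₁ hx).1.trans (q4.symm.trans h2))⟩

theorem moves_reg {g} (hg : g ∈ GG) (h : ∀ y : YY, Reg y.1 → g y = y) : g = 1 := by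
  refine Equiv.ext fun ⟨x, i⟩ => ?_
  obtain ⟨k, c, c', Δ, i', q1, -⟩ := nice hg x i
  obtain ⟨x₁, hx, hr, -⟩ := exists_reg (inB_cls k x) ⟨x, mem_cls k x⟩ ∅
  obtain ⟨q2, q3⟩ := q1 x₁ hx
  rw [h (x₁, i) hr] at q2 q3
  obtain ⟨d, d', e, e', r1, r2, r3, z, z', r4, r5, -⟩ := q3.steps 3 fun i _ => hr _
  obtain rfl := app_inj_lvl r1 r2 (by simpa [Dl.down] using r3) (r4.symm.trans r5)
  obtain ⟨-, -, -, w, w', r6, r7, r8⟩ := q3
  obtain ⟨rfl, rfl⟩ := app_inj2 (by omega) (r6.symm.trans r7)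
  obtain rfl : Δ = Dl.zero := Dl.ext r8.1.self.1 r8.2.1.self.1 r8.2.2.1.self.1 r8.1.self.2
    r8.2.1.self.2 r8.2.2.1.self.2
  obtain ⟨q4, q5⟩ := q1 x (sim_refl _ _)
  exact Prod.ext q5.zero (q4.trans q2.symm)

/-- an infinite gap -/
def L.om (v : ℤ) : L := ⟨true, v, nofun⟩

lemma L.om_ne (v) : L.om v ≠ L.one := fun h => by cases h
lemma L.om_succ (v) : (L.om v).succ = L.om (v + 1) := rfl
lemma L.om_pred (v) : (L.om v).pred = L.om (v - 1) := L.ext (by simp [L.om]) (L.pred_v (L.om_ne v))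
lemma L.eq_om {g : L} (h : g.inf = true) : g = L.om g.v := L.ext h rfl

lemma conn_act (a : Letter) {x} (h : lab x ∈ a.dom) : Conn x (a.act x) := ⟨[a], ⟨h, trivial⟩, rfl⟩

lemma conn_T (e e1 : Bool) (v : ℤ) (g : L) (y : Om) :
    Conn (cons (e, .om v) (cons (e1, g) y)) (cons (e, .om (v - 1)) (cons (e1, g.succ) y)) := by
  rw [← L.om_pred]
  exact conn_act .Ti (x := cons (e, .om v) (cons (e1, g) y)) (by
    simp [Letter.dom, lab, L.om_ne])

lemma conn_app_om {c} (hc : FinC c) (e : Bool) (v : ℤ) (y : Om) :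
    Conn (app c (cons (e, .om v) y)) (cons (e, .om (lvl c + v)) y) := by
  have h : ∀ n : ℕ, i0^[n] (cons (e, .om v) y) = cons (e, .om (n + v)) y := fun n => by
    induction n with
    | zero => simp
    | succ n ih =>
      rw [Function.iterate_succ_apply', ih, Nat.cast_succ, add_right_comm]; rfl
  have := conn_app hc (cons (e, .om v) y)
  rwa [h, Int.toNat_of_nonneg hc.lvl_nonneg] at this

lemma conn_om (e e1 : Bool) (y : Om) (n v w : ℤ) :
    Conn (cons (e, .om v) (cons (e1, .om w) y)) (cons (e, .om (v - n)) (cons (e1, .om (w + n)) y)) := by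
  induction n using Int.induction_on with
  | zero => simpa using Conn.refl _
  | succ n ih => simpa only [L.om_succ, sub_sub, add_assoc] using ih.trans (conn_T ..)
  | pred n ih =>
    refine ih.trans (Conn.symm ?_)
    have := conn_T e e1 (v - (-n - 1)) (.om (w + (-n - 1))) y
    rwa [L.om_succ, sub_sub, add_assoc, sub_add_cancel] at this

lemma conn_C (e e1 : Bool) (y : Om) (g : L) (hg : g.inf = false) (v : ℤ) :
    Conn (cons (e, .om v) (cons (e1, g) y))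
      (cons (e, .om (v + g.v - 1)) (cons (true, L.one) y)) := by
  obtain ⟨n, hn⟩ : ∃ n : ℕ, g.v = n + 1 := ⟨(g.v - 1).toNat, by have := g.pos hg; omega⟩
  rw [hn]
  induction n generalizing g v with
  | zero =>
    obtain rfl : g = L.one := L.ext hg (by simpa using hn)
    cases e1
    · simpa [Letter.act, fl] using conn_act .E (x := cons (e, .om v) (cons (false, L.one) y)) rfl
    · simpa using Conn.refl _
  | succ n ih =>
    have h1 : g ≠ L.one := fun h => by rw [h] at hn; simp at hn; omega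
    have := (conn_T e e1 (v + 1) g.pred y).symm.trans
      (ih g.pred (by simpa) (v + 1) (by rw [L.pred_v h1, hn]; simp))
    rw [add_sub_cancel_right, L.succ_pred h1] at this
    rwa [Nat.cast_succ, ← add_assoc, add_right_comm]

lemma conn_side {x x'} (h : Sing x) (hk : kind x' = kind x) : ∃ v g1 g2 y,
    Conn x (cons ((zz x' 0).1, .om v) (cons ((zz x 1).1, g1) (cons ((zz x' 2).1, g2) y))) ∧
      hd (zz x' 0).1 g2.o = (lab (zz x')).h ∧ g1.inf = (zz x 1).2.inf := by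
  obtain ⟨-, -, h1, -, h2⟩ := kind_sing2 hk h
  have h0 := h.zz_inf
  have h3 := app_pre x
  rw [← Bool.not_eq_true] at h2
  rw [Bool.eq_iff_iff] at h1
  simp only [tt_iff] at h1 h2
  simp only [lab]
  generalize (zz x' 0).1 = e' at *
  generalize (zz x' 2).1 = e2' at *
  generalize (zz x' 2).2 = g2' at *
  generalize zz x = z at *
  obtain ⟨e0, g0, e1, g1, e2, g2, y, rfl⟩ := om_cases z
  simp only [cons_zero, cons_one, cons_two] at h0 h1 h2 ⊢
  rw [L.eq_om h0] at h3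
  have h4 := conn_app_om (finC_pre x) e0 g0.v (cons (e1, g1) (cons (e2, g2) y))
  rw [h3] at h4
  by_cases ht : e0 = true ∧ g2 = L.one
  · obtain ⟨rfl, rfl⟩ := h1.2 ht
    obtain ⟨rfl, rfl⟩ := ht
    by_cases e : e2' = e2
    · exact ⟨_, _, _, _, e ▸ h4, rfl, rfl⟩
    · obtain rfl := Bool.eq_not.2 e
      exact ⟨_, _, _, _, h4.trans (conn_act .Q rfl), rfl, rfl⟩
  · obtain rfl := h2 ht
    have ht' := mt h1.1 ht
    cases e0 <;> cases e'
    · exact ⟨_, _, _, _, h4, rfl, rfl⟩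
    · refine ⟨_, g1.succ.pred, g2.succ, y, (h4.trans (conn_T ..)).trans (conn_act .Si ?_), ?_,
        by simp⟩
      · simp [Letter.dom, lab]
      · simp_all [L.o]
    · exact ⟨_, g1.succ, g2.pred, y, h4.trans (conn_act .S (by simp_all [Letter.dom, lab])), rfl,
        rfl⟩
    · exact ⟨_, _, _, _, h4, by simp_all [L.o], rfl⟩

lemma conn_fin {x x' : Om} (hs : Sing x') {v g1 g2 y}
    (h : Conn x (cons ((zz x' 0).1, .om v) (cons ((zz x' 1).1, g1) (cons ((zz x' 2).1, g2) y))))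
    (h1 : hd (zz x' 0).1 g2.o = (lab (zz x')).h)
    (h2 : g1 = (zz x' 1).2 ∨ (g1.inf = true ∧ IsOm x')) :
    ∃ x'', Conn x x'' ∧ Eqv x'' x' ∧ hh x'' = v := by
  have h3 := conn_app_om (finC_pre x') (zz x' 0).1 (v - lvl (pre x'))
    (cons ((zz x' 1).1, g1) (cons ((zz x' 2).1, g2) y))
  rw [add_sub_cancel] at h3
  obtain ⟨q1, q2, q3⟩ := sing_app (finC_pre x') (z := cons ((zz x' 0).1, .om (v - lvl (pre x')))
    (cons ((zz x' 1).1, g1) (cons ((zz x' 2).1, g2) y))) rfl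
  refine ⟨_, h.trans h3.symm, (eqv_of_vis hs q1 q2 ?_ ?_).symm, by rw [hh, q2, q3]; exact add_sub_cancel _ _⟩
  · rw [q3]
    refine Lab.ext h1 rfl rfl ?_ ?_
    · simp only [lab, cons_zero]
      rw [L.eq_om hs.zz_inf, (L.o_false _).2 (L.om_ne _), (L.o_false _).2 (L.om_ne _)]
    · rcases h2 with rfl | ⟨h2, h4⟩
      · rfl
      · simp only [lab, cons_one, cons_zero]
        rw [L.eq_om h2, L.eq_om h4.2, (L.o_false _).2 (L.om_ne _), (L.o_false _).2 (L.om_ne _)]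
  · exact h2.imp (fun h => by rw [q3]; exact h) fun h => ⟨h.2, q1, by rw [q3]; exact h.1⟩

theorem trans_om {x x'} (h : IsOm x) (hk : kind x' = kind x) (m : ℤ) :
    ∃ x'', Conn x x'' ∧ Eqv x'' x' ∧ hh x'' = m := by
  obtain ⟨v, g1, g2, y, h1, h2, h3⟩ := conn_side h.1 hk
  have h4 := (kind_isOm hk).1.2 h
  rw [L.eq_om (h3.trans h.2), ← (kind_sing2 hk h.1).2.2.2.1 h.2] at h1
  have h5 := h1.trans (conn_om _ _ _ (v - m) _ _)
  rw [sub_sub_cancel] at h5
  exact conn_fin h4.1 h5 h2 (.inr ⟨rfl, h4⟩)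

theorem trans_C {x x'} (h : IsC x) (hk : kind x' = kind x) : ∃ x'', Conn x x'' ∧ Eqv x'' x' := by
  obtain ⟨v, g1, g2, y, h1, h2, h3⟩ := conn_side h.1 hk
  have h4 := (kind_isOm hk).2.2 h
  have h5 := conn_C (zz x' 0).1 (zz x' 1).1 (cons ((zz x' 2).1, g2) y) _ h4.2
    (v + g1.v - (zz x' 1).2.v)
  rw [sub_add_cancel] at h5
  exact (conn_fin h4.1 ((h1.trans (conn_C _ _ _ _ (h3.trans h.2) _)).trans h5.symm) h2
    (.inl rfl)).imp fun _ h => ⟨h.1, h.2.1⟩

theorem many {x₀} (h : Sing x₀) (B : Finset Om) (b : Bool) :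
    ∃ x, kind x = kind x₀ ∧ side x = b ∧ ∀ x' ∈ B, ¬ Eqv x x' := by
  have hc : FinC (List.replicate (B.sup mm + 1) (false, L.one)) := fun a ha => by
    rw [List.eq_of_mem_replicate ha]; rfl
  obtain ⟨q1, q2, q3⟩ := sing_app hc (z := if tt x₀ then
    cons (true, .om 0) (cons (zz x₀ 1) (cons (b, L.one) x₀)) else
    cons (b, .om 0) (cons (zz x₀ 1) (cons ((zz x₀ 2).1, .om 0) x₀))) (by split_ifs <;> rfl)
  generalize app _ _ = x at q1 q2 q3
  have ht : tt x = tt x₀ := by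
    rw [Bool.eq_iff_iff, tt_iff, q3]
    split_ifs with e <;> simp [e, L.om_ne]
  refine ⟨x, ?_, ?_, fun x' hx he => ?_⟩
  · unfold kind
    rw [if_pos h, if_pos q1, ht, q3]
    split_ifs with e <;> simp [e]
  · unfold side
    rw [ht, q3]
    split_ifs <;> rfl
  · have := congrArg List.length ((he.vis q1).2.1.trans q2)
    rw [len_pre, List.length_replicate] at this
    have := Finset.le_sup (f := mm) hx
    omega

/-- the chain of equivalence relations -/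
def R3 : Setoid YY := ⟨fun y' y => kind y'.1 = kind y.1, ⟨fun _ => rfl, Eq.symm, Eq.trans⟩⟩
def R2 : Setoid YY := ⟨fun y' y => R3 y' y ∧ (IsOm y.1 → side y'.1 = side y.1),
  ⟨fun y => ⟨R3.refl y, fun _ => rfl⟩,
   fun h => ⟨R3.symm h.1, fun h' => (h.2 ((kind_isOm h.1).1.1 h')).symm⟩,
   fun h h' => ⟨R3.trans h.1 h'.1, fun h'' => (h.2 ((kind_isOm h'.1).1.2 h'')).trans (h'.2 h'')⟩⟩⟩
def R1 : Setoid YY := ⟨fun y' y => R2 y' y ∧ (IsOm y.1 → hh y'.1 = hh y.1),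
  ⟨fun y => ⟨R2.refl y, fun _ => rfl⟩,
   fun h => ⟨R2.symm h.1, fun h' => (h.2 ((kind_isOm h.1.1).1.1 h')).symm⟩,
   fun h h' => ⟨R2.trans h.1 h'.1, fun h'' => (h.2 ((kind_isOm h'.1.1).1.2 h'')).trans (h'.2 h'')⟩⟩⟩
def R0 : Setoid YY := ⟨fun y' y => R1 y' y ∧ (IsC y.1 → side y'.1 = side y.1),
  ⟨fun y => ⟨R1.refl y, fun _ => rfl⟩,
   fun h => ⟨R1.symm h.1, fun h' => (h.2 ((kind_isOm h.1.1.1).2.1 h')).symm⟩,
   fun h h' => ⟨R1.trans h.1 h'.1,
     fun h'' => (h.2 ((kind_isOm h'.1.1.1).2.2 h'')).trans (h'.2 h'')⟩⟩⟩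

lemma fs_gen {P : YY → Prop} (h : ∀ x i, ∃ k, ∀ x₁, Sim k x x₁ → ¬ Eqv x₁ x → ¬ P (x₁, i)) :
    ∃ B : Finset YY, ∀ y, P y → ∃ b ∈ B, Eqv y.1 b.1 ∧ y.2 = b.2 := by
  choose k hk using h
  obtain ⟨s, hs⟩ := yy_compact (fun y => {y' | y'.1 ∈ cls (k y.1 y.2) y.1 ∧ y'.2 = y.2})
    fun y => ⟨clop_prod (inB_cls _ _) _, mem_cls _ _, rfl⟩
  refine ⟨s, fun y hy => ?_⟩
  obtain ⟨b, hb, h1, h2⟩ := hs y
  exact ⟨b, hb, by_contra fun h => hk _ _ _ h1 h (h2 ▸ hy), h2⟩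

/-- finitely many exceptional classes -/
theorem fs1 {g} (hg : g ∈ GG) : ∃ B : Finset YY, ∀ y : YY, IsOm y.1 → side (g y).1 ≠ side y.1 →
    ∃ b ∈ B, Eqv y.1 b.1 ∧ y.2 = b.2 :=
  (fs_gen (P := fun y => IsOm y.1 ∧ side (g y).1 ≠ side y.1) fun x i => (locA hg x i).imp
    fun _ hk x₁ h1 h2 h => h.2 ((hk x₁ h1 h2 h.1.1).1 h.1)).imp fun _ h y h1 h2 => h y ⟨h1, h2⟩
theorem fs2 {g} (hg : g ∈ GG) (h : ∀ y, R2 (g y) y) : ∃ B : Finset YY, ∀ y : YY,
    ((IsOm y.1 ∧ hh (g y).1 ≠ hh y.1) ∨ (IsC y.1 ∧ side (g y).1 ≠ side y.1)) →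
    ∃ b ∈ B, Eqv y.1 b.1 ∧ y.2 = b.2 :=
  fs_gen fun x i => (locA hg x i).imp fun _ hk x₁ h1 h2 q => q.elim
    (fun q => q.2 (((hk x₁ h1 h2 q.1.1).2.1 (h (x, i)).2).2 q.1))
    fun q => q.2 ((hk x₁ h1 h2 q.1.1).2.1 (h (x, i)).2).1
theorem fs3 {g} (hg : g ∈ GG) (h : ∀ y, R1 (g y) y) : ∃ B : Finset YY, ∀ y : YY, IsC y.1 →
    (zz (g y).1 1).2 ≠ (zz y.1 1).2 → ∃ b ∈ B, Eqv y.1 b.1 ∧ y.2 = b.2 :=
  (fs_gen (P := fun y => IsC y.1 ∧ (zz (g y).1 1).2 ≠ (zz y.1 1).2) fun x i => (locA hg x i).imp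
    fun _ hk x₁ h1 h2 q => q.2 ((hk x₁ h1 h2 q.1.1).2.2
      (fun o => ⟨(h (x, i)).1.2 o, (h (x, i)).2 o⟩) q.1)).imp fun _ h y h1 h2 => h y ⟨h1, h2⟩

end Vale.Agent.P196
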