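import Mathlib

/-! The space `Om`, the ten letters, paths, the relations `Sim k` and the Boolean algebra `InB`.
Definitions and the elementary identities.  See notes/P196.md, part D. -/

namespace Vale.Agent.P196

/-- gaps: a positive integer, or an infinite gap with an integer offset -/
@[ext] structure L where
  inf : Bool
  v : ℤ
  pos : inf = false → 1 ≤ v

namespace L

def one : L := ⟨false, 1, fun _ => le_rfl⟩

instance : DecidableEq L := fun _ _ => decidable_of_iff _ L.ext_iff.symm

def succ (g : L) : L := ⟨g.inf, g.v + 1, fun h => by have := g.pos h; omega⟩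

def pred (g : L) : L :=
  if h : g = one then g else ⟨g.inf, g.v - 1, fun h' => by
    have := g.pos h'
    have h2 : g.v ≠ 1 := fun h3 => h (L.ext h' h3)
    omega⟩

/-- the test `g = 1` -/
def o (g : L) : Bool := decide (g = one)

@[simp] lemma o_true (g : L) : g.o = true ↔ g = one := by simp [o]
@[simp] lemma o_false (g : L) : g.o = false ↔ g ≠ one := by simp [o]
@[simp] lemma one_o : one.o = true := by simp [o]
lemma eq_one_iff (g : L) : g = one ↔ g.inf = false ∧ g.v = 1 := L.ext_iff
@[simp] lemma one_inf : one.inf = false := rfl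
@[simp] lemma one_v : one.v = 1 := rfl
@[simp] lemma succ_inf (g : L) : g.succ.inf = g.inf := rfl
@[simp] lemma succ_v (g : L) : g.succ.v = g.v + 1 := rfl
@[simp] lemma pred_inf (g : L) : g.pred.inf = g.inf := by unfold pred; split <;> rfl
lemma pred_v {g : L} (h : g ≠ one) : g.pred.v = g.v - 1 := by unfold pred; rw [dif_neg h]
@[simp] lemma succ_ne_one (g : L) : g.succ ≠ one := by
  intro h; rw [eq_one_iff] at h; have := g.pos h.1; have h2 := h.2; simp at h2; omega
@[simp] lemma succ_o (g : L) : g.succ.o = false := by simp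
@[simp] lemma pred_succ (g : L) : g.succ.pred = g :=
  L.ext (by simp) (by rw [pred_v (succ_ne_one g)]; simp)
lemma succ_pred {g : L} (h : g ≠ one) : g.pred.succ = g :=
  L.ext (by simp) (by rw [succ_v, pred_v h]; simp)
lemma succ_inj {g g' : L} (h : g.succ = g'.succ) : g = g' := by
  rw [← pred_succ g, h, pred_succ]

end L

/-- a cell: sign of a nonzero digit (`true` = u, `false` = d) and the gap before it -/
abbrev Cell := Bool × L

/-- the space -/
abbrev Om := ℕ → Cell

def cons (c : Cell) (x : Om) : Om
  | 0 => c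
  | n + 1 => x n

def tl (x : Om) : Om := fun n => x (n + 1)

@[simp] lemma cons_zero (c : Cell) (x : Om) : cons c x 0 = c := rfl
@[simp] lemma cons_succ (c : Cell) (x : Om) (n : ℕ) : cons c x (n + 1) = x n := rfl
@[simp] lemma cons_one (c : Cell) (x : Om) : cons c x 1 = x 0 := rfl
@[simp] lemma cons_two (c : Cell) (x : Om) : cons c x 2 = x 1 := rfl
@[simp] lemma tl_cons (c : Cell) (x : Om) : tl (cons c x) = x := rfl
@[simp] lemma tl_apply (x : Om) (n : ℕ) : tl x n = x (n + 1) := rfl
@[simp] lemma cons_tl (x : Om) : cons (x 0) (tl x) = x := by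
  funext n; cases n <;> rfl
lemma cons_inj {c c' : Cell} {x x' : Om} : cons c x = cons c' x' ↔ c = c' ∧ x = x' :=
  ⟨fun h => ⟨congrFun h 0, funext fun n => congrFun h (n + 1)⟩, fun h => by rw [h.1, h.2]⟩

/-- every point is `cons c₀ (cons c₁ (cons c₂ z))` -/
lemma om_cases (x : Om) : ∃ e0 g0 e1 g1 e2 g2 z,
    x = cons (e0, g0) (cons (e1, g1) (cons (e2, g2) z)) :=
  ⟨(x 0).1, (x 0).2, (x 1).1, (x 1).2, (x 2).1, (x 2).2, tl (tl (tl x)), by
    funext n; rcases n with _ | _ | _ | n <;> rfl⟩

/-- head state: first sign `d`; first sign `u` and third gap not one; `u` and third gap one -/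
inductive Hd | d | un | ut
  deriving DecidableEq

instance : Fintype Hd := ⟨{.d, .un, .ut}, fun x => by cases x <;> simp⟩

/-- head state from the first sign and the test on the third gap -/
def hd : Bool → Bool → Hd
  | false, _ => .d
  | true, false => .un
  | true, true => .ut

@[simp] lemma hd_d (e t : Bool) : hd e t = .d ↔ e = false := by cases e <;> cases t <;> simp [hd]
@[simp] lemma hd_un (e t : Bool) : hd e t = .un ↔ e = true ∧ t = false := by
  cases e <;> cases t <;> simp [hd]
@[simp] lemma hd_ut (e t : Bool) : hd e t = .ut ↔ e = true ∧ t = true := by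
  cases e <;> cases t <;> simp [hd]

/-- labels -/
@[ext] structure Lab where
  h : Hd
  e1 : Bool
  e2 : Bool
  b : Bool
  s : Bool
  deriving DecidableEq, Fintype

/-- first sign -/
def Lab.e0 (l : Lab) : Bool := decide (l.h ≠ .d)

def lab (x : Om) : Lab where
  h := hd (x 0).1 (x 2).2.o
  e1 := (x 1).1
  e2 := (x 2).1
  b := (x 0).2.o
  s := (x 1).2.o

/-- prepend the digit `0` -/
def i0 (y : Om) : Om := cons ((y 0).1, (y 0).2.succ) (tl y)
/-- prepend the nonzero digit `ε` -/
def ie (ε : Bool) (y : Om) : Om := cons (ε, L.one) y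
/-- increase the second gap -/
def s1 (y : Om) : Om := cons (y 0) (i0 (tl y))
/-- increase the first two gaps -/
def jj (y : Om) : Om := i0 (s1 y)
/-- decrease the first gap -/
def d0 (x : Om) : Om := cons ((x 0).1, (x 0).2.pred) (tl x)
/-- decrease the second gap -/
def d1 (x : Om) : Om := cons (x 0) (d0 (tl x))
/-- flip the first sign -/
def fl (x : Om) : Om := cons (!(x 0).1, (x 0).2) (tl x)

inductive Letter | T | Ti | E | S | Si | Q | P (ε : Bool) | Pi (ε : Bool)
  deriving DecidableEq

instance : Fintype Letter :=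
  ⟨{.T, .Ti, .E, .S, .Si, .Q, .P false, .P true, .Pi false, .Pi true}, fun x => by
    rcases x with _ | _ | _ | _ | _ | _ | ⟨_ | _⟩ | ⟨_ | _⟩ <;> simp⟩

namespace Letter

def inv : Letter → Letter
  | T => Ti | Ti => T | E => E | S => Si | Si => S | Q => Q | P ε => Pi ε | Pi ε => P ε

@[simp] lemma inv_inv (a : Letter) : a.inv.inv = a := by cases a <;> rfl

/-- domain, as a set of labels -/
def dom : Letter → Set Lab
  | T => {l | l.s = false}
  | Ti => {l | l.b = false}
  | E => {l | l.s = true}
  | S => {l | l.h = .un}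
  | Si => {l | l.h = .d ∧ l.s = false}
  | Q => {l | l.h = .ut}
  | P ε => {l | l.b = true ∧ l.e0 = ε}
  | Pi _ => {l | l.b = false}

def act : Letter → Om → Om
  | T, x => i0 (d1 x)
  | Ti, x => s1 (d0 x)
  | E, x => cons (x 0) (fl (tl x))
  | S, x => cons (false, (x 0).2) (i0 (d1 (tl x)))
  | Si, x => cons (true, (x 0).2) (s1 (d0 (tl x)))
  | Q, x => cons (x 0) (cons (x 1) (fl (tl (tl x))))
  | P _, x => i0 (tl x)
  | Pi ε, x => ie ε (d0 x)

end Letter

/-- unfolding set for computations on `cons (e0,g0) (cons (e1,g1) (cons (e2,g2) z))` -/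
lemma act_cons (a : Letter) (e0 g0 e1 g1 e2 g2 z) :
    a.act (cons (e0, g0) (cons (e1, g1) (cons (e2, g2) z))) =
      match a with
      | .T => cons (e0, g0.succ) (cons (e1, g1.pred) (cons (e2, g2) z))
      | .Ti => cons (e0, g0.pred) (cons (e1, g1.succ) (cons (e2, g2) z))
      | .E => cons (e0, g0) (cons (!e1, g1) (cons (e2, g2) z))
      | .S => cons (false, g0) (cons (e1, g1.succ) (cons (e2, g2.pred) z))
      | .Si => cons (true, g0) (cons (e1, g1.pred) (cons (e2, g2.succ) z))
      | .Q => cons (e0, g0) (cons (e1, g1) (cons (!e2, g2) z))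
      | .P _ => cons (e1, g1.succ) (cons (e2, g2) z)
      | .Pi ε => cons (ε, L.one) (cons (e0, g0.pred) (cons (e1, g1) (cons (e2, g2) z))) := by
  cases a <;> rfl

lemma lab_cons (e0 g0 e1 g1 e2 g2 z) :
    lab (cons (e0, g0) (cons (e1, g1) (cons (e2, g2) z))) =
      ⟨hd e0 g2.o, e1, e2, g0.o, g1.o⟩ := rfl

@[simp] lemma e0_mk (e t e1 e2 b s) : Lab.e0 ⟨hd e t, e1, e2, b, s⟩ = e := by
  cases e <;> cases t <;> simp [Lab.e0, hd]

lemma lab_e0 (x : Om) : (lab x).e0 = (x 0).1 := e0_mk ..

lemma act_dom {a : Letter} {x : Om} (h : lab x ∈ a.dom) : lab (a.act x) ∈ a.inv.dom := by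
  obtain ⟨e0, g0, e1, g1, e2, g2, z, rfl⟩ := om_cases x
  cases a <;> simp_all [act_cons, Letter.dom, Letter.inv, lab]

lemma act_inv {a : Letter} {x : Om} (h : lab x ∈ a.dom) : a.inv.act (a.act x) = x := by
  obtain ⟨e0, g0, e1, g1, e2, g2, z, rfl⟩ := om_cases x
  cases a <;> simp_all [Letter.act, Letter.dom, Letter.inv, lab, L.succ_pred, ie, d0, i0, s1, d1, fl]

/-- paths are applied from the head of the list -/
def run : List Letter → Om → Om
  | [], x => x
  | a :: p, x => run p (a.act x)

/-- the path is defined at `x` -/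
def Ok : List Letter → Om → Prop
  | [], _ => True
  | a :: p, x => lab x ∈ a.dom ∧ Ok p (a.act x)

/-- reverse path -/
def pinv (p : List Letter) : List Letter := (p.map Letter.inv).reverse

@[simp] lemma run_nil (x : Om) : run [] x = x := rfl
@[simp] lemma run_cons (a p) (x : Om) : run (a :: p) x = run p (a.act x) := rfl
@[simp] lemma ok_nil (x : Om) : Ok [] x := trivial
@[simp] lemma ok_cons (a p) (x : Om) : Ok (a :: p) x ↔ lab x ∈ a.dom ∧ Ok p (a.act x) := Iff.rfl
@[simp] lemma run_append (p q) (x : Om) : run (p ++ q) x = run q (run p x) := by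
  induction p generalizing x with
  | nil => rfl
  | cons a p ih => simp [ih]
@[simp] lemma ok_append (p q) (x : Om) : Ok (p ++ q) x ↔ Ok p x ∧ Ok q (run p x) := by
  induction p generalizing x with
  | nil => simp
  | cons a p ih => simp [ih, and_assoc]
lemma pinv_cons (a p) : pinv (a :: p) = pinv p ++ [a.inv] := by simp [pinv]
lemma ok_pinv {p : List Letter} {x : Om} (h : Ok p x) :
    Ok (pinv p) (run p x) ∧ run (pinv p) (run p x) = x := by
  induction p generalizing x with
  | nil => simp [pinv]
  | cons a p ih =>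
    obtain ⟨h1, h2⟩ := ih h.2
    simp [pinv_cons, h1, h2, act_dom h.1, act_inv h.1]

/-- the letter substitution induced by `i0` -/
def phiL : Letter → List Letter
  | .P ε => [.Ti, .P ε]
  | .Pi ε => [.Pi ε, .T]
  | a => [a]

def phi (p : List Letter) : List Letter := p.flatMap phiL

/-- one step of decoding -/
def back (x : Om) : Om :=
  if (lab x).b then tl x else if (lab x).s then d0 x else d1 (d0 x)

/-- the first `k + 1` labels of the itineraries agree -/
def Sim : ℕ → Om → Om → Prop
  | 0, x, x' => lab x = lab x'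
  | k + 1, x, x' => lab x = lab x' ∧ Sim k (back x) (back x')

/-- the class of `x` -/
def cls (k : ℕ) (x : Om) : Set Om := {x' | Sim k x x'}

/-- saturated for `Sim k` -/
def InD (k : ℕ) (V : Set Om) : Prop := ∀ x x', Sim k x x' → x ∈ V → x' ∈ V

/-- the Boolean algebra of clopen sets -/
def InB (V : Set Om) : Prop := ∃ k, InD k V

/-- indistinguishable points -/
def Eqv (x x' : Om) : Prop := ∀ k, Sim k x x'

/-- prepend a list of cells -/
def app : List Cell → Om → Om
  | [], z => z
  | c :: cs, z => cons c (app cs z)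

end Vale.Agent.P196
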