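import Vale.Agent.P196.Om

/-! Job D1, first file: the relations `Sim k`, continuity of the letters and the Boolean
algebra `InB`.  See notes/P196.md, part D1. -/

namespace Vale.Agent.P196

lemma back_ie (ε y) : back (ie ε y) = y := by simp [back, ie, lab]
lemma back_i0 {y : Om} (h : (lab y).s = true) : back (i0 y) = y := by
  simp_all [back, i0, d0, lab]
lemma back_jj (y) : back (jj y) = y := by
  obtain ⟨e0, g0, e1, g1, e2, g2, z, rfl⟩ := om_cases y
  simp [back, jj, i0, s1, d0, d1, lab]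

lemma sim_refl (k x) : Sim k x x := by
  induction k generalizing x with
  | zero => rfl
  | succ k ih => exact ⟨rfl, ih _⟩
lemma Sim.symm {k x x'} (h : Sim k x x') : Sim k x' x := by
  induction k generalizing x x' with
  | zero => exact Eq.symm h
  | succ k ih => exact ⟨h.1.symm, ih h.2⟩
lemma Sim.trans {k x x' x''} (h : Sim k x x') (h' : Sim k x' x'') : Sim k x x'' := by
  induction k generalizing x x' x'' with
  | zero => exact Eq.trans h h'
  | succ k ih => exact ⟨h.1.trans h'.1, ih h.2 h'.2⟩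
lemma Sim.lab {k x x'} (h : Sim k x x') : lab x = lab x' := by
  cases k with
  | zero => exact h
  | succ k => exact h.1
lemma Sim.mono {k k' x x'} (hk : k ≤ k') (h : Sim k' x x') : Sim k x x' := by
  induction k generalizing k' x x' with
  | zero => exact h.lab
  | succ k ih =>
    obtain ⟨k', rfl⟩ : ∃ j, k' = j + 1 := ⟨k' - 1, by omega⟩
    exact ⟨h.1, ih (by omega) h.2⟩
lemma Sim.back {k x x'} (h : Sim (k + 1) x x') : Sim k (back x) (back x') := h.2

lemma lab_ie (ε y) : lab (ie ε y) = ⟨hd ε (lab y).s, (lab y).e0, (lab y).e1, true, (lab y).b⟩ := by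
  rw [lab_e0]; simp [lab, ie]
lemma lab_i0 (y) : lab (i0 y) = {lab y with b := false} := by simp [lab, i0]
lemma lab_s1 (y) : lab (s1 y) = {lab y with s := false} := by simp [lab, i0, s1]
lemma lab_jj (y) : lab (jj y) = {lab y with b := false, s := false} := by
  simp [lab, i0, s1, jj]

lemma sim_ie {k y y'} (ε) (h : Sim k y y') : Sim (k + 1) (ie ε y) (ie ε y') :=
  ⟨by rw [lab_ie, lab_ie, h.lab], by rwa [back_ie, back_ie]⟩
lemma sim_i0s {k y y'} (hs : (lab y).s = true) (h : Sim k y y') :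
    Sim (k + 1) (i0 y) (i0 y') :=
  ⟨by rw [lab_i0, lab_i0, h.lab], by rwa [back_i0 hs, back_i0 (h.lab ▸ hs)]⟩
lemma sim_jj {k y y'} (h : Sim k y y') : Sim (k + 1) (jj y) (jj y') :=
  ⟨by rw [lab_jj, lab_jj, h.lab], by rwa [back_jj, back_jj]⟩

lemma i0_ns {y} (h : (lab y).s = false) : i0 y = jj (d1 y) := by
  obtain ⟨e0, g0, e1, g1, e2, g2, z, rfl⟩ := om_cases y
  simp_all [lab, L.succ_pred, d0, i0, s1, d1, jj]
lemma eq_ie {y} (h : (lab y).b = true) : y = ie (lab y).e0 (back y) := by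
  rw [lab_e0]
  obtain ⟨e0, g0, e1, g1, e2, g2, z, rfl⟩ := om_cases y
  simp_all [lab, ie, back]
lemma back_b {y} (h : (lab y).b = true) : back y = tl y := by simp [back, h]
lemma s1_b {y} (h : (lab y).b = true) : s1 y = ie (lab y).e0 (i0 (back y)) := by
  rw [lab_e0]
  obtain ⟨e0, g0, e1, g1, e2, g2, z, rfl⟩ := om_cases y
  simp_all [lab, ie, back, s1]
lemma d1_b {y} (h : (lab y).b = true) : d1 y = ie (lab y).e0 (d0 (back y)) := by
  rw [lab_e0]
  obtain ⟨e0, g0, e1, g1, e2, g2, z, rfl⟩ := om_cases y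
  simp_all [lab, ie, back, d1]
lemma back_b_b {y} (h : (lab y).b = true) : (lab (back y)).b = (lab y).s := by
  simp_all [lab, back]
lemma back_b_s {y} (h : (lab y).b = true) : (lab (back y)).s = (y 2).2.o := by
  simp_all [lab, back]
lemma s1_nb {y} (h : (lab y).b = false) : s1 y = jj (d0 y) := by
  obtain ⟨e0, g0, e1, g1, e2, g2, z, rfl⟩ := om_cases y
  simp_all [lab, L.succ_pred, d0, i0, s1, jj]
lemma d0_s {y} (h : (lab y).b = false) (h' : (lab y).s = true) : d0 y = back y := by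
  simp [back, h, h']
lemma d0_ns {y} (h : (lab y).b = false) (h' : (lab y).s = false) : d0 y = s1 (back y) := by
  obtain ⟨e0, g0, e1, g1, e2, g2, z, rfl⟩ := om_cases y
  simp_all [lab, L.succ_pred, d0, i0, s1, d1, back]
lemma d1_nb {y} (h : (lab y).b = false) (h' : (lab y).s = false) : d1 y = i0 (back y) := by
  obtain ⟨e0, g0, e1, g1, e2, g2, z, rfl⟩ := om_cases y
  simp_all [lab, L.succ_pred, d0, i0, d1, back]
lemma eq_jj {y} (h : (lab y).b = false) (h' : (lab y).s = false) : y = jj (back y) := by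
  obtain ⟨e0, g0, e1, g1, e2, g2, z, rfl⟩ := om_cases y
  simp_all [lab, L.succ_pred, d0, i0, s1, d1, jj, back]
lemma eq_i0 {y} (h : (lab y).b = false) : y = i0 (d0 y) := by
  obtain ⟨e0, g0, e1, g1, e2, g2, z, rfl⟩ := om_cases y
  simp_all [lab, L.succ_pred, d0, i0]
lemma eq_s1 {y} (h : (lab y).s = false) : y = s1 (d1 y) := by
  obtain ⟨e0, g0, e1, g1, e2, g2, z, rfl⟩ := om_cases y
  simp_all [lab, L.succ_pred, d0, i0, s1, d1]
lemma d0_i0 (y) : d0 (i0 y) = y := by simp [d0, i0]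
lemma d1_s1 (y) : d1 (s1 y) = y := by simp [d1, s1, d0_i0]
lemma lab_ied0 {y} (ε) (h : (lab y).b = false) :
    lab (ie ε (d0 y)) = ⟨hd ε (lab y).s, (lab y).e0, (lab y).e1, true, (lab (back y)).b⟩ := by
  rw [lab_e0]
  obtain ⟨e0, g0, e1, g1, e2, g2, z, rfl⟩ := om_cases y
  by_cases h1 : g1 = L.one <;> simp_all [lab, ie, back, d0, d1]

lemma sim_four (k : ℕ) :
    (∀ y y', Sim (k + 1) y y' → Sim k (i0 y) (i0 y')) ∧
    (∀ y y', Sim (k + 1) y y' → Sim k (s1 y) (s1 y')) ∧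
    (∀ y y', (lab y).b = false → Sim (k + 2) y y' → Sim k (d0 y) (d0 y')) ∧
    (∀ y y', (lab y).s = false → Sim (k + 2) y y' → Sim k (d1 y) (d1 y')) := by
  have hD : ∀ k, (∀ y y', Sim (k + 1) y y' → Sim k (s1 y) (s1 y')) →
      ∀ y y', (lab y).b = false → Sim (k + 2) y y' → Sim k (d0 y) (d0 y') := by
    intro k hB y y' hb h
    have hb' : (lab y').b = false := h.lab ▸ hb
    cases hs : (lab y).s with
    | true =>
      rw [d0_s hb hs, d0_s hb' (h.lab ▸ hs)]
      exact h.back.mono (by omega)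
    | false =>
      rw [d0_ns hb hs, d0_ns hb' (h.lab ▸ hs)]
      exact hB _ _ h.back
  have hC : ∀ k, (∀ y y', Sim (k + 1) y y' → Sim k (i0 y) (i0 y')) →
      (∀ ε y y', (lab y).b = false → Sim (k + 1) y y' → Sim k (ie ε (d0 y)) (ie ε (d0 y'))) →
      ∀ y y', (lab y).s = false → Sim (k + 2) y y' → Sim k (d1 y) (d1 y') := by
    intro k hA hE y y' hs h
    have hs' : (lab y').s = false := h.lab ▸ hs
    cases hb : (lab y).b with
    | true =>
      rw [d1_b hb, d1_b (h.lab ▸ hb), ← h.lab]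
      exact hE _ _ _ (by rw [back_b_b hb, hs]) h.back
    | false =>
      rw [d1_nb hb hs, d1_nb (h.lab ▸ hb) hs']
      exact hA _ _ h.back
  induction k with
  | zero =>
    have hA : ∀ y y', Sim (0 + 1) y y' → Sim 0 (i0 y) (i0 y') := fun y y' h => by
      show lab _ = lab _
      rw [lab_i0, lab_i0, h.lab]
    have hB : ∀ y y', Sim (0 + 1) y y' → Sim 0 (s1 y) (s1 y') := fun y y' h => by
      show lab _ = lab _
      rw [lab_s1, lab_s1, h.lab]
    refine ⟨hA, hB, hD 0 hB, hC 0 hA fun ε y y' hb h => ?_⟩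
    show lab _ = lab _
    rw [lab_ied0 ε hb, lab_ied0 ε (h.lab ▸ hb), h.lab, h.back.lab]
  | succ k ih =>
    obtain ⟨iA, -, iD, iC⟩ := ih
    have hA : ∀ y y', Sim (k + 1 + 1) y y' → Sim (k + 1) (i0 y) (i0 y') := fun y y' h => by
      cases hs : (lab y).s with
      | true => exact (sim_i0s hs h).mono (by omega)
      | false =>
        rw [i0_ns hs, i0_ns (h.lab ▸ hs)]
        exact sim_jj (iC _ _ hs h)
    have hB : ∀ y y', Sim (k + 1 + 1) y y' → Sim (k + 1) (s1 y) (s1 y') := fun y y' h => by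
      cases hb : (lab y).b with
      | true =>
        rw [s1_b hb, s1_b (h.lab ▸ hb), ← h.lab]
        exact sim_ie _ (iA _ _ h.back)
      | false =>
        rw [s1_nb hb, s1_nb (h.lab ▸ hb)]
        exact sim_jj (iD _ _ hb h)
    exact ⟨hA, hB, hD _ hB, hC _ hA fun ε y y' hb h => sim_ie ε (iD _ _ hb h)⟩

lemma sim_i0 {k y y'} (h : Sim k y y') : Sim (k - 1) (i0 y) (i0 y') := by
  cases k with
  | zero =>
    show lab _ = lab _
    rw [lab_i0, lab_i0, h.lab]
  | succ k => exact (sim_four k).1 _ _ h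
lemma sim_s1 {k y y'} (h : Sim k y y') : Sim (k - 1) (s1 y) (s1 y') := by
  cases k with
  | zero =>
    show lab _ = lab _
    rw [lab_s1, lab_s1, h.lab]
  | succ k => exact (sim_four k).2.1 _ _ h
lemma sim_d0 {k y y'} (hb : (lab y).b = false) (h : Sim (k + 2) y y') :
    Sim k (d0 y) (d0 y') := (sim_four k).2.2.1 _ _ hb h
lemma sim_d1 {k y y'} (hs : (lab y).s = false) (h : Sim (k + 2) y y') :
    Sim k (d1 y) (d1 y') := (sim_four k).2.2.2 _ _ hs h

lemma cont_gen (f : Om → Om) (D : Lab → Prop) (F : Lab → Lab)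
    (hlab : ∀ x, D (lab x) → lab (f x) = F (lab x))
    (hback : ∀ x, D (lab x) → (lab x).b = false → D (lab (back x)) ∧ back (f x) = f (back x))
    (hb : ∀ k x x', D (lab x) → (lab x).b = true → Sim (k + 3) x x' → Sim (k + 1) (f x) (f x'))
    (k : ℕ) : ∀ x x', D (lab x) → Sim (k + 2) x x' → Sim k (f x) (f x') := by
  induction k with
  | zero =>
    intro x x' hD h
    show lab _ = lab _
    rw [hlab x hD, hlab x' (h.lab ▸ hD), h.lab]
  | succ k ih =>
    intro x x' hD h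
    cases hb' : (lab x).b with
    | true => exact hb k x x' hD hb' h
    | false =>
      refine ⟨by rw [hlab x hD, hlab x' (h.lab ▸ hD), h.lab], ?_⟩
      rw [(hback x hD hb').2, (hback x' (h.lab ▸ hD) (h.lab ▸ hb')).2]
      exact ih _ _ (hback x hD hb').1 h.back

lemma E_b {x} (hs : (lab x).s = true) (hb : (lab x).b = true) :
    Letter.E.act x = ie (lab x).e0 (ie (!(lab x).e1) (back (back x))) := by
  rw [lab_e0]
  obtain ⟨e0, g0, e1, g1, e2, g2, z, rfl⟩ := om_cases x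
  simp_all [Letter.act, lab, ie, fl, back]

lemma sim_E {k x x'} (hs : (lab x).s = true) (h : Sim (k + 2) x x') :
    Sim k (Letter.E.act x) (Letter.E.act x') := by
  refine cont_gen Letter.E.act (fun l => l.s = true) (fun l => {l with e1 := !l.e1}) ?_ ?_ ?_
    k x x' hs h
  · intro x _
    simp [Letter.act, lab, fl]
  · intro x h1 h2
    obtain ⟨e0, g0, e1, g1, e2, g2, z, rfl⟩ := om_cases x
    simp_all [Letter.act, lab, fl, back, d0]
  · intro k x x' h1 h2 h
    rw [E_b h1 h2, E_b (h.lab ▸ h1) (h.lab ▸ h2), ← h.lab]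
    exact (sim_ie _ (sim_ie _ h.back.back)).mono (by omega)

lemma Q_b {x} (hb : (lab x).b = true) :
    Letter.Q.act x = ie (lab x).e0 (Letter.E.act (back x)) := by
  rw [lab_e0]
  obtain ⟨e0, g0, e1, g1, e2, g2, z, rfl⟩ := om_cases x
  simp_all [Letter.act, lab, ie, fl, back]

lemma sim_Q {k x x'} (hs : (lab x).h = .ut) (h : Sim (k + 2) x x') :
    Sim k (Letter.Q.act x) (Letter.Q.act x') := by
  refine cont_gen Letter.Q.act (fun l => l.h = .ut) (fun l => {l with e2 := !l.e2}) ?_ ?_ ?_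
    k x x' hs h
  · intro x _
    simp [Letter.act, lab, fl]
  · intro x h1 h2
    obtain ⟨e0, g0, e1, g1, e2, g2, z, rfl⟩ := om_cases x
    by_cases h3 : g1 = L.one <;> simp_all [Letter.act, lab, fl, back, d0, d1]
  · intro k x x' h1 h2 h
    rw [Q_b h2, Q_b (h.lab ▸ h2), ← h.lab]
    refine sim_ie _ (sim_E ?_ h.back)
    rw [back_b_s h2]
    exact ((hd_ut _ _).1 h1).2

/-- the letter `S` followed by `d1` -/
def So (x : Om) : Om := cons (false, (x 0).2) (d1 (tl x))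
/-- the inverse of `So` -/
def Soi (x : Om) : Om := cons (true, (x 0).2) (s1 (tl x))

lemma So_b {x} (hb : (lab x).b = true) : So x = ie false (d1 (back x)) := by
  simp_all [So, lab, ie, back]
lemma Soi_b {x} (hb : (lab x).b = true) : Soi x = ie true (s1 (back x)) := by
  simp_all [Soi, lab, ie, back]

lemma sim_So {k x x'} (hs : (lab x).h = .un) (h : Sim (k + 2) x x') :
    Sim k (So x) (So x') := by
  refine cont_gen So (fun l => l.h = .un) (fun l => {l with h := .d}) ?_ ?_ ?_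
    k x x' hs h
  · intro x _
    simp [So, lab, d1, d0, hd]
  · intro x h1 h2
    obtain ⟨e0, g0, e1, g1, e2, g2, z, rfl⟩ := om_cases x
    by_cases h3 : g1 = L.one <;> simp_all [So, lab, back, d0, d1]
  · intro k x x' h1 h2 h
    rw [So_b h2, So_b (h.lab ▸ h2)]
    refine sim_ie _ (sim_d1 ?_ h.back)
    rw [back_b_s h2]
    exact ((hd_un _ _).1 h1).2

lemma sim_Soi {k x x'} (h : Sim (k + 2) x x') : Sim k (Soi x) (Soi x') := by
  refine cont_gen Soi (fun _ => True) (fun l => {l with h := .un}) ?_ ?_ ?_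
    k x x' trivial h
  · intro x _
    simp [Soi, lab, s1, i0, hd]
  · intro x _ h2
    obtain ⟨e0, g0, e1, g1, e2, g2, z, rfl⟩ := om_cases x
    by_cases h3 : g1 = L.one <;> simp_all [Soi, lab, back, d0, d1, s1, i0]
  · intro k x x' _ h2 h
    rw [Soi_b h2, Soi_b (h.lab ▸ h2)]
    exact sim_ie _ ((sim_s1 h.back).mono (by omega))

lemma S_eq (x) : Letter.S.act x = s1 (So x) := by simp [Letter.act, So, s1]
lemma Si_eq (x) : Letter.Si.act x = Soi (d1 x) := by simp [Letter.act, Soi, d1]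

lemma act_cont4 (a : Letter) (k : ℕ) (x x' : Om) (hx : lab x ∈ a.dom) (h : Sim (k + 4) x x') :
    Sim k (a.act x) (a.act x') := by
  cases a with
  | T => exact (sim_i0 (sim_d1 hx h)).mono (by omega)
  | Ti => exact (sim_s1 (sim_d0 hx h)).mono (by omega)
  | E => exact (sim_E hx h).mono (by omega)
  | S => rw [S_eq, S_eq]; exact (sim_s1 (sim_So hx h)).mono (by omega)
  | Si => rw [Si_eq, Si_eq]; exact sim_Soi (sim_d1 hx.2 h)
  | Q => exact (sim_Q hx h).mono (by omega)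
  | P ε =>
    have h2 := sim_i0 h.back
    rw [back_b hx.1, back_b (h.lab ▸ hx.1)] at h2
    exact h2.mono (by omega)
  | Pi ε => exact (sim_ie ε (sim_d0 hx h)).mono (by omega)

lemma act_cont (a : Letter) (k : ℕ) : ∃ k', ∀ x x', lab x ∈ a.dom → Sim k' x x' →
    Sim k (a.act x) (a.act x') := ⟨k + 4, act_cont4 a k⟩
lemma run_cont (p : List Letter) (k : ℕ) : ∃ k', ∀ x x', Ok p x → Sim k' x x' →
    Ok p x' ∧ Sim k (run p x) (run p x') := by
  induction p with
  | nil => exact ⟨k, fun _ _ _ h => ⟨trivial, h⟩⟩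
  | cons a p ih =>
    obtain ⟨k', hk'⟩ := ih
    refine ⟨k' + 4, fun x x' hx h => ?_⟩
    obtain ⟨h1, h2⟩ := hk' _ _ hx.2 (act_cont4 a k' x x' hx.1 h)
    exact ⟨⟨h.lab ▸ hx.1, h1⟩, h2⟩

lemma InD.mono {k k' V} (hk : k ≤ k') (h : InD k V) : InD k' V :=
  fun x x' hx => h x x' (hx.mono hk)
lemma inD_cls (k x) : InD k (cls k x) := fun _ _ h h' => Sim.trans h' h
lemma inB_cls (k x) : InB (cls k x) := ⟨k, inD_cls k x⟩
lemma mem_cls (k x) : x ∈ cls k x := sim_refl k x
lemma inB_lab (W : Set Lab) : InB (lab ⁻¹' W) :=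
  ⟨0, fun _ _ h h' => by have h2 : lab _ ∈ W := h'; rwa [h.lab] at h2⟩
lemma inB_univ : InB Set.univ := ⟨0, fun _ _ _ _ => trivial⟩
lemma inB_empty : InB ∅ := ⟨0, fun _ _ _ h => h⟩
lemma InB.inter {A B} (hA : InB A) (hB : InB B) : InB (A ∩ B) := by
  obtain ⟨k, hk⟩ := hA
  obtain ⟨j, hj⟩ := hB
  exact ⟨max k j, fun x x' h hx => ⟨hk _ _ (h.mono (le_max_left _ _)) hx.1,
    hj _ _ (h.mono (le_max_right _ _)) hx.2⟩⟩
lemma InB.union {A B} (hA : InB A) (hB : InB B) : InB (A ∪ B) := by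
  obtain ⟨k, hk⟩ := hA
  obtain ⟨j, hj⟩ := hB
  exact ⟨max k j, fun x x' h hx => hx.imp (hk _ _ (h.mono (le_max_left _ _)))
    (hj _ _ (h.mono (le_max_right _ _)))⟩
lemma InB.compl {A} (hA : InB A) : InB Aᶜ := by
  obtain ⟨k, hk⟩ := hA
  exact ⟨k, fun x x' h hx hx' => hx (hk _ _ h.symm hx')⟩
lemma InB.diff {A B} (hA : InB A) (hB : InB B) : InB (A \ B) := hA.inter hB.compl

lemma InB.pre_gen {A} (hA : InB A) (D : Lab → Prop) (g : Om → Om) (c : ℕ)
    (hg : ∀ k x x', D (lab x) → Sim (k + c) x x' → Sim k (g x) (g x')) :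
    InB {x | D (lab x) ∧ g x ∈ A} := by
  obtain ⟨k, hk⟩ := hA
  exact ⟨k + c, fun x x' h hx => ⟨h.lab ▸ hx.1, hk _ _ (hg k x x' hx.1 h) hx.2⟩⟩
lemma InB.pre {A} (hA : InB A) (g : Om → Om) (c : ℕ)
    (hg : ∀ k x x', Sim (k + c) x x' → Sim k (g x) (g x')) : InB (g ⁻¹' A) := by
  obtain ⟨k, hk⟩ := hA
  exact ⟨k + c, fun x x' h hx => hk _ _ (hg k x x' h) hx⟩

lemma InB.pre_i0 {A} (hA : InB A) : InB (i0 ⁻¹' A) := hA.pre i0 1 fun _ _ _ h => sim_i0 h
lemma InB.pre_ie {A} (ε) (hA : InB A) : InB (ie ε ⁻¹' A) :=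
  hA.pre (ie ε) 0 fun _ _ _ h => (sim_ie ε h).mono (by omega)
lemma InB.pre_jj {A} (hA : InB A) : InB (jj ⁻¹' A) :=
  hA.pre jj 0 fun _ _ _ h => (sim_jj h).mono (by omega)
lemma InB.pre_s1 {A} (hA : InB A) : InB (s1 ⁻¹' A) := hA.pre s1 1 fun _ _ _ h => sim_s1 h

lemma im_eq {A : Set Om} (f g : Om → Om) (D : Lab → Prop)
    (h1 : ∀ y ∈ A, D (lab (f y)) ∧ g (f y) = y) (h2 : ∀ x, D (lab x) → g x ∈ A → f (g x) = x) :
    f '' A = {x | D (lab x) ∧ g x ∈ A} := by
  ext x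
  constructor
  · rintro ⟨y, hy, rfl⟩
    exact ⟨(h1 y hy).1, by rwa [(h1 y hy).2]⟩
  · rintro ⟨h3, h4⟩
    exact ⟨g x, h4, h2 x h3 h4⟩

lemma InB.im_i0 {A} (hA : InB A) : InB (i0 '' A) := by
  rw [im_eq i0 d0 (fun l => l.b = false) (fun y _ => ⟨by rw [lab_i0], d0_i0 y⟩)
    fun x h _ => (eq_i0 h).symm]
  exact hA.pre_gen (fun l => l.b = false) d0 2 fun _ _ _ h h' => sim_d0 h h'
lemma InB.im_ie {A} (ε) (hA : InB A) : InB (ie ε '' A) := by
  rw [im_eq (ie ε) back (fun l => l.b = true ∧ l.e0 = ε)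
    (fun y _ => ⟨⟨by rw [lab_ie], by rw [lab_ie, e0_mk]⟩, back_ie ε y⟩)
    fun x h _ => by rw [← h.2]; exact (eq_ie h.1).symm]
  exact hA.pre_gen (fun l => l.b = true ∧ l.e0 = ε) back 1 fun _ _ _ _ h' => h'.back
lemma InB.im_jj {A} (hA : InB A) : InB (jj '' A) := by
  rw [im_eq jj back (fun l => l.b = false ∧ l.s = false)
    (fun y _ => ⟨⟨by rw [lab_jj], by rw [lab_jj]⟩, back_jj y⟩)
    fun x h _ => (eq_jj h.1 h.2).symm]
  exact hA.pre_gen (fun l => l.b = false ∧ l.s = false) back 1 fun _ _ _ _ h' => h'.back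
lemma InB.im_s1 {A} (hA : InB A) : InB (s1 '' A) := by
  rw [im_eq s1 d1 (fun l => l.s = false) (fun y _ => ⟨by rw [lab_s1], d1_s1 y⟩)
    fun x h _ => (eq_s1 h).symm]
  exact hA.pre_gen (fun l => l.s = false) d1 2 fun _ _ _ h h' => sim_d1 h h'
lemma InB.im_act {A} (a : Letter) (hA : InB A) (hd : ∀ x ∈ A, lab x ∈ a.dom) :
    InB (a.act '' A) := by
  rw [im_eq a.act a.inv.act (fun l => l ∈ a.inv.dom)
    (fun y hy => ⟨act_dom (hd y hy), act_inv (hd y hy)⟩)
    fun x h _ => by simpa using act_inv h]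
  exact hA.pre_gen (fun l => l ∈ a.inv.dom) a.inv.act 4 fun k x x' h h' => act_cont4 _ k x x' h h'
lemma InB.im_run {A} (p : List Letter) (hA : InB A) (hd : ∀ x ∈ A, Ok p x) :
    InB (run p '' A) := by
  induction p generalizing A with
  | nil =>
    have e : run [] '' A = A := Set.image_id' A
    rwa [e]
  | cons a p ih =>
    have h := ih (hA.im_act a fun x hx => (hd x hx).1) (by
      rintro _ ⟨x, hx, rfl⟩
      exact (hd x hx).2)
    rw [Set.image_image] at h
    exact h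
lemma InB.cls_sub {A x} (hA : InB A) (hx : x ∈ A) : ∃ k, ∀ k', k ≤ k' → cls k' x ⊆ A := by
  obtain ⟨k, hk⟩ := hA
  exact ⟨k, fun k' h x' hx' => hk _ _ (Sim.mono h hx') hx⟩

lemma phiL_ok {a : Letter} {y : Om} (h : lab y ∈ a.dom) :
    Ok (phiL a) (i0 y) ∧ run (phiL a) (i0 y) = i0 (a.act y) := by
  obtain ⟨e0, g0, e1, g1, e2, g2, z, rfl⟩ := om_cases y
  cases a <;>
    simp_all [phiL, Letter.act, Letter.dom, lab, L.succ_pred, ie, d0, i0, s1, d1, fl]

lemma phi_ok {p : List Letter} {y : Om} (h : Ok p y) :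
    Ok (phi p) (i0 y) ∧ run (phi p) (i0 y) = i0 (run p y) := by
  induction p generalizing y with
  | nil => exact ⟨trivial, rfl⟩
  | cons a p ih =>
    obtain ⟨h1, h2⟩ := phiL_ok h.1
    obtain ⟨h3, h4⟩ := ih h.2
    have e : phi (a :: p) = phiL a ++ phi p := rfl
    rw [e, ok_append, run_append, h2]
    exact ⟨⟨h1, h3⟩, h4⟩

end Vale.Agent.P196
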