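import Vale.Agent.P196.OmA

/-! Job D1, second file: truncation, compactness and the induction principles for the Boolean
algebra `InB`.  See notes/P196.md, part D1. -/

namespace Vale.Agent.P196

/-- a gap that is infinite or larger than `M` -/
def Big (M : ℕ) (g : L) : Prop := g.inf = true ∨ (M : ℤ) < g.v

/-- two gaps that agree up to truncation at `M` -/
def GapEq (M : ℕ) (g g' : L) : Prop := g = g' ∨ (Big M g ∧ Big M g')

/-- agreement of the first `M + 1` cells up to truncation at `M` -/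
def Trn (M : ℕ) (x x' : Om) : Prop :=
  ∀ n ≤ M, (x n).1 = (x' n).1 ∧ GapEq M (x n).2 (x' n).2

lemma Big.ne_one {M g} (h : Big (M + 1) g) : g ≠ L.one := by
  rintro rfl
  rcases h with h | h
  · simp at h
  · simp at h; omega
lemma Big.mono {M g} (h : Big (M + 1) g) : Big M g := h.imp id fun h => by push_cast at h; omega
lemma Big.pred {M g} (h : Big (M + 1) g) : Big M g.pred := by
  have h1 := L.pred_v h.ne_one
  rcases h with h | h
  · exact Or.inl (by simpa using h)
  · exact Or.inr (by rw [h1]; push_cast at h; omega)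
lemma GapEq.mono {M g g'} (h : GapEq (M + 1) g g') : GapEq M g g' :=
  h.imp id fun h => ⟨h.1.mono, h.2.mono⟩
lemma GapEq.pred {M g g'} (h : GapEq (M + 1) g g') : GapEq M g.pred g'.pred :=
  h.imp (congrArg _) fun h => ⟨h.1.pred, h.2.pred⟩
lemma GapEq.o {M g g'} (h : GapEq (M + 1) g g') : g.o = g'.o := by
  rcases h with rfl | h
  · rfl
  · rw [(L.o_false _).2 h.1.ne_one, (L.o_false _).2 h.2.ne_one]

lemma Trn.lab {M x x'} (h : Trn (M + 2) x x') : lab x = lab x' := by
  have h0 := h 0 (by omega)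
  have h1 := h 1 (by omega)
  have h2 := h 2 (by omega)
  simp only [P196.lab, h0.1, h1.1, h2.1, h0.2.o, h1.2.o, h2.2.o]

lemma Trn.back {M x x'} (h : Trn (M + 3) x x') : Trn (M + 2) (back x) (back x') := by
  have hl := h.lab
  intro n hn
  have a := h n (by omega)
  have b := h (n + 1) (by omega)
  unfold P196.back
  rw [← hl]
  split_ifs
  · exact ⟨b.1, b.2.mono⟩
  · rcases n with _ | n
    · exact ⟨a.1, a.2.pred⟩
    · exact ⟨a.1, a.2.mono⟩
  · rcases n with _ | _ | n
    · exact ⟨a.1, a.2.pred⟩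
    · exact ⟨a.1, a.2.pred⟩
    · exact ⟨a.1, a.2.mono⟩

lemma Trn.sim {k x x'} (h : Trn (k + 2) x x') : Sim k x x' := by
  induction k generalizing x x' with
  | zero => exact h.lab
  | succ k ih => exact ⟨h.lab, ih h.back⟩

lemma exists_limit {ι : Type} (𝒰 : Ultrafilter ι) (y : ι → Om) :
    ∃ z : Om, ∀ M, ∀ᶠ s in (𝒰 : Filter ι), Trn M z (y s) := by
  have h1 : ∀ n, ∃ e : Bool, ∀ᶠ s in (𝒰 : Filter ι), e = (y s n).1 := fun n => by
    rcases 𝒰.em fun s => true = (y s n).1 with h | h
    · exact ⟨true, h⟩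
    · exact ⟨false, h.mono fun s hs => by simpa using hs⟩
  have h2 : ∀ n, ∃ g : L, ∀ M, ∀ᶠ s in (𝒰 : Filter ι), GapEq M g (y s n).2 := fun n => by
    by_cases h : ∃ g : L, ∀ᶠ s in (𝒰 : Filter ι), g = (y s n).2
    · obtain ⟨g, hg⟩ := h
      exact ⟨g, fun M => hg.mono fun s hs => Or.inl hs⟩
    · refine ⟨⟨true, 0, by simp⟩, fun M => ?_⟩
      have h3 : ∀ᶠ s in (𝒰 : Filter ι), Big M (y s n).2 := by
        induction M with
        | zero =>
          refine Filter.Eventually.of_forall fun s => ?_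
          cases hi : (y s n).2.inf with
          | true => exact Or.inl hi
          | false => exact Or.inr (by have := (y s n).2.pos hi; push_cast; omega)
        | succ M ih =>
          have h4 := (𝒰.em fun s => (⟨false, M + 1, fun _ => by omega⟩ : L) = (y s n).2).resolve_left
            fun h5 => h ⟨_, h5⟩
          filter_upwards [ih, h4] with s h5 h6
          cases hi : (y s n).2.inf with
          | true => exact Or.inl hi
          | false =>
            rcases h5 with h5 | h5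
            · exact Or.inl h5
            · refine Or.inr ?_
              have h7 : (M : ℤ) + 1 ≠ (y s n).2.v := fun h7 => h6 (L.ext hi.symm h7)
              push_cast
              omega
      exact h3.mono fun s hs => Or.inr ⟨Or.inl rfl, hs⟩
  choose e he using h1
  choose g hg using h2
  refine ⟨fun n => (e n, g n), fun M => ?_⟩
  have h3 : ∀ n ∈ Set.Iic M, ∀ᶠ s in (𝒰 : Filter ι),
      e n = (y s n).1 ∧ GapEq M (g n) (y s n).2 := fun n _ => (he n).and (hg n M)
  exact (Filter.eventually_all_finite (Set.finite_Iic M)).2 h3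

/-- compactness -/
theorem om_compact (A : Om → Set Om) (h : ∀ x, InB (A x) ∧ x ∈ A x) :
    ∃ s : Finset Om, ∀ y, ∃ x ∈ s, y ∈ A x := by
  classical
  by_contra hc
  push Not at hc
  choose y hy using hc
  obtain ⟨𝒰, hU⟩ := Ultrafilter.exists_le (Filter.atTop : Filter (Finset Om))
  obtain ⟨z, hz⟩ := exists_limit 𝒰 y
  obtain ⟨⟨k, hk⟩, hzA⟩ := h z
  have h1 : ∀ᶠ s in (𝒰 : Filter (Finset Om)), z ∈ s :=
    hU ((Filter.eventually_ge_atTop {z}).mono fun s hs => hs (Finset.mem_singleton_self z))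
  obtain ⟨s, h2, h3⟩ := (h1.and (hz (k + 2))).exists
  exact hy s z h2 (hk _ _ h3.sim hzA)

theorem loc_ind (P : Set Om → Prop) (hloc : ∀ x, ∃ k, P (cls k x))
    (hmono : ∀ A A', InB A → InB A' → A' ⊆ A → P A → P A')
    (hunion : ∀ A A', InB A → InB A' → Disjoint A A' → P A → P A' → P (A ∪ A')) :
    P Set.univ := by
  classical
  choose k hk using hloc
  obtain ⟨s, hs⟩ := om_compact (fun x => cls (k x) x) fun x => ⟨inB_cls _ _, mem_cls _ _⟩
  have key : ∀ t : Finset Om, InB {y | ∃ x ∈ t, y ∈ cls (k x) x} ∧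
      P {y | ∃ x ∈ t, y ∈ cls (k x) x} := by
    intro t
    induction t using Finset.induction_on with
    | empty =>
      have e : {y | ∃ x ∈ (∅ : Finset Om), y ∈ cls (k x) x} = ∅ := by simp
      rw [e]
      exact ⟨inB_empty, hmono _ _ (inB_cls _ _) inB_empty (Set.empty_subset _)
        (hk fun _ => (true, L.one))⟩
    | insert a t _ ih =>
      have e : {y | ∃ x ∈ insert a t, y ∈ cls (k x) x} =
          {y | ∃ x ∈ t, y ∈ cls (k x) x} ∪ (cls (k a) a \ {y | ∃ x ∈ t, y ∈ cls (k x) x}) := by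
        rw [Set.union_sdiff_self]
        ext y
        simp [or_comm]
      rw [e]
      have h1 := (inB_cls (k a) a).diff ih.1
      exact ⟨ih.1.union h1, hunion _ _ ih.1 h1 Set.disjoint_sdiff_right ih.2
        (hmono _ _ (inB_cls _ _) h1 Set.sdiff_subset (hk a))⟩
  have e : {y | ∃ x ∈ s, y ∈ cls (k x) x} = Set.univ := Set.eq_univ_of_forall hs
  exact e ▸ (key s).2

theorem inB_of_loc {V : Set Om} (h : ∀ x, ∃ k, ∀ x', Sim k x x' → (x' ∈ V ↔ x ∈ V)) : InB V := by
  choose k hk using h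
  obtain ⟨s, hs⟩ := om_compact (fun x => cls (k x) x) fun x => ⟨inB_cls _ _, mem_cls _ _⟩
  refine ⟨s.sup k, fun y y' hy hV => ?_⟩
  obtain ⟨x, hx, hxy⟩ := hs y
  exact (hk x y' (Sim.trans hxy (hy.mono (Finset.le_sup hx)))).2 ((hk x y hxy).1 hV)

lemma i0_inj : Function.Injective i0 := Function.LeftInverse.injective d0_i0

lemma InB.im_it {A} (hA : InB A) (K : ℕ) : InB (i0^[K] '' A) := by
  induction K with
  | zero => simpa using hA
  | succ K ih => rw [Function.iterate_succ', Set.image_comp]; exact ih.im_i0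

lemma lab_it (K : ℕ) (y : Om) : ∃ b, lab (i0^[K] y) = {lab y with b := b} := by
  induction K with
  | zero => exact ⟨_, rfl⟩
  | succ K ih =>
    obtain ⟨b, hb⟩ := ih
    exact ⟨false, by rw [Function.iterate_succ_apply', lab_i0, hb]⟩

lemma lab_it_succ (K : ℕ) (y : Om) : lab (i0^[K + 1] y) = {lab y with b := false} := by
  obtain ⟨b, hb⟩ := lab_it K y
  rw [Function.iterate_succ_apply', lab_i0, hb]

lemma d1_i0 (y) : d1 (i0 y) = i0 (d1 y) := by simp [d1, i0]
lemma s1_i0 (y) : s1 (i0 y) = i0 (s1 y) := by simp [s1, i0]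
lemma d1_it (K y) : d1 (i0^[K] y) = i0^[K] (d1 y) :=
  (Function.Commute.iterate_right (f := d1) (g := i0) d1_i0 K) y
lemma s1_it (K y) : s1 (i0^[K] y) = i0^[K] (s1 y) :=
  (Function.Commute.iterate_right (f := s1) (g := i0) s1_i0 K) y
lemma d1_ie (ε y) : d1 (ie ε y) = ie ε (d0 y) := rfl

section
variable {P : Set Om → Prop}
  (hunion : ∀ A A', InB A → InB A' → Disjoint A A' → P A → P A' → P (A ∪ A'))
  (hact : ∀ (a : Letter) A, InB A → (∀ x ∈ A, lab x ∈ a.dom) → P A → P (a.act '' A))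

include hact in
lemma P_ie (ε) {W} (hW : InB W) (j m : ℕ) (h : P (i0^[j + m + 1] '' W)) :
    P (i0^[j] '' (ie ε '' (i0^[m] '' W))) := by
  induction j generalizing m with
  | zero =>
    have h1 := hact (.Pi ε) _ (hW.im_it _) (by
      rintro _ ⟨y, -, rfl⟩
      show (lab _).b = false
      rw [lab_it_succ]) h
    have e : (Letter.Pi ε).act '' (i0^[0 + m + 1] '' W) = i0^[0] '' (ie ε '' (i0^[m] '' W)) := by
      simp only [Set.image_image]
      refine Set.image_congr' fun y => ?_
      rw [Function.iterate_succ_apply', Nat.zero_add]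
      show ie ε (d0 _) = _
      rw [d0_i0]
      rfl
    exact e ▸ h1
  | succ j ih =>
    have h1 := hact .T _ (((hW.im_it (m + 1)).im_ie ε).im_it j) (by
      rintro _ ⟨_, ⟨_, ⟨y, -, rfl⟩, rfl⟩, rfl⟩
      show (lab _).s = false
      obtain ⟨b, hb⟩ := lab_it j (ie ε (i0^[m + 1] y))
      rw [hb, lab_ie, lab_it_succ]) (ih (m + 1) (by rwa [show j + (m + 1) = j + 1 + m by omega]))
    have e : Letter.T.act '' (i0^[j] '' (ie ε '' (i0^[m + 1] '' W))) =
        i0^[j + 1] '' (ie ε '' (i0^[m] '' W)) := by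
      simp only [Set.image_image]
      refine Set.image_congr' fun y => ?_
      show i0 (d1 _) = _
      rw [d1_it, d1_ie, Function.iterate_succ_apply', d0_i0, Function.iterate_succ_apply']
    exact e ▸ h1

include hact in
lemma P_jj {W} (hW : InB W) (K : ℕ) (h : P (i0^[K + 2] '' W)) : P (i0^[K] '' (jj '' W)) := by
  have h1 := hact .Ti _ (hW.im_it _) (by
    rintro _ ⟨y, -, rfl⟩
    show (lab _).b = false
    rw [lab_it_succ]) h
  have e : Letter.Ti.act '' (i0^[K + 2] '' W) = i0^[K] '' (jj '' W) := by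
    simp only [Set.image_image]
    refine Set.image_congr' fun y => ?_
    show s1 (d0 _) = _
    rw [Function.iterate_succ_apply', d0_i0, s1_it]
    rfl
  exact e ▸ h1

include hunion in
lemma P_un (K : ℕ) {A A'} (hA : InB A) (hA' : InB A') (hd : Disjoint A A')
    (h : P (i0^[K] '' A)) (h' : P (i0^[K] '' A')) : P (i0^[K] '' (A ∪ A')) := by
  rw [Set.image_union]
  exact hunion _ _ (hA.im_it K) (hA'.im_it K)
    (Set.disjoint_image_of_injective (i0_inj.iterate K) hd) h h'

lemma split3 (V : Set Om) :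
    V = (ie false '' (ie false ⁻¹' V) ∪ ie true '' (ie true ⁻¹' V)) ∪ i0 '' (i0 ⁻¹' V) := by
  ext x
  constructor
  · intro hx
    cases hb : (lab x).b with
    | true =>
      have h1 := eq_ie hb
      cases he : (lab x).e0 with
      | false =>
        rw [he] at h1
        exact Or.inl (Or.inl ⟨back x, by rwa [Set.mem_preimage, ← h1], h1.symm⟩)
      | true =>
        rw [he] at h1
        exact Or.inl (Or.inr ⟨back x, by rwa [Set.mem_preimage, ← h1], h1.symm⟩)
    | false =>
      have h1 := eq_i0 hb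
      exact Or.inr ⟨d0 x, by rwa [Set.mem_preimage, ← h1], h1.symm⟩
  · rintro ((⟨y, h, rfl⟩ | ⟨y, h, rfl⟩) | ⟨y, h, rfl⟩) <;> exact h

lemma split2 (V : Set Om) :
    i0 '' (i0 ⁻¹' V) = i0 '' {y | (lab y).s = true ∧ i0 y ∈ V} ∪ jj '' (jj ⁻¹' V) := by
  ext x
  constructor
  · rintro ⟨y, h, rfl⟩
    cases hs : (lab y).s with
    | true => exact Or.inl ⟨y, ⟨hs, h⟩, rfl⟩
    | false => exact Or.inr ⟨d1 y, by rwa [Set.mem_preimage, ← i0_ns hs], (i0_ns hs).symm⟩
  · rintro (⟨y, h, rfl⟩ | ⟨y, h, rfl⟩)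
    · exact ⟨y, h.2, rfl⟩
    · exact ⟨s1 y, h, rfl⟩

include hunion hact in
lemma P_split {V} (hV : InB V) (K : ℕ) (h0 : ∀ ε, P (i0^[K + 1] '' (ie ε ⁻¹' V)))
    (h1 : P (i0^[K] '' (i0 '' (i0 ⁻¹' V)))) : P (i0^[K] '' V) := by
  have h2 : ∀ ε, P (i0^[K] '' (ie ε '' (ie ε ⁻¹' V))) := fun ε => by
    simpa using P_ie hact ε (hV.pre_ie ε) K 0 (h0 ε)
  have h3 : ∀ ε, InB (ie ε '' (ie ε ⁻¹' V)) := fun ε => (hV.pre_ie ε).im_ie ε
  rw [split3 V]
  refine P_un hunion K ((h3 _).union (h3 _)) hV.pre_i0.im_i0 ?_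
    (P_un hunion K (h3 _) (h3 _) ?_ (h2 _) (h2 _)) h1
  · rw [Set.disjoint_left]
    rintro _ (⟨y, -, rfl⟩ | ⟨y, -, rfl⟩) ⟨y', -, h⟩ <;>
    · have h4 := congrArg (fun x => (lab x).b) h
      simp [lab_ie, lab_i0] at h4
  · rw [Set.disjoint_left]
    rintro _ ⟨y, -, rfl⟩ ⟨y', -, h⟩
    have h4 := congrArg (fun x => (x 0).1) h
    simp [ie] at h4

end

/-- generation of the Boolean algebra, additive form -/
theorem B_ind2 (P : Set Om → Prop) (base : ∀ (K : ℕ) (W : Set Lab), P (i0^[K] '' (lab ⁻¹' W)))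
    (hunion : ∀ A A', InB A → InB A' → Disjoint A A' → P A → P A' → P (A ∪ A'))
    (hact : ∀ (a : Letter) A, InB A → (∀ x ∈ A, lab x ∈ a.dom) → P A → P (a.act '' A))
    {V : Set Om} (hV : InB V) : P V := by
  have key : ∀ k V, InD k V → ∀ K, P (i0^[K] '' V) := by
    intro k
    induction k with
    | zero =>
      intro V hV K
      have e : V = lab ⁻¹' (lab '' V) := by
        ext x
        exact ⟨fun h => ⟨x, h, rfl⟩, fun ⟨y, h, h'⟩ => hV y x h' h⟩
      rw [e]
      exact base K _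
    | succ k ih =>
      intro V hV K
      have h1 : InD k {y | (lab y).s = true ∧ i0 y ∈ V} := fun y y' h hy =>
        ⟨h.lab ▸ hy.1, hV _ _ (sim_i0s hy.1 h) hy.2⟩
      have h2 : InD k (jj ⁻¹' V) := fun y y' h hy => hV _ _ (sim_jj h) hy
      refine P_split hunion hact ⟨_, hV⟩ K
        (fun ε => ih (ie ε ⁻¹' V) (fun y y' h hy => hV _ _ (sim_ie ε h) hy) _) ?_
      rw [split2]
      refine P_un hunion K (InB.im_i0 ⟨_, h1⟩) (InB.im_jj ⟨_, h2⟩) ?_ ?_
        (P_jj hact ⟨_, h2⟩ K (ih _ h2 _))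
      · rw [Set.disjoint_left]
        rintro _ ⟨y, hy, rfl⟩ ⟨y', -, h⟩
        have h4 := congrArg (fun x => (lab x).s) h
        simp [lab_jj, lab_i0, hy.1] at h4
      · have h3 := ih _ h1 (K + 1)
        rwa [Function.iterate_succ, Set.image_comp] at h3
  obtain ⟨k, hk⟩ := hV
  simpa using key k V hk 0

/-- one step of the filtration used for the finiteness of the central characters -/
theorem B_step (P : Set Om → Prop) (K : ℕ) (base : ∀ W : Set Lab, P (i0^[K + 1] '' (lab ⁻¹' W)))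
    (hunion : ∀ A A', InB A → InB A' → Disjoint A A' → P A → P A' → P (A ∪ A'))
    (hact : ∀ (a : Letter) A, InB A → (∀ x ∈ A, lab x ∈ a.dom) → P A → P (a.act '' A))
    (W : Set Lab) : P (i0^[K] '' (lab ⁻¹' W)) := by
  refine P_split hunion hact (inB_lab W) K (fun ε => ?_) ?_
  · have e : ie ε ⁻¹' (lab ⁻¹' W) =
        lab ⁻¹' {l | (⟨hd ε l.s, l.e0, l.e1, true, l.b⟩ : Lab) ∈ W} := by
      ext y
      simp only [Set.mem_preimage, lab_ie, Set.mem_ofPred_eq]
    rw [e]
    exact base _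
  · have e : i0 ⁻¹' (lab ⁻¹' W) = lab ⁻¹' {l | ({l with b := false} : Lab) ∈ W} := by
      ext y
      simp only [Set.mem_preimage, lab_i0, Set.mem_ofPred_eq]
    have h3 := base {l | ({l with b := false} : Lab) ∈ W}
    rwa [Function.iterate_succ, Set.image_comp, ← e] at h3

lemma it_mem_iff (K : ℕ) (y : Om) :
    i0^[K] y ∈ i0^[K + 1] '' Set.univ ↔ (lab y).b = false := by
  constructor
  · rintro ⟨z, -, h⟩
    rw [← i0_inj.iterate K h, lab_i0]
  · intro h
    exact ⟨d0 y, trivial, by rw [Function.iterate_succ_apply, ← eq_i0 h]⟩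

/-- generation of the Boolean algebra, Boolean form -/
theorem B_ind (P : Set Om → Prop) (base : ∀ W : Set Lab, P (lab ⁻¹' W))
    (hunion : ∀ A A', InB A → InB A' → Disjoint A A' → P A → P A' → P (A ∪ A'))
    (hinter : ∀ A A', InB A → InB A' → P A → P A' → P (A ∩ A'))
    (hcompl : ∀ A, InB A → P A → P Aᶜ)
    (hact : ∀ (a : Letter) A, InB A → (∀ x ∈ A, lab x ∈ a.dom) → P A → P (a.act '' A))
    {V : Set Om} (hV : InB V) : P V := by
  have hB : ∀ K, InB (i0^[K] '' Set.univ) := inB_univ.im_it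
  have hU : ∀ K, P (i0^[K] '' Set.univ) := by
    intro K
    induction K with
    | zero => simpa using base Set.univ
    | succ K ih =>
      have h1 := hact .T _ ((hB K).inter (inB_lab Letter.T.dom)) (fun x hx => hx.2)
        (hinter _ _ (hB K) (inB_lab _) ih (base _))
      have e : Letter.T.act '' (i0^[K] '' Set.univ ∩ lab ⁻¹' Letter.T.dom) =
          i0^[K + 1] '' Set.univ := by
        ext x
        constructor
        · rintro ⟨_, ⟨⟨y, -, rfl⟩, -⟩, rfl⟩
          refine ⟨d1 y, trivial, ?_⟩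
          rw [Function.iterate_succ_apply', ← d1_it]
          rfl
        · rintro ⟨y, -, rfl⟩
          refine ⟨i0^[K] (s1 y), ⟨⟨_, trivial, rfl⟩, ?_⟩, ?_⟩
          · show (lab _).s = false
            obtain ⟨b, hb⟩ := lab_it K (s1 y)
            rw [hb, lab_s1]
          · show i0 (d1 _) = _
            rw [d1_it, d1_s1, Function.iterate_succ_apply']
      exact e ▸ h1
  refine B_ind2 P (fun K W => ?_) hunion hact hV
  cases K with
  | zero => simpa using base W
  | succ K =>
    have e : i0^[K + 1] '' (lab ⁻¹' W) =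
        (i0^[K + 1 + 1] '' Set.univ ∩ lab ⁻¹' W) ∪
          ((i0^[K + 1] '' Set.univ ∩ (i0^[K + 1 + 1] '' Set.univ)ᶜ) ∩
            lab ⁻¹' {l | ({l with b := true} : Lab) ∈ W}) := by
      ext x
      constructor
      · rintro ⟨y, hy, rfl⟩
        cases hb : (lab y).b with
        | false =>
          refine Or.inl ⟨(it_mem_iff _ y).2 hb, ?_⟩
          rw [Set.mem_preimage, lab_it_succ, ← hb]
          exact hy
        | true =>
          refine Or.inr ⟨⟨⟨y, trivial, rfl⟩, fun h => ?_⟩, ?_⟩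
          · rw [it_mem_iff, hb] at h
            cases h
          · rw [Set.mem_preimage, lab_it_succ]
            show ({lab y with b := true} : Lab) ∈ W
            rw [← hb]
            exact hy
      · rintro (⟨⟨y, -, rfl⟩, h⟩ | ⟨⟨⟨y, -, rfl⟩, h1⟩, h⟩)
        · refine ⟨i0 y, ?_, rfl⟩
          rw [Set.mem_preimage, lab_it_succ] at h
          rwa [Set.mem_preimage, lab_i0]
        · refine ⟨y, ?_, rfl⟩
          rw [Set.mem_compl_iff, it_mem_iff, Bool.not_eq_false] at h1
          rw [Set.mem_preimage, lab_it_succ] at h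
          have h2 : ({lab y with b := true} : Lab) ∈ W := h
          rw [← h1] at h2
          exact h2
    rw [e]
    refine hunion _ _ ((hB _).inter (inB_lab _)) (((hB _).inter (hB _).compl).inter (inB_lab _)) ?_
      (hinter _ _ (hB _) (inB_lab _) (hU _) (base _))
      (hinter _ _ ((hB _).inter (hB _).compl) (inB_lab _)
        (hinter _ _ (hB _) (hB _).compl (hU _) (hcompl _ (hB _) (hU _))) (base _))
    rw [Set.disjoint_left]
    exact fun x h h' => h'.1.2 h.1

end Vale.Agent.P196
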