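import Vale.Agent.P196.OmB

/-! Job D1: continuity, the Boolean algebra, compactness, induction principles (files `OmA`,
`OmB`), minimality and visibility (this file).  See notes/P196.md, part D1. -/

namespace Vale.Agent.P196

/-- all gaps finite -/
def Reg (x : Om) : Prop := ∀ n, (x n).2.inf = false

/-- a list of cells with finite gaps -/
def FinC (c : List Cell) : Prop := ∀ a ∈ c, a.2.inf = false

lemma Eqv.refl (x) : Eqv x x := fun k => sim_refl k x
lemma Eqv.symm {x x'} (h : Eqv x x') : Eqv x' x := fun k => (h k).symm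
lemma Eqv.trans {x x' x''} (h : Eqv x x') (h' : Eqv x' x'') : Eqv x x'' :=
  fun k => (h k).trans (h' k)

lemma L.fin_ind {P : ∀ g : L, g.inf = false → Prop} (h1 : P L.one rfl)
    (hs : ∀ (g : L) (hg : g.inf = false), P g hg → P g.succ hg)
    (g : L) (hg : g.inf = false) : P g hg := by
  have key : ∀ n : ℕ, ∀ (g : L) (h : g.inf = false), g.v = n + 1 → P g h := by
    intro n
    induction n with
    | zero =>
      intro g h h'
      obtain rfl := (L.eq_one_iff g).2 ⟨h, by simpa using h'⟩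
      exact h1
    | succ n ih =>
      intro g h h'
      have h2 : g ≠ L.one := fun e => by rw [e, L.one_v] at h'; omega
      obtain ⟨g', rfl⟩ : ∃ g' : L, g = g'.succ := ⟨g.pred, (L.succ_pred h2).symm⟩
      exact hs g' h (ih g' h (by rw [L.succ_v] at h'; push_cast at h'; omega))
  have := g.pos hg
  exact key (g.v - 1).toNat g hg (by omega)

lemma cons_succ_eq (ε : Bool) (g : L) (z : Om) : cons (ε, g.succ) z = i0 (cons (ε, g) z) := rfl

lemma cons_cont (ε : Bool) {g : L} (hg : g.inf = false) (k : ℕ) : ∃ k', ∀ z z', Sim k' z z' →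
    Sim k (cons (ε, g) z) (cons (ε, g) z') := by
  induction g, hg using L.fin_ind generalizing k with
  | h1 => exact ⟨k, fun z z' h => (sim_ie ε h).mono (by omega)⟩
  | hs g _ ih =>
    obtain ⟨k', hk⟩ := ih (k + 1)
    exact ⟨k', fun z z' h => sim_i0 (hk z z' h)⟩

lemma cons_vis (ε : Bool) {g : L} (hg : g.inf = false) (k : ℕ) : ∃ k', ∀ z x',
    Sim k' (cons (ε, g) z) x' → x' 0 = (ε, g) ∧ Sim k z (tl x') := by
  induction g, hg using L.fin_ind with
  | h1 =>
    refine ⟨k + 1, fun z x' h => ?_⟩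
    have hb : (lab (cons (ε, L.one) z)).b = true := by simp [lab]
    have hb' : (lab x').b = true := h.lab ▸ hb
    have h2 := h.back
    rw [back_b hb, back_b hb'] at h2
    refine ⟨Prod.ext ?_ ?_, h2⟩
    · rw [← lab_e0, ← h.lab, lab_e0]; rfl
    · exact (L.o_true _).1 hb'
  | hs g _ ih =>
    obtain ⟨k', hk⟩ := ih
    refine ⟨k' + 2, fun z x' h => ?_⟩
    have hb : (lab (cons (ε, g.succ) z)).b = false := by simp [lab]
    have h2 := sim_d0 hb h
    rw [cons_succ_eq, d0_i0] at h2
    obtain ⟨h3, h4⟩ := hk _ _ h2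
    refine ⟨?_, h4⟩
    rw [eq_i0 (h.lab ▸ hb : (lab x').b = false)]
    show ((d0 x' 0).1, (d0 x' 0).2.succ) = _
    rw [h3]

lemma FinC.tail {a c} (h : FinC (a :: c)) : FinC c := fun b hb => h b (List.mem_cons_of_mem _ hb)
lemma FinC.head {a c} (h : FinC (a :: c)) : a.2.inf = false := h a List.mem_cons_self

lemma app_cont {c} (hc : FinC c) (k : ℕ) : ∃ k', ∀ z z', Sim k' z z' →
    Sim k (app c z) (app c z') := by
  induction c generalizing k with
  | nil => exact ⟨k, fun _ _ h => h⟩
  | cons a c ih =>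
    obtain ⟨k1, h1⟩ := cons_cont a.1 hc.head k
    obtain ⟨k2, h2⟩ := ih hc.tail k1
    exact ⟨k2, fun z z' h => h1 _ _ (h2 _ _ h)⟩
lemma app_vis {c} (hc : FinC c) (k : ℕ) : ∃ k', ∀ z x', Sim k' (app c z) x' →
    ∃ z', x' = app c z' ∧ Sim k z z' := by
  induction c with
  | nil => exact ⟨k, fun _ x' h => ⟨x', rfl, h⟩⟩
  | cons a c ih =>
    obtain ⟨k1, h1⟩ := ih hc.tail
    obtain ⟨k2, h2⟩ := cons_vis a.1 hc.head k1
    refine ⟨k2, fun z x' h => ?_⟩
    obtain ⟨h3, h4⟩ := h2 _ _ h
    obtain ⟨z', h5, h6⟩ := h1 _ _ h4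
    refine ⟨z', ?_, h6⟩
    rw [← cons_tl x', h3, h5]
    rfl
lemma g0_vis {z : Om} (h : (z 0).2.inf = false) : ∃ k, ∀ z', Sim k z z' → z' 0 = z 0 := by
  obtain ⟨k, hk⟩ := cons_vis (z 0).1 h 0
  exact ⟨k, fun z' h' => (hk (tl z) z' (by simpa using h')).1⟩
lemma g1_vis {z : Om} (h : (z 1).2.inf = false) :
    ∃ k, ∀ z', Sim k z z' → (z' 1).2 = (z 1).2 := by
  have key : ∀ g : L, g.inf = false → ∃ k, ∀ z z' : Om, (z 1).2 = g → Sim k z z' →
      (z' 1).2 = g := by
    intro g hg
    induction g, hg using L.fin_ind with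
    | h1 =>
      refine ⟨0, fun z z' h h' => ?_⟩
      have h1 : (lab z).s = true := (L.o_true _).2 h
      rw [h'.lab] at h1
      exact (L.o_true _).1 h1
    | hs g _ ih =>
      obtain ⟨k, hk⟩ := ih
      refine ⟨k + 2, fun z z' h h' => ?_⟩
      have hs : (lab z).s = false := by simp [lab, h]
      have h2 := hk _ _ (by simp [d1, d0, h]) (sim_d1 hs h')
      rw [h'.lab] at hs
      rw [← h2]
      exact (L.succ_pred ((L.o_false _).1 hs)).symm
  obtain ⟨k, hk⟩ := key _ h
  exact ⟨k, fun z' h' => hk z z' rfl h'⟩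

lemma L.inf_o {g : L} (h : g.inf = true) : g.o = false :=
  (L.o_false _).2 fun e => by simp [e] at h

lemma vis_inf {z z' : Om} (h0 : (z 0).2.inf = true) (h0' : (z' 0).2.inf = true)
    (hl : lab z = lab z')
    (h1 : (z 1).2 = (z' 1).2 ∨ ((z 1).2.inf = true ∧ (z' 1).2.inf = true)) : Eqv z z' := by
  intro k
  induction k generalizing z z' with
  | zero => exact hl
  | succ k ih =>
    refine ⟨hl, ?_⟩
    have hb : (lab z).b = false := L.inf_o h0
    have a0 : (z 0).2.pred.o = false := L.inf_o (by simpa using h0)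
    have a0' : (z' 0).2.pred.o = false := L.inf_o (by simpa using h0')
    have e1 := congrArg Lab.h hl
    have e2 := congrArg Lab.e1 hl
    have e3 := congrArg Lab.e2 hl
    have e4 := congrArg Lab.s hl
    unfold back
    rw [← hl, hb]
    cases hs : (lab z).s with
    | true =>
      refine ih (by simpa [d0] using h0) (by simpa [d0] using h0') ?_ h1
      exact Lab.ext e1 e2 e3 (a0.trans a0'.symm) e4
    | false =>
      refine ih (by simpa [d0, d1] using h0) (by simpa [d0, d1] using h0') ?_ ?_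
      · refine Lab.ext e1 e2 e3 (a0.trans a0'.symm) ?_
        show (z 1).2.pred.o = (z' 1).2.pred.o
        rcases h1 with h1 | h1
        · rw [h1]
        · rw [L.inf_o (by simpa using h1.1), L.inf_o (by simpa using h1.2)]
      · exact h1.imp (congrArg L.pred) fun h1 => ⟨by simpa [d0, d1] using h1.1,
          by simpa [d0, d1] using h1.2⟩

lemma app_ofFn (f : ℕ → Cell) (m : ℕ) (z : Om) :
    ∀ n < m, app (List.ofFn fun i : Fin m => f i) z n = f n := by
  induction m generalizing f with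
  | zero => intro n hn; omega
  | succ m ih =>
    intro n hn
    rw [List.ofFn_succ]
    cases n with
    | zero => rfl
    | succ n => exact ih (fun i => f (i + 1)) n (by omega)

lemma exists_cyl {V} (hV : InB V) (hne : V.Nonempty) : ∃ c, FinC c ∧ ∀ z, app c z ∈ V := by
  obtain ⟨k, hk⟩ := hV
  obtain ⟨x, hx⟩ := hne
  let f : ℕ → Cell := fun n =>
    ((x n).1, if (x n).2.inf = true then ⟨false, k + 3, fun _ => by omega⟩ else (x n).2)
  refine ⟨List.ofFn fun i : Fin (k + 3) => f i, fun a ha => ?_, fun z => hk x _ (Trn.sim ?_) hx⟩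
  · obtain ⟨i, rfl⟩ := List.mem_ofFn.1 ha
    by_cases h : (x i).2.inf = true <;> simp [f, h]
  · intro n hn
    rw [app_ofFn f _ z n (by omega)]
    refine ⟨rfl, ?_⟩
    by_cases h : (x n).2.inf = true
    · exact Or.inr ⟨Or.inl h, Or.inr (by simp [f, h])⟩
    · exact Or.inl (by simp [f, h])

lemma Reg.eq_of_eqv {x x'} (h : Reg x) (h' : Eqv x x') : x = x' := by
  funext n
  induction n generalizing x x' with
  | zero =>
    obtain ⟨k, hk⟩ := g0_vis (h 0)
    exact (hk _ (h' k)).symm
  | succ n ih =>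
    refine ih (x := tl x) (x' := tl x') (fun m => h (m + 1)) fun k => ?_
    obtain ⟨k', hk⟩ := cons_vis (x 0).1 (h 0) k
    exact (hk (tl x) x' (by simpa using h' k')).2

lemma app_inj (c : List Cell) : Function.Injective (app c) := by
  induction c with
  | nil => exact fun _ _ h => h
  | cons a c ih => exact fun _ _ h => ih (cons_inj.1 h).2

lemma Reg.app {c z} (hc : FinC c) (hz : Reg z) : Reg (app c z) := by
  induction c with
  | nil => exact hz
  | cons a c ih =>
    intro n
    cases n with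
    | zero => exact hc.head
    | succ n => exact ih hc.tail n

lemma exists_reg {V} (hV : InB V) (hne : V.Nonempty) (B : Finset Om) :
    ∃ x ∈ V, Reg x ∧ ∀ b ∈ B, ¬ Eqv x b := by
  obtain ⟨c, hc, h⟩ := exists_cyl hV hne
  let z : ℕ → Om := fun m _ => (true, ⟨false, m + 1, fun _ => by omega⟩)
  have hz : Function.Injective z := fun m m' e => by
    have h1 : (m : ℤ) + 1 = m' + 1 := congrArg (fun y : Om => (y 0).2.v) e
    omega
  obtain ⟨_, ⟨m, rfl⟩, hm⟩ :=
    (Set.infinite_range_of_injective ((app_inj c).comp hz)).exists_notMem_finset B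
  have hr : Reg (app c (z m)) := Reg.app hc fun _ => rfl
  exact ⟨_, h _, hr, fun b hb e => hm (by rw [← hr.eq_of_eqv e] at hb; exact hb)⟩

/-- connected by a path -/
def Conn (x x' : Om) : Prop := ∃ p, Ok p x ∧ run p x = x'

lemma Conn.refl (x) : Conn x x := ⟨[], trivial, rfl⟩
lemma Conn.symm {x x'} (h : Conn x x') : Conn x' x := by
  obtain ⟨p, h, rfl⟩ := h
  exact ⟨pinv p, ok_pinv h⟩
lemma Conn.trans {x x' x''} (h : Conn x x') (h' : Conn x' x'') : Conn x x'' := by
  obtain ⟨p, h, rfl⟩ := h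
  obtain ⟨q, h', rfl⟩ := h'
  exact ⟨p ++ q, (ok_append _ _ _).2 ⟨h, h'⟩, run_append _ _ _⟩
lemma Conn.i0 {x x'} (h : Conn x x') : Conn (i0 x) (i0 x') := by
  obtain ⟨p, h, rfl⟩ := h
  exact ⟨phi p, phi_ok h⟩
lemma Conn.it {x x'} (h : Conn x x') (K : ℕ) : Conn (P196.i0^[K] x) (P196.i0^[K] x') := by
  induction K with
  | zero => exact h
  | succ K ih => rw [Function.iterate_succ_apply', Function.iterate_succ_apply']; exact ih.i0
lemma conn_ie (ε y) : Conn (ie ε y) (i0 y) :=
  ⟨[.P ε], ⟨⟨by rw [lab_ie], by rw [lab_ie, e0_mk]⟩, trivial⟩, rfl⟩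
lemma conn_cons (ε : Bool) {g : L} (hg : g.inf = false) (y : Om) :
    Conn (cons (ε, g) y) (i0^[g.v.toNat] y) := by
  induction g, hg using L.fin_ind with
  | h1 => exact conn_ie ε y
  | hs g hg ih =>
    have := g.pos hg
    rw [show g.succ.v.toNat = g.v.toNat + 1 by rw [L.succ_v]; omega, Function.iterate_succ_apply']
    exact ih.i0
/-- total length of a list of cells -/
def lvl (c : List Cell) : ℤ := (c.map fun a => a.2.v).sum
lemma lvl_nonneg {c} (hc : FinC c) : 0 ≤ lvl c := by
  induction c with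
  | nil => exact le_rfl
  | cons a c ih =>
    have h1 := a.2.pos hc.head
    have h2 := ih hc.tail
    show 0 ≤ a.2.v + lvl c
    omega
lemma conn_app {c} (hc : FinC c) (z : Om) : Conn (app c z) (i0^[(lvl c).toNat] z) := by
  induction c with
  | nil => exact Conn.refl z
  | cons a c ih =>
    have h1 := a.2.pos hc.head
    have h2 := lvl_nonneg hc.tail
    have e : lvl (a :: c) = a.2.v + lvl c := rfl
    rw [show (lvl (a :: c)).toNat = a.2.v.toNat + (lvl c).toNat by omega,
      Function.iterate_add_apply]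
    exact (conn_cons a.1 hc.head _).trans ((ih hc.tail).it _)
lemma conn_it (K : ℕ) (x : Om) : ∃ z, Conn x (i0^[K] z) := by
  induction K with
  | zero => exact ⟨x, Conn.refl x⟩
  | succ K ih =>
    obtain ⟨z, hz⟩ := ih
    cases hb : (lab z).b with
    | true =>
      rw [eq_ie hb] at hz
      exact ⟨back z, hz.trans ((conn_ie _ _).it K)⟩
    | false =>
      rw [eq_i0 hb] at hz
      exact ⟨d0 z, hz⟩
/-- minimality -/
theorem conn_into {V} (hV : InB V) (hne : V.Nonempty) (x : Om) : ∃ x' ∈ V, Conn x x' := by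
  obtain ⟨c, hc, h⟩ := exists_cyl hV hne
  obtain ⟨z, hz⟩ := conn_it (lvl c).toNat x
  exact ⟨_, h z, hz.trans (conn_app hc z).symm⟩

end Vale.Agent.P196
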