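import Vale.Agent.P196.QLB

/-! The self-similarity `φ` on models: labels. -/

namespace Vale.Agent.P196

open QL

variable {Q : Type} [QL Q]

/-- relabellings -/
def Lab.nb (l : Lab) : Lab := { l with b := false }
def Lab.yb (l : Lab) : Lab := { l with b := true }
def Lab.ns (l : Lab) : Lab := { l with s := false }
def Lab.un (l : Lab) : Lab := { l with h := .un }
def Lab.ie (ε : Bool) (l : Lab) : Lab := ⟨hd ε l.s, l.e0, l.e1, true, l.b⟩

namespace PreModel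

variable (M : PreModel Q)

lemma iso (a : Letter) : IsIso (M.tr a) (M.tr a.inv) (M.l a.dom) (M.l a.inv.dom) :=
  ⟨M.tr_le a, fun q h => by simpa using M.tr_le a.inv q h, M.tr_inv a,
    fun q h => by simpa using M.tr_inv a.inv q h, M.tr_mono a, M.tr_mono a.inv, M.tr_orth a,
    M.tr_orth a.inv⟩

lemma le {A B : Set Lab} (h : A ⊆ B) : M.l A ≤ M.l B := M.bh.mono cl_true trivial trivial h

lemma bh_tr (a : Letter) {A : Type} (P : Lab → Prop) (π : Lab → A) (h : ∀ l, P l → l ∈ a.dom) :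
    IsBH (fun _ => True) fun W : Set A => M.tr a (M.l {l | P l ∧ π l ∈ W}) :=
  (M.iso a).bh (bh_lab M.bh P π) fun _ _ => M.le fun l hl => h l hl.1

/-- the projection onto first gap two -/
def b2 : Q := M.tr .T (M.l {l | l.b = true ∧ l.s = false})

lemma spl_tr (a : Letter) (A B C : Set Lab) (hA : A ⊆ a.dom) (hB : B ⊆ a.dom)
    (h1 : M.tr a (M.l A) = M.l C) (h2 : M.tr a (M.l B) = M.b2) : Spl M.b2 (M.l C) := by
  obtain ⟨o, e⟩ := M.bh.split cl_true (V := A) (W := B) trivial trivial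
  have a1 : M.l (A ∩ B) ≤ M.l a.dom := M.le fun l h => hA h.1
  have a2 : M.l (A \ B) ≤ M.l a.dom := M.le fun l h => hA h.1
  refine ⟨(M.tr a (M.l (A ∩ B)), M.tr a (M.l (A \ B))), ?_, ?_, ?_⟩
  · rw [← h2]; exact M.tr_mono _ _ _ (M.le Set.inter_subset_right) (M.le hB)
  · rw [← h2]
    exact M.tr_orth _ _ _ (M.bh.orth _ _ trivial trivial Set.disjoint_sdiff_left) a2 (M.le hB)
  · rw [← h1, e, (M.iso a).add o a1 a2]

lemma spl_T (Z : Set (Hd × Bool × Bool)) {C : Set Lab}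
    (h : {l | l.b = false ∧ (l.h, l.e1, l.e2) ∈ Z} = C) : Spl M.b2 (M.l C) :=
  M.spl_tr .T _ _ _ (fun _ h => h.1) (fun _ h => h.2) (h ▸ M.T1 Z) rfl

lemma b2_le : M.b2 ≤ M.l {l | l.b = false} := M.tr_le .T _ (M.le fun _ h => h.2)

lemma spl_all (W : Set Lab) : Spl M.b2 (M.l {l | l.b = false ∧ l ∈ W}) := by
  refine lab_ind (fun W => Spl M.b2 (M.l {l | l.b = false ∧ l ∈ W})) ?_ (fun V W h1 h2 => ?_)
    (fun V h => ?_) ?_ ?_ ?_ ?_ ?_ ?_ W
  · exact M.spl_T Set.univ (by simp)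
  · have := spl_inter M.bh h1 h2
    rwa [show {l : Lab | l.b = false ∧ l ∈ V} ∩ {l | l.b = false ∧ l ∈ W} =
      {l | l.b = false ∧ l ∈ V ∩ W} by ext; simp; tauto] at this
  · have hd : Disjoint {l : Lab | l.b = false ∧ l ∈ V} {l | l.b = false ∧ l ∈ Vᶜ} :=
      Set.disjoint_left.2 fun _ h1 h2 => h2.2 h1.2
    refine spl_compl h (M.bh.orth _ _ trivial trivial hd) ?_
    rw [← M.bh.add _ _ trivial trivial hd]
    exact M.b2_le.trans (M.le fun l hl => by by_cases h : l ∈ V <;> simp_all)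
  · exact M.spl_T {z | z.1 ≠ .d} (by ext; simp [Lab.e0])
  · exact M.spl_T {z | z.1 = .ut} (by ext; simp)
  · exact M.spl_T {z | z.2.1 = true} (by ext; simp)
  · exact M.spl_T {z | z.2.2 = true} (by ext; simp)
  · exact M.spl_T ∅ (by ext; simp)
  · refine M.spl_tr (.P true) _ _ _ (fun l h => ⟨h.1, by simp [Lab.e0, h.2]⟩)
      (fun l h => ⟨h.1, h.2.1⟩) M.P2 (M.P3 true)

/-- labels of the derived model -/
noncomputable def pl (W : Set Lab) : Q :=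
  (parts M.b2 (M.l {l | l.b = false ∧ l.yb ∈ W})).1 + (parts M.b2 (M.l {l | l.b = false ∧ l ∈ W})).2

lemma pl_bh : IsBH (fun _ => True) M.pl := by
  have h1 := (bh_parts (bh_lab M.bh (fun l => l.b = false) Lab.yb) (p := M.b2)
    fun V _ => M.spl_all (Lab.yb ⁻¹' V)).1
  have h2 := (bh_parts (bh_lab M.bh (fun l => l.b = false) id) (p := M.b2)
    fun V _ => M.spl_all V).2
  refine h1.sum h2 (u := M.b2) (v := (parts M.b2 (M.l {l | l.b = false ∧ l ∈ Set.univ})).2)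
    (orth_symm (parts_spec (M.spl_all _)).2.1)
    (fun V _ => (parts_spec (M.spl_all (Lab.yb ⁻¹' V))).1)
    fun V _ => h2.mono cl_true trivial trivial (Set.subset_univ V)

lemma pl_le {A B : Set Lab} (h : A ⊆ B) : M.pl A ≤ M.pl B := M.pl_bh.mono cl_true trivial trivial h

lemma Iphi (W : Set Lab) : M.l {l | l.b = false ∧ l ∈ W} = M.pl {l | l.nb ∈ W} := by
  have e1 : {l : Lab | l.b = false ∧ l.yb ∈ {l : Lab | l.nb ∈ W}} = {l | l.b = false ∧ l ∈ W} := by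
    ext ⟨h, e1, e2, b, s⟩; cases b <;> simp [Lab.nb, Lab.yb]
  have e2 : {l : Lab | l.b = false ∧ l ∈ {l : Lab | l.nb ∈ W}} = {l | l.b = false ∧ l ∈ W} := by
    ext ⟨h, e1, e2, b, s⟩; cases b <;> simp [Lab.nb]
  rw [pl, e1, e2, (parts_spec (M.spl_all W)).2.2]

lemma Iphi' {A B : Set Lab} (W : Set Lab) (h1 : {l | l.b = false ∧ l ∈ W} = A)
    (h2 : {l | l.nb ∈ W} = B) : M.l A = M.pl B := h1 ▸ h2 ▸ M.Iphi W

lemma pl_b : M.pl {l | l.b = true} = M.b2 := by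
  have e1 : {l : Lab | l.b = false ∧ l.yb ∈ {l : Lab | l.b = true}} = {l | l.b = false} := by
    ext ⟨h, e1, e2, b, s⟩; simp [Lab.yb]
  have e2 : {l : Lab | l.b = false ∧ l ∈ {l : Lab | l.b = true}} = ∅ := by
    ext ⟨h, e1, e2, b, s⟩; simp
  obtain ⟨c, oc, ec⟩ := exists_sub M.b2_le
  rw [pl, e1, e2, M.bh.empty, ← ec, parts_eq le_rfl (orth_symm oc), ← add_zero' (0 : Q),
    parts_eq (QL.zero_le _) (zero_orth _), add_zero']

lemma pl_univ : M.pl Set.univ = M.l {l | l.b = false} :=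
  (M.Iphi' Set.univ (by simp) (by simp)).symm

lemma pl_le_l (A : Set Lab) {B : Set Lab} (h : ∀ l ∈ A, l.nb ∈ B) : M.pl A ≤ M.l B :=
  (M.pl_le h).trans ((M.Iphi B).ge.trans (M.le fun _ h => h.2))

lemma Tphi (W : Set Lab) : M.tr .T (M.l {l | l.s = false ∧ l ∈ W}) = M.pl {l | l.ns ∈ W} := by
  have key : ∀ (Z : Set (Hd × Bool × Bool)) (A B : Set Lab),
      {l : Lab | l.s = false ∧ (l.h, l.e1, l.e2) ∈ Z} = A →
      {l : Lab | (l.h, l.e1, l.e2) ∈ Z} = B → M.tr .T (M.l A) = M.pl B := by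
    rintro Z _ _ rfl rfl
    rw [M.T1]; exact M.Iphi {l | (l.h, l.e1, l.e2) ∈ Z}
  have hg := bh_lab M.pl_bh (fun _ => True) Lab.ns
  simp only [true_and] at hg
  refine lab_ext (M.bh_tr .T (fun l => l.s = false) id fun _ h => h) hg ?_ ?_ ?_ ?_ ?_ ?_ ?_ W
  · exact key Set.univ _ _ (by simp) (by simp)
  · exact key {z | z.1 ≠ .d} _ _ (by ext; simp [Lab.e0]) (by ext; simp [Lab.e0, Lab.ns])
  · exact key {z | z.1 = .ut} _ _ (by ext; simp) (by ext; simp [Lab.ns])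
  · exact key {z | z.2.1 = true} _ _ (by ext; simp) (by ext; simp [Lab.ns])
  · exact key {z | z.2.2 = true} _ _ (by ext; simp) (by ext; simp [Lab.ns])
  · refine Eq.trans ?_ M.pl_b.symm
    rw [b2]; congr 2; ext; simp [and_comm]
  · exact key ∅ _ _ (by ext; simp) (by ext; simp [Lab.ns])

lemma Tphi' {A B : Set Lab} (W : Set Lab) (h1 : {l | l.s = false ∧ l ∈ W} = A)
    (h2 : {l | l.ns ∈ W} = B) : M.tr .T (M.l A) = M.pl B := h1 ▸ h2 ▸ M.Tphi W

lemma Pphi (ε : Bool) (W : Set Lab) :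
    M.tr (.P ε) (M.l {l | (l.b = true ∧ l.e0 = ε) ∧ l ∈ W}) = M.pl {l | l.ie ε ∈ W} := by
  have key : ∀ (Z : Set (Bool × Bool)) (A B : Set Lab),
      {l : Lab | l.b = true ∧ l.e0 = ε ∧ (l.e1, l.e2) ∈ Z} = A →
      {l : Lab | (l.e0, l.e1) ∈ Z} = B → M.tr (.P ε) (M.l A) = M.pl B := by
    rintro Z _ _ rfl rfl
    rw [M.P1]; exact M.Iphi {l | (l.e0, l.e1) ∈ Z}
  have hg := bh_lab M.pl_bh (fun _ => True) (Lab.ie ε)
  simp only [true_and] at hg
  refine lab_ext (M.bh_tr (.P ε) (fun l => l.b = true ∧ l.e0 = ε) id fun _ h => h) hg ?_ ?_ ?_ ?_ ?_ ?_ ?_ W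
  · exact key Set.univ _ _ (by simp) (by simp)
  · cases ε
    · exact key ∅ _ _ (by ext; simp) (by ext; simp [Lab.ie])
    · exact key Set.univ _ _ (by ext; simp) (by ext; simp [Lab.ie])
  · cases ε
    · exact key ∅ _ _ (by ext ⟨h, e1, e2, b, s⟩; cases h <;> simp [Lab.e0]) (by ext; simp [Lab.ie])
    · refine Eq.trans ?_ (M.P2.trans (M.Iphi' {l | l.s = true} rfl (by ext; simp [Lab.ie, Lab.nb])))
      congr 2; ext ⟨h, e1, e2, b, s⟩; cases h <;> simp [Lab.e0]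
  · exact key {z | z.1 = true} _ _ (by ext; simp [and_assoc]) (by ext; simp [Lab.ie])
  · exact key {z | z.2 = true} _ _ (by ext; simp [and_assoc]) (by ext; simp [Lab.ie])
  · exact key Set.univ _ _ (by ext; simp; tauto) (by ext; simp [Lab.ie])
  · refine Eq.trans ?_ ((M.P3 ε).trans M.pl_b.symm)
    congr 2; ext; simp [and_assoc]

lemma Pphi' (ε : Bool) {A B : Set Lab} (W : Set Lab) (h1 : {l | (l.b = true ∧ l.e0 = ε) ∧ l ∈ W} = A)
    (h2 : {l | l.ie ε ∈ W} = B) : M.tr (.P ε) (M.l A) = M.pl B := h1 ▸ h2 ▸ M.Pphi ε W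

lemma isoTS : IsIso (fun q => M.tr .T (M.tr .S q)) (fun q => M.tr .Si (M.tr .Ti q))
    (M.l {l | l.h = .un}) (M.pl {l | l.h = .d}) :=
  (M.iso .S).trans ((M.iso .T).restrict (M.le fun _ h => h.2)
    (M.Tphi' {l | l.h = .d} (by ext; simp [Letter.inv, Letter.dom, and_comm]) (by ext; simp [Lab.ns])))

lemma TSphi (W : Set Lab) :
    M.tr .T (M.tr .S (M.l {l | l.h = .un ∧ l ∈ W})) = M.pl {l | l.h = .d ∧ l.un ∈ W} := by
  have key : ∀ (Z : Set (Bool × Bool × Bool)) (A B : Set Lab),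
      {l : Lab | l.h = .un ∧ (l.e1, l.e2, l.b) ∈ Z} = A →
      {l : Lab | l.h = .d ∧ (l.e1, l.e2, l.b) ∈ Z} = B →
      M.tr .T (M.tr .S (M.l A)) = M.pl B := by
    rintro Z _ _ rfl rfl
    rw [M.S1]
    exact M.Tphi' {l | l.h = .d ∧ (l.e1, l.e2, l.b) ∈ Z} (by ext; simp; tauto) rfl
  refine lab_ext (M.isoTS.bh (bh_lab M.bh _ id) fun _ _ => M.le fun _ h => h.1)
    (bh_lab M.pl_bh _ Lab.un) ?_ ?_ ?_ ?_ ?_ ?_ ?_ W
  · exact key Set.univ _ _ (by simp) (by simp)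
  · exact key Set.univ _ _ (by ext ⟨h, e1, e2, b, s⟩; cases h <;> simp [Lab.e0])
      (by ext; simp [Lab.un, Lab.e0])
  · exact key ∅ _ _ (by ext ⟨h, e1, e2, b, s⟩; cases h <;> simp) (by ext; simp [Lab.un])
  · exact key {z | z.1 = true} _ _ rfl rfl
  · exact key {z | z.2.1 = true} _ _ rfl rfl
  · exact key {z | z.2.2 = true} _ _ rfl rfl
  · exact M.S2.trans (M.Iphi' {l | l.h = .d ∧ l.s = true} (by ext; simp; tauto) rfl)

lemma TSphi' {A B : Set Lab} (W : Set Lab) (h1 : {l | l.h = .un ∧ l ∈ W} = A)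
    (h2 : {l | l.h = .d ∧ l.un ∈ W} = B) : M.tr .T (M.tr .S (M.l A)) = M.pl B :=
  h1 ▸ h2 ▸ M.TSphi W

lemma E1' {A B : Set Lab} (W : Set Lab) (h1 : {l | l.s = true ∧ l ∈ W} = A)
    (h2 : {l | l.s = true ∧ l.f1 ∈ W} = B) : M.tr .E (M.l A) = M.l B := h1 ▸ h2 ▸ M.E1 W

lemma Q1' {A B : Set Lab} (W : Set Lab) (h1 : {l | l.h = .ut ∧ l ∈ W} = A)
    (h2 : {l | l.h = .ut ∧ l.f2 ∈ W} = B) : M.tr .Q (M.l A) = M.l B := h1 ▸ h2 ▸ M.Q1 W

/-- inverse transports -/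
lemma tr_back (a : Letter) {A : Set Lab} {q : Q} (hA : A ⊆ a.dom) (h : M.tr a (M.l A) = q) :
    M.tr a.inv q = M.l A := by rw [← h, M.tr_inv _ _ (M.le hA)]

end PreModel

end Vale.Agent.P196
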