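import Vale.Agent.P196.Phi

/-! The self-similarity `φ` on models and state spaces. -/

namespace Vale.Agent.P196

open QL

variable {Q : Type} [QL Q]

/-- a premodel whose transports satisfy the path relations -/
structure Model (Q : Type) [QL Q] extends PreModel Q where
  ok : toPreModel.self.OK

@[simp] lemma St.run_nil {M : PreModel Q} {H : Type} (S : St M H) (h) : S.run [] h = h := rfl
@[simp] lemma St.run_cons {M : PreModel Q} {H : Type} (S : St M H) (a p h) :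
    S.run (a :: p) h = S.run p (S.act a h) := rfl
lemma St.run_append {M : PreModel Q} {H : Type} (S : St M H) (p q h) :
    S.run (p ++ q) h = S.run q (S.run p h) := by
  induction p generalizing h with
  | nil => rfl
  | cons a p ih => simp [ih]

namespace Model

variable (M : Model Q)

lemma rel {W p p'} (h : Rel W p p') {A : Set Lab} (hA : A ⊆ W) :
    M.self.run p (M.l A) = M.self.run p' (M.l A) := M.ok W p p' h _ (M.le hA)

lemma T1p (Z : Set (Hd × Bool × Bool)) :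
    M.tr .T (M.pl {l | l.s = false ∧ (l.h, l.e1, l.e2) ∈ Z}) =
      M.pl {l | l.b = false ∧ (l.h, l.e1, l.e2) ∈ Z} := by
  rw [← M.Iphi' (B := {l | l.s = false ∧ (l.h, l.e1, l.e2) ∈ Z})
    {l | l.s = false ∧ (l.h, l.e1, l.e2) ∈ Z} rfl rfl]
  exact M.Tphi' {l | l.b = false ∧ (l.h, l.e1, l.e2) ∈ Z} (by ext; simp; tauto) rfl

lemma isoT : IsIso (M.tr .T) (M.tr .Ti) (M.pl {l | l.s = false}) (M.pl {l | l.b = false}) :=
  (M.iso .T).restrict (M.pl_le_l _ fun _ h => h) (by simpa using M.T1p Set.univ)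

lemma E1p (W : Set Lab) :
    M.tr .E (M.pl {l | l.s = true ∧ l ∈ W}) = M.pl {l | l.s = true ∧ l.f1 ∈ W} := by
  have key : ∀ (Z A B : Set Lab), {l : Lab | l.s = true ∧ l.nb ∈ Z} = A →
      {l : Lab | l.s = true ∧ l.f1.nb ∈ Z} = B → M.tr .E (M.pl A) = M.pl B := by
    rintro Z _ _ rfl rfl
    rw [← M.Iphi' (B := {l | l.s = true ∧ l.nb ∈ Z}) {l | l.s = true ∧ l ∈ Z} rfl rfl,
      ← M.Iphi' (B := {l | l.s = true ∧ l.f1.nb ∈ Z}) {l | l.s = true ∧ l.f1 ∈ Z} rfl rfl]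
    exact M.E1' {l | l.b = false ∧ l ∈ Z} (by ext; simp; tauto) (by ext; simp [Lab.f1]; tauto)
  refine lab_ext ((M.iso .E).bh (bh_lab M.pl_bh (fun l => l.s = true) id)
    fun _ _ => M.pl_le_l _ fun _ h => h.1) (bh_lab M.pl_bh _ Lab.f1) ?_ ?_ ?_ ?_ ?_ ?_ ?_ W
  · exact key Set.univ _ _ rfl rfl
  · exact key {l | l.e0 = true} _ _ rfl rfl
  · exact key {l | l.h = .ut} _ _ rfl rfl
  · exact key {l | l.e1 = true} _ _ rfl rfl
  · exact key {l | l.e2 = true} _ _ rfl rfl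
  · have e : M.tr (.P true) (M.l {l | l.b = true ∧ l.h = .ut ∧ l.s = true}) =
        M.pl {l | l.s = true ∧ l.b = true} :=
      M.Pphi' true {l | l.h = .ut ∧ l.s = true}
        (by ext ⟨h, e1, e2, b, s⟩; cases h <;> simp [Lab.e0]) (by ext; simp [Lab.ie])
    have r := M.rel .R2 (A := {l | l.b = true ∧ l.h = .ut ∧ l.s = true}) fun _ h => ⟨h.1, h.2.1⟩
    have q := M.Q1' (A := {l | l.b = true ∧ l.h = .ut ∧ l.s = true})
      (B := {l | l.b = true ∧ l.h = .ut ∧ l.s = true}) {l | l.b = true ∧ l.s = true}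
      (by ext; simp; tauto) (by ext; simp [Lab.f2]; tauto)
    change M.tr .E (M.tr (.P true) _) = M.tr (.P true) (M.tr .Q _) at r
    rw [q, e] at r
    exact r
  · exact key {l | l.s = true} _ _ rfl rfl

lemma Q1p (W : Set Lab) :
    M.tr .Q (M.pl {l | l.h = .ut ∧ l ∈ W}) = M.pl {l | l.h = .ut ∧ l.f2 ∈ W} := by
  have key : ∀ (Z A B : Set Lab), {l : Lab | l.h = .ut ∧ l.nb ∈ Z} = A →
      {l : Lab | l.h = .ut ∧ l.f2.nb ∈ Z} = B → M.tr .Q (M.pl A) = M.pl B := by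
    rintro Z _ _ rfl rfl
    rw [← M.Iphi' (B := {l | l.h = .ut ∧ l.nb ∈ Z}) {l | l.h = .ut ∧ l ∈ Z} rfl rfl,
      ← M.Iphi' (B := {l | l.h = .ut ∧ l.f2.nb ∈ Z}) {l | l.h = .ut ∧ l.f2 ∈ Z} rfl rfl]
    exact M.Q1' {l | l.b = false ∧ l ∈ Z} (by ext; simp; tauto) (by ext; simp [Lab.f2]; tauto)
  refine lab_ext ((M.iso .Q).bh (bh_lab M.pl_bh (fun l => l.h = .ut) id)
    fun _ _ => M.pl_le_l _ fun _ h => h.1) (bh_lab M.pl_bh _ Lab.f2) ?_ ?_ ?_ ?_ ?_ ?_ ?_ W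
  · exact key Set.univ _ _ rfl rfl
  · exact key {l | l.e0 = true} _ _ rfl rfl
  · exact key {l | l.h = .ut} _ _ rfl rfl
  · exact key {l | l.e1 = true} _ _ rfl rfl
  · exact key {l | l.e2 = true} _ _ rfl rfl
  · have e : M.tr .T (M.l {l | l.h = .ut ∧ l.s = false ∧ l.b = true}) =
        M.pl {l | l.h = .ut ∧ l.b = true} :=
      M.Tphi' {l | l.h = .ut ∧ l.b = true} (by ext; simp; tauto) rfl
    have r := M.rel .R5 (A := {l | l.h = .ut ∧ l.s = false ∧ l.b = true}) fun _ h => ⟨h.1, h.2.1⟩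
    have q := M.Q1' (A := {l | l.h = .ut ∧ l.s = false ∧ l.b = true})
      (B := {l | l.h = .ut ∧ l.s = false ∧ l.b = true}) {l | l.s = false ∧ l.b = true} rfl rfl
    change M.tr .Q (M.tr .T _) = M.tr .T (M.tr .Q _) at r
    rw [q, e] at r
    exact r
  · exact key {l | l.s = true} _ _ rfl rfl

lemma S1p (Z : Set (Bool × Bool × Bool)) :
    M.tr .S (M.pl {l | l.h = .un ∧ (l.e1, l.e2, l.b) ∈ Z}) =
      M.pl {l | l.h = .d ∧ l.s = false ∧ (l.e1, l.e2, l.b) ∈ Z} := by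
  have e : M.tr .T (M.l {l | l.h = .un ∧ l.s = false ∧ (l.e1, l.e2, l.b) ∈ Z}) =
      M.pl {l | l.h = .un ∧ (l.e1, l.e2, l.b) ∈ Z} :=
    M.Tphi' {l | l.h = .un ∧ (l.e1, l.e2, l.b) ∈ Z} (by ext; simp; tauto) rfl
  have r := M.rel .R4 (A := {l | l.h = .un ∧ l.s = false ∧ (l.e1, l.e2, l.b) ∈ Z})
    fun _ h => ⟨h.1, h.2.1⟩
  change M.tr .S (M.tr .T _) = M.tr .T (M.tr .S _) at r
  rw [← e, r]
  exact M.TSphi {l | l.s = false ∧ (l.e1, l.e2, l.b) ∈ Z}

lemma Ti_pl (W : Set Lab) {A B : Set Lab} (h1 : {l | l.s = false ∧ l ∈ W} = A)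
    (h2 : {l | l.ns ∈ W} = B) : M.tr .Ti (M.pl B) = M.l A :=
  M.tr_back .T (fun _ h => by subst h1; exact h.1) (M.Tphi' W h1 h2)

lemma PTi (ε : Bool) (W : Set Lab) {A B : Set Lab} (h1 : {l | l.b = true ∧ l.e0 = ε ∧ l.ns ∈ W} = A)
    (h2 : {l | l.b = false ∧ l.ie ε ∈ W} = B) : M.tr (.P ε) (M.tr .Ti (M.pl A)) = M.pl B := by
  subst h1 h2
  rw [M.Ti_pl (B := {l | l.b = true ∧ l.e0 = ε ∧ l.ns ∈ W})
    {l | l.b = true ∧ l.e0 = ε ∧ l ∈ W} rfl rfl]
  exact M.Pphi' ε {l | l.s = false ∧ l ∈ W} (by ext; simp; tauto) rfl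

lemma isoP (ε : Bool) : IsIso (fun q => M.tr (.P ε) (M.tr .Ti q))
    (fun q => M.tr .T (M.tr (.Pi ε) q)) (M.pl {l | l.b = true ∧ l.e0 = ε})
    (M.pl {l | l.b = false}) := by
  have e1 := M.Ti_pl {l | l.b = true ∧ l.e0 = ε} rfl rfl
  have e2 := M.PTi ε Set.univ (A := {l | l.b = true ∧ l.e0 = ε}) (B := {l | l.b = false})
    (by simp) (by simp)
  have e3 : M.pl {l | l.b = true ∧ l.e0 = ε} ≤ M.l {l | l.b = false} :=
    M.pl_le_l _ fun _ _ => rfl
  exact ((M.iso .Ti).restrict e3 e1).trans ((M.iso (.P ε)).restrict (M.le fun _ h => h.2)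
    (by rw [← e1]; exact e2))

lemma P3d : M.tr (.P false) (M.tr .Ti (M.pl {l | l.b = true ∧ l.e0 = false ∧ l.s = true})) =
    M.tr .T (M.pl {l | l.b = true ∧ l.s = false}) := by
  have e := M.TSphi' (A := {l | l.h = .un ∧ l.b = true ∧ l.s = true})
    (B := {l | l.b = true ∧ l.e0 = false ∧ l.s = true}) {l | l.b = true ∧ l.s = true} rfl
    (by ext ⟨h, e1, e2, b, s⟩; cases h <;> simp [Lab.e0, Lab.un])
  have r := M.rel .R1 (A := {l | l.h = .un ∧ l.b = true ∧ l.s = true}) fun _ h => ⟨h.2.1, h.1⟩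
  change M.tr .T (M.tr (.P true) _) = M.tr (.P false) (M.tr .S _) at r
  have i := M.tr_inv .T _ ((M.tr_le .S _ (M.le
    (A := {l | l.h = .un ∧ l.b = true ∧ l.s = true}) fun _ h => h.1)).trans (M.le fun _ h => h.2))
  rw [← e, show M.tr .Ti _ = _ from i, ← r]
  congr 1
  exact M.Pphi' true {l | l.h = .un ∧ l.s = true}
    (by ext ⟨h, e1, e2, b, s⟩; cases h <;> simp [Lab.e0]) (by ext; simp [Lab.ie, and_comm])

end Model

namespace St

variable {M : Model Q} {H : Type} (S : St M.toPreModel H)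

lemma step {h : H} {q q' : Q} (a : Letter) (h1 : S.loc h q) (h2 : q ≤ M.l a.dom)
    (e : M.tr a q = q') : S.loc (S.act a h) q' := e ▸ S.act_loc a h q h1 h2

lemma ran {h : H} (a : Letter) (h1 : S.loc h (M.l a.dom)) : S.loc (S.act a h) (M.l a.inv.dom) :=
  S.mono _ _ _ (S.act_loc a h _ h1 le_rfl) (M.tr_le _ _ le_rfl)

lemma up {h : H} {A : Set Lab} (h1 : S.loc h (M.l A)) (B : Set Lab) (h2 : A ⊆ B) :
    S.loc h (M.l B) := S.mono _ _ _ h1 (M.le h2)

lemma upp {h : H} {A : Set Lab} (h1 : S.loc h (M.pl A)) (B : Set Lab) (h2 : ∀ l ∈ A, l.nb ∈ B) :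
    S.loc h (M.l B) := S.mono _ _ _ h1 (M.pl_le_l _ h2)

lemma claimA (hS : S.OK) {k : H}
    (hk : S.loc k (M.l {l | l.b = true ∧ l.e0 = true ∧ l.s = true ∧ l.e1 = true})) :
    S.run [.E, .P true, .Ti, .P false] k = S.run [.P true, .Ti, .P true] k := by
  have r := hS _ _ _ (.R3 true true) k hk
  have l1 : S.loc (S.act (.P true) k) (M.pl {l | l.b = true ∧ l.e0 = true}) :=
    S.step (.P true) (S.up hk {l | (l.b = true ∧ l.e0 = true) ∧ l.s = true ∧ l.e1 = true}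
      fun _ h => ⟨⟨h.1, h.2.1⟩, h.2.2⟩) (M.le fun _ h => h.1)
      (M.Pphi' true {l | l.s = true ∧ l.e1 = true} rfl (by ext; simp [Lab.ie]))
  have l2 := S.step .Ti l1 (M.pl_le_l _ fun _ _ => rfl)
    (M.Ti_pl {l | l.b = true ∧ l.e0 = true} rfl rfl)
  have l3 := S.step (.P true) l2 (M.le fun _ h => h.2) (M.Pphi' true {l | l.s = false}
    (B := {l | l.b = false}) (by ext; simp [and_comm]) rfl)
  have l4 := S.step (.Pi false) l3 (M.pl_le_l _ fun _ _ => rfl) (M.tr_back (.P false)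
    (A := {l | (l.b = true ∧ l.e0 = false) ∧ l.s = false}) (fun _ h => h.1)
    (M.Pphi' false {l | l.s = false} rfl rfl))
  have i1 := S.act_inv .T _ (S.up l4 _ fun _ h => h.2)
  have i2 := S.act_inv (.Pi false) _ (S.upp l3 _ fun _ _ => rfl)
  simp only [run_cons, run_nil, Letter.inv, Bool.not_true] at *
  rw [r, i1, i2]

end St

lemma Model.P3u (M : Model Q) :
    M.tr (.P true) (M.tr .Ti (M.pl {l | l.b = true ∧ l.e0 = true ∧ l.s = true})) =
      M.tr .T (M.pl {l | l.b = true ∧ l.s = false}) := by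
  have a := M.self.claimA M.ok (k := M.l {l | l.b = true ∧ l.h = .ut ∧ l.s = true ∧ l.e1 = true})
    (M.le fun l h => ⟨h.1, by simp [Lab.e0, h.2.1], h.2.2⟩)
  change M.tr (.P false) (M.tr .Ti (M.tr (.P true) (M.tr .E _))) =
    M.tr (.P true) (M.tr .Ti (M.tr (.P true) _)) at a
  rw [M.E1' (B := {l | l.b = true ∧ l.h = .ut ∧ l.s = true ∧ l.e1 = false})
      {l | l.b = true ∧ l.h = .ut ∧ l.e1 = true} (by ext; simp; tauto)
      (by ext; simp [Lab.f1]; tauto),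
    M.Pphi' true (B := {l | l.b = true ∧ l.e0 = false ∧ l.s = true})
      {l | l.h = .ut ∧ l.s = true ∧ l.e1 = false}
      (by ext ⟨h, e1, e2, b, s⟩; cases h <;> simp [Lab.e0]) (by ext; simp [Lab.ie]; tauto),
    M.Pphi' true (B := {l | l.b = true ∧ l.e0 = true ∧ l.s = true})
      {l | l.h = .ut ∧ l.s = true ∧ l.e1 = true}
      (by ext ⟨h, e1, e2, b, s⟩; cases h <;> simp [Lab.e0]) (by ext; simp [Lab.ie]; tauto)] at a
  rw [← a, M.P3d]

lemma Model.isoPhi (M : Model Q) (a : Letter) : IsIso (M.self.run (phiL a))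
    (M.self.run (phiL a.inv)) (M.pl a.dom) (M.pl a.inv.dom) := by
  have hS : IsIso (M.tr .S) (M.tr .Si) (M.pl {l | l.h = .un})
      (M.pl {l | l.h = .d ∧ l.s = false}) :=
    (M.iso .S).restrict (M.pl_le_l _ fun _ h => h) (by simpa using M.S1p Set.univ)
  cases a
  · exact M.isoT
  · exact M.isoT.symm
  · exact (M.iso .E).restrict (M.pl_le_l _ fun _ h => h) 
      (by simpa [Letter.dom, Letter.inv] using M.E1p Set.univ)
  · exact hS
  · exact hS.symm
  · exact (M.iso .Q).restrict (M.pl_le_l _ fun _ h => h) 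
      (by simpa [Letter.dom, Letter.inv] using M.Q1p Set.univ)
  · exact M.isoP _
  · exact (M.isoP _).symm

/-- the derived premodel -/
noncomputable def Model.phiP (M : Model Q) : PreModel Q where
  l := M.pl
  bh := M.pl_bh
  tr a := M.self.run (phiL a)
  tr_le a := (M.isoPhi a).le
  tr_inv a := (M.isoPhi a).inv
  tr_mono a := (M.isoPhi a).mono
  tr_orth a := (M.isoPhi a).orth
  T1 := M.T1p
  E1 := M.E1p
  Q1 := M.Q1p
  S1 := M.S1p
  S2 := by
    change M.tr .T (M.tr .S _) = _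
    rw [← M.Iphi' (B := {l | l.h = .un ∧ l.s = true}) {l | l.h = .un ∧ l.s = true} rfl rfl]
    exact M.TSphi' {l | l.s = true ∧ l.b = false} (by ext; simp; tauto) rfl
  P1 ε Z := M.PTi ε {l | (l.e1, l.e2) ∈ Z} rfl rfl
  P2 := M.PTi true {l | l.h = .ut} (by ext ⟨h, e1, e2, b, s⟩; cases h <;> simp [Lab.e0, Lab.ns])
    (by ext; simp [Lab.ie])
  P3 ε := by
    cases ε
    · exact M.P3d
    · exact M.P3u

namespace St

variable {M : Model Q} {H : Type} (S : St M.toPreModel H)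

lemma phi_aux (a : Letter) (h : H) (q : Q) (h1 : S.loc h q) (h2 : q ≤ M.pl a.dom) :
    S.loc (S.run (phiL a) h) (M.self.run (phiL a) q) ∧
      S.run (phiL a.inv) (S.run (phiL a) h) = h := by
  have one : ∀ a : Letter, q ≤ M.l a.dom →
      S.loc (S.act a h) (M.tr a q) ∧ S.act a.inv (S.act a h) = h := fun a h3 =>
    ⟨S.act_loc a h q h1 h3, S.act_inv a h (S.mono _ _ _ h1 h3)⟩
  have two : ∀ a a' : Letter, q ≤ M.l a.dom → M.tr a q ≤ M.l a'.dom →
      S.loc (S.act a' (S.act a h)) (M.tr a' (M.tr a q)) ∧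
        S.act a.inv (S.act a'.inv (S.act a' (S.act a h))) = h := fun a a' h3 h4 =>
    ⟨S.act_loc a' _ _ (one a h3).1 h4, by
      rw [S.act_inv a' _ (S.mono _ _ _ (one a h3).1 h4), (one a h3).2]⟩
  cases a
  case P ε =>
    have e3 : M.pl {l | l.b = true ∧ l.e0 = ε} ≤ M.l {l | l.b = false} :=
      M.pl_le_l _ fun _ _ => rfl
    exact two .Ti (.P ε) (h2.trans e3) ((M.tr_mono .Ti _ _ h2 e3).trans
      ((M.Ti_pl {l | l.b = true ∧ l.e0 = ε} rfl rfl).le.trans (M.le fun _ h => h.2)))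
  case Pi ε =>
    have e3 : M.pl {l | l.b = false} ≤ M.l {l | l.b = false} := M.pl_le_l _ fun _ _ => rfl
    exact two (.Pi ε) .T (h2.trans e3) ((M.tr_mono (.Pi ε) _ _ h2 e3).trans
      ((M.tr_back (.P ε) (A := {l | (l.b = true ∧ l.e0 = ε) ∧ l.s = false}) (fun _ h => h.1)
        (M.Pphi' ε {l | l.s = false} rfl rfl)).le.trans (M.le fun _ h => h.2)))
  all_goals exact one _ (h2.trans (M.pl_le_l _ fun _ h => by first | exact h | rfl))

/-- the derived state space -/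
noncomputable def phi : St M.phiP H where
  loc := S.loc
  mono := S.mono
  act a := S.run (phiL a)
  act_loc a h q h1 h2 := (S.phi_aux a h q h1 h2).1
  act_inv a h h1 := (S.phi_aux a h _ h1 le_rfl).2

lemma phi_run (p h) : S.phi.run p h = S.run (P196.phi p) h := by
  induction p generalizing h with
  | nil => rfl
  | cons a p ih => rw [run_cons, ih, P196.phi, P196.phi, List.flatMap_cons, run_append]; rfl

lemma R3d (hS : S.OK) (η : Bool) {h : H}
    (hh : S.loc h (M.pl {l | l.b = true ∧ l.e0 = false ∧ l.s = true ∧ l.e1 = η})) :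
    S.run [.E, .Ti, .P false] h = S.run [.Ti, .P false, .Ti, .Ti, .P η, .Pi (!η), .T, .T] h := by
  have e := M.TSphi' (A := {l | l.h = .un ∧ l.b = true ∧ l.s = true ∧ l.e1 = η})
    (B := {l | l.b = true ∧ l.e0 = false ∧ l.s = true ∧ l.e1 = η})
    {l | l.b = true ∧ l.s = true ∧ l.e1 = η} rfl
    (by ext ⟨h, e1, e2, b, s⟩; cases h <;> simp [Lab.e0, Lab.un])
  have a0 : M.l {l | l.h = .un ∧ l.b = true ∧ l.s = true ∧ l.e1 = η} ≤ M.l Letter.S.dom :=
    M.le fun _ h => h.1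
  have a1 := M.tr_le .S _ a0
  have l0 := S.step .Ti hh (M.pl_le_l _ fun _ _ => rfl)
    ((congrArg (M.tr .Ti) e.symm).trans (M.tr_inv .T _ (a1.trans (M.le fun _ h => h.2))))
  have l1 := S.step .Si l0 a1 (M.tr_inv .S _ a0)
  have i0 := S.act_inv .Ti h (S.upp hh _ fun _ _ => rfl)
  have i1 := S.act_inv .Si _ (S.mono _ _ _ l0 a1)
  generalize S.act .Si (S.act .Ti h) = h1 at l1 i1
  have r7 := hS _ _ _ .R7 h1 (S.up l1 _ fun _ h => ⟨h.1, h.2.2.1⟩)
  have l2 := S.step .E l1 (M.le fun _ h => h.2.2.1)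
    (M.E1' (B := {l | l.s = true ∧ l.h = .un ∧ l.b = true ∧ (!l.e1) = η})
      {l | l.h = .un ∧ l.b = true ∧ l.e1 = η} (by ext; simp; tauto) rfl)
  have r1 := hS _ _ _ .R1 _ (S.up l2 _ fun _ h => ⟨h.2.2.1, h.2.1⟩)
  have r1' := hS _ _ _ .R1 _ (S.up l1 _ fun _ h => ⟨h.2.1, h.1⟩)
  have r3 := hS _ _ _ (.R3 true η) h1
    (S.up l1 _ fun l h => ⟨h.2.1, by simp [Lab.e0, h.1], h.2.2⟩)
  have l3 := S.step (.P true) (S.up l1 {l | (l.b = true ∧ l.e0 = true) ∧ l.h = .un}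
    fun l h => ⟨⟨h.2.1, by simp [Lab.e0, h.1]⟩, h.1⟩) (M.le fun _ h => h.1)
    (M.Pphi' true {l | l.h = .un} rfl rfl)
  have i3 := S.act_inv .T _ (S.upp l3 _ fun l h => by simpa [Lab.ie, Letter.dom, Lab.nb] using h)
  simp only [run_cons, run_nil, Letter.inv] at *
  rw [i1, i0] at r7
  rw [← r7, ← r1, r3, ← i1, ← r1', i3]

lemma phi_ok (hS : S.OK) : S.phi.OK := by
  intro W p p' hr h hh
  rw [phi_run, phi_run]
  change S.loc h (M.pl W) at hh
  have i0 := S.act_inv .Ti h (S.upp hh _ fun _ _ => rfl)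
  cases hr
  case R1 =>
    have l0 := S.step .Ti hh (M.pl_le_l _ fun _ _ => rfl)
      (M.Ti_pl {l | l.b = true ∧ l.h = .un} rfl rfl)
    have r1 := hS _ _ _ .R1 _ (S.up l0 _ fun _ h => h.2)
    have r4 := hS _ _ _ .R4 _ (S.up l0 _ fun _ h => ⟨h.2.2, h.1⟩)
    have i1 := S.act_inv .T _ (S.up (S.ran .S (S.up l0 _ fun _ h => h.2.2)) _ fun _ h => h.2)
    simp only [P196.phi, phiL, List.flatMap_cons, List.flatMap_nil, List.cons_append,
      List.nil_append, run_cons, run_nil, Letter.inv] at *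
    rw [i0] at r4
    rw [r1, r4, i1]
  case R2 =>
    have l0 := S.step .Ti hh (M.pl_le_l _ fun _ _ => rfl)
      (M.Ti_pl {l | l.b = true ∧ l.h = .ut} rfl rfl)
    have r2 := hS _ _ _ .R2 _ (S.up l0 _ fun _ h => h.2)
    have r5 := hS _ _ _ .R5 _ (S.up l0 _ fun _ h => ⟨h.2.2, h.1⟩)
    have l1 := S.step .Q (S.up l0 {l | l.h = .ut ∧ l.s = false} fun _ h => ⟨h.2.2, h.1⟩)
      (M.le fun _ h => h.1) (M.Q1 {l | l.s = false})
    have i1 := S.act_inv .T _ (S.up l1 _ fun _ h => h.2)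
    simp only [P196.phi, phiL, List.flatMap_cons, List.flatMap_nil, List.cons_append,
      List.nil_append, run_cons, run_nil, Letter.inv] at *
    rw [i0] at r5
    rw [r2, r5, i1]
  case R3 ε η =>
    cases ε
    · exact S.R3d hS η hh
    have l0 := S.step (.Pi true) hh (M.pl_le_l _ fun _ _ => rfl) (M.tr_back (.P true)
      (A := {l | l.h = .ut ∧ l.b = true ∧ l.s = true ∧ l.e1 = true ∧ l.e2 = η})
      (fun l h => ⟨h.2.1, by simp [Lab.e0, h.1]⟩)
      (M.Pphi' true {l | l.h = .ut ∧ l.s = true ∧ l.e1 = true ∧ l.e2 = η}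
        (by ext ⟨h, e1, e2, b, s⟩; cases h <;> simp [Lab.e0]) (by ext; simp [Lab.ie]; tauto)))
    have i1 := S.act_inv (.Pi true) h (S.upp hh _ fun _ _ => rfl)
    generalize S.act (.Pi true) h = h2 at l0 i1
    have lQ := S.step .Q l0 (M.le fun _ h => h.1)
      (M.Q1 {l | l.b = true ∧ l.s = true ∧ l.e1 = true ∧ l.e2 = η})
    have lE := S.step .E l0 (M.le fun _ h => h.2.2.1)
      (M.E1' (B := {l | l.h = .ut ∧ l.b = true ∧ l.s = true ∧ l.e1 = false ∧ l.e2 = η})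
        {l | l.h = .ut ∧ l.b = true ∧ l.e1 = true ∧ l.e2 = η} (by ext; simp; tauto)
        (by ext; simp [Lab.f1]; tauto))
    have lP := S.step (.P true) lE (M.le fun l h => ⟨h.2.1, by simp [Lab.e0, h.1]⟩)
      (M.Pphi' true (B := {l | l.b = true ∧ l.e0 = false ∧ l.s = true ∧ l.e1 = η})
        {l | l.h = .ut ∧ l.s = true ∧ l.e1 = false ∧ l.e2 = η}
        (by ext ⟨h, e1, e2, b, s⟩; cases h <;> simp [Lab.e0]) (by ext; simp [Lab.ie]; tauto))
    have d := S.R3d hS η lP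
    have a1 := S.claimA hS
      (S.up l0 _ fun l h => ⟨h.2.1, by simp [Lab.e0, h.1], h.2.2.1, h.2.2.2.1⟩)
    have a2 := S.claimA hS
      (S.up lQ _ fun l h => ⟨h.2.1, by simp [Lab.e0, h.1], h.2.2.1, h.2.2.2.1⟩)
    have r2 := hS _ _ _ .R2 _ (S.up l0 _ fun _ h => ⟨h.2.1, h.1⟩)
    have r2' := hS _ _ _ .R2 _ (S.up lE _ fun _ h => ⟨h.2.1, h.1⟩)
    have r6 := hS _ _ _ .R6 _ (S.up l0 _ fun _ h => ⟨h.1, h.2.2.1⟩)
    simp only [P196.phi, phiL, List.flatMap_cons, List.flatMap_nil, List.cons_append,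
      List.nil_append, run_cons, run_nil, Letter.inv] at *
    rw [← i1, r2, ← a2, ← r6, ← r2', d, a1]
  case R4 => exact hS _ _ _ .R4 h (S.upp hh _ fun _ h => h)
  case R5 => exact hS _ _ _ .R5 h (S.upp hh _ fun _ h => h)
  case R6 => exact hS _ _ _ .R6 h (S.upp hh _ fun _ h => h)
  case R7 => exact hS _ _ _ .R7 h (S.upp hh _ fun _ h => h)

end St

/-- the derived model -/
noncomputable def Model.phi (M : Model Q) : Model Q := ⟨M.phiP, M.self.phi_ok M.ok⟩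

end Vale.Agent.P196
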