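import Vale.Agent.P196.Om

/-! Abstract quantum logics, models and state spaces: definitions. See notes/P196.md, part M. -/

namespace Vale.Agent.P196

/-- an orthomodular poset (without top) with the Foulis-Holland property -/
class QL (Q : Type) extends PartialOrder Q, Zero Q, Add Q where
  orth : Q → Q → Prop
  orth_symm : ∀ {a b : Q}, orth a b → orth b a
  orth_mono : ∀ {a b c : Q}, a ≤ b → orth b c → orth a c
  orth_self : ∀ {a : Q}, orth a a → a = 0
  zero_le : ∀ a : Q, 0 ≤ a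
  zero_orth : ∀ a : Q, orth 0 a
  add_comm : ∀ {a b : Q}, orth a b → a + b = b + a
  le_add : ∀ {a b : Q}, orth a b → a ≤ a + b
  add_le : ∀ {a b c : Q}, orth a b → a ≤ c → b ≤ c → a + b ≤ c
  add_orth : ∀ {a b c : Q}, orth a b → orth a c → orth b c → orth (a + b) c
  exists_sub : ∀ {a b : Q}, a ≤ b → ∃ c, orth a c ∧ a + c = b
  le_of_orth : ∀ {a b c : Q}, orth a b → c ≤ a + b → orth c a → c ≤ b
  fh : ∀ {p a a' b b' x y c : Q}, a ≤ p → b ≤ p → orth a' p → orth b' p → orth x c → orth y c →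
    orth x y → a + a' = x + c → b + b' = y + c → ∃ e e', e ≤ p ∧ orth e' p ∧ e + e' = c

variable {Q : Type} [QL Q]

/-- a finitely additive orthogonal assignment on a family of sets -/
structure IsBH {A : Type} (𝒜 : Set A → Prop) (f : Set A → Q) : Prop where
  empty : f ∅ = 0
  orth : ∀ V V', 𝒜 V → 𝒜 V' → Disjoint V V' → QL.orth (f V) (f V')
  add : ∀ V V', 𝒜 V → 𝒜 V' → Disjoint V V' → f (V ∪ V') = f V + f V'

/-- flip of the second, resp. third sign on labels -/
def Lab.f1 (l : Lab) : Lab := { l with e1 := !l.e1 }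
def Lab.f2 (l : Lab) : Lab := { l with e2 := !l.e2 }

/-- labels and transports with the label axioms -/
structure PreModel (Q : Type) [QL Q] where
  l : Set Lab → Q
  bh : IsBH (fun _ => True) l
  tr : Letter → Q → Q
  tr_le : ∀ a q, q ≤ l a.dom → tr a q ≤ l a.inv.dom
  tr_inv : ∀ a q, q ≤ l a.dom → tr a.inv (tr a q) = q
  tr_mono : ∀ a q q', q ≤ q' → q' ≤ l a.dom → tr a q ≤ tr a q'
  tr_orth : ∀ a q q', QL.orth q q' → q ≤ l a.dom → q' ≤ l a.dom → QL.orth (tr a q) (tr a q')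
  T1 : ∀ Z : Set (Hd × Bool × Bool), tr .T (l {l | l.s = false ∧ (l.h, l.e1, l.e2) ∈ Z}) =
    l {l | l.b = false ∧ (l.h, l.e1, l.e2) ∈ Z}
  E1 : ∀ W : Set Lab, tr .E (l {l | l.s = true ∧ l ∈ W}) = l {l | l.s = true ∧ l.f1 ∈ W}
  Q1 : ∀ W : Set Lab, tr .Q (l {l | l.h = .ut ∧ l ∈ W}) = l {l | l.h = .ut ∧ l.f2 ∈ W}
  S1 : ∀ Z : Set (Bool × Bool × Bool), tr .S (l {l | l.h = .un ∧ (l.e1, l.e2, l.b) ∈ Z}) =
    l {l | l.h = .d ∧ l.s = false ∧ (l.e1, l.e2, l.b) ∈ Z}
  S2 : tr .T (tr .S (l {l | l.h = .un ∧ l.s = true})) = l {l | l.h = .d ∧ l.s = true ∧ l.b = false}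
  P1 : ∀ (ε : Bool) (Z : Set (Bool × Bool)),
    tr (.P ε) (l {l | l.b = true ∧ l.e0 = ε ∧ (l.e1, l.e2) ∈ Z}) =
      l {l | l.b = false ∧ (l.e0, l.e1) ∈ Z}
  P2 : tr (.P true) (l {l | l.b = true ∧ l.h = .ut}) = l {l | l.b = false ∧ l.s = true}
  P3 : ∀ ε : Bool, tr (.P ε) (l {l | l.b = true ∧ l.e0 = ε ∧ l.s = true}) =
    tr .T (l {l | l.b = true ∧ l.s = false})

/-- a space of states located below elements of `Q` -/
structure St (M : PreModel Q) (H : Type) where
  loc : H → Q → Prop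
  mono : ∀ h q q', loc h q → q ≤ q' → loc h q'
  act : Letter → H → H
  act_loc : ∀ a h q, loc h q → q ≤ M.l a.dom → loc (act a h) (M.tr a q)
  act_inv : ∀ a h, loc h (M.l a.dom) → act a.inv (act a h) = h

/-- action of a path (head first) -/
def St.run {M : PreModel Q} {H : Type} (S : St M H) : List Letter → H → H
  | [], h => h
  | a :: p, h => S.run p (S.act a h)

/-- the defining path relations -/
inductive Rel : Set Lab → List Letter → List Letter → Prop
  | R1 : Rel {l | l.b = true ∧ l.h = .un} [.P true, .T] [.S, .P false]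
  | R2 : Rel {l | l.b = true ∧ l.h = .ut} [.P true, .E] [.Q, .P true]
  | R3 (ε η : Bool) : Rel {l | l.b = true ∧ l.e0 = ε ∧ l.s = true ∧ l.e1 = η} [.E, .P ε]
      [.P ε, .Ti, .P η, .Pi (!η), .T]
  | R4 : Rel {l | l.h = .un ∧ l.s = false} [.T, .S] [.S, .T]
  | R5 : Rel {l | l.h = .ut ∧ l.s = false} [.T, .Q] [.Q, .T]
  | R6 : Rel {l | l.h = .ut ∧ l.s = true} [.E, .Q] [.Q, .E]
  | R7 : Rel {l | l.h = .un ∧ l.s = true} [.E, .S] [.S, .T, .E, .Ti]

/-- the path relations hold in a state space -/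
def St.OK {M : PreModel Q} {H : Type} (S : St M H) : Prop :=
  ∀ W p p', Rel W p p' → ∀ h, S.loc h (M.l W) → S.run p h = S.run p' h

/-- `Q` itself as a state space -/
def PreModel.self (M : PreModel Q) : St M Q where
  loc := (· ≤ ·)
  mono := fun _ _ _ => le_trans
  act := M.tr
  act_loc := fun a h q h1 h2 => M.tr_mono a h q h1 h2
  act_inv := M.tr_inv

/-- the relations hold classically -/
lemma Rel.classical {W p p'} (h : Rel W p p') {x : Om} (hx : lab x ∈ W) :
    Ok p x ∧ Ok p' x ∧ run p x = run p' x := by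
  obtain ⟨e0, g0, e1, g1, e2, g2, z, rfl⟩ := om_cases x
  cases h <;> simp_all [Letter.act, Letter.dom, lab, L.succ_pred, ie, d0, i0, s1, d1, fl]

lemma Rel.length {W p p'} (h : Rel W p p') : p.length ≤ 5 ∧ p'.length ≤ 5 := by
  cases h <;> simp

end Vale.Agent.P196
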