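import Vale.Agent.P196.ProjA
import Vale.Agent.P196.QL

/-! Job P1 (second half): projections form a quantum logic. See notes/P196.md, part P1. -/

namespace Vale.Agent.P196

open Equiv
open scoped commutatorElement

/-- abstract projections -/
@[ext] structure Proj where
  f : UU →* Gam
  eqv : ∀ u v, al u * f v * (al u)⁻¹ = f (u * v * u⁻¹)
  loc : ∀ I J : Finset Ix, I.card = 5 → I ⊆ J → 15 ≤ J.card → ∀ u ∈ UI I, f u ∈ GJ J

lemma sub_comm {G H : Type} [Group G] [Group H] {f g : H →* G}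
    (h : ∀ u v, g u * f v * (g u)⁻¹ = f (u * v * u⁻¹)) (u v : H) :
    Commute (f u) ((f v)⁻¹ * g v) := by
  have := h v u
  rw [map_mul, map_mul, map_inv] at this
  calc f u * ((f v)⁻¹ * g v) = (f v)⁻¹ * (f v * f u * (f v)⁻¹) * g v := by group
    _ = (f v)⁻¹ * g v * f u := by rw [← this]; group

lemma sub_mul {G H : Type} [Group G] [Group H] {f g : H →* G}
    (h : ∀ u v, g u * f v * (g u)⁻¹ = f (u * v * u⁻¹)) (u v : H) :
    (f (u * v))⁻¹ * g (u * v) = (f u)⁻¹ * g u * ((f v)⁻¹ * g v) := by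
  rw [← mul_assoc, ← (sub_comm h v u).inv_left.eq, map_mul, map_mul]; group

lemma conj_mul' {G : Type} [Group G] (a x y : G) :
    a * (x * y) * a⁻¹ = a * x * a⁻¹ * (a * y * a⁻¹) := by group
lemma conj_inv' {G : Type} [Group G] (a x : G) : a * x⁻¹ * a⁻¹ = (a * x * a⁻¹)⁻¹ := by group

lemma wu_loc (W) {I J : Finset Ix} (h : I ⊆ J) {u} (hu : u ∈ UI I) : wu W u ∈ GJ J :=
  wu_mem (Alt_mono h (UI_q hu))

namespace Proj

/-- orthogonality -/
def Orth (β γ : Proj) : Prop := ∀ u v, Commute (β.f u) (γ.f v)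

lemma compl_mul (β : Proj) (u v : UU) :
    (β.f (u * v))⁻¹ * al (u * v) = (β.f u)⁻¹ * al u * ((β.f v)⁻¹ * al v) := sub_mul β.eqv u v

/-- complement -/
noncomputable def compl (β : Proj) : Proj where
  f := MonoidHom.mk' (fun u => (β.f u)⁻¹ * al u) β.compl_mul
  eqv u v := by
    simp only [MonoidHom.mk'_apply]
    rw [conj_mul', conj_inv', β.eqv, map_mul al, map_mul al, map_inv]
  loc I J h1 h2 h3 u hu := mul_mem (inv_mem (β.loc I J h1 h2 h3 u hu)) (wu_loc _ h2 hu)

/-- order -/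
def Le (β γ : Proj) : Prop := Orth β γ.compl

/-- zero -/
noncomputable def zero : Proj where
  f := 1
  eqv := by simp
  loc := fun _ _ _ _ _ _ _ => one_mem _

/-- product of orthogonal projections -/
noncomputable def prod (β γ : Proj) (h : Orth β γ) : Proj where
  f := MonoidHom.mk' (fun u => β.f u * γ.f u) fun u v => by
    rw [map_mul, map_mul, mul_assoc, ← mul_assoc (β.f v), (h v u).eq]; group
  eqv u v := by
    simp only [MonoidHom.mk'_apply]
    rw [conj_mul', β.eqv, γ.eqv]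
  loc I J h1 h2 h3 u hu := mul_mem (β.loc I J h1 h2 h3 u hu) (γ.loc I J h1 h2 h3 u hu)

open Classical in
/-- sum -/
noncomputable def add (β γ : Proj) : Proj := if h : Orth β γ then prod β γ h else zero

lemma compl_f (β : Proj) (u) : β.compl.f u = (β.f u)⁻¹ * al u := rfl
lemma add_f' {β γ : Proj} (h : Orth β γ) (u) : (add β γ).f u = β.f u * γ.f u := by
  rw [add, dif_pos h]; rfl
lemma Orth.symm {β γ : Proj} (h : Orth β γ) : Orth γ β := fun u v => (h v u).symm

lemma orth_compl (β : Proj) : Orth β β.compl := sub_comm β.eqv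
lemma compl_compl (β : Proj) : β.compl.compl = β := by
  refine Proj.ext (MonoidHom.ext fun u => ?_)
  rw [compl_f, inv_mul_eq_iff_eq_mul, ← (β.orth_compl u u).eq, compl_f]; group
lemma Le.conj {β γ : Proj} (h : Le β γ) (u v : UU) :
    γ.f u * β.f v * (γ.f u)⁻¹ = β.f (u * v * u⁻¹) := by
  have e : al u = γ.f u * γ.compl.f u := by rw [compl_f]; group
  rw [← β.eqv, e, mul_assoc (γ.f u) (γ.compl.f u), ← (h v u).eq]; group
lemma orth_mono {a b c : Proj} (h : Le a b) (h' : Orth b c) : Orth a c := by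
  refine comm_all _ _ fun I I' hI hI' u hu v hv => ?_
  obtain ⟨J, j1, j2, j3, -⟩ := exists_sup I' ∅ (by simp) (by simp only [Finset.card_empty]; omega)
  obtain ⟨F, w, f1, f2, f3, f4⟩ := exists_away I J (by omega)
  refine (comm_of_conj (h' w v).symm ?_).symm
  rw [h.conj]
  have hc : (I.image (qq w)).card = 5 := by rw [Finset.card_image_of_injective _ (qq w).injective, hI]
  obtain ⟨J', k1, k2, -, k4⟩ := exists_sup (I.image (qq w)) J
    ((f1.mono_right Finset.subset_union_right).mono_left (Finset.image_subset_iff.2 f4)) (by omega)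
  exact (GJ_comm k4 (a.loc _ _ hc k1 k2 _ (UI_conj w hu)) (c.loc _ _ hI' j1 j2 v hv)).symm

lemma orth_self {a : Proj} (h : Orth a a) : a = zero :=
  Proj.ext (hom_eq_of_central UU_perfect _ _ fun u v =>
    ⟨by simpa [zero] using h u v, Commute.one_right _⟩)

/-- difference -/
noncomputable def sub {a b : Proj} (h : Le a b) : Proj where
  f := MonoidHom.mk' (fun u => (a.f u)⁻¹ * b.f u) (sub_mul h.conj)
  eqv u v := by
    simp only [MonoidHom.mk'_apply]
    rw [conj_mul', conj_inv', a.eqv, b.eqv]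
  loc I J h1 h2 h3 u hu := mul_mem (inv_mem (a.loc I J h1 h2 h3 u hu)) (b.loc I J h1 h2 h3 u hu)

lemma exists_sub' {a b : Proj} (h : Le a b) : ∃ c, Orth a c ∧ add a c = b := by
  have o : Orth a (sub h) := sub_comm h.conj
  refine ⟨_, o, Proj.ext (MonoidHom.ext fun u => ?_)⟩
  rw [add_f' o]
  exact mul_inv_cancel_left _ _

lemma antisymm (a b : Proj) (h : Le a b) (h' : Le b a) : a = b := by
  have o : Orth a (sub h) := sub_comm h.conj
  have l : Le (sub h) a := fun u v => (a.orth_compl u v).inv_left.mul_left (h' u v)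
  refine Proj.ext (MonoidHom.ext fun u => ?_)
  have : (sub h).f u = zero.f u := by rw [orth_self (orth_mono l o)]
  exact inv_mul_eq_one.1 this

/-- the subgroup generated by the ranges of two projections -/
noncomputable def sp (a b : Proj) : Subgroup Gam := Subgroup.closure (Set.range a.f ∪ Set.range b.f)

lemma sp_l (a b : Proj) (u) : a.f u ∈ sp a b := Subgroup.subset_closure (Or.inl ⟨u, rfl⟩)
lemma sp_r (a b : Proj) (u) : b.f u ∈ sp a b := Subgroup.subset_closure (Or.inr ⟨u, rfl⟩)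

lemma sp_comm {a b : Proj} {x g : Gam} (h1 : ∀ u, Commute (a.f u) x) (h2 : ∀ u, Commute (b.f u) x)
    (hg : g ∈ sp a b) : Commute g x := by
  induction hg using Subgroup.closure_induction with
  | mem g hg => rcases hg with ⟨u, rfl⟩ | ⟨u, rfl⟩; exacts [h1 u, h2 u]
  | one => simp
  | mul _ _ _ _ a b => exact a.mul_left b
  | inv _ _ a => exact a.inv_left

lemma sp_conj {a b : Proj} {g : Gam} (u : UU) (hg : g ∈ sp a b) : al u * g * (al u)⁻¹ ∈ sp a b := by
  induction hg using Subgroup.closure_induction with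
  | mem g hg =>
    rcases hg with ⟨v, rfl⟩ | ⟨v, rfl⟩
    · rw [a.eqv]; exact sp_l _ _ _
    · rw [b.eqv]; exact sp_r _ _ _
  | one => simp
  | mul _ _ _ _ a b => rw [conj_mul']; exact mul_mem a b
  | inv _ _ a => rw [conj_inv']; exact inv_mem a

lemma half {X Y : Subgroup Gam} (hc : ∀ g ∈ X, ∀ h ∈ Y, Commute g h)
    (hX : ∀ u, ∀ g ∈ X, al u * g * (al u)⁻¹ ∈ X) (hY : ∀ u, ∀ g ∈ Y, al u * g * (al u)⁻¹ ∈ Y)
    (c : Proj) {e e' : UU →* Gam} (h : ∀ u, e u ∈ X ∧ e' u ∈ Y ∧ c.f u = e u * e' u)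
    (hl : ∀ I J : Finset Ix, I.card = 5 → I ⊆ J → 15 ≤ J.card → ∀ u ∈ UI I,
      ∃ g ∈ X ⊓ GJ J, ∃ h ∈ Y, c.f u = g * h) : ∃ E : Proj, E.f = e := by
  refine ⟨⟨e, fun u v => ?_, fun I J h1 h2 h3 u hu => ?_⟩, rfl⟩
  · refine DFunLike.congr_fun (hom_eq_of_central UU_perfect
      ((MulAut.conj (al u)).toMonoidHom.comp e) (e.comp (MulAut.conj u).toMonoidHom) fun v w => ?_) v
    have : al u * e v * (al u)⁻¹ * (al u * e' v * (al u)⁻¹) =
        e (u * v * u⁻¹) * e' (u * v * u⁻¹) := by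
      rw [← conj_mul', ← (h v).2.2, c.eqv, (h _).2.2]
    exact ⟨dec_cent hc (hY u _ (h v).2.1) (h _).2.1 this (hX u _ (h w).1),
      dec_cent hc (hY u _ (h v).2.1) (h _).2.1 this (h _).1⟩
  · have : ⁅UI I, UI I⁆ ≤ (GJ J).comap e := by
      refine Subgroup.commutator_le.2 fun v hv w hw => ?_
      obtain ⟨g, ⟨g1, g2⟩, k, k1, e1⟩ := hl I J h1 h2 h3 v hv
      obtain ⟨g', ⟨g3, g4⟩, k', k2, e2⟩ := hl I J h1 h2 h3 w hw
      have c1 := fun x => dec_cent hc k1 (h v).2.1 (e1.symm.trans (h v).2.2) (x := x)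
      have c2 := fun x => dec_cent hc k2 (h w).2.1 (e2.symm.trans (h w).2.2) (x := x)
      have := UA.comm_central (c1 _ g3) (c1 _ (mul_mem (inv_mem g3) (h w).1)) (c2 _ g1) (a := g)
      rw [mul_inv_cancel_left, mul_inv_cancel_left] at this
      rw [Subgroup.mem_comap, map_commutatorElement, this, commutatorElement_def]
      exact mul_mem (mul_mem (mul_mem g2 g4) (inv_mem g2)) (inv_mem g4)
    exact this ((UI_perfect h1.ge).symm ▸ hu)

lemma fh' {p a a' b b' x y c : Proj} (h1 : Le a p) (h2 : Le b p) (h3 : Orth a' p) (h4 : Orth b' p)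
    (h5 : Orth x c) (h6 : Orth y c) (h7 : Orth x y) (e1 : add a a' = add x c)
    (e2 : add b b' = add y c) : ∃ e e', Le e p ∧ Orth e' p ∧ add e e' = c := by
  have o1 := orth_mono h1 h3.symm
  have o2 := orth_mono h1 h4.symm
  have o3 := orth_mono h2 h3.symm
  have o4 := orth_mono h2 h4.symm
  have hc : ∀ g ∈ sp a b, ∀ h ∈ sp a' b', Commute g h := fun g hg h hh =>
    sp_comm (fun u => (sp_comm (fun v => (o1 u v).symm) (fun v => (o2 u v).symm) hh).symm)
      (fun u => (sp_comm (fun v => (o3 u v).symm) (fun v => (o4 u v).symm) hh).symm) hg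
  have key : ∀ u v, c.f ⁅u, v⁆ = ⁅a.f u, b.f v⁆ * ⁅a'.f u, b'.f v⁆ := fun u v => by
    rw [← comm_split (o1 u u) (o2 u v) (o3 v u) (o4 v v), ← add_f' o1, ← add_f' o4, e1, e2,
      add_f' h5, add_f' h6, comm_split (h5 u u) (h5 u v) (h6 v u) (h6 v v),
      commutatorElement_eq_one_iff_commute.2 (h7 u v), one_mul, map_commutatorElement]
  have cm : ∀ {X : Subgroup Gam} {g h}, g ∈ X → h ∈ X → ⁅g, h⁆ ∈ X := fun g h => by
    rw [commutatorElement_def]; exact mul_mem (mul_mem (mul_mem g h) (inv_mem g)) (inv_mem h)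
  obtain ⟨e, e', h⟩ := dec_exists c.f hc fun u => fac_all c.f hc (K := ⊤) UU_perfect
    (fun u _ v _ => ⟨_, cm (sp_l _ _ _) (sp_r _ _ _), _, cm (sp_l _ _ _) (sp_r _ _ _), key u v⟩) u
    trivial
  have hl : ∀ I J : Finset Ix, I.card = 5 → I ⊆ J → 15 ≤ J.card → ∀ u ∈ UI I,
      ∃ g ∈ sp a b ⊓ GJ J, ∃ h ∈ sp a' b' ⊓ GJ J, c.f u = g * h := fun I J i1 i2 i3 =>
    fac_all (X := sp a b ⊓ GJ J) (Y := sp a' b' ⊓ GJ J) c.f
      (fun g hg h hh => hc g hg.1 h hh.1) (UI_perfect i1.ge) fun u hu v hv =>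
      ⟨_, cm ⟨sp_l _ _ _, a.loc I J i1 i2 i3 u hu⟩ ⟨sp_r _ _ _, b.loc I J i1 i2 i3 v hv⟩, _,
        cm ⟨sp_l _ _ _, a'.loc I J i1 i2 i3 u hu⟩ ⟨sp_r _ _ _, b'.loc I J i1 i2 i3 v hv⟩, key u v⟩
  obtain ⟨E, rfl⟩ := half hc (fun u _ => sp_conj u) (fun u _ => sp_conj u) c h
    fun I J i1 i2 i3 u hu =>
      let ⟨g, g1, k, k1, e⟩ := hl I J i1 i2 i3 u hu; ⟨g, g1, k, k1.1, e⟩
  obtain ⟨E', rfl⟩ := half (fun g hg h hh => (hc h hh g hg).symm) (fun u _ => sp_conj u)
    (fun u _ => sp_conj u) c (e := e') (e' := E.f)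
    (fun u => ⟨(h u).2.1, (h u).1, (h u).2.2.trans (hc _ (h u).1 _ (h u).2.1).eq⟩)
    fun I J i1 i2 i3 u hu =>
      let ⟨g, g1, k, k1, e⟩ := hl I J i1 i2 i3 u hu
      ⟨k, k1, g, g1.1, e.trans (hc _ g1.1 _ k1.1).eq⟩
  refine ⟨E, E', fun u v => sp_comm (h1 · v) (h2 · v) (h u).1,
    fun u v => sp_comm (h3 · v) (h4 · v) (h u).2.1, Proj.ext (MonoidHom.ext fun u => ?_)⟩
  rw [add_f' fun u v => hc _ (h u).1 _ (h v).2.1, (h u).2.2]

noncomputable instance : QL Proj where
  le := Le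
  le_refl := orth_compl
  le_trans := fun _ _ _ h h' => orth_mono h h'
  le_antisymm := antisymm
  zero := zero
  add := add
  orth := Orth
  orth_symm := fun h u v => (h v u).symm
  orth_mono := orth_mono
  orth_self := orth_self
  zero_le := fun _ _ _ => Commute.one_left _
  zero_orth := fun _ _ _ => Commute.one_left _
  add_comm {a b} h := Proj.ext (MonoidHom.ext fun u =>
    (add_f' h u).trans ((h u u).eq.trans (add_f' h.symm u).symm))
  le_add {a b} h u v := by
    change Commute _ (((add a b).f v)⁻¹ * al v)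
    rw [add_f' h, mul_inv_rev, mul_assoc]
    exact (h u v).inv_right.mul_right (a.orth_compl u v)
  add_le {a b c} h h1 h2 u v := by
    change Commute ((add a b).f u) _
    rw [add_f' h]; exact (h1 u v).mul_left (h2 u v)
  add_orth {a b c} h h1 h2 u v := by
    change Commute ((add a b).f u) _
    rw [add_f' h]; exact (h1 u v).mul_left (h2 u v)
  exists_sub := exists_sub'
  le_of_orth {a b c} h h1 h2 u v := by
    have e : b.compl.f v = a.f v * (add a b).compl.f v := by
      rw [compl_f, compl_f, add_f' h, (h v v).eq]; group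
    rw [e]; exact (h2 u v).mul_right (h1 u v)
  fh := fh'

lemma orth_iff {β γ : Proj} : QL.orth β γ ↔ ∀ u v, Commute (β.f u) (γ.f v) := Iff.rfl
lemma le_iff {β γ : Proj} : β ≤ γ ↔ QL.orth β γ.compl := Iff.rfl
lemma zero_f (u) : (0 : Proj).f u = 1 := rfl
lemma add_f {β γ : Proj} (h : QL.orth β γ) (u) : (β + γ).f u = β.f u * γ.f u := add_f' h u

end Proj

/-- label projections -/
noncomputable def pl (W : Set Lab) : Proj where
  f := wu W
  eqv u v := short_eq (((short_wu _ u).mul (short_wu W v)).mul (short_wu _ u).inv) (short_wu W _)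
    (by omega) (by
      rw [map_mul, map_mul, map_inv, piG_wu W v, conj_bet (I := Finset.univ) (f := id) (τ := qq u)
        (by simp) fun x _ i _ => by rw [piG_wu]; exact bet_mem (Set.mem_univ _) _ _,
        Set.image_id, piG_wu, map_mul qq, map_mul qq, map_inv])
  loc _ _ _ h _ _ hu := wu_loc W h hu

lemma wu_add {W W' : Set Lab} (h : Disjoint W W') (u : UU) : wu (W ∪ W') u = wu W u * wu W' u :=
  short_eq (short_wu _ u) ((short_wu _ u).mul (short_wu _ u)) (by omega) (by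
    rw [map_mul, piG_wu, piG_wu, piG_wu, Set.preimage_union, bet_add (h.preimage _)])

lemma pl_compl (W : Set Lab) : (pl W).compl = pl Wᶜ := by
  refine Proj.ext (MonoidHom.ext fun u => ?_)
  rw [Proj.compl_f, inv_mul_eq_iff_eq_mul, al, ← Set.union_compl_self W,
    wu_add disjoint_compl_right]
  rfl

lemma pl_bh : IsBH (fun _ => True) pl := by
  have o : ∀ W W' : Set Lab, Disjoint W W' → QL.orth (pl W) (pl W') := fun W W' h u v =>
    show wu W u * wu W' v = wu W' v * wu W u from short_eq ((short_wu W u).mul (short_wu W' v)) ((short_wu W' v).mul (short_wu W u)) (by omega)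
      (by rw [map_mul, map_mul, piG_wu, piG_wu]; exact bet_commute (h.preimage _) _ _)
  refine ⟨Proj.orth_self fun u v => ?_, fun W W' _ _ => o W W', fun W W' _ _ h =>
    Proj.ext (MonoidHom.ext fun u => ?_)⟩
  · exact o ∅ ∅ (by simp) u v
  · rw [Proj.add_f (o W W' h)]; exact wu_add h u

end Vale.Agent.P196
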