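import Vale.Agent.P196.Gam

/-! Auxiliary lemmas for projections. -/

namespace Vale.Agent.P196

open Equiv
open scoped commutatorElement

lemma exists_sup (I A : Finset Ix) (hd : Disjoint I A) (h : I.card + A.card ≤ 980) :
    ∃ J, I ⊆ J ∧ 15 ≤ J.card ∧ J.card ≤ I.card + 15 ∧ Disjoint J A := by
  obtain ⟨F, h1, h2⟩ := fresh (I ∪ A) 15 (by have := Finset.card_union_le I A; omega)
  refine ⟨I ∪ F, Finset.subset_union_left, h1 ▸ Finset.card_le_card Finset.subset_union_right,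
    h1 ▸ Finset.card_union_le I F, ?_⟩
  exact Finset.disjoint_union_left.2 ⟨hd, h2.mono_right Finset.subset_union_right⟩

lemma exists_away (s A : Finset Ix) (h : 2 * s.card + A.card ≤ 990) :
    ∃ F v, Disjoint F (s ∪ A) ∧ F.card = s.card + 5 ∧ v ∈ UI (s ∪ F) ∧ ∀ i ∈ s, qq v i ∈ F := by
  obtain ⟨F, h1, h2⟩ := fresh (s ∪ A) (s.card + 5) (by have := Finset.card_union_le s A; omega)
  obtain ⟨f, hf⟩ := Function.Embedding.exists_of_card_le_finset (α := s) (s := F) (by simp; omega)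
  have hc : F.card ≤ (s ∪ F).card := Finset.card_le_card Finset.subset_union_right
  obtain ⟨σ, h3, h4⟩ := exists_alt s (s ∪ F) (fun i => if h : i ∈ s then f ⟨i, h⟩ else i)
    (fun i hi j hj e => by
      simp only [Finset.mem_coe.1 hi, Finset.mem_coe.1 hj, dif_pos] at e
      exact congrArg Subtype.val (f.injective e))
    Finset.subset_union_left
    (fun i hi => by simp only [hi, dif_pos]; exact Finset.mem_union_right _ (hf ⟨_, rfl⟩))
    (by omega)
  obtain ⟨v, h5, rfl⟩ := UI_surj (by omega) h3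
  exact ⟨F, v, h2, h1, h5, fun i hi => by rw [h4 i hi, dif_pos hi]; exact hf ⟨_, rfl⟩⟩

lemma comm_UI {X : Type} [Group X] (f : UU →* X) (x : X) {K : Finset Ix} (hK : 5 ≤ K.card)
    (h : ∀ I ⊆ K, I.card = 5 → ∀ u ∈ UI I, Commute x (f u)) {u} (hu : u ∈ UI K) :
    Commute x (f u) := by
  rw [UI_gen hK] at hu
  induction hu using Subgroup.closure_induction with
  | mem u hu => obtain ⟨I, a, b, c⟩ := hu; exact h I a b u c
  | one => simp
  | mul u v _ _ a b => rw [map_mul]; exact a.mul_right b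
  | inv u _ a => rw [map_inv]; exact a.inv_right

lemma five_le_univ : 5 ≤ (Finset.univ : Finset Ix).card := by rw [Finset.card_univ, card_Ix]; omega

lemma comm_all {X : Type} [Group X] (f g : UU →* X)
    (h : ∀ I I' : Finset Ix, I.card = 5 → I'.card = 5 → ∀ u ∈ UI I, ∀ v ∈ UI I',
      Commute (f u) (g v)) (u v : UU) : Commute (f u) (g v) := by
  have t : ∀ u : UU, u ∈ UI Finset.univ := fun u => UI_univ ▸ Subgroup.mem_top u
  exact comm_UI g _ five_le_univ (fun I' _ h' v hv =>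
    (comm_UI f _ five_le_univ (fun I _ h1 u hu => (h I I' h1 h' u hu v hv).symm) (t u)).symm) (t v)

lemma hom_ext5 {X : Type} [Group X] {f g : UU →* X}
    (h : ∀ I : Finset Ix, I.card = 5 → ∀ u ∈ UI I, f u = g u) : f = g := by
  refine MonoidHom.eq_of_eqOn_dense (UI_univ ▸ (UI_gen five_le_univ).symm) ?_
  rintro u ⟨I, -, a, b⟩
  exact h I a u b

lemma comm_of_conj {X : Type} [Group X] {x y c : X} (h1 : Commute x c)
    (h2 : Commute x (c * y * c⁻¹)) : Commute x y := by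
  have := (h1.inv_right.mul_right h2).mul_right h1
  simpa [mul_assoc] using this

lemma bet_add {V V' : Set Om} (h : Disjoint V V') (σ : Perm Ix) :
    bet (V ∪ V') σ = bet V σ * bet V' σ := by
  refine Equiv.ext fun y => ?_
  obtain ⟨x, i⟩ := y
  rw [Perm.mul_apply]
  by_cases h1 : x ∈ V
  · rw [bet_mem (Or.inl h1), bet_not (Set.disjoint_left.1 h h1), bet_mem h1]
  by_cases h2 : x ∈ V'
  · rw [bet_mem (Or.inr h2), bet_mem h2, bet_not h1]
  · rw [bet_not (fun h => h.elim h1 h2), bet_not h2, bet_not h1]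

lemma bet_commute {V V' : Set Om} (h : Disjoint V V') (σ τ : Perm Ix) :
    Commute (bet V σ) (bet V' τ) := by
  refine Equiv.ext fun y => ?_
  obtain ⟨x, i⟩ := y
  rw [Perm.mul_apply, Perm.mul_apply]
  by_cases h1 : x ∈ V
  · simp only [bet_not (Set.disjoint_left.1 h h1), bet_mem h1]
  by_cases h2 : x ∈ V'
  · simp only [bet_mem h2, bet_not h1]
  · simp only [bet_not h2, bet_not h1]

section
variable {G H : Type} [Group G] [Group H] {X Y : Subgroup G}

lemma comm_split {a a' b b' : G} (h1 : Commute a a') (h2 : Commute a b') (h3 : Commute b a')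
    (h4 : Commute b b') : ⁅a * a', b * b'⁆ = ⁅a, b⁆ * ⁅a', b'⁆ := by
  have e1 : a' * (b * b') * a'⁻¹ = b * (a' * b' * a'⁻¹) := by rw [← mul_assoc, ← h3.eq]; group
  have e2 : (a' * b' * a'⁻¹) * a⁻¹ = a⁻¹ * (a' * b' * a'⁻¹) :=
    ((h1.mul_right h2).mul_right h1.inv_right).inv_left.eq.symm
  have e3 : (a' * b' * a'⁻¹ * b'⁻¹) * b⁻¹ = b⁻¹ * (a' * b' * a'⁻¹ * b'⁻¹) :=
    (((h3.mul_right h4).mul_right h3.inv_right).mul_right h4.inv_right).inv_left.eq.symm
  calc ⁅a * a', b * b'⁆ = a * (a' * (b * b') * a'⁻¹) * a⁻¹ * (b * b')⁻¹ := by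
        rw [commutatorElement_def]; group
    _ = a * b * ((a' * b' * a'⁻¹) * a⁻¹) * b'⁻¹ * b⁻¹ := by rw [e1]; group
    _ = a * b * a⁻¹ * ((a' * b' * a'⁻¹ * b'⁻¹) * b⁻¹) := by rw [e2]; group
    _ = _ := by rw [e3, commutatorElement_def, commutatorElement_def]; group

lemma fac_all (c : H →* G) (hc : ∀ g ∈ X, ∀ h ∈ Y, Commute g h) {K : Subgroup H} (hK : ⁅K, K⁆ = K)
    (h : ∀ u ∈ K, ∀ v ∈ K, ∃ g ∈ X, ∃ h ∈ Y, c ⁅u, v⁆ = g * h) :
    ∀ u ∈ K, ∃ g ∈ X, ∃ h ∈ Y, c u = g * h := by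
  let S : Subgroup H :=
    { carrier := {u | ∃ g ∈ X, ∃ h ∈ Y, c u = g * h}
      one_mem' := ⟨1, one_mem _, 1, one_mem _, by simp⟩
      mul_mem' := by
        rintro u v ⟨g, a1, h, a2, e⟩ ⟨g', b1, h', b2, e'⟩
        refine ⟨_, mul_mem a1 b1, _, mul_mem a2 b2, ?_⟩
        rw [map_mul, e, e', mul_assoc, ← mul_assoc h, ← (hc _ b1 _ a2).eq]; group
      inv_mem' := by
        rintro u ⟨g, a1, h, a2, e⟩
        refine ⟨_, inv_mem a1, _, inv_mem a2, ?_⟩
        rw [map_inv, e, (hc _ a1 _ a2).eq]; group }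
  have : ⁅K, K⁆ ≤ S := Subgroup.commutator_le.2 h
  exact fun u hu => this (hK.symm ▸ hu)

lemma dec_exists (c : UU →* G) (hc : ∀ g ∈ X, ∀ h ∈ Y, Commute g h)
    (h : ∀ u, ∃ g ∈ X, ∃ h ∈ Y, c u = g * h) :
    ∃ e e' : UU →* G, ∀ u, e u ∈ X ∧ e' u ∈ Y ∧ c u = e u * e' u := by
  let φ : X × Y →* G := X.subtype.noncommCoprod Y.subtype fun a b => hc _ a.2 _ b.2
  have hm : ∀ u, c u ∈ φ.range := fun u =>
    let ⟨g, a, h, b, e⟩ := h u; ⟨(⟨g, a⟩, ⟨h, b⟩), e.symm⟩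
  obtain ⟨s, hs⟩ := UU_lift φ.rangeRestrict φ.rangeRestrict_surjective (fun z hz => by
    rw [MonoidHom.ker_rangeRestrict, MonoidHom.mem_ker] at hz
    have e : (z.1 : G) * z.2 = 1 := hz
    have e1 : (z.1 : G) = (z.2 : G)⁻¹ := eq_inv_of_mul_eq_one_left e
    have e2 : (z.2 : G) = (z.1 : G)⁻¹ := eq_inv_of_mul_eq_one_right e
    refine Subgroup.mem_center_iff.2 fun w => Prod.ext (Subtype.ext ?_) (Subtype.ext ?_)
    · change (w.1 : G) * z.1 = z.1 * w.1
      rw [e1]; exact (hc _ w.1.2 _ z.2.2).inv_right.eq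
    · change (w.2 : G) * z.2 = z.2 * w.2
      rw [e2]; exact (hc _ z.1.2 _ w.2.2).inv_left.eq.symm) (c.codRestrict _ hm)
  exact ⟨X.subtype.comp ((MonoidHom.fst _ _).comp s), Y.subtype.comp ((MonoidHom.snd _ _).comp s),
    fun u => ⟨(s u).1.2, (s u).2.2, (congrArg Subtype.val (DFunLike.congr_fun hs u)).symm⟩⟩

lemma dec_cent (hc : ∀ g ∈ X, ∀ h ∈ Y, Commute g h) {a b a' b' : G} (h2 : a' ∈ Y) (h4 : b' ∈ Y)
    (e : a * a' = b * b') {x : G} (hx : x ∈ X) : Commute (a⁻¹ * b) x := by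
  have : a⁻¹ * b = a' * b'⁻¹ := by
    rw [inv_mul_eq_iff_eq_mul, ← mul_assoc, e, mul_inv_cancel_right]
  rw [this]
  exact (hc _ hx _ (mul_mem h2 (inv_mem h4))).symm

end

end Vale.Agent.P196
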