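import Vale.Agent.P196.PI

/-! Job M: rigidity and triviality of loops. -/

namespace Vale.Agent.P196

/-- RIG and PI -/
theorem rig_pi {Q : Type} [QL Q] (M : PreModel Q) (hM : M.self.OK) :
    ∃ r : Set Om → Q, IsBH InB r ∧ (∀ W, r (lab ⁻¹' W) = M.l W) ∧
      (∀ (a : Letter) V, InB V → (∀ x ∈ V, lab x ∈ a.dom) → M.tr a (r V) = r (a.act '' V)) ∧
      ∀ (H : Type) (S : St M H), S.OK → ∀ p x, Ok p x → run p x = x →
        ∃ k, ∀ h, S.loc h (r (cls k x)) → S.run p h = h := by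
  let M' : Model Q := ⟨M, hM⟩
  refine ⟨M'.r, M'.r_bh, M'.r_lab, fun a => eqA a M', fun H S hS p x ho hl => ?_⟩
  obtain ⟨-, -, -, k, h⟩ := loop_triv (Q := Q) (H := H) _ p x le_rfl ho hl
  exact ⟨k, h M' S hS⟩

end Vale.Agent.P196
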