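import Vale.Agent.P196.Phi2
import Vale.Agent.P196.OmSim

/-! Construction of the measure `r` of a model. -/

namespace Vale.Agent.P196

open QL

variable {Q : Type} [QL Q]

lemma lab_ieR (ε y) : lab (ie ε y) = (lab y).ie ε := by simp [lab, ie, Lab.ie]
lemma lab_i0R (y) : lab (i0 y) = (lab y).nb := by simp [lab, i0, Lab.nb]
lemma lab_s1R (y) : lab (s1 y) = (lab y).ns := by simp [lab, s1, i0, Lab.ns]
lemma lab_jjR (y) : lab (jj y) = (lab y).ns.nb := by rw [jj, lab_i0R, lab_s1R]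

lemma lab_surj : Function.Surjective lab := by
  rintro ⟨h, e1, e2, b, s⟩
  let g : Bool → L := fun t => if t then L.one else L.one.succ
  have hg : ∀ t, (g t).o = t := by intro t; cases t <;> simp [g]
  refine ⟨cons (decide (h ≠ .d), g b) (cons (e1, g s) (cons (e2, g (decide (h = .ut)))
    fun _ => (true, L.one))), ?_⟩
  rw [lab_cons, hg, hg, hg]
  cases h <;> simp [hd]

lemma cl_inD (k : ℕ) : Cl (InD k) :=
  ⟨fun h h' x x' s hx => ⟨h x x' s hx.1, h' x x' s hx.2⟩,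
    fun h h' x x' s hx => ⟨h x x' s hx.1, fun h2 => hx.2 (h' x' x s.symm h2)⟩⟩
lemma cl_inB : Cl InB := ⟨InB.inter, InB.diff⟩
lemma inD_lab (k) (W : Set Lab) : InD k (lab ⁻¹' W) := fun x x' s hx => by
  rw [Set.mem_preimage, ← s.lab]; exact hx
lemma InD.pre_ie {k V} (ε) (h : InD (k + 1) V) : InD k (ie ε ⁻¹' V) :=
  fun _ _ s hx => h _ _ (sim_ie ε s) hx
lemma InD.pre_jj {k V} (h : InD (k + 1) V) : InD k (jj ⁻¹' V) := fun _ _ s hx => h _ _ (sim_jj s) hx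
lemma InD.pre_i0s {k V} (h : InD (k + 1) V) : InD k (i0 ⁻¹' V ∩ lab ⁻¹' {l | l.s = true}) :=
  fun _ _ s hx => ⟨h _ _ (sim_i0s hx.2 s) hx.1, inD_lab k _ _ _ s hx.2⟩
lemma InD.eq_lab {V} (h : InD 0 V) : V = lab ⁻¹' (lab '' V) :=
  Set.ext fun x => ⟨fun hx => ⟨x, hx, rfl⟩, fun ⟨y, hy, e⟩ => h y x e hy⟩

/-- the four routes -/
def route (M : Model Q) (f g : Set Om → Q) (V : Set Om) : Q :=
  (M.tr (.Pi false) (f (ie false ⁻¹' V)) + M.tr (.Pi true) (f (ie true ⁻¹' V))) +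
    (f (i0 ⁻¹' V ∩ lab ⁻¹' {l | l.s = true}) + M.tr .Ti (g (jj ⁻¹' V)))

/-- the level `k` approximation -/
noncomputable def rk : ℕ → Model Q → Set Om → Q
  | 0, M, V => M.l (lab '' V)
  | k + 1, M, V => route M (rk k M.phi) (rk k M.phi.phi) V

lemma Model.Pi_pl (M : Model Q) (ε : Bool) (W : Set Lab) :
    M.tr (.Pi ε) (M.pl {l | l.ie ε ∈ W}) = M.l {l | (l.b = true ∧ l.e0 = ε) ∧ l ∈ W} :=
  M.tr_back (.P ε) (fun _ h => h.1) (M.Pphi ε W)

lemma Model.ppl (M : Model Q) (W : Set Lab) : M.tr .Ti (M.phi.pl {l | l.ns.nb ∈ W}) =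
    M.l {l | l.s = false ∧ l.b = false ∧ l ∈ W} := by
  have := M.phi.Iphi' (A := {l | l.b = false ∧ l.ns ∈ W}) (B := {l | l.ns.nb ∈ W})
    {l | l.ns ∈ W} rfl rfl
  rw [← this]
  exact M.Ti_pl {l | l.b = false ∧ l ∈ W} rfl rfl

lemma route_bh {𝒜 ℬ : Set Om → Prop} (c : Cl ℬ) (M : Model Q) {f g : Set Om → Q}
    (hf : IsBH ℬ f) (hg : IsBH ℬ g) (hl : ∀ W, ℬ (lab ⁻¹' W)) (hf' : ∀ W, f (lab ⁻¹' W) = M.pl W)
    (hg' : ∀ W, g (lab ⁻¹' W) = M.phi.pl W) (h1 : ∀ ε V, 𝒜 V → ℬ (ie ε ⁻¹' V))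
    (h2 : ∀ V, 𝒜 V → ℬ (i0 ⁻¹' V ∩ lab ⁻¹' {l | l.s = true})) (h3 : ∀ V, 𝒜 V → ℬ (jj ⁻¹' V)) :
    IsBH 𝒜 (route M f g) ∧ ∀ W, route M f g (lab ⁻¹' W) = M.l W := by
  have fu : ∀ V, ℬ V → f V ≤ M.l {l | l.b = false} := fun V hV =>
    (hf.mono c hV (hl Set.univ) (Set.subset_univ _)).trans ((hf' _).trans M.pl_univ).le
  have gu : ∀ V, ℬ V → g V ≤ M.pl {l | l.b = false} := fun V hV =>
    (hg.mono c hV (hl Set.univ) (Set.subset_univ _)).trans ((hg' _).trans M.phi.pl_univ).le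
  have e3 : M.pl {l | l.b = false} ≤ M.l {l | l.b = false} := M.pl_le_l _ fun _ _ => rfl
  have pre : ∀ {F : Set Om → Q} (u : Om → Om), IsBH ℬ F → (∀ V, 𝒜 V → ℬ (u ⁻¹' V)) →
      IsBH 𝒜 fun V => F (u ⁻¹' V) := fun u hF h =>
    hF.comp (fun V => u ⁻¹' V) rfl h (fun _ _ d => d.preimage u) fun _ _ => rfl
  have b1 : ∀ ε, IsBH 𝒜 fun V => M.tr (.Pi ε) (f (ie ε ⁻¹' V)) := fun ε =>
    (M.iso (.Pi ε)).bh (pre _ hf (h1 ε)) fun V hV => fu _ (h1 ε V hV)
  have b1' : ∀ ε V, 𝒜 V → M.tr (.Pi ε) (f (ie ε ⁻¹' V)) ≤ M.l {l | l.b = true ∧ l.e0 = ε} :=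
    fun ε V hV => M.tr_le (.Pi ε) _ (fu _ (h1 ε V hV))
  have b2 : IsBH 𝒜 fun V => f (i0 ⁻¹' V ∩ lab ⁻¹' {l | l.s = true}) :=
    hf.comp (fun V => i0 ⁻¹' V ∩ lab ⁻¹' {l | l.s = true}) (by simp) h2
      (fun _ _ d => (d.preimage i0).mono Set.inter_subset_left Set.inter_subset_left)
      fun _ _ => by rw [Set.preimage_union, Set.union_inter_distrib_right]
  have b2' : ∀ V, 𝒜 V → f (i0 ⁻¹' V ∩ lab ⁻¹' {l | l.s = true}) ≤
      M.l {l | l.b = false ∧ l.s = true} := fun V hV =>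
    (hf.mono c (h2 V hV) (hl _) Set.inter_subset_right).trans
      ((hf' _).le.trans (M.pl_le_l _ fun _ h => ⟨rfl, h⟩))
  have b3 : IsBH 𝒜 fun V => M.tr .Ti (g (jj ⁻¹' V)) :=
    (M.iso .Ti).bh (pre _ hg h3) fun V hV => (gu _ (h3 V hV)).trans e3
  have b3' : ∀ V, 𝒜 V → M.tr .Ti (g (jj ⁻¹' V)) ≤ M.l {l | l.s = false ∧ l.b = false} :=
    fun V hV => (M.tr_mono .Ti _ _ (gu _ (h3 V hV)) e3).trans
      (M.Ti_pl {l | l.b = false} rfl rfl).le
  have dj : ∀ {A B : Set Lab}, (∀ l, l ∈ A → l ∈ B → False) → orth (M.l A) (M.l B) := fun h =>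
    M.bh.orth _ _ trivial trivial (Set.disjoint_left.2 h)
  have o1 : orth (M.l {l | l.b = true ∧ l.e0 = false}) (M.l {l | l.b = true ∧ l.e0 = true}) :=
    dj fun l h h' => by simp_all
  have o2 : orth (M.l {l | l.b = false ∧ l.s = true}) (M.l {l | l.s = false ∧ l.b = false}) :=
    dj fun l h h' => by simp_all
  have o3 : orth (M.l {l | l.b = true}) (M.l {l | l.b = false}) := dj fun l h h' => by simp_all
  refine ⟨((b1 false).sum (b1 true) o1 (b1' false) (b1' true)).sum (b2.sum b3 o2 b2' b3') o3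
    (fun V hV => add_le (orth_mono2 (b1' _ V hV) (b1' _ V hV) o1)
      ((b1' _ V hV).trans (M.le fun _ h => h.1)) ((b1' _ V hV).trans (M.le fun _ h => h.1)))
    (fun V hV => add_le (orth_mono2 (b2' V hV) (b3' V hV) o2)
      ((b2' V hV).trans (M.le fun _ h => h.1)) ((b3' V hV).trans (M.le fun _ h => h.2))),
    fun W => ?_⟩
  have p1 : ∀ ε, ie ε ⁻¹' (lab ⁻¹' W) = lab ⁻¹' {l | l.ie ε ∈ W} := fun ε => by
    ext; simp [lab_ieR]
  have p2 : i0 ⁻¹' (lab ⁻¹' W) ∩ lab ⁻¹' {l | l.s = true} =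
      lab ⁻¹' {l | l.nb ∈ {l : Lab | l ∈ W ∧ l.s = true}} := by ext; simp [lab_i0R, Lab.nb]
  have p3 : jj ⁻¹' (lab ⁻¹' W) = lab ⁻¹' {l | l.ns.nb ∈ W} := by ext; simp [lab_jjR]
  have ad : ∀ {A B : Set Lab}, (∀ l, l ∈ A → l ∈ B → False) → M.l A + M.l B = M.l (A ∪ B) :=
    fun h => (M.bh.add _ _ trivial trivial (Set.disjoint_left.2 h)).symm
  rw [route, p1, p1, p2, p3, hf', hf', hf', hg', M.Pi_pl, M.Pi_pl, ← M.Iphi, M.ppl,
    ad (by simp +contextual), ad (by simp +contextual), ad (fun l h h' => by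
      have a1 : l.b = true := h.elim (·.1.1) (·.1.1)
      have a2 : l.b = false := h'.elim (·.1) (·.2.1)
      simp [a1] at a2)]
  congr 1
  ext ⟨h, e1, e2, b, s⟩
  cases h <;> cases b <;> cases s <;> simp [Lab.e0]

lemma rk_spec (k : ℕ) : ∀ M : Model Q, IsBH (InD k) (rk k M) ∧ ∀ W, rk k M (lab ⁻¹' W) = M.l W := by
  induction k with
  | zero =>
    intro M
    refine ⟨⟨by simp [rk, M.bh.empty], fun V V' h h' d => M.bh.orth _ _ trivial trivial ?_,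
      fun V V' h h' d => ?_⟩, fun W => by rw [rk, Set.image_preimage_eq _ lab_surj]⟩
    · exact Set.disjoint_left.2 fun l ⟨x, hx, e⟩ ⟨y, hy, e'⟩ =>
        Set.disjoint_left.1 d (h x y (e.trans e'.symm) hx) hy
    · rw [rk, Set.image_union]
      exact M.bh.add _ _ trivial trivial (Set.disjoint_left.2 fun l ⟨x, hx, e⟩ ⟨y, hy, e'⟩ =>
        Set.disjoint_left.1 d (h x y (e.trans e'.symm) hx) hy)
  | succ k ih =>
    intro M
    exact route_bh (cl_inD k) M (ih _).1 (ih _).1 (inD_lab k) (ih _).2 (ih _).2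
      (fun ε _ h => h.pre_ie ε) (fun _ h => h.pre_i0s) fun _ h => h.pre_jj

lemma rk_succ (k : ℕ) : ∀ (M : Model Q) (V), InD k V → rk (k + 1) M V = rk k M V := by
  induction k with
  | zero => intro M V h; rw [h.eq_lab, (rk_spec _ M).2, (rk_spec _ M).2]
  | succ k ih =>
    intro M V h
    rw [rk, route, ih _ _ (h.pre_ie _), ih _ _ (h.pre_ie _), ih _ _ h.pre_i0s, ih _ _ h.pre_jj]
    rfl

lemma rk_le {k k' : ℕ} (hk : k ≤ k') (M : Model Q) {V} (h : InD k V) : rk k' M V = rk k M V := by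
  induction hk with
  | refl => rfl
  | step hk ih => rw [rk_succ _ _ _ (h.mono hk), ih]

open Classical in
/-- the measure of a model -/
noncomputable def Model.r (M : Model Q) (V : Set Om) : Q :=
  if h : InB V then rk h.choose M V else 0

namespace Model

variable (M : Model Q)

lemma r_eq {k V} (h : InD k V) : M.r V = rk k M V := by
  have hb : InB V := ⟨k, h⟩
  rw [r, dif_pos hb, ← rk_le (le_max_left _ k) M hb.choose_spec, rk_le (le_max_right _ k) M h]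

lemma r_lab (W : Set Lab) : M.r (lab ⁻¹' W) = M.l W := by
  rw [M.r_eq (inD_lab 0 W), (rk_spec 0 M).2]

lemma r_bh : IsBH InB M.r := by
  refine ⟨by simpa [M.bh.empty] using M.r_lab ∅, ?_, ?_⟩
  · rintro V V' ⟨k, h⟩ ⟨k', h'⟩ d
    have h1 := h.mono (le_max_left k k')
    have h2 := h'.mono (le_max_right k k')
    rw [M.r_eq h1, M.r_eq h2]
    exact (rk_spec _ M).1.orth _ _ h1 h2 d
  · rintro V V' ⟨k, h⟩ ⟨k', h'⟩ d
    have h1 := h.mono (le_max_left k k')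
    have h2 := h'.mono (le_max_right k k')
    rw [M.r_eq h1, M.r_eq h2, M.r_eq (k := max k k') fun x x' s hx =>
      hx.imp (h1 x x' s) (h2 x x' s)]
    exact (rk_spec _ M).1.add _ _ h1 h2 d

lemma r_mono {V W} (hV : InB V) (hW : InB W) (h : V ⊆ W) : M.r V ≤ M.r W :=
  M.r_bh.mono cl_inB hV hW h

lemma r_le {V} (hV : InB V) {W : Set Lab} (h : ∀ x ∈ V, lab x ∈ W) : M.r V ≤ M.l W :=
  (M.r_mono hV (inB_lab W) h).trans_eq (M.r_lab W)

lemma r_route {V} (hV : InB V) : M.r V = route M M.phi.r M.phi.phi.r V := by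
  obtain ⟨k, h⟩ := hV
  have h := h.mono (Nat.le_succ k)
  rw [M.r_eq h, rk, route, route, r_eq _ (h.pre_ie _), r_eq _ (h.pre_ie _), r_eq _ h.pre_i0s,
    r_eq _ h.pre_jj]

lemma tr_zero (a : Letter) : M.tr a 0 = 0 := (M.iso a).zero

end Model

lemma ie_inj (ε) : Function.Injective (ie ε) := fun _ _ h => (cons_inj.1 h).2
lemma d0_i0R (y) : d0 (i0 y) = y := by simp [d0, i0]
lemma d1_s1R (y) : d1 (s1 y) = y := by simp [d1, s1, d0_i0R]
lemma i0_d0 {x : Om} (h : (lab x).b = false) : i0 (d0 x) = x := by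
  simp_all [lab, i0, d0, L.succ_pred]
lemma s1_d1 {x : Om} (h : (lab x).s = false) : s1 (d1 x) = x := by
  obtain ⟨e0, g0, e1, g1, e2, g2, z, rfl⟩ := om_cases x
  simp_all [lab, i0, d0, s1, d1, L.succ_pred]
lemma ie_tl {x : Om} (h : (lab x).b = true) : ie (lab x).e0 (tl x) = x := by
  obtain ⟨e0, g0, e1, g1, e2, g2, z, rfl⟩ := om_cases x
  simp_all [lab, ie]
lemma i0_injR : Function.Injective i0 := Function.LeftInverse.injective d0_i0R
lemma s1_inj : Function.Injective s1 := Function.LeftInverse.injective d1_s1R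
lemma jj_inj : Function.Injective jj := i0_injR.comp s1_inj
lemma s1_i0R (y) : s1 (i0 y) = jj y := by simp [s1, i0, jj]
lemma s1_ie (ε y) : s1 (ie ε y) = ie ε (i0 y) := by simp [s1, ie]

lemma pre_empty {u v : Om → Om} {A : Set Om} (h : ∀ x y, lab (u x) ≠ lab (v y)) :
    v ⁻¹' (u '' A) = ∅ :=
  Set.eq_empty_of_forall_notMem fun y ⟨x, _, e⟩ => h x y (congrArg lab e)

namespace Model

variable (M : Model Q)

lemma r_ie (ε) {V} (hV : InB V) : M.r (ie ε '' V) = M.tr (.Pi ε) (M.phi.r V) := by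
  have h1 : ie (!ε) ⁻¹' (ie ε '' V) = ∅ := pre_empty fun x y e => by
    have := congrArg Lab.e0 e
    simp [lab_ieR, Lab.ie] at this
  have h2 : i0 ⁻¹' (ie ε '' V) = ∅ := pre_empty fun x y e => by
    simp [lab_ieR, lab_i0R, Lab.ie, Lab.nb] at e
  have h3 : jj ⁻¹' (ie ε '' V) = ∅ := pre_empty fun x y e => by
    simp [lab_ieR, lab_jjR, Lab.ie, Lab.nb] at e
  rw [M.r_route (hV.im_ie ε), route, h2, h3, Set.empty_inter, (r_bh _).empty, (r_bh _).empty,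
    tr_zero, add_zero', add_zero']
  cases ε
  · rw [Bool.not_false] at h1
    rw [h1, (r_bh _).empty, tr_zero, add_zero', Set.preimage_image_eq _ (ie_inj _)]
  · rw [Bool.not_true] at h1
    rw [h1, (r_bh _).empty, tr_zero, zero_add', Set.preimage_image_eq _ (ie_inj _)]

lemma r_i0s {V} (hV : InB V) (hs : ∀ x ∈ V, (lab x).s = true) : M.r (i0 '' V) = M.phi.r V := by
  have h1 : ∀ ε, ie ε ⁻¹' (i0 '' V) = ∅ := fun ε => pre_empty fun x y e => by
    simp [lab_ieR, lab_i0R, Lab.ie, Lab.nb] at e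
  have h3 : jj ⁻¹' (i0 '' V) = ∅ := Set.eq_empty_of_forall_notMem fun y ⟨x, hx, e⟩ => by
    have := congrArg (fun z => (lab z).s) e
    simp [lab_i0R, lab_jjR, Lab.nb, Lab.ns, hs x hx] at this
  rw [M.r_route hV.im_i0, route, h1, h1, h3, (r_bh _).empty, (r_bh _).empty, tr_zero, tr_zero,
    tr_zero, add_zero', add_zero', zero_add', Set.preimage_image_eq _ i0_injR,
    Set.inter_eq_left.2 (show V ⊆ lab ⁻¹' {l | l.s = true} from hs)]

lemma r_jj {V} (hV : InB V) : M.r (jj '' V) = M.tr .Ti (M.phi.phi.r V) := by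
  have h1 : ∀ ε, ie ε ⁻¹' (jj '' V) = ∅ := fun ε => pre_empty fun x y e => by
    simp [lab_ieR, lab_jjR, Lab.ie, Lab.nb] at e
  have h2 : i0 ⁻¹' (jj '' V) ∩ lab ⁻¹' {l | l.s = true} = ∅ :=
    Set.eq_empty_of_forall_notMem fun y ⟨⟨x, hx, e⟩, h⟩ => by
      have h' : (lab y).s = true := h
      have := congrArg (fun z => (lab z).s) e
      simp [lab_i0R, lab_jjR, Lab.nb, Lab.ns, h'] at this
  rw [M.r_route hV.im_jj, route, h1, h1, h2, (r_bh _).empty, tr_zero, tr_zero,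
    add_zero', zero_add', zero_add', Set.preimage_image_eq _ jj_inj]

end Model

end Vale.Agent.P196
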