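import Vale.Agent.P196.RigA

/-! Rigidity: the measure is equivariant. -/

namespace Vale.Agent.P196

open QL

variable {Q : Type} [QL Q]

lemma split_lab (P : Set Om → Prop) (h0 : P ∅)
    (hu : ∀ A A', InB A → InB A' → Disjoint A A' → P A → P A' → P (A ∪ A')) {V} (hV : InB V)
    (h : ∀ l, P (V ∩ lab ⁻¹' {l})) : P V := by
  have : ∀ s : Finset Lab, P (V ∩ lab ⁻¹' s) := by
    intro s
    induction s using Finset.induction_on with
    | empty => simpa using h0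
    | insert l s hl ih =>
      rw [Finset.coe_insert, Set.insert_eq, Set.preimage_union, Set.inter_union_distrib_left]
      exact hu _ _ (hV.inter (inB_lab _)) (hV.inter (inB_lab _))
        (Set.disjoint_left.2 fun x h1 h2 => hl (h1.2 ▸ h2.2)) (h l) ih
  simpa using this Finset.univ

/-- an identity `F (f V) = g (u '' V)` can be checked label by label -/
lemma eq_split {F G : Q → Q} {a b : Q} (i : IsIso F G a b) {f g : Set Om → Q} (hf : IsBH InB f)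
    (hg : IsBH InB g) (u : Om → Om) {V} (hV : InB V) (hu : Set.InjOn u V)
    (him : ∀ A, InB A → A ⊆ V → InB (u '' A)) (hle : ∀ A, InB A → A ⊆ V → f A ≤ a)
    (h : ∀ l, F (f (V ∩ lab ⁻¹' {l})) = g (u '' (V ∩ lab ⁻¹' {l}))) : F (f V) = g (u '' V) := by
  refine split_lab (fun A => A ⊆ V → F (f A) = g (u '' A)) (fun _ => ?_) ?_ hV (fun l _ => h l)
    le_rfl
  · rw [hf.empty, i.zero, Set.image_empty, hg.empty]
  · intro A A' hA hA' d h1 h2 hs
    have s1 : A ⊆ V := Set.subset_union_left.trans hs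
    have s2 : A' ⊆ V := Set.subset_union_right.trans hs
    rw [hf.add _ _ hA hA' d, i.add (hf.orth _ _ hA hA' d) (hle _ hA s1) (hle _ hA' s2), h1 s1, h2 s2,
      Set.image_union, hg.add _ _ (him _ hA s1) (him _ hA' s2)]
    exact Set.disjoint_left.2 fun _ ⟨x, hx, e⟩ ⟨y, hy, e'⟩ =>
      Set.disjoint_left.1 d hx (hu (s1 hx) (s2 hy) (e.trans e'.symm) ▸ hy)

lemma isIso_id (a : Q) : IsIso id id a a :=
  ⟨fun _ h => h, fun _ h => h, fun _ _ => rfl, fun _ _ => rfl, fun _ _ h _ => h, fun _ _ h _ => h,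
    fun _ _ h _ _ => h, fun _ _ h _ _ => h⟩

lemma eq_i0R {A : Set Om} (h : ∀ x ∈ A, (lab x).b = false) : A = i0 '' (i0 ⁻¹' A) :=
  Set.ext fun x => ⟨fun hx => ⟨d0 x, by simpa [i0_d0 (h x hx)] using hx, i0_d0 (h x hx)⟩,
    fun ⟨_, hy, e⟩ => e ▸ hy⟩
lemma eq_s1R {A : Set Om} (h : ∀ x ∈ A, (lab x).s = false) : A = s1 '' (s1 ⁻¹' A) :=
  Set.ext fun x => ⟨fun hx => ⟨d1 x, by simpa [s1_d1 (h x hx)] using hx, s1_d1 (h x hx)⟩,
    fun ⟨_, hy, e⟩ => e ▸ hy⟩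
lemma eq_ieR {A : Set Om} {ε} (h : ∀ x ∈ A, (lab x).b = true ∧ (lab x).e0 = ε) :
    A = ie ε '' (ie ε ⁻¹' A) :=
  Set.ext fun x => ⟨fun hx => by
    have := ie_tl (h x hx).1
    rw [(h x hx).2] at this
    exact ⟨tl x, by simpa [this] using hx, this⟩, fun ⟨_, hy, e⟩ => e ▸ hy⟩
lemma eq_jjR {A : Set Om} (h : ∀ x ∈ A, (lab x).b = false ∧ (lab x).s = false) :
    A = jj '' (jj ⁻¹' A) :=
  Set.ext fun x => ⟨fun hx => by
    have h1 : (lab (d0 x)).s = false := by simpa [lab, d0] using (h x hx).2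
    have : jj (d1 (d0 x)) = x := by rw [jj, s1_d1 h1, i0_d0 (h x hx).1]
    exact ⟨_, by simpa [this] using hx, this⟩, fun ⟨_, hy, e⟩ => e ▸ hy⟩

/-- compatibility with `i0` -/
def Lv (Q : Type) [QL Q] (V : Set Om) : Prop := ∀ M : Model Q, M.phi.r V = M.r (i0 '' V)
/-- compatibility with `s1` -/
def Ls (Q : Type) [QL Q] (V : Set Om) : Prop := ∀ M : Model Q, M.tr .Ti (M.phi.r V) = M.r (s1 '' V)

lemma Model.phi_r_le (M : Model Q) {V} (hV : InB V) : M.phi.r V ≤ M.l {l | l.b = false} :=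
  (M.phi.r_le hV (W := Set.univ) fun _ _ => trivial).trans_eq M.pl_univ

lemma lv_s1 {V} (hV : InB V) (h : Ls Q V) : Lv Q (s1 '' V) := fun M => by
  rw [← h M.phi, ← Set.image_comp, show i0 ∘ s1 = jj from rfl, M.r_jj hV]; rfl

lemma ls_i0 {V} (hV : InB V) (h : Lv Q V) : Ls Q (i0 '' V) := fun M => by
  rw [← h M.phi, ← Set.image_comp, show s1 ∘ i0 = jj from funext s1_i0R, M.r_jj hV]

lemma ls_ie (ε) {V} (hV : InB V) (h : Lv Q V) : Ls Q (ie ε '' V) := fun M => by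
  rw [← Set.image_comp, show s1 ∘ ie ε = ie ε ∘ i0 from funext (s1_ie ε), Set.image_comp,
    M.r_ie ε hV.im_i0, ← h M.phi, M.phi.r_ie ε hV]
  refine M.tr_inv .T _ ((M.tr_mono (.Pi ε) _ _ (M.phi.phi_r_le hV)
    (M.pl_le_l _ fun _ _ => rfl)).trans ?_)
  exact (M.Pi_pl ε {l | l.s = false}).le.trans (M.le fun _ h => h.2)

lemma lv_of {V} (hV : InB V) (h : ∀ l : Lab, l.s = false → Lv Q (V ∩ lab ⁻¹' {l})) : Lv Q V := by
  intro M
  refine eq_split (isIso_id (M.phi.l Set.univ)) M.phi.r_bh M.r_bh i0 hV i0_injR.injOn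
    (fun A hA _ => hA.im_i0) (fun A hA _ => M.phi.r_le hA fun _ _ => trivial) fun l => ?_
  cases hs : l.s
  · exact h l hs M
  · exact (M.r_i0s (hV.inter (inB_lab _)) fun x hx => by rw [hx.2, hs]).symm

lemma lv_lab (W : Set Lab) : Lv Q (lab ⁻¹' W) := by
  refine lv_of (inB_lab W) fun l hs => ?_
  have e : lab ⁻¹' W ∩ lab ⁻¹' {l} = s1 '' (lab ⁻¹' {l' | l'.ns ∈ W ∩ {l}}) := by
    rw [eq_s1R (A := lab ⁻¹' W ∩ lab ⁻¹' {l}) fun x hx => by rw [hx.2, hs]]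
    congr 1; ext; simp [lab_s1R]
  rw [e]
  refine lv_s1 (inB_lab _) fun M => ?_
  rw [← e, ← Set.preimage_inter, M.r_lab, M.phi.r_lab]
  exact M.Ti_pl (W ∩ {l}) (by ext; simp +contextual [hs]) rfl

lemma lv_step {V} (hV : InB V) (h1 : ∀ W, Lv Q (jj ⁻¹' (V ∩ lab ⁻¹' W)))
    (h2 : ∀ ε W, Lv Q (i0 ⁻¹' (ie ε ⁻¹' (V ∩ lab ⁻¹' W)))) : Lv Q V := by
  refine lv_of hV fun l hs => ?_
  have hA := hV.inter (inB_lab {l})
  rw [eq_s1R (A := V ∩ lab ⁻¹' {l}) fun x hx => by rw [hx.2, hs]]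
  refine lv_s1 hA.pre_s1 ?_
  have hb : ∀ x ∈ s1 ⁻¹' (V ∩ lab ⁻¹' {l}), (lab x).b = l.b ∧ (lab x).e0 = l.e0 := fun x hx => by
    rw [← show lab (s1 x) = l from hx.2, lab_s1R]; exact ⟨rfl, rfl⟩
  cases hb' : l.b
  · rw [eq_i0R fun x hx => (hb x hx).1.trans hb']
    refine ls_i0 hA.pre_s1.pre_i0 ?_
    rw [← Set.preimage_comp, show s1 ∘ i0 = jj from funext s1_i0R]
    exact h1 _
  · rw [eq_ieR fun x hx => ⟨(hb x hx).1.trans hb', (hb x hx).2⟩]
    refine ls_ie _ (hA.pre_s1.pre_ie _) ?_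
    rw [← Set.preimage_comp, show s1 ∘ ie l.e0 = ie l.e0 ∘ i0 from funext (s1_ie _)]
    exact h2 _ _

lemma lv_D (k : ℕ) : ∀ V, InD k V → Lv Q V := by
  induction k with
  | zero => intro V h; rw [h.eq_lab]; exact lv_lab _
  | succ k ih =>
    intro V h
    have hW : ∀ W, InD (k + 1) (V ∩ lab ⁻¹' W) := fun W => (cl_inD _).inter h (inD_lab _ W)
    refine lv_step ⟨_, h⟩ (fun W => ih _ (hW W).pre_jj) fun ε W => ?_
    refine lv_step (InB.pre_i0 (InB.pre_ie ε ⟨_, hW W⟩)) (fun W' => ih _ ?_) fun ε' W' => ih _ ?_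
    · intro z z' s hz
      refine ⟨hW W _ _ ?_ hz.1, inD_lab _ W' _ _ (sim_jj s) hz.2⟩
      have e : ∀ z, i0 (jj z) = jj (i0 z) := fun z => congrArg i0 (s1_i0R z).symm
      rw [e, e]
      exact (sim_ie ε (sim_jj (sim_i0 s))).mono (by omega)
    · intro z z' s hz
      refine ⟨hW W _ _ ?_ hz.1, inD_lab _ W' _ _ (sim_ie ε' (sim_i0 s)) hz.2⟩
      have e : ∀ z, i0 (ie ε' (i0 z)) = jj (ie ε' z) := fun z => by rw [jj, s1_ie]
      rw [e, e]
      exact (sim_ie ε (sim_jj (sim_ie ε' s))).mono (by omega)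

lemma Model.lv (M : Model Q) {V} (hV : InB V) : M.phi.r V = M.r (i0 '' V) :=
  lv_D _ _ hV.choose_spec M

lemma Model.ls (M : Model Q) {V} (hV : InB V) : M.tr .Ti (M.phi.r V) = M.r (s1 '' V) := by
  refine eq_split (M.iso .Ti) M.phi.r_bh M.r_bh s1 hV s1_inj.injOn (fun A hA _ => hA.im_s1)
    (fun A hA _ => M.phi_r_le hA) fun l => ?_
  have hA := hV.inter (inB_lab {l})
  cases hb : l.b
  · rw [eq_i0R (A := V ∩ lab ⁻¹' {l}) fun x hx => by rw [hx.2, hb]]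
    exact ls_i0 hA.pre_i0 (fun M => M.lv hA.pre_i0) M
  · rw [eq_ieR (A := V ∩ lab ⁻¹' {l}) (ε := l.e0) fun x hx => by rw [hx.2, hb]; exact ⟨rfl, rfl⟩]
    exact ls_ie _ (hA.pre_ie _) (fun M => M.lv (hA.pre_ie _)) M

/-- equivariance for one letter -/
def EqA (Q : Type) [QL Q] (a : Letter) : Prop :=
  ∀ (M : Model Q) V, InB V → (∀ x ∈ V, lab x ∈ a.dom) → M.tr a (M.r V) = M.r (a.act '' V)

lemma im_inv {a : Letter} {V : Set Om} (h : ∀ x ∈ V, lab x ∈ a.dom) :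
    a.inv.act '' (a.act '' V) = V := by
  rw [← Set.image_comp]
  exact (Set.image_congr (g := id) fun x hx => act_inv (h x hx)).trans (Set.image_id V)

lemma EqA.inv {a : Letter} (h : EqA Q a) : EqA Q a.inv := fun M V hV hd => by
  have h1 : ∀ x ∈ a.inv.act '' V, lab x ∈ a.dom := by
    rintro _ ⟨x, hx, rfl⟩; simpa using act_dom (hd x hx)
  have h2 := h M _ (hV.im_act _ hd) h1
  have h3 := im_inv hd
  rw [Letter.inv_inv] at h3
  rw [h3] at h2
  rw [← h2, M.tr_inv _ _ (M.r_le (hV.im_act _ hd) h1)]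

lemma eqTi : EqA Q .Ti := fun M V hV hd => by
  rw [eq_i0R (A := V) hd, ← M.lv hV.pre_i0, M.ls hV.pre_i0, ← Set.image_comp]
  congr 2; funext y; simp [Letter.act, d0_i0R]

lemma eqPi (ε) : EqA Q (.Pi ε) := fun M V hV hd => by
  rw [eq_i0R (A := V) hd, ← M.lv hV.pre_i0, ← M.r_ie ε hV.pre_i0, ← Set.image_comp]
  congr 2; funext y; simp [Letter.act, d0_i0R]

lemma eqT : EqA Q .T := eqTi.inv
lemma eqP (ε) : EqA Q (.P ε) := (eqPi ε).inv

lemma lab_E (x) : lab (Letter.E.act x) = (lab x).f1 := by simp [lab, Letter.act, fl, Lab.f1]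
lemma lab_Q (x) : lab (Letter.Q.act x) = (lab x).f2 := by simp [lab, Letter.act, fl, Lab.f2]
lemma f1_f1 (l : Lab) : l.f1.f1 = l := by simp [Lab.f1]
lemma f2_f2 (l : Lab) : l.f2.f2 = l := by simp [Lab.f2]

lemma eq_run {p : List Letter} (hp : ∀ a ∈ p, EqA Q a) (M : Model Q) {V} (hV : InB V)
    (ho : ∀ x ∈ V, Ok p x) : M.self.run p (M.r V) = M.r (run p '' V) := by
  induction p generalizing V with
  | nil => exact congrArg M.r (Set.image_id V).symm
  | cons a p ih =>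
    have h1 := hp a (by simp) M V hV fun x hx => (ho x hx).1
    rw [St.run_cons, show M.self.act a (M.r V) = _ from h1,
      ih (fun b hb => hp b (by simp [hb])) (hV.im_act a fun x hx => (ho x hx).1)
        (by rintro _ ⟨x, hx, rfl⟩; exact (ho x hx).2), ← Set.image_comp]
    rfl

/-- equivariance from a relation `a c = p'` -/
lemma eq_rel (M : Model Q) {a c : Letter} {p' : List Letter} {W : Set Lab}
    (hr : Rel W [a, c] p' ∨ Rel W p' [a, c]) (hc : EqA Q c) (hp : ∀ b ∈ p', EqA Q b) {V}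
    (hV : InB V) (hW : ∀ x ∈ V, lab x ∈ W) (hle : M.tr a (M.l W) ≤ M.l c.dom)
    (hWa : W ⊆ a.dom) : M.tr a (M.r V) = M.r (a.act '' V) := by
  have cl : ∀ x ∈ V, Ok [a, c] x ∧ Ok p' x ∧ run [a, c] x = run p' x := fun x hx =>
    hr.elim (fun h => h.classical (hW x hx)) fun h =>
      let ⟨h1, h2, h3⟩ := h.classical (hW x hx); ⟨h2, h1, h3.symm⟩
  have e : M.self.run [a, c] (M.r V) = M.self.run p' (M.r V) :=
    hr.elim (fun h => M.ok _ _ _ h _ (M.r_le hV hW)) fun h => (M.ok _ _ _ h _ (M.r_le hV hW)).symm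
  have hV' := hV.im_act a fun x hx => (cl x hx).1.1
  have hd : ∀ x ∈ a.act '' V, lab x ∈ c.dom := by rintro _ ⟨x, hx, rfl⟩; exact (cl x hx).1.2.1
  refine (M.iso c).inj ((M.tr_mono a _ _ (M.r_le hV hW) (M.le hWa)).trans hle) (M.r_le hV' hd) ?_
  rw [hc M _ hV' hd, show M.tr c (M.tr a (M.r V)) = _ from e,
    eq_run hp M hV fun x hx => (cl x hx).2.1, ← Set.image_comp]
  congr 1
  exact Set.image_congr fun x hx => (cl x hx).2.2.symm

lemma im_lab {a : Letter} {A B : Set Lab} (h1 : ∀ x, lab x ∈ A → lab x ∈ a.dom ∧ lab (a.act x) ∈ B)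
    (h2 : ∀ x, lab x ∈ B → lab x ∈ a.inv.dom ∧ lab (a.inv.act x) ∈ A) :
    a.act '' (lab ⁻¹' A) = lab ⁻¹' B :=
  Set.ext fun x => ⟨by rintro ⟨y, hy, rfl⟩; exact (h1 y hy).2,
    fun hx => ⟨a.inv.act x, (h2 x hx).2, by simpa using act_inv (h2 x hx).1⟩⟩

/-- the common induction for `E`, `S`, `Q` -/
lemma eq_ind (a : Letter) (ha : ∀ M : Model Q, M.phi.tr a = M.tr a)
    (hnb : ∀ l : Lab, l.nb ∈ a.dom ↔ l ∈ a.dom) (hi : ∀ y, a.act (i0 y) = i0 (a.act y))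
    (base : ∀ (M : Model Q) W, W ⊆ a.dom → M.tr a (M.l W) = M.r (a.act '' (lab ⁻¹' W)))
    (hb : ∀ (M : Model Q) (l : Lab) V, l.b = true → l ∈ a.dom → InB V → (∀ x ∈ V, lab x = l) →
      M.tr a (M.r V) = M.r (a.act '' V))
    (hj : (∀ l ∈ a.dom, l.s = true) ∨ ((∀ l : Lab, l.ns ∈ a.dom ↔ l ∈ a.dom) ∧
      (∀ y, a.act (jj y) = jj (a.act y)) ∧ ∀ (M : Model Q) q, q ≤ M.l {l | l.b = false} →
        q ≤ M.l a.dom → M.tr a (M.tr .Ti q) = M.tr .Ti (M.tr a q))) : EqA Q a := by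
  suffices ∀ k (M : Model Q) V, InD k V → (∀ x ∈ V, lab x ∈ a.dom) →
      M.tr a (M.r V) = M.r (a.act '' V) from fun M V ⟨k, h⟩ => this k M V h
  intro k
  induction k with
  | zero =>
    intro M V h hd
    rw [h.eq_lab, M.r_lab]
    exact base M _ (by rintro _ ⟨x, hx, rfl⟩; exact hd x hx)
  | succ k ih =>
    intro M V h hd
    refine eq_split (M.iso a) M.r_bh M.r_bh a.act ⟨_, h⟩
      (fun x hx y hy e => by rw [← act_inv (hd x hx), e, act_inv (hd y hy)])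
      (fun A hA hs => hA.im_act a fun x hx => hd x (hs hx))
      (fun A hA hs => M.r_le hA fun x hx => hd x (hs hx)) fun l => ?_
    have hA : InD (k + 1) (V ∩ lab ⁻¹' {l}) := (cl_inD _).inter h (inD_lab _ _)
    have hB : InB (V ∩ lab ⁻¹' {l}) := ⟨_, hA⟩
    have hl : ∀ x ∈ V ∩ lab ⁻¹' {l}, lab x = l := fun x hx => hx.2
    have hd' : ∀ x ∈ V ∩ lab ⁻¹' {l}, lab x ∈ a.dom := fun x hx => hd x hx.1
    generalize V ∩ lab ⁻¹' {l} = A at hA hB hl hd'
    rcases A.eq_empty_or_nonempty with rfl | ⟨x0, hx0⟩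
    · rw [Set.image_empty, M.r_bh.empty, M.tr_zero]
    have hla : l ∈ a.dom := hl x0 hx0 ▸ hd' x0 hx0
    cases hb' : l.b
    swap
    · exact hb M l A hb' hla hB hl
    cases hs : l.s
    · obtain hj | ⟨j1, j2, j3⟩ := hj
      · simp [hj l hla] at hs
      have d2 : ∀ x ∈ jj ⁻¹' A, lab x ∈ a.dom := fun x hx => by
        rw [← j1, ← hnb, ← lab_jjR]; exact hd' _ hx
      have := ih M.phi.phi _ hA.pre_jj d2
      rw [ha, ha] at this
      rw [eq_jjR (A := A) fun x hx => by rw [hl x hx]; exact ⟨hb', hs⟩, M.r_jj hB.pre_jj,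
        j3 M _ ((M.phi.phi_r_le hB.pre_jj).trans (M.pl_le_l _ fun _ _ => rfl))
          ((M.phi.phi.r_le hB.pre_jj d2).trans ((M.phi.pl_le_l _ fun l h => (hnb l).2 h).trans
            (M.pl_le_l _ fun l h => (hnb l).2 h))),
        this, ← M.r_jj (hB.pre_jj.im_act a d2), ← Set.image_comp, ← Set.image_comp]
      congr 2; funext y; simp [j2]
    · have e : i0 ⁻¹' A ∩ lab ⁻¹' {l | l.s = true} = i0 ⁻¹' A :=
        Set.inter_eq_left.2 fun x hx => by
          have := hl _ hx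
          rw [lab_i0R] at this
          rw [← this] at hs; exact hs
      have d2 : ∀ x ∈ i0 ⁻¹' A, lab x ∈ a.dom := fun x hx => by
        rw [← hnb, ← lab_i0R]; exact hd' _ hx
      have := ih M.phi _ (e ▸ hA.pre_i0s) d2
      rw [ha] at this
      rw [eq_i0R (A := A) fun x hx => by rw [hl x hx]; exact hb', ← M.lv hB.pre_i0, this,
        M.lv (hB.pre_i0.im_act a d2), ← Set.image_comp, ← Set.image_comp]
      congr 2; funext y; simp [hi]

lemma eqE : EqA Q .E := by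
  refine eq_ind .E (fun _ => rfl) (fun _ => Iff.rfl) (fun y => by simp [Letter.act, i0])
    (fun M W hW => ?_) (fun M l V hb hl hV h => ?_) (Or.inl fun _ h => h)
  · rw [M.E1' W (B := {l | l.s = true ∧ l.f1 ∈ W}) (Set.inter_eq_right.2 hW) rfl, ← M.r_lab,
      im_lab (a := .E) (B := {l | l.s = true ∧ l.f1 ∈ W})
        (fun x hx => ⟨hW hx, by rw [lab_E]; exact ⟨hW (a := lab x) hx, by rwa [f1_f1]⟩⟩)
        fun x hx => ⟨hx.1, by rw [Letter.inv, lab_E]; exact hx.2⟩]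
  · refine eq_rel M (Or.inl (.R3 l.e0 l.e1)) (eqP _) (by simp [eqTi, eqPi, eqT, eqP])
      hV (fun x hx => by rw [h x hx]; exact ⟨hb, rfl, hl, rfl⟩) ?_ fun _ h => h.2.2.1
    exact (M.E1' {l' | l'.b = true ∧ l'.e0 = l.e0 ∧ l'.e1 = l.e1} (by ext; simp; tauto) rfl).le.trans
      (M.le fun _ h => ⟨h.2.1, h.2.2.1⟩)

lemma comm_Ti (M : Model Q) {a : Letter} {W : Set Lab} (hr : Rel W [.T, a] [a, .T])
    (hW : {l | l.s = false ∧ l ∈ a.dom} = W) (h1 : M.tr a (M.l W) ≤ M.l {l | l.s = false})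
    (h2 : {l : Lab | l.nb ∈ a.dom} = {l | l.ns ∈ a.dom}) (q : Q) (hq : q ≤ M.l {l | l.b = false})
    (hq' : q ≤ M.l a.dom) : M.tr a (M.tr .Ti q) = M.tr .Ti (M.tr a q) := by
  have h3 : M.tr .Ti q ≤ M.l W := by
    refine (M.tr_mono .Ti _ _ (M.bh.le_inter cl_true trivial trivial hq hq')
      (M.le Set.inter_subset_left)).trans ?_
    rw [show M.l ({l | l.b = false} ∩ a.dom) = _ from M.Iphi a.dom, h2, M.Ti_pl a.dom hW rfl]
  have e := M.ok _ _ _ hr _ h3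
  change M.tr a (M.tr .T (M.tr .Ti q)) = M.tr .T (M.tr a (M.tr .Ti q)) at e
  rw [show M.tr .T (M.tr .Ti q) = q from M.tr_inv .Ti q hq] at e
  rw [e]
  exact (M.tr_inv .T _ ((M.tr_mono a _ _ h3 (M.le (hW ▸ fun _ h => h.2))).trans h1)).symm

lemma eqQ : EqA Q .Q := by
  refine eq_ind .Q (fun _ => rfl) (fun _ => Iff.rfl) (fun y => by simp [Letter.act, i0])
    (fun M W hW => ?_) (fun M l V hb hl hV h => ?_) (Or.inr ⟨fun _ => Iff.rfl,
      fun y => by simp [Letter.act, jj, s1, i0], fun M => comm_Ti M .R5 (by ext; simp [Letter.dom, and_comm])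
        ((M.Q1 {l | l.s = false}).le.trans (M.le fun _ h => h.2)) rfl⟩)
  · rw [M.Q1' W (B := {l | l.h = .ut ∧ l.f2 ∈ W}) (Set.inter_eq_right.2 hW) rfl, ← M.r_lab,
      im_lab (a := .Q) (B := {l | l.h = .ut ∧ l.f2 ∈ W})
        (fun x hx => ⟨hW hx, by rw [lab_Q]; exact ⟨hW (a := lab x) hx, by rwa [f2_f2]⟩⟩)
        fun x hx => ⟨hx.1, by rw [Letter.inv, lab_Q]; exact hx.2⟩]
  · refine eq_rel M (Or.inr .R2) (eqP _) (by simp [eqE, eqP])
      hV (fun x hx => by rw [h x hx]; exact ⟨hb, hl⟩) ?_ fun _ h => h.2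
    exact (M.Q1' {l' | l'.b = true} (by ext; simp; tauto) rfl).le.trans
      (M.le fun l h => ⟨h.2, by simp [Lab.e0, h.1]⟩)

lemma eqS : EqA Q .S := by
  have S1' : ∀ (M : Model Q) (Z : Set (Bool × Bool × Bool)) (A : Set Lab),
      {l : Lab | l.h = .un ∧ (l.e1, l.e2, l.b) ∈ Z} = A →
      M.tr .S (M.l A) = M.r (Letter.S.act '' (lab ⁻¹' A)) := by
    rintro M Z _ rfl
    rw [M.S1, ← M.r_lab]
    refine congrArg M.r (im_lab (a := .S) (fun x hx => ⟨hx.1, ?_⟩)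
      fun x hx => ⟨⟨hx.1, hx.2.1⟩, ?_⟩).symm
    · obtain ⟨e0, g0, e1, g1, e2, g2, z, rfl⟩ := om_cases x
      simp_all [act_cons, lab_cons]
    · obtain ⟨e0, g0, e1, g1, e2, g2, z, rfl⟩ := om_cases x
      simp_all [act_cons, lab_cons, Letter.inv]
  refine eq_ind .S (fun _ => rfl) (fun _ => Iff.rfl) (fun y => by simp [Letter.act, i0])
    (fun M W hW => ?_) (fun M l V hb hl hV h => ?_) (Or.inr ⟨fun _ => Iff.rfl,
      fun y => by simp [Letter.act, jj, s1, i0, d1], fun M => comm_Ti M .R4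
        (by ext; simp [Letter.dom, and_comm])
        ((M.tr_le .S _ (M.le fun _ h => h.1)).trans (M.le fun _ h => h.2)) rfl⟩)
  · have hin : ∀ W : Set Lab, InB (Letter.S.act '' (lab ⁻¹' {l | l.h = .un ∧ l ∈ W})) := fun W =>
      (inB_lab _).im_act _ fun _ h => h.1
    have hg : IsBH (fun _ => True) fun W : Set Lab =>
        M.r (Letter.S.act '' (lab ⁻¹' {l | l.h = .un ∧ l ∈ W})) :=
      ⟨by simp [M.r_bh.empty], fun V V' _ _ d => M.r_bh.orth _ _ (hin V) (hin V') ?_,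
        fun V V' _ _ d => ?_⟩
    rotate_left
    · exact Set.disjoint_left.2 fun _ ⟨x, hx, e⟩ ⟨y, hy, e'⟩ => by
        have : x = y := by rw [← act_inv (a := .S) hx.1, e, ← e', act_inv (a := .S) hy.1]
        exact Set.disjoint_left.1 d hx.2 (this ▸ hy.2)
    · rw [← M.r_bh.add _ _ (hin V) (hin V') (Set.disjoint_left.2 fun _ ⟨x, hx, e⟩ ⟨y, hy, e'⟩ => by
        have : x = y := by rw [← act_inv (a := .S) hx.1, e, ← e', act_inv (a := .S) hy.1]
        exact Set.disjoint_left.1 d hx.2 (this ▸ hy.2)), ← Set.image_union]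
      congr 2; ext; simp [and_or_left]
    have := lab_ext (M.bh_tr .S (fun l => l.h = .un) id fun _ h => h) hg
      (S1' M Set.univ _ (by simp))
      (S1' M Set.univ _ (by ext ⟨h, e1, e2, b, s⟩; cases h <;> simp [Lab.e0]))
      (S1' M ∅ _ (by ext ⟨h, e1, e2, b, s⟩; cases h <;> simp))
      (S1' M {z | z.1 = true} _ rfl) (S1' M {z | z.2.1 = true} _ rfl)
      (S1' M {z | z.2.2 = true} _ rfl) ?_ W
    · rwa [show {l : Lab | l.h = .un ∧ id l ∈ W} = W from Set.inter_eq_right.2 hW,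
        show {l : Lab | l.h = .un ∧ l ∈ W} = W from Set.inter_eq_right.2 hW] at this
    have hd : ∀ x ∈ Letter.S.act '' (lab ⁻¹' {l | l.h = .un ∧ l ∈ {l : Lab | l.s = true}}),
        lab x ∈ Letter.T.dom := by rintro _ ⟨x, hx, rfl⟩; exact (act_dom (a := .S) hx.1).2
    refine (M.iso .T).inj ((M.tr_le .S _ (M.le fun _ h => h.1)).trans (M.le fun _ h => h.2))
      (M.r_le (hin _) hd) ?_
    rw [eqT M _ (hin _) hd]
    refine M.S2.trans ?_
    rw [← M.r_lab]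
    congr 1
    ext x
    constructor
    · intro hx
      obtain ⟨e0, g0, e1, g1, e2, g2, z, rfl⟩ := om_cases x
      refine ⟨_, ⟨cons (true, g0.pred) (cons (e1, g1) (cons (e2, g2.succ) z)), ?_, rfl⟩, ?_⟩ <;>
        simp_all [act_cons, lab_cons, L.succ_pred]
    · rintro ⟨_, ⟨x, hx, rfl⟩, rfl⟩
      obtain ⟨e0, g0, e1, g1, e2, g2, z, rfl⟩ := om_cases x
      simp_all [act_cons, lab_cons]
  · refine eq_rel M (Or.inr .R1) (eqP _) (by simp [eqT, eqP])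
      hV (fun x hx => by rw [h x hx]; exact ⟨hb, hl⟩) ?_ fun _ h => h.2
    have := M.S1 {z | z.2.2 = true}
    refine le_trans (M.tr_mono .S _ _ (M.le ?_) (M.le fun _ h => h.1))
      (this.le.trans (M.le fun l h => ⟨h.2.2, by simp [Lab.e0, h.1]⟩))
    exact fun _ h => ⟨h.2, h.1⟩

theorem eqA (a : Letter) : EqA Q a := by
  cases a
  exacts [eqT, eqTi, eqE, eqS, eqS.inv, eqQ, eqP _, eqPi _]

end Vale.Agent.P196
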