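import Vale.Agent.P196.Base

/-! Job S, part A: lifts of 3-cycles, the finite central subgroup `Zc` and the quotient. -/

namespace Vale.Agent.P196

open Equiv

namespace Sr

lemma fresh_inj (ι : Type) [Fintype ι] (J : Finset Ix) (h : J.card + Fintype.card ι ≤ 1000) :
    ∃ e : ι → Ix, Function.Injective e ∧ ∀ a, e a ∉ J := by
  obtain ⟨F, h1, h2⟩ := fresh J (Fintype.card ι) h
  obtain ⟨e⟩ : Nonempty (ι ↪ F) := Function.Embedding.nonempty_of_card_le (by simp [h1])
  exact ⟨fun a => e a, fun a b k => e.injective (Subtype.ext k),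
    fun a => Finset.disjoint_left.1 h2 (e a).2⟩

lemma five (s J : Finset Ix) (h1 : s ⊆ J) (h2 : s.card ≤ 5) (h3 : 5 ≤ J.card) :
    ∃ I : Finset Ix, I.card = 5 ∧ s ⊆ I ∧ I ⊆ J := by
  obtain ⟨I, a, b, c⟩ := Finset.exists_subsuperset_card_eq h1 h2 h3
  exact ⟨I, c, a, b⟩

lemma card_univ_Ix : (Finset.univ : Finset Ix).card = 1000 := card_Ix

lemma five3 {J : Finset Ix} {i j k} (hi : i ∈ J) (hj : j ∈ J) (hk : k ∈ J) (h3 : 5 ≤ J.card) :
    ∃ I : Finset Ix, I.card = 5 ∧ i ∈ I ∧ j ∈ I ∧ k ∈ I ∧ I ⊆ J := by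
  obtain ⟨I, a, b, c⟩ := five {i, j, k} J (by simp [Finset.insert_subset_iff, *])
    (Finset.card_le_three.trans (by omega)) h3
  exact ⟨I, a, b (by simp), b (by simp), b (by simp), c⟩

lemma five3' (i j k : Ix) : ∃ I : Finset Ix, I.card = 5 ∧ i ∈ I ∧ j ∈ I ∧ k ∈ I := by
  obtain ⟨I, a, b, c, d, -⟩ := five3 (Finset.mem_univ i) (Finset.mem_univ j) (Finset.mem_univ k)
    (by rw [card_univ_Ix]; omega)
  exact ⟨I, a, b, c, d⟩

lemma isLift_of {I : Finset Ix} (hI : I.card = 5) {i j k} (h : D3 i j k) (hi : i ∈ I) (hj : j ∈ I)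
    (hk : k ∈ I) {u} (hu : u ∈ UI I) (hq : qq u = cyc i j k) : IsLift u i j k :=
  ⟨hq, fun _ hI' a b c => lift_mem hI hI' h ⟨hi, hj, hk⟩ ⟨a, b, c⟩ hu hq⟩

lemma exists_lift {i j k} (h : D3 i j k) : ∃ u, IsLift u i j k := by
  obtain ⟨I, hI, hi, hj, hk⟩ := five3' i j k
  obtain ⟨u, hu, hq⟩ := UI_surj hI.ge (cyc_mem_Alt hi hj hk h)
  exact ⟨u, isLift_of hI h hi hj hk hu hq⟩

open Classical in
/-- a chosen lift -/
noncomputable def lf (i j k : Ix) : UU := if h : ∃ u, IsLift u i j k then h.choose else 1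

lemma lf_spec {i j k} (h : D3 i j k) : IsLift (lf i j k) i j k := by
  rw [lf, dif_pos (exists_lift h)]; exact (exists_lift h).choose_spec

/-- the central elements seen by the lifts -/
def M0 : Subgroup UU where
  carrier := {m | qq m = 1 ∧ ∀ I : Finset Ix, I.card = 5 → m ∈ UI I}
  one_mem' := ⟨map_one _, fun _ _ => one_mem _⟩
  mul_mem' := fun a b => ⟨by rw [map_mul, a.1, b.1, mul_one], fun I h => mul_mem (a.2 I h) (b.2 I h)⟩
  inv_mem' := fun a => ⟨by rw [map_inv, a.1, inv_one], fun I h => inv_mem (a.2 I h)⟩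

lemma mem_M0 {I : Finset Ix} (hI : I.card = 5) {u} (hu : u ∈ UI I) (hq : qq u = 1) : u ∈ M0 :=
  ⟨hq, fun _ hI' => ker_mem hI hI' hu hq⟩

variable (D : RData)

lemma r_central {V} (hV : InB V) {m} (hm : m ∈ M0) (γ : Gam) : Commute (D.r V m) γ := by
  have hγ : γ ∈ Subgroup.closure {γ | ∃ J : Finset Ix, J.card ≤ 3 ∧ γ ∈ GJ J} := by
    rw [GJ_gen]; trivial
  refine (Subgroup.closure_le (Subgroup.centralizer {D.r V m})).2 ?_ hγ _ rfl
  rintro δ ⟨J, hJ, hδ⟩ _ rfl
  obtain ⟨J', h1, h2⟩ := fresh J 15 (by omega)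
  obtain ⟨I, a, -, c⟩ := five ∅ J' (by simp) (by simp) (by omega)
  exact GJ_comm h2 (D.loc V hV I J' a c h1.ge m (hm.2 I a)) hδ

lemma inB_iter (K : ℕ) (W : Set Lab) : InB (i0^[K] '' (lab ⁻¹' W)) := by
  induction K with
  | zero => simpa using inB_lab W
  | succ K ih =>
    rw [Function.iterate_succ', Set.image_comp]
    exact ih.im_i0

lemma r_act (a : Letter) {V} (hV : InB V) (hd : ∀ x ∈ V, lab x ∈ a.dom) {m} (hm : m ∈ M0) :
    D.r (a.act '' V) m = D.r V m := by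
  obtain ⟨I, hI, -⟩ := five ∅ Finset.univ (by simp) (by simp) (by rw [card_univ_Ix]; omega)
  obtain ⟨M, hM⟩ := D.tr5 a V hV hd I hI
  rw [← hM m (hm.2 I hI), ← (r_central D hV hm M).eq, mul_inv_cancel_right]

/-- the level `K` part of the central subgroup -/
noncomputable def ZK (K : ℕ) : Subgroup Gam :=
  (MonoidHom.noncommPiCoprod (fun W : Set Lab => (D.r (i0^[K] '' (lab ⁻¹' W))).comp M0.subtype)
    fun _ _ _ m _ => r_central D (inB_iter K _) m.2 _).range

lemma ZK_eq (K : ℕ) :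
    ZK D K = ⨆ W : Set Lab, ((D.r (i0^[K] '' (lab ⁻¹' W))).comp M0.subtype).range :=
  MonoidHom.noncommPiCoprod_range _

lemma mem_ZK (K : ℕ) (W : Set Lab) {m} (hm : m ∈ M0) : D.r (i0^[K] '' (lab ⁻¹' W)) m ∈ ZK D K := by
  rw [ZK_eq]
  exact Subgroup.mem_iSup_of_mem W ⟨⟨m, hm⟩, rfl⟩

lemma ZK_le {K : ℕ} {H : Subgroup Gam}
    (h : ∀ W, ∀ m ∈ M0, D.r (i0^[K] '' (lab ⁻¹' W)) m ∈ H) : ZK D K ≤ H := by
  rw [ZK_eq]
  refine iSup_le fun W => ?_
  rintro _ ⟨m, rfl⟩
  exact h W m m.2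

lemma ZK_mono : Monotone (ZK D) := by
  refine monotone_nat_of_le_succ fun K => ZK_le D fun W => ?_
  refine B_step (fun A => ∀ m ∈ M0, D.r A m ∈ ZK D (K + 1)) K (fun W m hm => mem_ZK D _ W hm)
    (fun A A' hA hA' d h h' m hm => ?_) (fun a A hA hd h m hm => ?_) W
  · rw [D.add A A' hA hA' d]; exact mul_mem (h m hm) (h' m hm)
  · rw [r_act D a hA hd hm]; exact h m hm

/-- the central subgroup -/
noncomputable def Zc : Subgroup Gam := ⨆ K, ZK D K

lemma mem_Zc {V} (hV : InB V) : ∀ m ∈ M0, D.r V m ∈ Zc D := by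
  refine B_ind2 (fun A => ∀ m ∈ M0, D.r A m ∈ Zc D)
    (fun K W m hm => Subgroup.mem_iSup_of_mem K (mem_ZK D K W hm))
    (fun A A' hA hA' d h h' m hm => ?_) (fun a A hA hd h m hm => ?_) hV
  · rw [D.add A A' hA hA' d]; exact mul_mem (h m hm) (h' m hm)
  · rw [r_act D a hA hd hm]; exact h m hm

lemma Zc_le {H : Subgroup Gam} (h : ∀ V, InB V → ∀ m ∈ M0, D.r V m ∈ H) : Zc D ≤ H :=
  iSup_le fun K => ZK_le D fun W => h _ (inB_iter K W)

instance : (Zc D).Normal := by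
  have : Zc D ≤ Subgroup.center Gam := Zc_le D fun V hV m hm =>
    Subgroup.mem_center_iff.2 fun g => (r_central D hV hm g).eq.symm
  exact ⟨fun n hn g => by
    rw [Subgroup.mem_center_iff.1 (this hn) g, mul_inv_cancel_right]; exact hn⟩

lemma Zc_ker : Zc D ≤ piG.ker := Zc_le D fun V hV m hm => by
  rw [MonoidHom.mem_ker, D.pi V hV, hm.1, map_one]

lemma Zc_finite : Finite (Zc D) := by
  classical
  by_contra hinf
  have hinf : (Zc D : Set Gam).Infinite := fun h => hinf h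
  obtain ⟨s, hs, hc⟩ := hinf.exists_subset_card_eq (Nat.card (Set Lab → M0) + 1)
  have hK : ∀ z ∈ s, ∃ K, z ∈ ZK D K := fun z hz =>
    (Subgroup.mem_iSup_of_directed (ZK_mono D).directed_le).1 (hs hz)
  choose! K hK using hK
  let N := s.sup K
  have h1 : ∀ z ∈ s, z ∈ ZK D N := fun z hz => ZK_mono D (Finset.le_sup hz) (hK z hz)
  choose! f hf using h1
  have := Fintype.ofFinite (Set Lab → M0)
  have h2 : s.card ≤ (Finset.univ : Finset (Set Lab → M0)).card :=
    Finset.card_le_card_of_injOn f (fun _ _ => Finset.mem_univ _) fun z hz z' hz' e => by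
      rw [← hf z hz, ← hf z' hz', e]
  rw [Finset.card_univ, ← Nat.card_eq_fintype_card] at h2
  omega

/-- the honest quotient -/
abbrev EE : Type := Gam ⧸ Zc D

lemma EE_fp : Group.IsFinitelyPresented (EE D) := by
  have := Gam_fp
  have := Zc_finite D
  exact Group.IsFinitelyPresented.quotient _ (Subgroup.IsFinitelyNormallyGenerated.of_FG _)

/-- the projection to the quotient -/
noncomputable def mk : Gam →* EE D := QuotientGroup.mk' (Zc D)

lemma mk_surj (g : EE D) : ∃ γ, mk D γ = g := QuotientGroup.mk'_surjective _ g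

noncomputable instance : MulAction (EE D) YY :=
  MulAction.compHom YY (QuotientGroup.lift (Zc D) piG fun _ h => Zc_ker D h)

lemma mk_smul (γ : Gam) (y : YY) : mk D γ • y = piG γ y := rfl

/-- the lifted 3-cycles -/
noncomputable def rho (V : Set Om) (i j k : Ix) : EE D := mk D (D.r V (lf i j k))

variable {D}
variable {V V' : Set Om} {i j k : Ix}

lemma mk_lift (hV : InB V) (h : D3 i j k) {u} (hu : IsLift u i j k) :
    mk D (D.r V u) = rho D V i j k := by
  obtain ⟨I, hI, hi, hj, hk⟩ := five3' i j k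
  have h' := lf_spec h
  refine QuotientGroup.eq.2 ?_
  rw [← map_inv, ← map_mul]
  exact mem_Zc D hV _ (mem_M0 hI (mul_mem (inv_mem (hu.2 I hI hi hj hk)) (h'.2 I hI hi hj hk))
    (by rw [map_mul, map_inv, hu.1, h'.1, inv_mul_cancel]))

lemma rho_smul (hV : InB V) (h : D3 i j k) (y : YY) :
    rho D V i j k • y = bet V (cyc i j k) y := by
  rw [rho, mk_smul, D.pi V hV, (lf_spec h).1]

lemma rho_rot (hV : InB V) (h : D3 i j k) : rho D V i j k = rho D V j k i :=
  mk_lift hV h.rot ⟨(lf_spec h).1.trans (cyc_rot h), fun I hI a b c => (lf_spec h).2 I hI c a b⟩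

lemma rho_inv (hV : InB V) (h : D3 i j k) : (rho D V i j k)⁻¹ = rho D V i k j := by
  rw [rho, ← map_inv, ← map_inv]
  exact mk_lift hV h.swap ⟨by rw [map_inv, (lf_spec h).1, cyc_inv h],
    fun I hI a b c => inv_mem ((lf_spec h).2 I hI a c b)⟩

lemma rho_sq (hV : InB V) (h : D3 i j k) : rho D V i j k * rho D V i j k = rho D V i k j := by
  rw [rho, ← map_mul, ← map_mul]
  exact mk_lift hV h.swap ⟨by rw [map_mul, (lf_spec h).1, cyc_sq h],
    fun I hI a b c => mul_mem ((lf_spec h).2 I hI a c b) ((lf_spec h).2 I hI a c b)⟩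

lemma rho_cube (hV : InB V) (h : D3 i j k) :
    rho D V i j k * rho D V i j k * rho D V i j k = 1 := by
  rw [rho_sq hV h, ← rho_inv hV h, inv_mul_cancel]

lemma rho_pr (hV : InB V) {n a c d} (h : D4 n a c d) :
    rho D V n c d * rho D V n a c = rho D V n a d := by
  obtain ⟨e1, e2, e3, e4, e5, e6⟩ := id h
  obtain ⟨I, hI, hs, -⟩ := five {n, a, c, d} Finset.univ (by simp)
    (Finset.card_le_four.trans (by omega)) (by rw [card_univ_Ix]; omega)
  simp only [Finset.insert_subset_iff, Finset.singleton_subset_iff] at hs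
  obtain ⟨h1, h2, h3, h4⟩ := hs
  have l1 := lf_spec (⟨e2, e3, e6⟩ : D3 n c d)
  have l2 := lf_spec (⟨e1, e2, e4⟩ : D3 n a c)
  rw [rho, rho, ← map_mul, ← map_mul]
  exact mk_lift hV ⟨e1, e3, e5⟩ (isLift_of hI ⟨e1, e3, e5⟩ h1 h2 h4
    (mul_mem (l1.2 I hI h1 h3 h4) (l2.2 I hI h1 h2 h3)) (by rw [map_mul, l1.1, l2.1, cyc_pr h]))

lemma rho_empty : rho D ∅ i j k = 1 := by rw [rho, D.empty, map_one]

lemma rho_add (hV : InB V) (hV' : InB V') (d : Disjoint V V') :
    rho D (V ∪ V') i j k = rho D V i j k * rho D V' i j k := by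
  rw [rho, D.add V V' hV hV' d, map_mul]; rfl

lemma r_univ : D.r Set.univ = al := D.lab Set.univ

lemma rho_al (hV : InB V) (h : D3 i j k) (v : UU) :
    mk D (al v) * rho D V i j k * (mk D (al v))⁻¹ = rho D V (qq v i) (qq v j) (qq v k) := by
  have h' : D3 (qq v i) (qq v j) (qq v k) := by simpa [D3] using h
  obtain ⟨I, hI, hi, hj, hk⟩ := five3' i j k
  have e : al v = D.r V v * D.r Vᶜ v := by
    rw [← D.add V Vᶜ hV hV.compl disjoint_compl_right, Set.union_compl_self, r_univ]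
  have c := D.comm V Vᶜ hV hV.compl disjoint_compl_right (lf i j k) v
  rw [rho, ← map_inv, ← map_mul, ← map_mul, e, mul_assoc (D.r V v), ← c.eq, mul_inv_rev,
    mul_assoc, mul_assoc, mul_inv_cancel_left, ← map_inv, ← map_mul, ← map_mul, ← mul_assoc]
  refine mk_lift hV h' (isLift_of (I := I.image (qq v)) ?_ h' (Finset.mem_image_of_mem _ hi)
    (Finset.mem_image_of_mem _ hj) (Finset.mem_image_of_mem _ hk)
    (UI_conj v ((lf_spec h).2 I hI hi hj hk)) ?_)
  · rw [Finset.card_image_of_injective _ (qq v).injective, hI]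
  · rw [map_mul, map_mul, map_inv, (lf_spec h).1, cyc_conj]

lemma r_mem (hV : InB V) (h : D3 i j k) {J : Finset Ix} (hi : i ∈ J) (hj : j ∈ J) (hk : k ∈ J)
    (hJ : 15 ≤ J.card) : D.r V (lf i j k) ∈ GJ J := by
  obtain ⟨I, hI, a, b, c, d⟩ := five3 hi hj hk (by omega)
  exact D.loc V hV I J hI d hJ _ ((lf_spec h).2 I hI a b c)

end Sr

end Vale.Agent.P196
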